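import Vale.Agent.Lib.P166.Far

/-!
The bound for the second moment of the partition function.
-/

open scoped BigOperators NNReal ENNReal Topology BoundedContinuousFunction
open MeasureTheory ProbabilityTheory Matrix Filter

namespace Vale.Agent.Lib.P166

variable {μ : Measure ℝ} {a b : ℝ} {lam : ∀ N, Fin N → ℝ}

/-- The pair bound in arbitrary dimension. -/
theorem pair_moment' {N : ℕ} (hN : N ≠ 0) (lam : Fin N → ℝ) {β R y₁ y₂ δ Δ : ℝ}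
    (hR0 : 0 ≤ R) (hR1 : R ≤ 1)
    (h₁ : ∀ i, 0 < y₁ - (β * (1 + R)) * lam i)
    (hδ : 0 < δ) (h₂ : ∀ i, δ ≤ y₂ - (β * (1 - R)) * lam i)
    (h₃ : ∀ i, y₂ - (β * (1 - R)) * lam i ≤ Δ)
    {x z : Fin N → ℝ} (hx : nsq x = N) (hz : nsq z = N) (hxz : x ⬝ᵥ z = N * R) :
    ∫ U, Real.exp ((β / 2) * (x ⬝ᵥ (couplings lam U *ᵥ x) + z ⬝ᵥ (couplings lam U *ᵥ z)))
        ∂(haarO N)
      ≤ Real.sqrt (1 / δ) * Real.sqrt Δ * Real.exp (N * psiN lam (β * (1 + R)) y₁)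
        * Real.exp (N * psiN lam (β * (1 - R)) y₂) := by
  obtain ⟨n, rfl⟩ := Nat.exists_eq_succ_of_ne_zero hN
  exact pair_moment lam hR0 hR1 h₁ hδ h₂ h₃ hx hz hxz

/-- The sum over the cube of the two bounds. -/
lemma H_sum_bound {N : ℕ} (hN : N ≠ 0) {K₁ K₂ c c₂ X : ℝ} (hK₁ : 0 ≤ K₁) (hK₂ : 0 ≤ K₂)
    (hc0 : 0 ≤ c) (hc : c < 1 / 2) :
    (1 / 2 ^ N) * ∑ ε : Fin N → Bool, X ^ 2 * (K₁ * Real.exp (c * N * (|sumS ε| / N) ^ 2)
        + K₂ * (Real.exp (-(c₂ * N)) * Real.exp (N * Ifun (|sumS ε| / N))))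
      ≤ X ^ 2 * (K₁ * Real.sqrt (1 / (1 - 2 * c)) + K₂ * ((N + 1) * Real.exp (-(c₂ * N)))) := by
  have hN0 : (0 : ℝ) < N := Nat.cast_pos.2 (Nat.pos_of_ne_zero hN)
  have e1 : ∀ ε : Fin N → Bool, c * N * (|sumS ε| / N) ^ 2 = c * sumS ε ^ 2 / N := by
    intro ε
    rw [div_pow, sq_abs]
    field_simp
  simp only [e1]
  rw [← Finset.mul_sum, mul_left_comm, Finset.sum_add_distrib, ← Finset.mul_sum, ← Finset.mul_sum,
    ← Finset.mul_sum, mul_add]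
  refine mul_le_mul_of_nonneg_left ?_ (sq_nonneg X)
  have h1 := near_sum hN hc0 hc
  have h2 := ent_sum hN
  have e2 : (1 / 2 ^ N) * (K₁ * ∑ ε : Fin N → Bool, Real.exp (c * sumS ε ^ 2 / N))
      = K₁ * ((1 / 2 ^ N) * ∑ ε : Fin N → Bool, Real.exp (c * sumS ε ^ 2 / N)) := by ring
  have e3 : (1 / 2 ^ N) * (K₂ * (Real.exp (-(c₂ * N)) * ∑ ε : Fin N → Bool,
        Real.exp (N * Ifun (|sumS ε| / N))))
      = K₂ * (Real.exp (-(c₂ * N)) * ((1 / 2 ^ N) * ∑ ε : Fin N → Bool,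
        Real.exp (N * Ifun (|sumS ε| / N)))) := by ring
  rw [e2, e3]
  refine add_le_add (mul_le_mul_of_nonneg_left h1 hK₁) (mul_le_mul_of_nonneg_left ?_ hK₂)
  rw [mul_comm]
  exact mul_le_mul_of_nonneg_right h2 (Real.exp_pos _).le

lemma eventually_linear_exp {c : ℝ} (hc : 0 < c) :
    ∀ᶠ N : ℕ in atTop, ((N : ℝ) + 1) * Real.exp (-(c * N)) ≤ 1 := by
  have h1 : Tendsto (fun x : ℝ => x * Real.exp (-(c * x))) atTop (𝓝 0) := by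
    have := (Real.tendsto_pow_mul_exp_neg_atTop_nhds_zero 1).comp
      (tendsto_id.const_mul_atTop hc)
    have h2 := this.const_mul (1 / c)
    rw [mul_zero] at h2
    refine h2.congr fun x => ?_
    simp only [Function.comp, id, pow_one]
    field_simp
  have h3 : ∀ᶠ x : ℝ in atTop, x * Real.exp (-(c * x)) < 1 / 2 :=
    h1.eventually (gt_mem_nhds (by norm_num))
  have h4 : ∀ᶠ x : ℝ in atTop, Real.exp (-(c * x)) < 1 / 2 := by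
    have h5 : Tendsto (fun x : ℝ => Real.exp (-(c * x))) atTop (𝓝 0) :=
      Real.tendsto_exp_atBot.comp (tendsto_neg_atTop_atBot.comp (tendsto_id.const_mul_atTop hc))
    exact h5.eventually (gt_mem_nhds (by norm_num))
  have h6 := (tendsto_natCast_atTop_atTop (R := ℝ)).eventually (h3.and h4)
  filter_upwards [h6] with N hN
  obtain ⟨h7, h8⟩ := hN
  rw [add_mul, one_mul]
  linarith

/-- The constants entering the local bound. -/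
lemma near_constants {g : ℝ} (hg0 : 0 ≤ g) (hg1 : g < 1) :
    ∃ γ' ε₁ c : ℝ, g < γ' ∧ 0 < γ' ∧ 0 < ε₁ ∧ 0 ≤ c ∧ c < 1 / 2 ∧ c = (1 / 2) * (1 + ε₁) * γ' := by
  refine ⟨(1 + g) / 2, (1 - (1 + g) / 2) / 2, (1 / 2) * (1 + (1 - (1 + g) / 2) / 2) * ((1 + g) / 2),
    by linarith, by linarith, by linarith,
    mul_nonneg (mul_nonneg (by norm_num) (by linarith)) (by linarith), ?_, rfl⟩
  nlinarith

/-- The smallness of the overlap range. -/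
lemma small_overlap {A₀ u : ℝ} (hA : 0 ≤ A₀) (hu : 0 < u) :
    ∃ r₀ > 0, r₀ ≤ 1 ∧ r₀ ^ 2 * A₀ ≤ u := by
  refine ⟨min 1 (Real.sqrt (u / (A₀ + 1))), lt_min one_pos (Real.sqrt_pos.2 (by positivity)),
    min_le_left _ _, ?_⟩
  have h1 : min 1 (Real.sqrt (u / (A₀ + 1))) ^ 2 ≤ u / (A₀ + 1) := by
    have h2 : min 1 (Real.sqrt (u / (A₀ + 1))) ≤ Real.sqrt (u / (A₀ + 1)) := min_le_right _ _
    have h3 : 0 ≤ min 1 (Real.sqrt (u / (A₀ + 1))) :=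
      le_min zero_le_one (Real.sqrt_nonneg _)
    calc _ ≤ Real.sqrt (u / (A₀ + 1)) ^ 2 := pow_le_pow_left₀ h3 h2 2
      _ = u / (A₀ + 1) := Real.sq_sqrt (by positivity)
  calc _ ≤ u / (A₀ + 1) * A₀ := mul_le_mul_of_nonneg_right h1 hA
    _ ≤ u / (A₀ + 1) * (A₀ + 1) := mul_le_mul_of_nonneg_left (by linarith) (by positivity)
    _ = u := by field_simp

/-- The finite `N` estimate combining the two regimes. -/
theorem second_finite {N : ℕ} (hN : N ≠ 0) (lam : Fin N → ℝ) {β y κ m M ε₁ c c₂ γ' r₀ K₂ : ℝ}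
    (hm : 0 < m) (hε₁ : 0 < ε₁) (hc0 : 0 ≤ c) (hc : c < 1 / 2)
    (hcdef : c = (1 / 2) * (1 + ε₁) * γ') (hr₀1 : r₀ ≤ 1)
    (hD : ∀ i, m ≤ y - β * lam i) (hD' : ∀ i, y - β * lam i ≤ M)
    (hsum : ∑ i, β ^ 2 * (lam i - κ) ^ 2 / (y - β * lam i) ^ 2 ≤ N * γ')
    (hx : ∀ R, 0 ≤ R → R ≤ r₀ → ∀ i, (β * R * (lam i - κ) / (y - β * lam i)) ^ 2 ≤ ε₁ / (1 + ε₁))
    (hx' : ∀ R, 0 ≤ R → R ≤ r₀ → ∀ i, (β * R * (lam i - κ) / (y - β * lam i)) ^ 2 ≤ 1 / 4)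
    (hfar : ∀ R ∈ Set.Icc r₀ 1, ∃ y₁ y₂ δ Δ : ℝ, (∀ i, 0 < y₁ - β * (1 + R) * lam i) ∧ 0 < δ ∧
      (∀ i, δ ≤ y₂ - β * (1 - R) * lam i) ∧ (∀ i, y₂ - β * (1 - R) * lam i ≤ Δ) ∧
      Real.sqrt (1 / δ) * Real.sqrt Δ ≤ K₂ ∧
      psiN lam (β * (1 + R)) y₁ + psiN lam (β * (1 - R)) y₂
        ≤ 2 * psiN lam β y + Ifun R - c₂)
    (hlin : ((N : ℝ) + 1) * Real.exp (-(c₂ * N)) ≤ 1) (hK₂0 : 0 ≤ K₂) :
    ∫ U, partitionFn β lam U ^ 2 ∂(haarO N)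
      ≤ (Real.sqrt (1 / (m / 2)) * Real.sqrt (2 * M) * Real.sqrt (1 / (1 - 2 * c)) + K₂)
        * Real.exp (N * psiN lam β y) ^ 2 := by
  have hN0 : (0 : ℝ) < N := Nat.cast_pos.2 (Nat.pos_of_ne_zero hN)
  obtain ⟨X, hX⟩ : ∃ X, X = Real.exp (N * psiN lam β y) := ⟨_, rfl⟩
  obtain ⟨K₁, hK₁⟩ : ∃ K₁, K₁ = Real.sqrt (1 / (m / 2)) * Real.sqrt (2 * M) := ⟨_, rfl⟩
  have hK₁0 : 0 ≤ K₁ := by
    rw [hK₁]
    positivity
  rw [← hX, ← hK₁]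
  have hX2 : X ^ 2 = Real.exp (2 * (N * psiN lam β y)) := by
    rw [hX, ← Real.exp_nat_mul]
    norm_num
  have hH : ∀ R, 0 ≤ R → R ≤ 1 → ∀ x z : Fin N → ℝ, nsq x = N → nsq z = N → x ⬝ᵥ z = N * R →
      ∫ U, Real.exp ((β / 2) * (x ⬝ᵥ (couplings lam U *ᵥ x) + z ⬝ᵥ (couplings lam U *ᵥ z)))
        ∂(haarO N) ≤ X ^ 2 * (K₁ * Real.exp (c * N * R ^ 2)
          + K₂ * (Real.exp (-(c₂ * N)) * Real.exp (N * Ifun R))) := by
    intro R hR0 hR1 x z hxx hzz hxz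
    have hnn1 : 0 ≤ K₁ * Real.exp (c * N * R ^ 2) := by positivity
    have hnn2 : 0 ≤ K₂ * (Real.exp (-(c₂ * N)) * Real.exp (N * Ifun R)) := by positivity
    by_cases hRr : R ≤ r₀
    · have hn := near_pair hN lam (κ := κ) hε₁ hm hR0 hR1 hD hD' (hx R hR0 hRr) (hx' R hR0 hRr)
        hxx hzz hxz
      refine hn.trans ?_
      rw [← hK₁]
      have hexp : 2 * (N * psiN lam β y) + (1 / 2) * (1 + ε₁) * R ^ 2
          * ∑ i, β ^ 2 * (lam i - κ) ^ 2 / (y - β * lam i) ^ 2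
          ≤ 2 * (N * psiN lam β y) + c * N * R ^ 2 := by
        have h1 : (1 / 2) * (1 + ε₁) * R ^ 2 * ∑ i, β ^ 2 * (lam i - κ) ^ 2 / (y - β * lam i) ^ 2
            ≤ (1 / 2) * (1 + ε₁) * R ^ 2 * (N * γ') :=
          mul_le_mul_of_nonneg_left hsum (by positivity)
        rw [hcdef]
        nlinarith
      have h2 : Real.exp (2 * (N * psiN lam β y) + (1 / 2) * (1 + ε₁) * R ^ 2
          * ∑ i, β ^ 2 * (lam i - κ) ^ 2 / (y - β * lam i) ^ 2) ≤ X ^ 2 * Real.exp (c * N * R ^ 2) := by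
        rw [hX2, ← Real.exp_add]
        exact Real.exp_le_exp.2 hexp
      calc K₁ * Real.exp _ ≤ K₁ * (X ^ 2 * Real.exp (c * N * R ^ 2)) :=
            mul_le_mul_of_nonneg_left h2 hK₁0
        _ = X ^ 2 * (K₁ * Real.exp (c * N * R ^ 2)) := by ring
        _ ≤ _ := mul_le_mul_of_nonneg_left (by linarith) (sq_nonneg X)
    · push Not at hRr
      obtain ⟨y₁, y₂, δ, Δ, h1, h2, h3, h4, h5, h6⟩ := hfar R ⟨hRr.le, hR1⟩
      have hp := pair_moment' hN lam hR0 hR1 h1 h2 h3 h4 hxx hzz hxz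
      refine hp.trans ?_
      have hexp : Real.exp (N * psiN lam (β * (1 + R)) y₁) * Real.exp (N * psiN lam (β * (1 - R)) y₂)
          ≤ X ^ 2 * (Real.exp (-(c₂ * N)) * Real.exp (N * Ifun R)) := by
        rw [hX2, ← Real.exp_add, ← Real.exp_add, ← Real.exp_add]
        apply Real.exp_le_exp.2
        have := mul_le_mul_of_nonneg_left h6 hN0.le
        nlinarith
      calc _ = Real.sqrt (1 / δ) * Real.sqrt Δ * (Real.exp (N * psiN lam (β * (1 + R)) y₁)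
            * Real.exp (N * psiN lam (β * (1 - R)) y₂)) := by ring
        _ ≤ K₂ * (X ^ 2 * (Real.exp (-(c₂ * N)) * Real.exp (N * Ifun R))) :=
            mul_le_mul h5 hexp (by positivity) hK₂0
        _ = X ^ 2 * (K₂ * (Real.exp (-(c₂ * N)) * Real.exp (N * Ifun R))) := by ring
        _ ≤ _ := mul_le_mul_of_nonneg_left (by linarith) (sq_nonneg X)
  have h1 := second_Z_le hN β lam hH
  refine h1.trans ((H_sum_bound hN hK₁0 hK₂0 hc0 hc).trans ?_)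
  rw [mul_comm]
  refine mul_le_mul_of_nonneg_right ?_ (sq_nonneg X)
  have h9 : K₂ * ((N + 1) * Real.exp (-(c₂ * N))) ≤ K₂ := by
    calc K₂ * ((N + 1) * Real.exp (-(c₂ * N))) ≤ K₂ * 1 := mul_le_mul_of_nonneg_left hlin hK₂0
      _ = K₂ := mul_one _
  linarith

lemma x_bound {β R r₀ A₀ u l Λ m D : ℝ} (hβ : 0 < β) (hR0 : 0 ≤ R) (hR : R ≤ r₀)
    (hA₀ : A₀ = (β * Λ / m) ^ 2) (hr : r₀ ^ 2 * A₀ ≤ u) (hl : |l| ≤ Λ) (hm : 0 < m) (hD : m ≤ D) :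
    (β * R * l / D) ^ 2 ≤ u := by
  have hD0 : 0 < D := hm.trans_le hD
  refine le_trans ?_ hr
  rw [hA₀, ← mul_pow]
  have hΛ : 0 ≤ Λ := (abs_nonneg l).trans hl
  have h1 : |β * R * l / D| ≤ r₀ * (β * Λ / m) := by
    rw [abs_div, abs_mul, abs_mul, abs_of_pos hβ, abs_of_nonneg hR0, abs_of_pos hD0]
    have h2 : β * R * |l| / D ≤ β * r₀ * Λ / m := by
      have hr0 : 0 ≤ r₀ := hR0.trans hR
      apply div_le_div₀ (mul_nonneg (mul_nonneg hβ.le hr0) hΛ) ?_ hm hD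
      exact mul_le_mul (mul_le_mul_of_nonneg_left hR hβ.le) hl (abs_nonneg _)
        (mul_nonneg hβ.le hr0)
    calc _ ≤ β * r₀ * Λ / m := h2
      _ = r₀ * (β * Λ / m) := by ring
  have hnn : 0 ≤ r₀ * (β * Λ / m) := (abs_nonneg _).trans h1
  calc (β * R * l / D) ^ 2 = |β * R * l / D| ^ 2 := (sq_abs _).symm
    _ ≤ _ := pow_le_pow_left₀ (abs_nonneg _) h1 2

/-- The bound for the second moment of the partition function. -/
theorem second_moment (h : Spec μ a b lam) {β y₀ κ : ℝ} (hβ : 0 < β) (hy₀ : β * a < y₀)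
    (H2 : β ^ 2 * ∫ x, (x - κ) ^ 2 / (y₀ - β * x) ^ 2 ∂μ < 1)
    (H3 : ∀ R ∈ Set.Ioc (0 : ℝ) 1, ∃ y₁ y₂, β * (1 + R) * a < y₁ ∧ β * (1 - R) * a < y₂ ∧
      psi μ (β * (1 + R)) y₁ + psi μ (β * (1 - R)) y₂ - 2 * psi μ β y₀ < Ifun R) :
    ∃ e₁ > 0, ∃ K > 0, ∀ᶠ N : ℕ in atTop, ∀ y, |y - y₀| < e₁ →
      ∫ U, partitionFn β (lam N) U ^ 2 ∂(haarO N) ≤ K * Real.exp (N * psiN (lam N) β y) ^ 2 := by
  have hprob := h.prob
  obtain ⟨γ, hγ⟩ : ∃ γ, γ = ∫ x, (x - κ) ^ 2 / (y₀ - β * x) ^ 2 ∂μ := ⟨_, rfl⟩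
  rw [← hγ] at H2
  have hγ0 : 0 ≤ γ := by
    rw [hγ]
    exact integral_nonneg fun x => by positivity
  obtain ⟨g, hg⟩ : ∃ g, g = β ^ 2 * γ := ⟨_, rfl⟩
  rw [← hg] at H2
  have hg0 : 0 ≤ g := by
    rw [hg]
    positivity
  obtain ⟨γ', ε₁, c, hgγ', hγ'0, hε₁, hc0, hc, hcdef⟩ := near_constants hg0 H2
  obtain ⟨e₀, he₀, m, hm, M, hevm⟩ := margin h hβ.le hy₀
  have hΦ : ContinuousOn (fun p : ℝ × ℝ => (p.2 - κ) ^ 2 / p.1 ^ 2) {p | 0 < p.1} := by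
    refine ContinuousOn.div (by fun_prop) (by fun_prop) fun p hp => ?_
    have : 0 < p.1 := hp
    positivity
  obtain ⟨η_c, hη_c, hevc⟩ := avg_conv h (Φ := fun x l => (l - κ) ^ 2 / x ^ 2) hΦ hβ.le hy₀
    (ε := (γ' - g) / β ^ 2) (by
      have : 0 < γ' - g := by linarith
      positivity)
  obtain ⟨Λ, hΛ⟩ : ∃ Λ, Λ = |a| + |b| + 1 + |κ| := ⟨_, rfl⟩
  obtain ⟨A₀, hA₀⟩ : ∃ A₀, A₀ = (β * Λ / m) ^ 2 := ⟨_, rfl⟩
  have hA₀0 : 0 ≤ A₀ := by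
    rw [hA₀]
    positivity
  obtain ⟨u, hu⟩ : ∃ u, u = min (1 / 4) (ε₁ / (1 + ε₁)) := ⟨_, rfl⟩
  have hu0 : 0 < u := by
    rw [hu]
    exact lt_min (by norm_num) (by positivity)
  obtain ⟨r₀, hr₀, hr₀1, hr₀2⟩ := small_overlap hA₀0 hu0
  obtain ⟨η_f, hη_f, c₂, hc₂, K₂, hevf⟩ := far_uniform h hβ hy₀ hr₀ H3
  have hden : 0 < 1 - 2 * c := by linarith
  refine ⟨min e₀ (min η_c η_f), lt_min he₀ (lt_min hη_c hη_f),
    Real.sqrt (1 / (m / 2)) * Real.sqrt (2 * max M 0) * Real.sqrt (1 / (1 - 2 * c)) + |K₂| + 1,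
    by positivity, ?_⟩
  filter_upwards [hevm, hevc, hevf, h.edge 1 one_pos, eventually_gt_atTop 0,
    eventually_linear_exp hc₂] with N h1 h2 h3 h4 hNpos hlin y hy
  have hN0 : (0 : ℝ) < N := Nat.cast_pos.2 hNpos
  have hy1 : |y - y₀| ≤ e₀ := (hy.trans_le (min_le_left _ _)).le
  have hy2 : |y - y₀| < η_c := (hy.trans_le (min_le_right _ _)).trans_le (min_le_left _ _)
  have hy3 : |y - y₀| < η_f := (hy.trans_le (min_le_right _ _)).trans_le (min_le_right _ _)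
  have hβ0 : |β - β| ≤ e₀ := by simpa using he₀.le
  have hD : ∀ i, m ≤ y - β * lam N i := fun i => (h1 β y hβ0 hy1 i).1
  have hD' : ∀ i, y - β * lam N i ≤ max M 0 := fun i =>
    (h1 β y hβ0 hy1 i).2.trans (le_max_left _ _)
  have hl : ∀ i, |lam N i - κ| ≤ Λ := by
    intro i
    obtain ⟨h5, h6⟩ := h4 i
    have h7 : |lam N i| ≤ |a| + |b| + 1 := by
      rw [abs_le]
      have := neg_abs_le b
      have := le_abs_self a
      have := abs_nonneg a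
      have := abs_nonneg b
      constructor <;> linarith
    rw [hΛ]
    calc |lam N i - κ| ≤ |lam N i| + |κ| := abs_sub _ _
      _ ≤ _ := by linarith
  have hsum : ∑ i, β ^ 2 * (lam N i - κ) ^ 2 / (y - β * lam N i) ^ 2 ≤ N * γ' := by
    have h5 := h2 β y (by simpa using hη_c) hy2
    rw [← hγ] at h5
    have h6 := (abs_lt.1 h5).2
    have hβ2 : 0 < β ^ 2 := by positivity
    have e : ∑ i, β ^ 2 * (lam N i - κ) ^ 2 / (y - β * lam N i) ^ 2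
        = β ^ 2 * N * ((1 / (N : ℝ)) * ∑ i, (lam N i - κ) ^ 2 / (y - β * lam N i) ^ 2) := by
      rw [Finset.mul_sum, Finset.mul_sum]
      refine Finset.sum_congr rfl fun i _ => ?_
      field_simp
    rw [e]
    have h7 : (1 / (N : ℝ)) * ∑ i, (lam N i - κ) ^ 2 / (y - β * lam N i) ^ 2
        ≤ γ + (γ' - g) / β ^ 2 := by linarith
    calc _ ≤ β ^ 2 * N * (γ + (γ' - g) / β ^ 2) :=
          mul_le_mul_of_nonneg_left h7 (by positivity)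
      _ = N * γ' := by
          rw [hg]
          field_simp
          ring
  have hx : ∀ R, 0 ≤ R → R ≤ r₀ → ∀ i,
      (β * R * (lam N i - κ) / (y - β * lam N i)) ^ 2 ≤ ε₁ / (1 + ε₁) := by
    intro R hR0 hR i
    refine (x_bound hβ hR0 hR hA₀ hr₀2 (hl i) hm (hD i)).trans ?_
    rw [hu]
    exact min_le_right _ _
  have hx' : ∀ R, 0 ≤ R → R ≤ r₀ → ∀ i,
      (β * R * (lam N i - κ) / (y - β * lam N i)) ^ 2 ≤ 1 / 4 := by
    intro R hR0 hR i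
    refine (x_bound hβ hR0 hR hA₀ hr₀2 (hl i) hm (hD i)).trans ?_
    rw [hu]
    exact min_le_left _ _
  have hfar : ∀ R ∈ Set.Icc r₀ 1, ∃ y₁ y₂ δ Δ : ℝ, (∀ i, 0 < y₁ - β * (1 + R) * lam N i) ∧ 0 < δ ∧
      (∀ i, δ ≤ y₂ - β * (1 - R) * lam N i) ∧ (∀ i, y₂ - β * (1 - R) * lam N i ≤ Δ) ∧
      Real.sqrt (1 / δ) * Real.sqrt Δ ≤ |K₂| ∧
      psiN (lam N) (β * (1 + R)) y₁ + psiN (lam N) (β * (1 - R)) y₂
        ≤ 2 * psiN (lam N) β y + Ifun R - c₂ := by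
    intro R hR
    obtain ⟨y₁, y₂, δ, Δ, h5, h6, h7, h8, h9, h10⟩ := h3 R hR y hy3
    exact ⟨y₁, y₂, δ, Δ, h5, h6, h7, h8, h9.trans (le_abs_self _), h10⟩
  have hfin := second_finite hNpos.ne' (lam N) hm hε₁ hc0 hc hcdef hr₀1 hD hD' hsum hx hx' hfar
    hlin (abs_nonneg _)
  refine hfin.trans ?_
  refine mul_le_mul_of_nonneg_right ?_ (sq_nonneg _)
  linarith

end Vale.Agent.Lib.P166
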