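import Vale.Agent.Lib.P166.Variance
import Vale.Agent.Lib.P166.SecondBound

/-!
The limit of the pressure in the second moment regime.
-/

open scoped BigOperators Topology
open MeasureTheory Matrix Filter

namespace Vale.Agent.Lib.P166

variable {N : ℕ}

/-- Jensen's inequality for the logarithm of the partition function. -/
lemma integral_log_le (β : ℝ) (lam : Fin N → ℝ) :
    ∫ U, Real.log (partitionFn β lam U) ∂(haarO N) ≤ Real.log (∫ U, partitionFn β lam U ∂(haarO N)) := by
  have hc := continuous_partitionFn β lam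
  have hp := partitionFn_pos β lam
  obtain ⟨m, hm⟩ : ∃ m, m = ∫ U, partitionFn β lam U ∂(haarO N) := ⟨_, rfl⟩
  have hm0 : 0 < m := by
    rw [hm]
    exact integral_pos_iff_support_of_nonneg (fun U => (hp U).le) (integrable_OG hc) |>.2 (by
      have : Function.support (partitionFn β lam) = Set.univ := by
        ext U
        simp [(hp U).ne']
      rw [this]
      simp)
  rw [← hm]
  have h1 : ∀ U : OG N, Real.log (partitionFn β lam U) ≤ Real.log m + (partitionFn β lam U / m - 1) := by
    intro U
    have h2 := Real.log_le_sub_one_of_pos (div_pos (hp U) hm0)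
    rw [Real.log_div (hp U).ne' hm0.ne'] at h2
    linarith
  have hlog : Continuous fun U : OG N => Real.log (partitionFn β lam U) :=
    hc.log fun U => (hp U).ne'
  have i0 : Integrable (fun U : OG N => Real.log m + (partitionFn β lam U / m - 1)) (haarO N) :=
    integrable_OG (continuous_const.add ((hc.div_const m).sub continuous_const))
  have h3 := integral_mono (integrable_OG hlog) i0 h1
  have h4 : ∫ U, (Real.log m + (partitionFn β lam U / m - 1)) ∂(haarO N) = Real.log m := by
    have i1 : Integrable (fun U : OG N => partitionFn β lam U / m - 1) (haarO N) :=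
      integrable_OG ((hc.div_const m).sub continuous_const)
    rw [integral_add (integrable_const _) i1]
    have i2 : Integrable (fun U : OG N => partitionFn β lam U / m) (haarO N) :=
      integrable_OG (hc.div_const m)
    rw [integral_sub i2 (integrable_const _), integral_div, ← hm, div_self hm0.ne']
    simp
  linarith

/-- The mean of the pressure is at most the annealed value. -/
theorem mean_pressure_le (hN : N ≠ 0) (lam : Fin N → ℝ) {β y : ℝ} (h : ∀ i, 0 < y - β * lam i) :
    ∫ U, pressure β lam U ∂(haarO N) ≤ psiN lam β y := by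
  have hNpos : (0:ℝ) < N := by exact_mod_cast Nat.pos_of_ne_zero hN
  unfold pressure
  rw [integral_const_mul]
  have h1 := integral_log_le β lam
  have h2 := mean_Z_upper hN lam h
  have hm0 : 0 < ∫ U, partitionFn β lam U ∂(haarO N) := by
    refine integral_pos_iff_support_of_nonneg (fun U => (partitionFn_pos β lam U).le)
      (integrable_OG (continuous_partitionFn β lam)) |>.2 ?_
    have : Function.support (partitionFn β lam) = Set.univ := by
      ext U
      simp [(partitionFn_pos β lam U).ne']
    rw [this]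
    simp
  have h3 : Real.log (∫ U, partitionFn β lam U ∂(haarO N)) ≤ N * psiN lam β y := by
    have := Real.log_le_log hm0 h2
    rwa [Real.log_exp] at this
  calc 1 / (N:ℝ) * ∫ U, Real.log (partitionFn β lam U) ∂(haarO N)
      ≤ 1 / (N:ℝ) * (N * psiN lam β y) :=
        mul_le_mul_of_nonneg_left (h1.trans h3) (by positivity)
    _ = _ := by field_simp

/-- Chebyshev's inequality for the pressure. -/
lemma pressure_chebyshev (β : ℝ) (lam : Fin N → ℝ) {ε : ℝ} (hε : 0 < ε) :
    (haarO N).real {U | ε ≤ |pressure β lam U - ∫ V, pressure β lam V ∂(haarO N)|}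
      ≤ (∫ U, (pressure β lam U - ∫ V, pressure β lam V ∂(haarO N)) ^ 2 ∂(haarO N)) / ε ^ 2 := by
  obtain ⟨m, hm⟩ : ∃ m, m = ∫ V, pressure β lam V ∂(haarO N) := ⟨_, rfl⟩
  rw [← hm]
  have hp := continuous_pressure β lam
  have hc : Continuous fun U : OG N => (pressure β lam U - m) ^ 2 := (hp.sub continuous_const).pow 2
  have h1 : {U | ε ≤ |pressure β lam U - m|} ⊆ {U | ε ^ 2 ≤ (pressure β lam U - m) ^ 2} := by
    intro U hU
    have hU' : ε ≤ |pressure β lam U - m| := hU
    change ε ^ 2 ≤ (pressure β lam U - m) ^ 2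
    rw [← sq_abs (pressure β lam U - m)]
    exact pow_le_pow_left₀ hε.le hU' 2
  have h2 := mul_meas_ge_le_integral_of_nonneg (μ := haarO N)
    (Filter.Eventually.of_forall fun U => sq_nonneg (pressure β lam U - m)) (integrable_OG hc) (ε ^ 2)
  have h3 : (haarO N).real {U | ε ≤ |pressure β lam U - m|}
      ≤ (haarO N).real {U | ε ^ 2 ≤ (pressure β lam U - m) ^ 2} :=
    measureReal_mono h1 (measure_ne_top _ _)
  rw [le_div_iff₀ (by positivity)]
  nlinarith [h2, h3, sq_nonneg ε]

/-- The lower bound for the mean of the pressure at fixed `N`. -/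
theorem mean_pressure_ge {β : ℝ} (hN : 2 ≤ N) {lam : Fin N → ℝ} {C : ℝ} (hC : ∀ i, |lam i| ≤ C)
    {K E : ℝ} (hK : 0 < K) (hE : 0 < E)
    (hEZ : E ≤ ∫ U, partitionFn β lam U ∂(haarO N))
    (h2 : ∫ U, partitionFn β lam U ^ 2 ∂(haarO N) ≤ K * E ^ 2) :
    (1 / (N : ℝ)) * (Real.log (1 / 2) + Real.log E)
        - Real.sqrt ((Real.pi ^ 2 * β ^ 2 * C ^ 2 / ((N : ℝ) - 1)) * (4 * K))
      ≤ ∫ U, pressure β lam U ∂(haarO N) := by
  have hN1 : (1:ℝ) < N := by exact_mod_cast hN
  have hN0 : N ≠ 0 := by omega
  have hNpos : (0:ℝ) < N := by linarith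
  have hc := continuous_partitionFn β lam
  have hpos := partitionFn_pos β lam
  have hcp := continuous_pressure β lam
  obtain ⟨M, hM⟩ : ∃ M, M = ∫ U, partitionFn β lam U ∂(haarO N) := ⟨_, rfl⟩
  rw [← hM] at hEZ
  have hM0 : 0 < M := lt_of_lt_of_le hE hEZ
  have hpz := paley_zygmund (μ := haarO N) (Z := partitionFn β lam) hc.measurable (fun U => (hpos U).le)
    (integrable_OG hc) (integrable_OG (hc.pow 2)) hK (by rw [← hM]; exact hM0)
    (by
      rw [← hM]
      refine h2.trans ?_
      exact mul_le_mul_of_nonneg_left (pow_le_pow_left₀ hE.le hEZ 2) hK.le)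
  rw [← hM] at hpz
  have hL : 1 / (4 * K) ≤ (haarO N).real {U | (1 / (N : ℝ)) * (Real.log (1 / 2) + Real.log E) ≤ pressure β lam U} := by
    refine hpz.trans (measureReal_mono ?_ (measure_ne_top _ _))
    intro U hU
    have hU' : (1 / 2) * M ≤ partitionFn β lam U := hU
    change (1 / (N : ℝ)) * (Real.log (1 / 2) + Real.log E) ≤ (1 / (N:ℝ)) * Real.log (partitionFn β lam U)
    refine mul_le_mul_of_nonneg_left ?_ (by positivity)
    have h3 : (1 / 2) * E ≤ partitionFn β lam U := by linarith
    have h4 := Real.log_le_log (by positivity) h3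
    rwa [Real.log_mul (by norm_num) hE.ne'] at h4
  have hml := mean_lower (μ := haarO N) hcp.measurable
    (integrable_OG ((hcp.sub continuous_const).pow 2)) (by positivity) hL
  have hvar := variance_bound hN β hC
  have h5 : Real.sqrt ((∫ U, (pressure β lam U - ∫ V, pressure β lam V ∂(haarO N)) ^ 2 ∂(haarO N)) / (1 / (4 * K)))
      ≤ Real.sqrt ((Real.pi ^ 2 * β ^ 2 * C ^ 2 / ((N : ℝ) - 1)) * (4 * K)) := by
    refine Real.sqrt_le_sqrt ?_
    rw [div_div_eq_mul_div, div_one]
    exact mul_le_mul_of_nonneg_right hvar (by positivity)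
  linarith

end Vale.Agent.Lib.P166
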