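import Vale.Agent.Lib.P166.Sphere

/-!
Every orthogonal matrix of determinant one lies on a one-parameter group with generator
of controlled Hilbert-Schmidt norm.
-/

open scoped BigOperators
open Matrix

namespace Vale.Agent.Lib.P166

variable {N : ℕ}

/-- A partial complex structure compatible with the angles `φ`. -/
structure PCS (φ : Fin N → ℝ) (J : Matrix (Fin N) (Fin N) ℝ) : Prop where
  nonneg : ∀ i, 0 ≤ φ i
  skew : ∀ i j, J j i = - J i j
  comm : ∀ i j, J i j ≠ 0 → φ i = φ j
  sq : ∀ i j, (J * J) i j = if i = j ∧ 0 < φ i then -1 else 0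

/-- The one-parameter path. -/
noncomputable def Wt (φ : Fin N → ℝ) (J : Matrix (Fin N) (Fin N) ℝ) (θ : ℝ) :
    Matrix (Fin N) (Fin N) ℝ :=
  Matrix.diagonal (fun i => Real.cos (θ * φ i)) + Matrix.diagonal (fun i => Real.sin (θ * φ i)) * J

lemma Wt_apply (φ : Fin N → ℝ) (J : Matrix (Fin N) (Fin N) ℝ) (θ : ℝ) (i j : Fin N) :
    Wt φ J θ i j = (if i = j then Real.cos (θ * φ i) else 0) + Real.sin (θ * φ i) * J i j := by
  unfold Wt
  simp [Matrix.add_apply, Matrix.diagonal_apply, Matrix.diagonal_mul]

/-- Functions of the angles commute with `J`. -/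
lemma PCS.comm_fun {φ : Fin N → ℝ} {J : Matrix (Fin N) (Fin N) ℝ} (h : PCS φ J) (g : ℝ → ℝ)
    (i k : Fin N) : J i k * g (φ k) = g (φ i) * J i k := by
  by_cases hik : J i k = 0
  · simp [hik]
  · rw [h.comm i k hik, mul_comm]

lemma PCS.sum_sq {φ : Fin N → ℝ} {J : Matrix (Fin N) (Fin N) ℝ} (h : PCS φ J) (i : Fin N) :
    ∑ j, J i j ^ 2 = if 0 < φ i then 1 else 0 := by
  have h1 := h.sq i i
  rw [Matrix.mul_apply] at h1
  have h2 : ∑ j, J i j * J j i = - ∑ j, J i j ^ 2 := by
    rw [← Finset.sum_neg_distrib]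
    refine Finset.sum_congr rfl fun j _ => ?_
    rw [h.skew i j]
    ring
  rw [h2] at h1
  by_cases hφ : 0 < φ i
  · simp only [hφ, if_true]
    simp [hφ] at h1
    linarith
  · simp only [hφ, if_false]
    simp [hφ] at h1
    linarith

/-- The sine vanishes where the angle vanishes. -/
lemma sin_ind {φ θ : ℝ} (hφ : 0 ≤ φ) : Real.sin (θ * φ) * (if 0 < φ then 1 else 0) = Real.sin (θ * φ) := by
  by_cases h : 0 < φ
  · simp [h]
  · have : φ = 0 := le_antisymm (not_lt.1 h) hφ
    simp [this]

/-- Product of two paths (with sign of the second angle). -/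
lemma Wt_mul_apply {φ : Fin N → ℝ} {J : Matrix (Fin N) (Fin N) ℝ} (h : PCS φ J) (a b : ℝ)
    (c d : ℝ → ℝ) (hc : ∀ x, c x = Real.cos (a * x)) (hd : ∀ x, d x = Real.sin (a * x)) (i j : Fin N) :
    ∑ k, ((if i = k then c (φ i) else 0) + d (φ i) * J i k) *
        ((if k = j then Real.cos (b * φ k) else 0) + Real.sin (b * φ k) * J k j)
      = (if i = j then c (φ i) * Real.cos (b * φ i) - d (φ i) * Real.sin (b * φ i) else 0)
        + (c (φ i) * Real.sin (b * φ i) + d (φ i) * Real.cos (b * φ i)) * J i j := by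
  have h1 : ∀ k, ((if i = k then c (φ i) else 0) + d (φ i) * J i k) *
        ((if k = j then Real.cos (b * φ k) else 0) + Real.sin (b * φ k) * J k j)
      = (if i = k then c (φ i) * ((if k = j then Real.cos (b * φ k) else 0) + Real.sin (b * φ k) * J k j)
            else 0)
        + (if k = j then d (φ i) * (J i k * Real.cos (b * φ k)) else 0)
        + d (φ i) * Real.sin (b * φ i) * (J i k * J k j) := by
    intro k
    have h2 : J i k * Real.sin (b * φ k) = Real.sin (b * φ i) * J i k :=
      h.comm_fun (fun x => Real.sin (b * x)) i k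
    by_cases hik : i = k
    · subst hik
      by_cases hkj : i = j
      · simp only [hkj, if_true]
        subst hkj
        have h3 := h.skew i i
        have h4 : J i i = 0 := by linarith
        simp [h4]
      · simp only [hkj, if_false, if_true]
        have h3 := h.skew i i
        have h4 : J i i = 0 := by linarith
        simp [h4]
    · by_cases hkj : k = j
      · subst hkj
        simp only [hik, if_false, if_true, zero_add]
        have h3 : J k k = 0 := by
          have := h.skew k k
          linarith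
        simp [h3]
        ring
      · simp only [hik, hkj, if_false, zero_add, add_zero]
        have : d (φ i) * J i k * (Real.sin (b * φ k) * J k j)
            = d (φ i) * (J i k * Real.sin (b * φ k)) * J k j := by ring
        rw [this, h2]
        ring
  simp only [h1]
  rw [Finset.sum_add_distrib, Finset.sum_add_distrib, Finset.sum_ite_eq, Finset.sum_ite_eq', ← Finset.mul_sum]
  have h5 : ∑ k, J i k * J k j = (J * J) i j := by rw [Matrix.mul_apply]
  rw [h5, h.sq i j]
  simp only [Finset.mem_univ, if_true]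
  have h6 : J i j * Real.cos (b * φ j) = Real.cos (b * φ i) * J i j :=
    h.comm_fun (fun x => Real.cos (b * x)) i j
  have hnn := h.nonneg i
  by_cases hij : i = j
  · subst hij
    have h3 : J i i = 0 := by
      have := h.skew i i
      linarith
    simp only [if_true, h3]
    by_cases hφ : 0 < φ i
    · simp [hφ]
      ring
    · have h0 : φ i = 0 := le_antisymm (not_lt.1 hφ) hnn
      simp [hφ, h0, hd, hc]
  · simp only [hij, if_false, false_and]
    rw [h6]
    ring

lemma Wt_zero (φ : Fin N → ℝ) (J : Matrix (Fin N) (Fin N) ℝ) : Wt φ J 0 = 1 := by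
  ext i j
  rw [Wt_apply, Matrix.one_apply]
  simp

/-- The group law. -/
lemma Wt_add {φ : Fin N → ℝ} {J : Matrix (Fin N) (Fin N) ℝ} (h : PCS φ J) (a b : ℝ) :
    Wt φ J a * Wt φ J b = Wt φ J (a + b) := by
  ext i j
  rw [Matrix.mul_apply, Wt_apply]
  simp only [Wt_apply]
  rw [Wt_mul_apply h a b (fun x => Real.cos (a * x)) (fun x => Real.sin (a * x)) (fun _ => rfl)
    (fun _ => rfl) i j]
  have e1 : (a + b) * φ i = a * φ i + b * φ i := by ring
  rw [e1, Real.cos_add, Real.sin_add]
  ring_nf

lemma Wt_transpose {φ : Fin N → ℝ} {J : Matrix (Fin N) (Fin N) ℝ} (h : PCS φ J) (θ : ℝ) :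
    (Wt φ J θ).transpose = Wt φ J (-θ) := by
  ext i j
  rw [Matrix.transpose_apply, Wt_apply, Wt_apply]
  have h6 : J i j * Real.sin (θ * φ j) = Real.sin (θ * φ i) * J i j :=
    h.comm_fun (fun x => Real.sin (θ * x)) i j
  have e1 : -θ * φ i = -(θ * φ i) := by ring
  rw [e1, Real.cos_neg, Real.sin_neg, h.skew i j]
  by_cases hij : i = j
  · subst hij
    simp
  · have hji : ¬ j = i := fun e => hij e.symm
    simp only [hij, hji, if_false, zero_add]
    have := h6
    nlinarith [h6]

lemma Wt_orth {φ : Fin N → ℝ} {J : Matrix (Fin N) (Fin N) ℝ} (h : PCS φ J) (θ : ℝ) :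
    Wt φ J θ ∈ Matrix.orthogonalGroup (Fin N) ℝ := by
  rw [Matrix.mem_orthogonalGroup_iff]
  rw [Wt_transpose h, Wt_add h]
  simp [Wt_zero]

/-- The derivative of the path: the generator. -/
lemma Wt_deriv {φ : Fin N → ℝ} {J : Matrix (Fin N) (Fin N) ℝ} (h : PCS φ J) (θ : ℝ) (i j : Fin N) :
    HasDerivAt (fun t => Wt φ J t i j)
      (((Matrix.diagonal φ * J) * Wt φ J θ) i j) θ := by
  have e : ((Matrix.diagonal φ * J) * Wt φ J θ) i j
      = (if i = j then - Real.sin (θ * φ i) * φ i else 0) + Real.cos (θ * φ i) * φ i * J i j := by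
    rw [Matrix.mul_apply]
    simp only [Matrix.diagonal_mul, Wt_apply]
    have h1 : ∀ k, φ i * J i k * ((if k = j then Real.cos (θ * φ k) else 0) + Real.sin (θ * φ k) * J k j)
        = (if k = j then φ i * (J i k * Real.cos (θ * φ k)) else 0)
          + φ i * Real.sin (θ * φ i) * (J i k * J k j) := by
      intro k
      have h2 : J i k * Real.sin (θ * φ k) = Real.sin (θ * φ i) * J i k :=
        h.comm_fun (fun x => Real.sin (θ * x)) i k
      by_cases hkj : k = j
      · simp only [hkj, if_true]
        subst hkj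
        have h3 : J k k = 0 := by
          have := h.skew k k
          linarith
        simp [h3] at h2 ⊢
        nlinarith [h2]
      · simp only [hkj, if_false, zero_add]
        have : φ i * J i k * (Real.sin (θ * φ k) * J k j)
            = φ i * (J i k * Real.sin (θ * φ k)) * J k j := by ring
        rw [this, h2]
        ring
    simp only [h1]
    rw [Finset.sum_add_distrib, Finset.sum_ite_eq', ← Finset.mul_sum]
    have h5 : ∑ k, J i k * J k j = (J * J) i j := by rw [Matrix.mul_apply]
    rw [h5, h.sq i j]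
    simp only [Finset.mem_univ, if_true]
    have h6 : J i j * Real.cos (θ * φ j) = Real.cos (θ * φ i) * J i j :=
      h.comm_fun (fun x => Real.cos (θ * x)) i j
    rw [h6]
    have hnn := h.nonneg i
    by_cases hij : i = j
    · subst hij
      have h3 : J i i = 0 := by
        have := h.skew i i
        linarith
      by_cases hφ : 0 < φ i
      · simp [hφ, h3]
        ring
      · have h0 : φ i = 0 := le_antisymm (not_lt.1 hφ) hnn
        simp [hφ, h0, h3]
    · simp [hij]
      ring
  rw [e]
  have hf : (fun t => Wt φ J t i j)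
      = fun t => (if i = j then Real.cos (t * φ i) else 0) + Real.sin (t * φ i) * J i j := by
    ext t
    rw [Wt_apply]
  rw [hf]
  have h1 : HasDerivAt (fun t : ℝ => t * φ i) (φ i) θ := by
    simpa using (hasDerivAt_id θ).mul_const (φ i)
  refine HasDerivAt.add ?_ ((Real.hasDerivAt_sin _).comp θ h1 |>.mul_const (J i j))
  by_cases hij : i = j
  · simp only [hij, if_true]
    exact (Real.hasDerivAt_cos _).comp θ (by simpa using (hasDerivAt_id θ).mul_const (φ j))
  · simp only [hij, if_false]
    exact hasDerivAt_const _ _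

/-- The Hilbert-Schmidt norm of the generator. -/
lemma gen_norm {φ : Fin N → ℝ} {J : Matrix (Fin N) (Fin N) ℝ} (h : PCS φ J) {M : ℝ}
    (hM : ∀ i, φ i ^ 2 ≤ M) (hM0 : 0 ≤ M) :
    ∑ i, ∑ j, ((Matrix.diagonal φ * J) i j) ^ 2 ≤ N * M := by
  have h1 : ∀ i, ∑ j, ((Matrix.diagonal φ * J) i j) ^ 2 ≤ M := by
    intro i
    simp only [Matrix.diagonal_mul, mul_pow]
    rw [← Finset.mul_sum, h.sum_sq i]
    by_cases hφ : 0 < φ i
    · simpa [hφ] using hM i
    · simpa [hφ] using hM0
  calc _ ≤ ∑ _i : Fin N, M := Finset.sum_le_sum fun i _ => h1 i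
    _ = N * M := by simp

lemma gen_skew {φ : Fin N → ℝ} {J : Matrix (Fin N) (Fin N) ℝ} (h : PCS φ J) (i j : Fin N) :
    (Matrix.diagonal φ * J) j i = - (Matrix.diagonal φ * J) i j := by
  simp only [Matrix.diagonal_mul]
  have h6 : J i j * φ j = φ i * J i j := h.comm_fun (fun x => x) i j
  rw [h.skew i j]
  nlinarith [h6]

/-- Pairing the elements of a finite set. -/
lemma exists_pairing (n : ℕ) : ∀ s : Finset (Fin N), s.card = n → ∃ t ⊆ s, (s \ t).card ≤ 1 ∧
    ∃ K : Matrix (Fin N) (Fin N) ℝ, (∀ i j, K j i = - K i j) ∧ (∀ i j, K i j ≠ 0 → i ∈ t ∧ j ∈ t) ∧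
      ∀ i j, (K * K) i j = if i = j ∧ i ∈ t then -1 else 0 := by
  induction n using Nat.strong_induction_on with
  | _ n ih =>
    intro s hs
    by_cases hcard : s.card ≤ 1
    · refine ⟨∅, Finset.empty_subset _, by simpa using hcard, 0, by simp, by simp, by simp⟩
    · obtain ⟨a, ha, b, hb, hab⟩ := Finset.one_lt_card.1 (not_le.1 hcard)
      have hb' : b ∈ s.erase a := Finset.mem_erase.2 ⟨hab.symm, hb⟩
      have hc : ((s.erase a).erase b).card + 2 = n := by
        rw [Finset.card_erase_of_mem hb', Finset.card_erase_of_mem ha, hs]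
        have : s.card ≥ 2 := not_le.1 hcard
        omega
      obtain ⟨t', ht', hd, K', hK1, hK2, hK3⟩ := ih _ (by omega) ((s.erase a).erase b) rfl
      have hat : a ∉ t' := fun h => by
        have := ht' h
        simp at this
      have hbt : b ∉ t' := fun h => by
        have := ht' h
        simp at this
      refine ⟨insert a (insert b t'), ?_, ?_, K' + (Matrix.single a b 1 - Matrix.single b a 1), ?_, ?_, ?_⟩
      · intro x hx
        simp only [Finset.mem_insert] at hx
        rcases hx with rfl | rfl | hx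
        · exact ha
        · exact hb
        · have := ht' hx
          simp only [Finset.mem_erase] at this
          exact this.2.2
      · have : s \ insert a (insert b t') ⊆ ((s.erase a).erase b) \ t' := by
          intro x hx
          simp only [Finset.mem_sdiff, Finset.mem_insert, not_or, Finset.mem_erase] at hx ⊢
          exact ⟨⟨hx.2.2.1 |> fun h => h, hx.2.1, hx.1⟩, hx.2.2.2⟩
        exact (Finset.card_le_card this).trans hd
      · intro i j
        simp only [Matrix.add_apply, Matrix.sub_apply, Matrix.single_apply]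
        rw [hK1 i j]
        by_cases h1 : a = i ∧ b = j
        · obtain ⟨rfl, rfl⟩ := h1
          simp [hab, hab.symm]
          ring
        · by_cases h2 : b = i ∧ a = j
          · obtain ⟨rfl, rfl⟩ := h2
            simp [hab, hab.symm]
            ring
          · have h1' : ¬ (a = j ∧ b = i) := fun h => h2 ⟨h.2, h.1⟩
            have h2' : ¬ (b = j ∧ a = i) := fun h => h1 ⟨h.2, h.1⟩
            simp [h1, h2, h1', h2']
      · intro i j hne
        simp only [Matrix.add_apply, Matrix.sub_apply, Matrix.single_apply] at hne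
        simp only [Finset.mem_insert]
        by_cases h0 : K' i j = 0
        · by_cases h1 : a = i ∧ b = j
          · exact ⟨Or.inl h1.1.symm, Or.inr (Or.inl h1.2.symm)⟩
          · by_cases h2 : b = i ∧ a = j
            · exact ⟨Or.inr (Or.inl h2.1.symm), Or.inl h2.2.symm⟩
            · simp [h0, h1, h2] at hne
        · have := hK2 i j h0
          exact ⟨Or.inr (Or.inr this.1), Or.inr (Or.inr this.2)⟩
      · intro i j
        have e1 : K' * (Matrix.single a b 1 - Matrix.single b a 1) = 0 := by
          ext x y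
          rw [Matrix.mul_apply, Matrix.zero_apply]
          refine Finset.sum_eq_zero fun k _ => ?_
          by_cases h0 : K' x k = 0
          · simp [h0]
          · have hk := (hK2 x k h0).2
            have hka : a ≠ k := fun e => hat (e ▸ hk)
            have hkb : b ≠ k := fun e => hbt (e ▸ hk)
            simp [Matrix.single_apply, hka, hkb]
        have e2 : (Matrix.single a b (1:ℝ) - Matrix.single b a 1) * K' = 0 := by
          ext x y
          rw [Matrix.mul_apply, Matrix.zero_apply]
          refine Finset.sum_eq_zero fun k _ => ?_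
          by_cases h0 : K' k y = 0
          · simp [h0]
          · have hk := (hK2 k y h0).1
            have hka : a ≠ k := fun e => hat (e ▸ hk)
            have hkb : b ≠ k := fun e => hbt (e ▸ hk)
            simp [Matrix.single_apply, hka, hkb]
        have e3 : (Matrix.single a b (1:ℝ) - Matrix.single b a 1) * (Matrix.single a b 1 - Matrix.single b a 1)
            = - Matrix.single a a 1 - Matrix.single b b 1 := by
          rw [sub_mul, mul_sub, mul_sub, Matrix.single_mul_single_of_ne _ _ _ _ hab.symm,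
            Matrix.single_mul_single_same, Matrix.single_mul_single_same,
            Matrix.single_mul_single_of_ne _ _ _ _ hab]
          simp
        rw [add_mul, mul_add, mul_add, e1, e2, e3, add_zero, zero_add, Matrix.add_apply, hK3 i j]
        simp only [Matrix.sub_apply, Matrix.neg_apply, Matrix.single_apply, Finset.mem_insert]
        by_cases hij : i = j
        · subst hij
          by_cases h1 : i = a
          · subst h1
            simp [hat, hab, hab.symm]
          · by_cases h2 : i = b
            · subst h2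
              simp [hbt, hab, hab.symm]
            · have h1' : a ≠ i := fun e => h1 e.symm
              have h2' : b ≠ i := fun e => h2 e.symm
              simp [h1, h2, h1', h2']
        · have h1 : ¬ (a = i ∧ a = j) := fun h => hij (h.1.symm.trans h.2)
          have h2 : ¬ (b = i ∧ b = j) := fun h => hij (h.1.symm.trans h.2)
          simp [hij, h1, h2]

/-- The algebra of an orthogonal matrix with diagonal symmetric part. -/
lemma orth_parts {W' S : Matrix (Fin N) (Fin N) ℝ} {c : Fin N → ℝ}
    (h1 : W'.transpose * W' = 1) (h2 : W' * W'.transpose = 1)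
    (hW : W' = Matrix.diagonal c + S) (hT : W'.transpose = Matrix.diagonal c - S) :
    (∀ i j, c i * S i j = S i j * c j) ∧
      ∀ i j, ∑ k, S i k * S k j = if i = j then c i ^ 2 - 1 else 0 := by
  rw [hT, hW] at h1
  rw [hT, hW] at h2
  have h3 : Matrix.diagonal c * S = S * Matrix.diagonal c := by
    have e1 : (Matrix.diagonal c - S) * (Matrix.diagonal c + S)
        = Matrix.diagonal c * Matrix.diagonal c + Matrix.diagonal c * S - S * Matrix.diagonal c - S * S := by
      noncomm_ring
    have e2 : (Matrix.diagonal c + S) * (Matrix.diagonal c - S)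
        = Matrix.diagonal c * Matrix.diagonal c - Matrix.diagonal c * S + S * Matrix.diagonal c - S * S := by
      noncomm_ring
    rw [e1] at h1
    rw [e2] at h2
    have h4 : (2:ℝ) • (Matrix.diagonal c * S) = (2:ℝ) • (S * Matrix.diagonal c) := by
      have := h1.trans h2.symm
      ext i j
      have h5 := congrFun (congrFun this i) j
      simp only [Matrix.add_apply, Matrix.sub_apply] at h5
      simp only [Matrix.smul_apply, smul_eq_mul]
      linarith
    exact smul_right_injective _ (two_ne_zero) h4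
  have h4 : S * S = Matrix.diagonal c * Matrix.diagonal c - 1 := by
    have e1 : (Matrix.diagonal c - S) * (Matrix.diagonal c + S)
        = Matrix.diagonal c * Matrix.diagonal c + Matrix.diagonal c * S - S * Matrix.diagonal c - S * S := by
      noncomm_ring
    rw [e1, h3] at h1
    rw [← h1]
    noncomm_ring
  constructor
  · intro i j
    have := congrFun (congrFun h3 i) j
    simpa [Matrix.diagonal_mul, Matrix.mul_diagonal] using this
  · intro i j
    have := congrFun (congrFun h4 i) j
    rw [Matrix.mul_apply] at this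
    rw [this]
    by_cases hij : i = j
    · subst hij
      simp [Matrix.diagonal_mul, Matrix.one_apply, pow_two]
    · simp [Matrix.diagonal_mul, Matrix.one_apply, hij, Matrix.diagonal_apply]

/-- The canonical form of a special orthogonal matrix. -/
theorem canon_form {W' S : Matrix (Fin N) (Fin N) ℝ} {c : Fin N → ℝ}
    (h1 : W'.transpose * W' = 1) (h2 : W' * W'.transpose = 1) (hdet : W'.det = 1)
    (hW : W' = Matrix.diagonal c + S) (hT : W'.transpose = Matrix.diagonal c - S) :
    ∃ (φ : Fin N → ℝ) (J : Matrix (Fin N) (Fin N) ℝ), PCS φ J ∧ (∀ i, φ i ≤ Real.pi) ∧ W' = Wt φ J 1 := by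
  obtain ⟨hcomm, hsq⟩ := orth_parts h1 h2 hW hT
  have hskew : ∀ i j, S j i = - S i j := by
    intro i j
    have e1 : W'.transpose j i = W' i j := rfl
    rw [hT, hW] at e1
    simp only [Matrix.sub_apply, Matrix.add_apply, Matrix.diagonal_apply] at e1
    by_cases hij : i = j
    · subst hij
      simp only [if_true] at e1
      linarith
    · have hji : ¬ j = i := fun e => hij e.symm
      simp only [hij, hji, if_false, zero_sub, zero_add] at e1
      linarith
  have hrow : ∀ i, ∑ j, S i j ^ 2 = 1 - c i ^ 2 := by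
    intro i
    have e1 := hsq i i
    simp only [if_true] at e1
    have e2 : ∑ k, S i k * S k i = - ∑ k, S i k ^ 2 := by
      rw [← Finset.sum_neg_distrib]
      refine Finset.sum_congr rfl fun k _ => ?_
      rw [hskew i k]
      ring
    rw [e2] at e1
    linarith
  have hc1 : ∀ i, c i ^ 2 ≤ 1 := by
    intro i
    have : 0 ≤ ∑ j, S i j ^ 2 := Finset.sum_nonneg fun _ _ => sq_nonneg _
    rw [hrow i] at this
    linarith
  have hc2 : ∀ i, -1 ≤ c i ∧ c i ≤ 1 := fun i => abs_le.1 (abs_le_one_iff_mul_self_le_one.2 (by nlinarith [hc1 i]))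
  -- angles
  obtain ⟨φ₀, hφ₀⟩ : ∃ φ₀ : Fin N → ℝ, ∀ i, φ₀ i = Real.arccos (c i) := ⟨_, fun _ => rfl⟩
  obtain ⟨r, hr⟩ : ∃ r : Fin N → ℝ, ∀ i, r i = Real.sin (φ₀ i) := ⟨_, fun _ => rfl⟩
  have hcos : ∀ i, Real.cos (φ₀ i) = c i := fun i => by
    rw [hφ₀, Real.cos_arccos (hc2 i).1 (hc2 i).2]
  have hr2 : ∀ i, r i ^ 2 = 1 - c i ^ 2 := fun i => by
    rw [hr, ← hcos i]
    have := Real.sin_sq_add_cos_sq (φ₀ i)
    linarith
  have hS0 : ∀ i, r i = 0 → ∀ j, S i j = 0 := by
    intro i hi j
    have e1 : ∑ j, S i j ^ 2 = 0 := by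
      rw [hrow i, ← hr2 i, hi]
      simp
    have := (Finset.sum_eq_zero_iff_of_nonneg fun _ _ => sq_nonneg _).1 e1 j (Finset.mem_univ j)
    exact pow_eq_zero_iff (two_ne_zero) |>.1 this
  have hSc : ∀ i j, S i j ≠ 0 → c i = c j := by
    intro i j hij
    have := hcomm i j
    have e : S i j * (c i - c j) = 0 := by linarith
    rcases mul_eq_zero.1 e with e | e
    · exact absurd e hij
    · linarith
  have hrr : ∀ i j, S i j ≠ 0 → r i = r j := fun i j hij => by
    rw [hr, hr, hφ₀, hφ₀, hSc i j hij]
  -- the pairing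
  obtain ⟨t, hts, hcard, K, hK1, hK2, hK3⟩ :=
    exists_pairing _ (Finset.univ.filter fun i => c i = -1) rfl
  obtain ⟨s, hs⟩ : ∃ s, s = Finset.univ.filter fun i => c i = -1 := ⟨_, rfl⟩
  rw [← hs] at hts hcard
  have hmem : ∀ i, i ∈ s ↔ c i = -1 := fun i => by simp [hs]
  have hsr : ∀ i, i ∈ s → r i = 0 := fun i hi => by
    rw [hr, hφ₀, (hmem i).1 hi, Real.arccos_neg_one, Real.sin_pi]
  have hSs : ∀ i, i ∈ s → ∀ j, S j i = 0 := fun i hi j => by
    rw [hskew i j, hS0 i (hsr i hi) j, neg_zero]
  obtain ⟨φ, hφ⟩ : ∃ φ : Fin N → ℝ, ∀ i, φ i = if i ∈ s \ t then 0 else φ₀ i := ⟨_, fun _ => rfl⟩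
  obtain ⟨J, hJ⟩ : ∃ J : Matrix (Fin N) (Fin N) ℝ, ∀ i j, J i j = S i j / r i + K i j :=
    ⟨Matrix.of fun i j => S i j / r i + K i j, fun _ _ => rfl⟩
  have hφt : ∀ i, i ∈ t → φ i = Real.pi := fun i hi => by
    have h3 : i ∉ s \ t := fun h => (Finset.mem_sdiff.1 h).2 hi
    rw [hφ, if_neg h3, hφ₀, (hmem i).1 (hts hi), Real.arccos_neg_one]
  have hφs : ∀ i, i ∉ s → φ i = φ₀ i := fun i hi => by
    have h3 : i ∉ s \ t := fun h => hi (Finset.mem_sdiff.1 h).1
    rw [hφ, if_neg h3]
  have hφ₀0 : ∀ i, 0 ≤ φ₀ i := fun i => by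
    rw [hφ₀]
    exact Real.arccos_nonneg _
  have hPCS : PCS φ J := by
    refine ⟨?_, ?_, ?_, ?_⟩
    · intro i
      rw [hφ]
      split_ifs
      · exact le_rfl
      · exact hφ₀0 i
    · intro i j
      rw [hJ, hJ, hK1 i j, hskew i j]
      by_cases hij : S i j = 0
      · simp [hij]
      · rw [hrr i j hij]
        ring
    · intro i j hij
      rw [hJ] at hij
      by_cases hK : K i j = 0
      · rw [hK, add_zero] at hij
        have h3 : S i j ≠ 0 := fun e => hij (by rw [e, zero_div])
        have h4 : r i ≠ 0 := fun e => hij (by rw [e, div_zero])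
        have h5 : r j ≠ 0 := fun e => h4 (by rw [hrr i j h3, e])
        have h6 : i ∉ s := fun e => h4 (hsr i e)
        have h7 : j ∉ s := fun e => h5 (hsr j e)
        rw [hφs i h6, hφs j h7, hφ₀, hφ₀, hSc i j h3]
      · obtain ⟨h3, h4⟩ := hK2 i j hK
        rw [hφt i h3, hφt j h4]
    · intro i j
      rw [Matrix.mul_apply]
      have e1 : ∀ k, J i k * J k j = (S i k * S k j) / r i ^ 2 + K i k * K k j := by
        intro k
        rw [hJ, hJ]
        by_cases hS : S i k = 0
        · by_cases hK : K k j = 0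
          · by_cases hK' : K i k = 0
            · simp only [hS, hK, hK', zero_div, zero_add, add_zero, zero_mul, mul_zero]
            · have h3 := (hK2 i k hK').2
              have h4 : S k j = 0 := hS0 k (hsr k (hts h3)) j
              simp [hS, h4, hK]
          · have h3 := (hK2 k j hK).1
            have h4 : S k j = 0 := hS0 k (hsr k (hts h3)) j
            simp [hS, h4]
        · have h3 : r i = r k := hrr i k hS
          have h4 : K k j = 0 := by
            by_contra hK
            have h5 := (hK2 k j hK).1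
            exact hS (hSs k (hts h5) i)
          have h5 : K i k = 0 := by
            by_contra hK'
            have h6 := (hK2 i k hK').2
            exact hS (hSs k (hts h6) i)
          rw [h4, h5, ← h3]
          by_cases hr0 : r i = 0
          · simp [hr0]
          · field_simp
            ring
      simp only [e1]
      rw [Finset.sum_add_distrib, ← Finset.sum_div, hsq i j]
      have e2 : ∑ k, K i k * K k j = (K * K) i j := by rw [Matrix.mul_apply]
      rw [e2, hK3 i j]
      by_cases hij : i = j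
      · subst hij
        simp only [true_and, if_true]
        by_cases hr0 : r i = 0
        · have e3 : (c i ^ 2 - 1) / r i ^ 2 = 0 := by simp [hr0]
          rw [e3, zero_add]
          by_cases hit : i ∈ t
          · have : 0 < φ i := by
              rw [hφt i hit]
              exact Real.pi_pos
            simp [hit, this]
          · have h3 : ¬ 0 < φ i := by
              rw [hφ]
              by_cases his : i ∈ s
              · have : i ∈ s \ t := Finset.mem_sdiff.2 ⟨his, hit⟩
                simp [this]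
              · have h4 : i ∉ s \ t := fun h => his (Finset.mem_sdiff.1 h).1
                rw [if_neg h4]
                have h5 : c i ^ 2 = 1 := by
                  have := hr2 i
                  rw [hr0] at this
                  nlinarith
                have h6 : c i = 1 := by
                  have h7 : c i ≠ -1 := fun e => his ((hmem i).2 e)
                  have h8 : (c i - 1) * (c i + 1) = 0 := by ring_nf; linarith
                  rcases mul_eq_zero.1 h8 with h9 | h9
                  · linarith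
                  · exact absurd (by linarith) h7
                rw [hφ₀, h6, Real.arccos_one]
                exact lt_irrefl _
            simp [hit, h3]
        · have his : i ∉ s := fun e => hr0 (hsr i e)
          have hit : i ∉ t := fun e => his (hts e)
          have h3 : (c i ^ 2 - 1) / r i ^ 2 = -1 := by
            have hr3 : r i ^ 2 ≠ 0 := pow_ne_zero _ hr0
            rw [div_eq_iff hr3, hr2 i]
            ring
          have h4 : 0 < φ i := by
            rw [hφs i his]
            refine lt_of_le_of_ne (hφ₀0 i) fun e => hr0 ?_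
            rw [hr, ← e, Real.sin_zero]
          simp [hit, h4, h3]
      · simp [hij]
  refine ⟨φ, J, hPCS, ?_, ?_⟩
  · intro i
    rw [hφ]
    split_ifs
    · exact Real.pi_pos.le
    · rw [hφ₀]
      exact Real.arccos_le_pi _
  -- the form of `Wt`
  have hWt : ∀ i j, Wt φ J 1 i j = (if i = j then (if i ∈ s \ t then 1 else c i) else 0) + S i j := by
    intro i j
    rw [Wt_apply, one_mul]
    by_cases hit : i ∈ s \ t
    · have h3 : φ i = 0 := by rw [hφ, if_pos hit]
      have h4 := hS0 i (hsr i (Finset.mem_sdiff.1 hit).1) j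
      simp [h3, h4, hit]
    · have h3 : Real.cos (φ i) = c i := by rw [hφ, if_neg hit, hcos]
      have h4 : Real.sin (φ i) * J i j = S i j := by
        by_cases h5 : i ∈ t
        · rw [hφt i h5, Real.sin_pi, zero_mul, hS0 i (hsr i (hts h5)) j]
        · have h6 : i ∉ s := fun e => hit (Finset.mem_sdiff.2 ⟨e, h5⟩)
          have h7 : K i j = 0 := by
            by_contra hK
            exact h5 (hK2 i j hK).1
          rw [hφs i h6, hJ, h7, add_zero, ← hr i]
          by_cases hr0 : r i = 0
          · rw [hS0 i hr0 j]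
            simp
          · field_simp
      rw [h3, h4]
      simp [hit]
  have hW' : ∀ i j, W' i j = (if i = j then c i else 0) + S i j := by
    intro i j
    rw [hW]
    simp [Matrix.add_apply, Matrix.diagonal_apply]
  by_cases hemp : s \ t = ∅
  · ext i j
    rw [hW', hWt, hemp]
    simp
  · exfalso
    obtain ⟨k, hk⟩ := Finset.nonempty_iff_ne_empty.2 hemp
    have huniq : ∀ i, i ∈ s \ t ↔ i = k := by
      intro i
      constructor
      · intro hi
        exact Finset.card_le_one.1 hcard i hi k hk
      · rintro rfl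
        exact hk
    have hfact : W' = Wt φ J 1 * Matrix.diagonal (fun j => if j = k then (-1:ℝ) else 1) := by
      ext i j
      rw [Matrix.mul_diagonal, hW', hWt]
      have hks : k ∈ s := (Finset.mem_sdiff.1 hk).1
      have hck : c k = -1 := (hmem k).1 hks
      by_cases hjk : j = k
      · subst hjk
        have h3 := hSs j hks i
        by_cases hij : i = j
        · subst hij
          have h4 : i ∈ s \ t := hk
          simp [h3, h4, hck]
        · simp [h3, hij]
      · have h3 : ¬ (i = j ∧ i = k) := fun h => hjk (h.1.symm.trans h.2)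
        by_cases hij : i = j
        · subst hij
          have h4 : i ∉ s \ t := fun e => hjk ((huniq i).1 e)
          simp [h4, hjk]
        · simp [hij, hjk]
    have hdet1 : (Wt φ J 1).det = (Wt φ J (1/2)).det ^ 2 := by
      rw [pow_two, ← Matrix.det_mul, Wt_add hPCS]
      norm_num
    have hdet2 : (Matrix.diagonal (fun j => if j = k then (-1:ℝ) else 1)).det = -1 := by
      rw [Matrix.det_diagonal, Finset.prod_ite_eq']
      simp
    have h3 := congrArg Matrix.det hfact
    rw [Matrix.det_mul, hdet1, hdet2, hdet] at h3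
    nlinarith [sq_nonneg (Wt φ J (1/2)).det]

lemma coe_inv_OG (Q : OG N) : ((Q⁻¹ : OG N) : Matrix (Fin N) (Fin N) ℝ) = (Q : Matrix (Fin N) (Fin N) ℝ).transpose := by
  have h1 : ((Q⁻¹ : OG N) : Matrix (Fin N) (Fin N) ℝ) * (Q : Matrix (Fin N) (Fin N) ℝ) = 1 := by
    have : (Q⁻¹ * Q : OG N) = 1 := inv_mul_cancel Q
    exact congrArg Subtype.val this
  have h2 := OG_mul_tr Q
  calc ((Q⁻¹ : OG N) : Matrix (Fin N) (Fin N) ℝ)
      = ((Q⁻¹ : OG N) : Matrix (Fin N) (Fin N) ℝ) * ((Q : Matrix (Fin N) (Fin N) ℝ) * (Q : Matrix (Fin N) (Fin N) ℝ).transpose) := by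
        rw [h2, Matrix.mul_one]
    _ = _ := by rw [← Matrix.mul_assoc, h1, Matrix.one_mul]

/-- A one-parameter path from the identity with a skew generator. -/
structure IsPath (W : OG N) (V : ℝ → OG N) (A : Matrix (Fin N) (Fin N) ℝ) : Prop where
  zero : V 0 = 1
  one : V 1 = W
  skew : ∀ i j, A j i = - A i j
  deriv : ∀ θ i j, HasDerivAt (fun t => (V t : Matrix (Fin N) (Fin N) ℝ) i j)
    ((A * (V θ : Matrix (Fin N) (Fin N) ℝ)) i j) θ

/-- Conjugating a path. -/
lemma IsPath.conj {W : OG N} {V : ℝ → OG N} {A : Matrix (Fin N) (Fin N) ℝ} (h : IsPath W V A)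
    (Q : OG N) : IsPath (Q * W * Q⁻¹) (fun θ => Q * V θ * Q⁻¹)
      ((Q : Matrix (Fin N) (Fin N) ℝ) * A * (Q : Matrix (Fin N) (Fin N) ℝ).transpose) := by
  refine ⟨?_, ?_, ?_, ?_⟩
  · simp [h.zero]
  · simp [h.one]
  · intro i j
    have e : ((Q : Matrix (Fin N) (Fin N) ℝ) * A * (Q : Matrix (Fin N) (Fin N) ℝ).transpose).transpose
        = - ((Q : Matrix (Fin N) (Fin N) ℝ) * A * (Q : Matrix (Fin N) (Fin N) ℝ).transpose) := by
      have hA : A.transpose = - A := by
        ext a b
        exact h.skew a b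
      rw [Matrix.transpose_mul, Matrix.transpose_mul, Matrix.transpose_transpose, hA]
      simp [Matrix.mul_assoc]
    have := congrFun (congrFun e i) j
    simpa using this
  · intro θ i j
    have e1 : (fun t => (((Q * V t * Q⁻¹ : OG N)) : Matrix (Fin N) (Fin N) ℝ) i j)
        = fun t => ∑ l, (∑ k, (Q : Matrix (Fin N) (Fin N) ℝ) i k * (V t : Matrix (Fin N) (Fin N) ℝ) k l)
            * (Q : Matrix (Fin N) (Fin N) ℝ) j l := by
      ext t
      change ((Q : Matrix (Fin N) (Fin N) ℝ) * (V t : Matrix (Fin N) (Fin N) ℝ)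
        * ((Q⁻¹ : OG N) : Matrix (Fin N) (Fin N) ℝ)) i j = _
      rw [coe_inv_OG, Matrix.mul_apply]
      refine Finset.sum_congr rfl fun l _ => ?_
      rw [Matrix.mul_apply, Matrix.transpose_apply]
    have e2 : ((((Q : Matrix (Fin N) (Fin N) ℝ) * A * (Q : Matrix (Fin N) (Fin N) ℝ).transpose)
        * (((fun θ => Q * V θ * Q⁻¹) θ : OG N) : Matrix (Fin N) (Fin N) ℝ)) i j)
        = ∑ l, (∑ k, (Q : Matrix (Fin N) (Fin N) ℝ) i k * (A * (V θ : Matrix (Fin N) (Fin N) ℝ)) k l)
            * (Q : Matrix (Fin N) (Fin N) ℝ) j l := by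
      have : (((fun θ => Q * V θ * Q⁻¹) θ : OG N) : Matrix (Fin N) (Fin N) ℝ)
          = (Q : Matrix (Fin N) (Fin N) ℝ) * (V θ : Matrix (Fin N) (Fin N) ℝ)
            * (Q : Matrix (Fin N) (Fin N) ℝ).transpose := by
        change (Q : Matrix (Fin N) (Fin N) ℝ) * (V θ : Matrix (Fin N) (Fin N) ℝ)
          * ((Q⁻¹ : OG N) : Matrix (Fin N) (Fin N) ℝ) = _
        rw [coe_inv_OG]
      rw [this]
      have e3 : (Q : Matrix (Fin N) (Fin N) ℝ) * A * (Q : Matrix (Fin N) (Fin N) ℝ).transpose *
          ((Q : Matrix (Fin N) (Fin N) ℝ) * (V θ : Matrix (Fin N) (Fin N) ℝ)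
            * (Q : Matrix (Fin N) (Fin N) ℝ).transpose)
          = (Q : Matrix (Fin N) (Fin N) ℝ) * (A * (V θ : Matrix (Fin N) (Fin N) ℝ))
            * (Q : Matrix (Fin N) (Fin N) ℝ).transpose := by
        calc _ = (Q : Matrix (Fin N) (Fin N) ℝ) * A * ((Q : Matrix (Fin N) (Fin N) ℝ).transpose *
              (Q : Matrix (Fin N) (Fin N) ℝ)) * (V θ : Matrix (Fin N) (Fin N) ℝ)
              * (Q : Matrix (Fin N) (Fin N) ℝ).transpose := by
              simp only [Matrix.mul_assoc]
          _ = _ := by
              rw [OG_tr_mul, Matrix.mul_one]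
              simp only [Matrix.mul_assoc]
      rw [e3, Matrix.mul_apply]
      refine Finset.sum_congr rfl fun l _ => ?_
      rw [Matrix.mul_apply, Matrix.transpose_apply]
    rw [e1, e2]
    refine HasDerivAt.fun_sum fun l _ => HasDerivAt.mul_const ?_ _
    exact HasDerivAt.fun_sum fun k _ => (h.deriv θ k l).const_mul _

/-- The squared Hilbert-Schmidt norm. -/
def hs (A : Matrix (Fin N) (Fin N) ℝ) : ℝ := ∑ i, ∑ j, A i j ^ 2

lemma hs_eq_trace (A : Matrix (Fin N) (Fin N) ℝ) : hs A = (A * A.transpose).trace := by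
  unfold hs Matrix.trace
  refine Finset.sum_congr rfl fun i _ => ?_
  simp [Matrix.mul_apply, pow_two]

lemma hs_nonneg (A : Matrix (Fin N) (Fin N) ℝ) : 0 ≤ hs A :=
  Finset.sum_nonneg fun _ _ => Finset.sum_nonneg fun _ _ => sq_nonneg _

lemma hs_conj (Q : OG N) (A : Matrix (Fin N) (Fin N) ℝ) :
    hs ((Q : Matrix (Fin N) (Fin N) ℝ) * A * (Q : Matrix (Fin N) (Fin N) ℝ).transpose) = hs A := by
  rw [hs_eq_trace, hs_eq_trace]
  have e : (Q : Matrix (Fin N) (Fin N) ℝ) * A * (Q : Matrix (Fin N) (Fin N) ℝ).transpose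
      * ((Q : Matrix (Fin N) (Fin N) ℝ) * A * (Q : Matrix (Fin N) (Fin N) ℝ).transpose).transpose
      = (Q : Matrix (Fin N) (Fin N) ℝ) * (A * A.transpose * (Q : Matrix (Fin N) (Fin N) ℝ).transpose) := by
    rw [Matrix.transpose_mul, Matrix.transpose_mul, Matrix.transpose_transpose]
    calc _ = (Q : Matrix (Fin N) (Fin N) ℝ) * A * ((Q : Matrix (Fin N) (Fin N) ℝ).transpose
          * (Q : Matrix (Fin N) (Fin N) ℝ)) * (A.transpose * (Q : Matrix (Fin N) (Fin N) ℝ).transpose) := by
          simp only [Matrix.mul_assoc]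
      _ = _ := by
          rw [OG_tr_mul, Matrix.mul_one]
          simp only [Matrix.mul_assoc]
  rw [e, Matrix.trace_mul_comm, Matrix.mul_assoc, OG_tr_mul, Matrix.mul_one]

/-- Every special orthogonal matrix lies on a path with a generator of controlled norm. -/
theorem exists_path (W : OG N) (hdet : (W : Matrix (Fin N) (Fin N) ℝ).det = 1) :
    ∃ (V : ℝ → OG N) (A : Matrix (Fin N) (Fin N) ℝ), IsPath W V A ∧ hs A ≤ N * Real.pi ^ 2 := by
  obtain ⟨C, hCdef⟩ : ∃ C, C = (1 / 2 : ℝ) • ((W : Matrix (Fin N) (Fin N) ℝ)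
      + (W : Matrix (Fin N) (Fin N) ℝ).transpose) := ⟨_, rfl⟩
  have hC : C.IsHermitian := by
    rw [Matrix.IsHermitian, Matrix.conjTranspose_eq_transpose_of_trivial, hCdef,
      Matrix.transpose_smul, Matrix.transpose_add, Matrix.transpose_transpose, add_comm]
  obtain ⟨Q, hQ⟩ : ∃ Q : OG N, Q = hC.eigenvectorUnitary := ⟨_, rfl⟩
  obtain ⟨c, hc⟩ : ∃ c : Fin N → ℝ, c = hC.eigenvalues := ⟨_, rfl⟩
  have hspec : C = (Q : Matrix (Fin N) (Fin N) ℝ) * Matrix.diagonal c * (Q : Matrix (Fin N) (Fin N) ℝ).transpose := by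
    have h := hC.spectral_theorem
    rw [Unitary.conjStarAlgAut_apply] at h
    rw [h, hQ, hc]
    have e1 : (RCLike.ofReal ∘ hC.eigenvalues : Fin N → ℝ) = hC.eigenvalues := by
      ext i
      simp
    rw [e1]
    congr 1
  obtain ⟨W', hW'⟩ : ∃ W' : OG N, W' = Q⁻¹ * W * Q := ⟨_, rfl⟩
  have hval : (W' : Matrix (Fin N) (Fin N) ℝ) = (Q : Matrix (Fin N) (Fin N) ℝ).transpose * (W : Matrix (Fin N) (Fin N) ℝ) * (Q : Matrix (Fin N) (Fin N) ℝ) := by
    rw [hW']
    change ((Q⁻¹ : OG N) : Matrix (Fin N) (Fin N) ℝ) * _ * _ = _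
    rw [coe_inv_OG]
  have hsum : (W' : Matrix (Fin N) (Fin N) ℝ) + (W' : Matrix (Fin N) (Fin N) ℝ).transpose = (2:ℝ) • Matrix.diagonal c := by
    have e1 : (W : Matrix (Fin N) (Fin N) ℝ) + (W : Matrix (Fin N) (Fin N) ℝ).transpose = (2:ℝ) • C := by
      rw [hCdef, smul_smul]
      norm_num
    have e2 : (Q : Matrix (Fin N) (Fin N) ℝ).transpose * C * (Q : Matrix (Fin N) (Fin N) ℝ) = Matrix.diagonal c := by
      rw [hspec]
      calc _ = ((Q : Matrix (Fin N) (Fin N) ℝ).transpose * (Q : Matrix (Fin N) (Fin N) ℝ)) * Matrix.diagonal c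
            * ((Q : Matrix (Fin N) (Fin N) ℝ).transpose * (Q : Matrix (Fin N) (Fin N) ℝ)) := by
            simp only [Matrix.mul_assoc]
        _ = _ := by rw [OG_tr_mul]; simp
    have e5 : (2:ℝ) • ((Q : Matrix (Fin N) (Fin N) ℝ).transpose * C * (Q : Matrix (Fin N) (Fin N) ℝ))
        = (Q : Matrix (Fin N) (Fin N) ℝ).transpose * ((2:ℝ) • C) * (Q : Matrix (Fin N) (Fin N) ℝ) := by
      rw [Matrix.mul_smul, Matrix.smul_mul]
    rw [hval, Matrix.transpose_mul, Matrix.transpose_mul, Matrix.transpose_transpose, ← e2, e5, ← e1,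
      Matrix.mul_add, Matrix.add_mul]
    simp only [Matrix.mul_assoc]
  obtain ⟨S, hS⟩ : ∃ S, S = (W' : Matrix (Fin N) (Fin N) ℝ) - Matrix.diagonal c := ⟨_, rfl⟩
  have hW1 : (W' : Matrix (Fin N) (Fin N) ℝ) = Matrix.diagonal c + S := by
    rw [hS]
    abel
  have hT1 : (W' : Matrix (Fin N) (Fin N) ℝ).transpose = Matrix.diagonal c - S := by
    rw [hS]
    have e3 : (W' : Matrix (Fin N) (Fin N) ℝ).transpose
        = (2:ℝ) • Matrix.diagonal c - (W' : Matrix (Fin N) (Fin N) ℝ) := by
      rw [← hsum]
      abel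
    rw [e3, two_smul]
    abel
  have hdet' : (W' : Matrix (Fin N) (Fin N) ℝ).det = 1 := by
    rw [hval, Matrix.det_mul, Matrix.det_mul, hdet, mul_one, mul_comm, ← Matrix.det_mul,
      OG_mul_tr, Matrix.det_one]
  obtain ⟨φ, J, hP, hπ, hform⟩ := canon_form (OG_tr_mul W') (OG_mul_tr W') hdet' hW1 hT1
  have hbase : IsPath W' (fun θ => ⟨Wt φ J θ, Wt_orth hP θ⟩) (Matrix.diagonal φ * J) := by
    refine ⟨?_, ?_, fun i j => gen_skew hP i j, fun θ i j => Wt_deriv hP θ i j⟩
    · exact Subtype.ext (Wt_zero φ J)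
    · exact Subtype.ext hform.symm
  have hpath := hbase.conj Q
  have e4 : Q * W' * Q⁻¹ = W := by
    rw [hW']
    group
  rw [e4] at hpath
  refine ⟨_, _, hpath, ?_⟩
  rw [hs_conj]
  exact gen_norm hP (fun i => by
    have h1 := hP.nonneg i
    have h2 := hπ i
    nlinarith [Real.pi_pos]) (sq_nonneg _)

end Vale.Agent.Lib.P166
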