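import Vale.Agent.Lib.P166.Gdet

/-!
Compression of the Gaussian integral to the orthogonal complement of a coordinate vector.
-/

open scoped BigOperators NNReal ENNReal
open MeasureTheory ProbabilityTheory Matrix

namespace Vale.Agent.Lib.P166

variable {m : ℕ}

lemma nsq_succ (g : Fin (m + 1) → ℝ) : nsq g = g 0 ^ 2 + nsq (Fin.tail g) := by
  unfold nsq
  rw [Fin.sum_univ_succ]
  rfl

/-- The compression of a matrix. -/
def comp (C : Matrix (Fin (m + 1)) (Fin (m + 1)) ℝ) : Matrix (Fin m) (Fin m) ℝ :=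
  C.submatrix Fin.succ Fin.succ

/-- The linear term coupling the first coordinate and the others. -/
def cross (C : Matrix (Fin (m + 1)) (Fin (m + 1)) ℝ) (h : Fin m → ℝ) : ℝ :=
  ∑ j, C 0 j.succ * h j

lemma qf_succ {C : Matrix (Fin (m + 1)) (Fin (m + 1)) ℝ} (hC : C.IsSymm)
    (g : Fin (m + 1) → ℝ) :
    qf C g = C 0 0 * g 0 ^ 2 + 2 * g 0 * cross C (Fin.tail g) + qf (comp C) (Fin.tail g) := by
  unfold qf cross comp
  simp only [dotProduct, Matrix.mulVec, Fin.sum_univ_succ, Matrix.submatrix_apply, Fin.tail]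
  have hs : ∀ i : Fin m, C i.succ 0 = C 0 i.succ := fun i => hC.apply _ _
  simp only [hs, mul_add, Finset.mul_sum, Finset.sum_add_distrib]
  have e : ∑ x : Fin m, g x.succ * (C 0 x.succ * g 0) = ∑ x : Fin m, g 0 * (C 0 x.succ * g x.succ) :=
    Finset.sum_congr rfl fun x _ => by ring
  rw [e]
  have e2 : ∑ i : Fin m, 2 * g 0 * (C 0 i.succ * g i.succ)
      = 2 * ∑ i : Fin m, g 0 * (C 0 i.succ * g i.succ) := by
    rw [Finset.mul_sum]
    exact Finset.sum_congr rfl fun i _ => by ring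
  rw [e2]
  ring

/-- Splitting off the first coordinate for products. -/
lemma gam_succ_prod (a : ℝ → ℝ) (b : (Fin m → ℝ) → ℝ) :
    ∫ g : Fin (m + 1) → ℝ, a (g 0) * b (Fin.tail g) ∂(gam (Fin (m + 1)))
      = (∫ t, a t ∂(gaussianReal 0 1)) * ∫ h, b h ∂(gam (Fin m)) := by
  have hmp := measurePreserving_piFinSuccAbove (fun _ : Fin (m + 1) => gaussianReal 0 1) 0
  have h1 := hmp.integral_comp' (g := fun p : ℝ × (Fin m → ℝ) => a p.1 * b p.2)
  have h2 : ∀ g : Fin (m + 1) → ℝ, (MeasurableEquiv.piFinSuccAbove (fun _ => ℝ) 0) g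
      = (g 0, Fin.tail g) := by
    intro g
    ext j
    · rfl
    · simp [MeasurableEquiv.piFinSuccAbove, Fin.tail]
  simp only [h2] at h1
  unfold gam
  rw [h1]
  have h3 := integral_prod_mul (μ := gaussianReal 0 1)
    (ν := Measure.pi fun j : Fin m => (fun _ : Fin (m + 1) => gaussianReal 0 1) (Fin.succAbove 0 j))
    a b
  exact h3

/-- The reflection of the first coordinate. -/
noncomputable def flip0 : Matrix (Fin (m + 1)) (Fin (m + 1)) ℝ :=
  Matrix.diagonal (Fin.cons (-1) fun _ => 1)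

lemma flip0_orth : (flip0 (m := m)).transpose * flip0 = 1 := by
  unfold flip0
  rw [Matrix.diagonal_transpose, Matrix.diagonal_mul_diagonal, ← Matrix.diagonal_one]
  congr 1
  ext i
  refine Fin.cases ?_ (fun j => ?_) i <;> simp

lemma flip0_zero (g : Fin (m + 1) → ℝ) : (flip0 *ᵥ g) 0 = - g 0 := by
  unfold flip0
  simp [Matrix.mulVec_diagonal]

lemma flip0_tail (g : Fin (m + 1) → ℝ) : Fin.tail (flip0 *ᵥ g) = Fin.tail g := by
  unfold flip0
  ext i
  simp [Matrix.mulVec_diagonal, Fin.tail]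

lemma cons_unit {h : Fin m → ℝ} (t : ℝ) : nsq (Fin.cons t h : Fin (m + 1) → ℝ) = t ^ 2 + nsq h := by
  rw [nsq_succ]
  simp [Fin.tail]

lemma qf_comp {C : Matrix (Fin (m + 1)) (Fin (m + 1)) ℝ} (hC : C.IsSymm) (h : Fin m → ℝ) :
    qf C (Fin.cons 0 h) = qf (comp C) h := by
  rw [qf_succ hC]
  simp [Fin.tail]

/-- The compression inequality. -/
theorem gdet_comp_le {C : Matrix (Fin (m + 1)) (Fin (m + 1)) ℝ} (hC : C.IsSymm) {δ : ℝ}
    (hδ : 0 < δ) (hB : ∀ u, nsq u = 1 → δ ≤ qf C u) :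
    gdet (comp C) ≤ Real.sqrt (C 0 0) * gdet C := by
  have hd : δ ≤ C 0 0 := by
    have h1 : nsq (Fin.cons 1 0 : Fin (m + 1) → ℝ) = 1 := by
      rw [cons_unit]
      simp [nsq]
    have h2 := hB _ h1
    rw [qf_succ hC] at h2
    simpa [Fin.tail, cross, qf] using h2
  have hd0 : 0 < C 0 0 := hδ.trans_le hd
  obtain ⟨d, hdd⟩ : ∃ d, d = C 0 0 := ⟨_, rfl⟩
  rw [← hdd] at hd hd0 ⊢
  have hI := integrable_gdet hδ hB
  have hI' : Integrable (fun g : Fin (m + 1) → ℝ =>
      Real.exp ((nsq g - qf C (flip0 *ᵥ g)) / 2)) (gam (Fin (m + 1))) := by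
    have hmp : MeasurePreserving (fun x : Fin (m + 1) → ℝ => flip0 *ᵥ x) (gam (Fin (m + 1)))
        (gam (Fin (m + 1))) := ⟨by fun_prop, map_mulVec_gam flip0 flip0_orth⟩
    have := hmp.integrable_comp_of_integrable hI
    refine this.congr (Filter.Eventually.of_forall fun g => ?_)
    simp only [Function.comp]
    rw [nsq_mulVec flip0_orth]
  have hval : ∫ g : Fin (m + 1) → ℝ, Real.exp ((nsq g - qf C (flip0 *ᵥ g)) / 2) ∂(gam (Fin (m + 1)))
      = gdet C := by
    unfold gdet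
    rw [← integral_mulVec_gam flip0_orth (fun g => Real.exp ((nsq g - qf C g) / 2))]
    refine integral_congr_ae (Filter.Eventually.of_forall fun g => ?_)
    simp only
    rw [nsq_mulVec flip0_orth]
  have hsplit : ∫ g : Fin (m + 1) → ℝ, Real.exp (((1 - d) / 2) * g 0 ^ 2)
      * Real.exp ((nsq (Fin.tail g) - qf (comp C) (Fin.tail g)) / 2) ∂(gam (Fin (m + 1)))
      = Real.sqrt (1 / d) * gdet (comp C) := by
    rw [gam_succ_prod (fun t => Real.exp (((1 - d) / 2) * t ^ 2))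
      (fun h => Real.exp ((nsq h - qf (comp C) h) / 2))]
    have hθ : (1 - d) / 2 < 1 / 2 := by linarith
    rw [(integral_exp_sq_pdf hθ).2]
    unfold gdet
    congr 3
    ring
  have hle : ∫ g : Fin (m + 1) → ℝ, Real.exp (((1 - d) / 2) * g 0 ^ 2)
      * Real.exp ((nsq (Fin.tail g) - qf (comp C) (Fin.tail g)) / 2) ∂(gam (Fin (m + 1)))
      ≤ ∫ g : Fin (m + 1) → ℝ, (1 / 2) * (Real.exp ((nsq g - qf C g) / 2)
        + Real.exp ((nsq g - qf C (flip0 *ᵥ g)) / 2)) ∂(gam (Fin (m + 1))) := by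
    refine integral_mono_of_nonneg (Filter.Eventually.of_forall fun g => by positivity)
      ((hI.add hI').const_mul _) (Filter.Eventually.of_forall fun g => ?_)
    simp only
    obtain ⟨t, ht⟩ : ∃ t, t = g 0 := ⟨_, rfl⟩
    obtain ⟨s, hs⟩ : ∃ s, s = cross C (Fin.tail g) := ⟨_, rfl⟩
    obtain ⟨A, hA⟩ : ∃ A, A = ((1 - d) / 2) * t ^ 2
      + (nsq (Fin.tail g) - qf (comp C) (Fin.tail g)) / 2 := ⟨_, rfl⟩
    have e1 : (nsq g - qf C g) / 2 = A + (- (t * s)) := by
      rw [qf_succ hC, nsq_succ, hA, ← hdd, ← ht, ← hs]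
      ring
    have e2 : (nsq g - qf C (flip0 *ᵥ g)) / 2 = A + (t * s) := by
      rw [qf_succ hC, nsq_succ, hA, ← hdd, flip0_zero, flip0_tail, ← ht, ← hs]
      ring
    rw [e1, e2, ← Real.exp_add, ← ht, ← hA, Real.exp_add, Real.exp_add]
    have hcosh : 2 ≤ Real.exp (-(t * s)) + Real.exp (t * s) := by
      have h1 := Real.add_one_le_exp (t * s)
      have h2 := Real.add_one_le_exp (-(t * s))
      linarith
    have hpos := Real.exp_pos A
    have hdone : Real.exp A * 2 ≤ Real.exp A * (Real.exp (-(t * s)) + Real.exp (t * s)) :=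
      mul_le_mul_of_nonneg_left hcosh hpos.le
    linarith
  have hsum : ∫ g : Fin (m + 1) → ℝ, (1 / 2) * (Real.exp ((nsq g - qf C g) / 2)
      + Real.exp ((nsq g - qf C (flip0 *ᵥ g)) / 2)) ∂(gam (Fin (m + 1))) = gdet C := by
    rw [integral_const_mul, integral_add hI hI', hval]
    unfold gdet
    ring
  rw [hsplit, hsum] at hle
  have hsq : Real.sqrt d * Real.sqrt (1 / d) = 1 := by
    rw [← Real.sqrt_mul hd0.le, mul_one_div_cancel hd0.ne', Real.sqrt_one]
  calc gdet (comp C) = Real.sqrt d * Real.sqrt (1 / d) * gdet (comp C) := by rw [hsq, one_mul]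
    _ = Real.sqrt d * (Real.sqrt (1 / d) * gdet (comp C)) := by ring
    _ ≤ Real.sqrt d * gdet C := mul_le_mul_of_nonneg_left hle (Real.sqrt_nonneg _)

end Vale.Agent.Lib.P166
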