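import Mathlib

/-!
The orthogonal group with its Haar probability measure, and the pressure of the
orthogonally invariant Ising model.
-/

open MeasureTheory Matrix
open scoped BigOperators Topology

namespace Vale.Agent.Lib.P166

/-- The orthogonal group `O(N)` as a type. -/
abbrev OG (N : ℕ) : Type := Matrix.orthogonalGroup (Fin N) ℝ

instance instMS (N : ℕ) : MeasurableSpace (OG N) := borel _
instance instBS (N : ℕ) : BorelSpace (OG N) := ⟨rfl⟩

lemma isCompact_orth (N : ℕ) :
    IsCompact {A : Matrix (Fin N) (Fin N) ℝ | A ∈ Matrix.orthogonalGroup (Fin N) ℝ} := by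
  have hbox : IsCompact (Set.pi Set.univ fun _ : Fin N => Set.pi Set.univ fun _ : Fin N =>
      Set.Icc (-1 : ℝ) 1) :=
    isCompact_univ_pi fun _ => isCompact_univ_pi fun _ => isCompact_Icc
  have hcl : IsClosed {A : Matrix (Fin N) (Fin N) ℝ | A ∈ Matrix.orthogonalGroup (Fin N) ℝ} := by
    have h : {A : Matrix (Fin N) (Fin N) ℝ | A ∈ Matrix.orthogonalGroup (Fin N) ℝ}
        = (fun A : Matrix (Fin N) (Fin N) ℝ => A * A.transpose) ⁻¹' {1} := by
      ext A
      simp only [Set.mem_ofPred_eq, Set.mem_preimage, Set.mem_singleton_iff]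
      exact Matrix.mem_orthogonalGroup_iff (Fin N) ℝ
    rw [h]
    exact isClosed_singleton.preimage (continuous_id.matrix_mul continuous_id.matrix_transpose)
  refine IsCompact.of_isClosed_subset hbox hcl ?_
  intro A hA
  have hA' : A * A.transpose = 1 := (Matrix.mem_orthogonalGroup_iff (Fin N) ℝ).1 hA
  refine fun i _ j _ => ?_
  have h1 : ∑ k, A i k * A i k = 1 := by
    have := congrFun (congrFun hA' i) i
    simpa [Matrix.mul_apply] using this
  have h2 : A i j * A i j ≤ ∑ k, A i k * A i k :=
    Finset.single_le_sum (f := fun k => A i k * A i k) (fun k _ => mul_self_nonneg _)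
      (Finset.mem_univ j)
  rw [h1] at h2
  exact abs_le.1 (abs_le_of_sq_le_sq (by nlinarith) (by norm_num))

instance instCS (N : ℕ) : CompactSpace (OG N) :=
  isCompact_iff_compactSpace.1 (isCompact_orth N)

/-- The Haar probability measure on `O(N)`. -/
noncomputable def haarO (N : ℕ) : Measure (OG N) :=
  Measure.haarMeasure (⊤ : TopologicalSpace.PositiveCompacts (OG N))

instance instHaar (N : ℕ) : (haarO N).IsHaarMeasure := by
  unfold haarO
  infer_instance

instance instProb (N : ℕ) : IsProbabilityMeasure (haarO N) := by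
  constructor
  have := Measure.haarMeasure_self (K₀ := (⊤ : TopologicalSpace.PositiveCompacts (OG N)))
  simpa [haarO] using this

/-- The spin vector of a configuration. -/
def spin {N : ℕ} (σ : Fin N → Bool) : Fin N → ℝ := fun i => if σ i then 1 else -1

/-- The coupling matrix `J = Uᵀ Λ U`. -/
noncomputable def couplings {N : ℕ} (lam : Fin N → ℝ) (U : OG N) : Matrix (Fin N) (Fin N) ℝ :=
  (U : Matrix (Fin N) (Fin N) ℝ).transpose * Matrix.diagonal lam * (U : Matrix (Fin N) (Fin N) ℝ)

/-- The partition function `2^{-N} ∑_σ exp((β/2) σᵀ J σ)`. -/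
noncomputable def partitionFn {N : ℕ} (β : ℝ) (lam : Fin N → ℝ) (U : OG N) : ℝ :=
  (1 / 2 ^ N) * ∑ σ : Fin N → Bool,
    Real.exp ((β / 2) * (spin σ ⬝ᵥ (couplings lam U *ᵥ spin σ)))

/-- The pressure `P_N(β) = N⁻¹ log Z`. -/
noncomputable def pressure {N : ℕ} (β : ℝ) (lam : Fin N → ℝ) (U : OG N) : ℝ :=
  (1 / (N : ℝ)) * Real.log (partitionFn β lam U)

end Vale.Agent.Lib.P166
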