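import Vale.Agent.Lib.P166.Universal

/-!
Unless the limiting law is a point mass, the annealed formula fails at low temperature.
-/

open scoped BigOperators Topology
open MeasureTheory Filter

namespace Vale.Agent.Lib.P166

variable {μ : Measure ℝ} {a b : ℝ} {lam : ∀ N, Fin N → ℝ}

/-- The value of `psi` at the shifted point, with a gain from the mass away from the edge. -/
lemma psi_edge_bound (h : Spec μ a b lam) {x₀ β : ℝ} (hx₀ : x₀ < a) (hβ : 0 < β) :
    psi μ β (β * a + 1) ≤ β * a / 2 - (μ.real (Set.Iic x₀) / 2) * Real.log (1 + β * (a - x₀)) := by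
  have hprob := h.prob
  have hbd : ∀ x ∈ Set.Icc b a, 1 ≤ β * a + 1 - β * x := by
    intro x hx
    have := mul_le_mul_of_nonneg_left hx.2 hβ.le
    linarith
  have i1 := integrable_log_affine h (t := β) (y := β * a + 1) (m := 1) one_pos hbd
  have hd : 0 < a - x₀ := by linarith
  have hL : 0 < Real.log (1 + β * (a - x₀)) := Real.log_pos (by nlinarith [mul_pos hβ hd])
  have hlow : ∫ x, (Set.Iic x₀).indicator (fun _ => Real.log (1 + β * (a - x₀))) x ∂μ
      ≤ ∫ x, Real.log (β * a + 1 - β * x) ∂μ := by
    refine integral_mono_ae ((integrable_const _).indicator measurableSet_Iic) i1 ?_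
    filter_upwards [h.supp] with x hx
    have h2 := hbd x hx
    by_cases hxs : x ∈ Set.Iic x₀
    · rw [Set.indicator_of_mem hxs]
      have h3 : x ≤ x₀ := hxs
      refine Real.log_le_log (by nlinarith [mul_pos hβ hd]) ?_
      have := mul_le_mul_of_nonneg_left h3 hβ.le
      nlinarith
    · rw [Set.indicator_of_notMem hxs]
      exact Real.log_nonneg h2
  rw [integral_indicator measurableSet_Iic, setIntegral_const, smul_eq_mul] at hlow
  unfold psi
  nlinarith

/-- Jensen's bound for `psi`. -/
lemma psi_jensen (h : Spec μ a b lam) {β y : ℝ} (hβ : 0 < β) (hy : β * a < y) :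
    (1 / 2) * (y - 1 - Real.log (y - β * ∫ x, x ∂μ)) ≤ psi μ β y := by
  have hprob := h.prob
  obtain ⟨m, hm⟩ : ∃ m, m = ∫ x, x ∂μ := ⟨_, rfl⟩
  rw [← hm]
  have hma : m ≤ a := by
    rw [hm]
    exact h.mean_le
  have hv : 0 < y - β * m := by nlinarith
  have hbd : ∀ x ∈ Set.Icc b a, y - β * a ≤ y - β * x := by
    intro x hx
    have := mul_le_mul_of_nonneg_left hx.2 hβ.le
    linarith
  have i1 := integrable_log_affine h (t := β) (y := y) (by linarith) hbd
  have i2 : Integrable (fun x : ℝ => Real.log (y - β * m) + ((y - β * x) / (y - β * m) - 1)) μ :=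
    (integrable_const _).add ((((integrable_const _).sub (h.integrable_id.const_mul β)).div_const _).sub (integrable_const _))
  have h1 : ∫ x, Real.log (y - β * x) ∂μ ≤ ∫ x, (Real.log (y - β * m) + ((y - β * x) / (y - β * m) - 1)) ∂μ := by
    refine integral_mono_ae i1 i2 ?_
    filter_upwards [h.supp] with x hx
    have h2 := hbd x hx
    have h3 : 0 < y - β * x := by linarith
    have h4 := Real.log_le_sub_one_of_pos (div_pos h3 hv)
    rw [Real.log_div h3.ne' hv.ne'] at h4
    change Real.log (y - β * x) ≤ Real.log (y - β * m) + ((y - β * x) / (y - β * m) - 1)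
    linarith
  have e : ∫ x, (Real.log (y - β * m) + ((y - β * x) / (y - β * m) - 1)) ∂μ = Real.log (y - β * m) := by
    have i3 : Integrable (fun x : ℝ => (y - β * x) / (y - β * m) - 1) μ :=
      (((integrable_const _).sub (h.integrable_id.const_mul β)).div_const _).sub (integrable_const _)
    have i4 : Integrable (fun x : ℝ => (y - β * x) / (y - β * m)) μ :=
      ((integrable_const _).sub (h.integrable_id.const_mul β)).div_const _
    have i5 : Integrable (fun x : ℝ => β * x) μ := h.integrable_id.const_mul β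
    rw [integral_add (integrable_const _) i3, integral_sub i4 (integrable_const _), integral_div,
      integral_sub (integrable_const _) i5, integral_const_mul, ← hm]
    simp only [integral_const, probReal_univ, smul_eq_mul, one_mul]
    rw [div_self hv.ne']
    ring
  rw [e] at h1
  unfold psi
  linarith

/-- The annealed formula fails at low temperature unless the limit law is a point mass at `a`. -/
theorem annealed_fails (h : Spec μ a b lam) {x₀ : ℝ} (hx₀ : x₀ < a) (hp : 0 < μ (Set.Iic x₀)) :
    ∃ β₀ > 0, ∀ β ≥ β₀, ∀ y, β * a < y → Tendsto (fun N : ℕ => (haarO N).real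
      {U | psi μ β y - 1 / 2 ≤ pressure β (lam N) U}) atTop (𝓝 0) := by
  have hprob := h.prob
  obtain ⟨p, hpdef⟩ : ∃ p, p = μ.real (Set.Iic x₀) := ⟨_, rfl⟩
  have hp0 : 0 < p := by
    rw [hpdef]
    exact ENNReal.toReal_pos hp.ne' (measure_ne_top _ _)
  have hd : 0 < a - x₀ := by linarith
  -- the mean is strictly below the edge
  obtain ⟨m, hm⟩ : ∃ m, m = ∫ x, x ∂μ := ⟨_, rfl⟩
  have hα : 0 < a - m := by
    have h1 : ∫ x, (Set.Iic x₀).indicator (fun _ => a - x₀) x ∂μ ≤ ∫ x, (a - x) ∂μ := by
      refine integral_mono_ae ((integrable_const _).indicator measurableSet_Iic)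
        ((integrable_const _).sub h.integrable_id) ?_
      filter_upwards [h.supp] with x hx
      by_cases hxs : x ∈ Set.Iic x₀
      · rw [Set.indicator_of_mem hxs]
        have h3 : x ≤ x₀ := hxs
        change a - x₀ ≤ a - x
        linarith
      · rw [Set.indicator_of_notMem hxs]
        change 0 ≤ a - x
        linarith [hx.2]
    rw [integral_indicator measurableSet_Iic, setIntegral_const, smul_eq_mul,
      integral_sub (integrable_const _) h.integrable_id, ← hm] at h1
    simp only [integral_const, probReal_univ, smul_eq_mul, one_mul] at h1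
    rw [← hpdef] at h1
    nlinarith [mul_pos hp0 hd]
  -- the inverse temperature where the slope falls below the edge
  obtain ⟨β', hβ'⟩ : ∃ β', β' = (Real.exp ((2 * Real.log 2 + 2) / p)) / (a - x₀) := ⟨_, rfl⟩
  have hβ'0 : 0 < β' := by
    rw [hβ']
    positivity
  have hlog : (2 * Real.log 2 + 2) / p ≤ Real.log (1 + β' * (a - x₀)) := by
    have e : β' * (a - x₀) = Real.exp ((2 * Real.log 2 + 2) / p) := by
      rw [hβ']
      field_simp
    rw [e]
    rw [Real.le_log_iff_exp_le (by positivity)]
    linarith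
  have hpsi := psi_edge_bound h hx₀ hβ'0
  rw [← hpdef] at hpsi
  have hpsi2 : psi μ β' (β' * a + 1) + Real.log 2 ≤ β' * a / 2 - 1 := by
    have h1 := mul_le_mul_of_nonneg_left hlog (by positivity : 0 ≤ p / 2)
    have e : p / 2 * ((2 * Real.log 2 + 2) / p) = Real.log 2 + 1 := by
      field_simp
    rw [e] at h1
    linarith
  obtain ⟨κ, hκ⟩ : ∃ κ, κ = 1 / β' := ⟨_, rfl⟩
  have hκ0 : 0 < κ := by
    rw [hκ]
    positivity
  obtain ⟨T, hT⟩ : ∃ T, T = (2 / κ) * (2 + |Real.log ((a - m) / κ)|) := ⟨_, rfl⟩
  have hT0 : 0 < T := by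
    rw [hT]
    positivity
  refine ⟨max β' (max (1 / (a - m)) T), lt_max_of_lt_left hβ'0, fun β hβ y hy => ?_⟩
  have hβ1 : β' ≤ β := (le_max_left _ _).trans hβ
  have hβ2 : 1 / (a - m) ≤ β := ((le_max_left _ _).trans (le_max_right _ _)).trans hβ
  have hβ3 : T ≤ β := ((le_max_right _ _).trans (le_max_right _ _)).trans hβ
  have hβ0 : 0 < β := hβ'0.trans_le hβ1
  have hup := prob_upper h (β := β) (A := (β / β') * (psi μ β' (β' * a + 1) + Real.log 2) - Real.log 2)
    (fun ε' hε' => mean_frozen h hβ'0 hβ1 (by linarith) hε') (ε := 1 / 2) (by norm_num)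
  refine squeeze_zero' (Eventually.of_forall fun N => measureReal_nonneg)
    (Eventually.of_forall fun N => measureReal_mono ?_ (measure_ne_top _ _)) hup
  intro U hU
  have hU' : psi μ β y - 1 / 2 ≤ pressure β (lam N) U := hU
  change (β / β') * (psi μ β' (β' * a + 1) + Real.log 2) - Real.log 2 + 1 / 2 ≤ pressure β (lam N) U
  refine le_trans ?_ hU'
  -- the numerical comparison
  have hfro : (β / β') * (psi μ β' (β' * a + 1) + Real.log 2) ≤ β * a / 2 - κ * β := by
    have h1 := mul_le_mul_of_nonneg_left hpsi2 (by positivity : 0 ≤ β / β')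
    refine h1.trans (le_of_eq ?_)
    rw [hκ]
    field_simp
  have hjen := psi_jensen h hβ0 hy
  rw [← hm] at hjen
  -- the logarithm of `v` against `v`
  obtain ⟨v, hv⟩ : ∃ v, v = y - β * m := ⟨_, rfl⟩
  rw [← hv] at hjen
  have hvlow : β * (a - m) ≤ v := by
    rw [hv]
    nlinarith
  have hone : 1 ≤ β * (a - m) := by
    rw [div_le_iff₀ hα] at hβ2
    linarith
  have hvlog : v - Real.log v ≥ β * (a - m) - Real.log (β * (a - m)) := by
    have h1 : 0 < β * (a - m) := by positivity
    have h2 : 0 < v := by linarith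
    have h3 := Real.log_le_sub_one_of_pos (div_pos h2 h1)
    rw [Real.log_div h2.ne' h1.ne'] at h3
    have h4 : v / (β * (a - m)) - 1 ≤ v - β * (a - m) := by
      have e : v / (β * (a - m)) - 1 = (v - β * (a - m)) / (β * (a - m)) := by
        field_simp
      rw [e]
      have h5 : 0 ≤ v - β * (a - m) := by linarith
      exact div_le_self h5 hone
    linarith
  have hlogb : Real.log (β * (a - m)) ≤ β * κ + |Real.log ((a - m) / κ)| := by
    have h1 : 0 < β * κ := by positivity
    have h2 : 0 < (a - m) / κ := by positivity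
    have e : β * (a - m) = (β * κ) * ((a - m) / κ) := by
      field_simp
    rw [e, Real.log_mul h1.ne' h2.ne']
    have h3 := Real.log_le_sub_one_of_pos h1
    have h4 := le_abs_self (Real.log ((a - m) / κ))
    linarith
  have hκβ : 2 * (2 + |Real.log ((a - m) / κ)|) ≤ κ * β := by
    rw [hT] at hβ3
    have h1 := mul_le_mul_of_nonneg_left hβ3 hκ0.le
    have e : κ * (2 / κ * (2 + |Real.log ((a - m) / κ)|)) = 2 * (2 + |Real.log ((a - m) / κ)|) := by
      field_simp
    rw [e] at h1
    exact h1
  have hlog2 := Real.log_two_gt_d9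
  have e3 : y = v + β * m := by
    rw [hv]
    ring
  have habs := abs_nonneg (Real.log ((a - m) / κ))
  have e4 : β * (a - m) = β * a - β * m := by ring
  rw [e4] at hvlog hlogb
  have e5 : κ * β = β * κ := by ring
  rw [e5] at hfro hκβ
  have hlog3 : (0:ℝ) ≤ Real.log 2 := by linarith
  linarith

end Vale.Agent.Lib.P166
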