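import Vale.Agent.Lib.P166.Near

/-!
The uniform bound for pairs with overlap away from zero.
-/

open scoped BigOperators NNReal ENNReal Topology BoundedContinuousFunction
open MeasureTheory ProbabilityTheory Matrix Filter

namespace Vale.Agent.Lib.P166

variable {μ : Measure ℝ} {a b : ℝ} {lam : ∀ N, Fin N → ℝ}

lemma continuous_Ifun : Continuous Ifun := by
  unfold Ifun
  refine continuous_const.mul (Continuous.add ?_ ?_)
  · exact Real.continuous_mul_log.comp (continuous_const.add continuous_id)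
  · exact Real.continuous_mul_log.comp (continuous_const.sub continuous_id)

/-- The statement that on a set of overlaps there are good choices of the parameters. -/
def FarOn (lam : ∀ N, Fin N → ℝ) (β y₀ : ℝ) (T : Set ℝ) : Prop :=
  ∃ η > 0, ∃ c₂ > 0, ∃ K₂ : ℝ, ∀ᶠ N : ℕ in atTop, ∀ R ∈ T, ∀ y, |y - y₀| < η →
    ∃ y₁ y₂ δ Δ : ℝ, (∀ i, 0 < y₁ - β * (1 + R) * lam N i) ∧ 0 < δ ∧
      (∀ i, δ ≤ y₂ - β * (1 - R) * lam N i) ∧ (∀ i, y₂ - β * (1 - R) * lam N i ≤ Δ) ∧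
      Real.sqrt (1 / δ) * Real.sqrt Δ ≤ K₂ ∧
      psiN (lam N) (β * (1 + R)) y₁ + psiN (lam N) (β * (1 - R)) y₂
        ≤ 2 * psiN (lam N) β y + Ifun R - c₂

lemma FarOn.mono {β y₀ : ℝ} {S T : Set ℝ} (hT : FarOn lam β y₀ T) (hST : S ⊆ T) :
    FarOn lam β y₀ S := by
  obtain ⟨η, hη, c₂, hc₂, K₂, hev⟩ := hT
  refine ⟨η, hη, c₂, hc₂, K₂, ?_⟩
  filter_upwards [hev] with N hN R hR y hy
  exact hN R (hST hR) y hy

lemma FarOn.union {β y₀ : ℝ} {S T : Set ℝ} (hS : FarOn lam β y₀ S) (hT : FarOn lam β y₀ T) :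
    FarOn lam β y₀ (S ∪ T) := by
  obtain ⟨η, hη, c₂, hc₂, K₂, hev⟩ := hS
  obtain ⟨η', hη', c₂', hc₂', K₂', hev'⟩ := hT
  refine ⟨min η η', lt_min hη hη', min c₂ c₂', lt_min hc₂ hc₂', max K₂ K₂', ?_⟩
  filter_upwards [hev, hev'] with N hN hN' R hR y hy
  rcases hR with hR | hR
  · obtain ⟨y₁, y₂, δ, Δ, h1, h2, h3, h4, h5, h6⟩ := hN R hR y (hy.trans_le (min_le_left _ _))
    refine ⟨y₁, y₂, δ, Δ, h1, h2, h3, h4, h5.trans (le_max_left _ _), ?_⟩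
    have := min_le_left c₂ c₂'
    linarith
  · obtain ⟨y₁, y₂, δ, Δ, h1, h2, h3, h4, h5, h6⟩ := hN' R hR y (hy.trans_le (min_le_right _ _))
    refine ⟨y₁, y₂, δ, Δ, h1, h2, h3, h4, h5.trans (le_max_right _ _), ?_⟩
    have := min_le_right c₂ c₂'
    linarith

lemma farOn_empty (β y₀ : ℝ) : FarOn lam β y₀ ∅ :=
  ⟨1, one_pos, 1, one_pos, 0, Eventually.of_forall fun _ R hR => absurd hR (Set.notMem_empty R)⟩

/-- The local statement near a point. -/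
lemma farOn_local (h : Spec μ a b lam) {β y₀ R₀ y₁ y₂ : ℝ} (hβ : 0 < β) (hy₀ : β * a < y₀)
    (hR₀ : 0 ≤ R₀) (hR₁ : R₀ ≤ 1) (hy₁ : β * (1 + R₀) * a < y₁) (hy₂ : β * (1 - R₀) * a < y₂)
    (hgap : psi μ (β * (1 + R₀)) y₁ + psi μ (β * (1 - R₀)) y₂ - 2 * psi μ β y₀ < Ifun R₀) :
    ∃ W ∈ 𝓝 R₀, FarOn lam β y₀ W := by
  obtain ⟨g, hg⟩ : ∃ g, g = Ifun R₀ - (psi μ (β * (1 + R₀)) y₁ + psi μ (β * (1 - R₀)) y₂
      - 2 * psi μ β y₀) := ⟨_, rfl⟩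
  have hg0 : 0 < g := by
    rw [hg]
    linarith
  have ht₁ : 0 ≤ β * (1 + R₀) := by positivity
  have ht₂ : 0 ≤ β * (1 - R₀) := mul_nonneg hβ.le (by linarith)
  have hε : 0 < g / 8 := by positivity
  obtain ⟨η₁, hη₁, hev₁⟩ := psi_conv h ht₁ hy₁ hε
  obtain ⟨η₂, hη₂, hev₂⟩ := psi_conv h ht₂ hy₂ hε
  obtain ⟨η₃, hη₃, hev₃⟩ := psi_conv h hβ.le hy₀ hε
  obtain ⟨e₁, he₁, m₁, hm₁, M₁, hevm₁⟩ := margin h ht₁ hy₁
  obtain ⟨e₂, he₂, m₂, hm₂, M₂, hevm₂⟩ := margin h ht₂ hy₂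
  have hI := (Metric.continuous_iff.1 continuous_Ifun) R₀ (g / 8) hε
  obtain ⟨ρ₄, hρ₄, hI⟩ := hI
  obtain ⟨τ, hτ⟩ : ∃ τ, τ = min (min η₁ η₂) (min e₁ e₂) := ⟨_, rfl⟩
  have hτ0 : 0 < τ := by
    rw [hτ]
    exact lt_min (lt_min hη₁ hη₂) (lt_min he₁ he₂)
  obtain ⟨ρ, hρ⟩ : ∃ ρ, ρ = min ρ₄ (τ / (β + 1)) := ⟨_, rfl⟩
  have hρ0 : 0 < ρ := by
    rw [hρ]
    exact lt_min hρ₄ (by positivity)
  refine ⟨Metric.ball R₀ ρ, Metric.ball_mem_nhds _ hρ0, η₃, hη₃, 3 * g / 8, by positivity,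
    Real.sqrt (1 / m₂) * Real.sqrt M₂, ?_⟩
  filter_upwards [hev₁, hev₂, hev₃, hevm₁, hevm₂] with N h1 h2 h3 h4 h5 R hR y hy
  rw [Metric.mem_ball, Real.dist_eq] at hR
  have hRρ₄ : dist R R₀ < ρ₄ := by
    rw [Real.dist_eq]
    exact hR.trans_le (by rw [hρ]; exact min_le_left _ _)
  have hβR : β * |R - R₀| < τ := by
    have h6 : |R - R₀| < τ / (β + 1) := hR.trans_le (by rw [hρ]; exact min_le_right _ _)
    rw [lt_div_iff₀ (by positivity)] at h6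
    nlinarith [abs_nonneg (R - R₀)]
  have ePlus : |β * (1 + R) - β * (1 + R₀)| = β * |R - R₀| := by
    rw [show β * (1 + R) - β * (1 + R₀) = β * (R - R₀) by ring, abs_mul, abs_of_pos hβ]
  have eMinus : |β * (1 - R) - β * (1 - R₀)| = β * |R - R₀| := by
    rw [show β * (1 - R) - β * (1 - R₀) = β * (-(R - R₀)) by ring, abs_mul, abs_of_pos hβ, abs_neg]
  have hτ1 : τ ≤ η₁ := by
    rw [hτ]
    exact (min_le_left _ _).trans (min_le_left _ _)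
  have hτ2 : τ ≤ η₂ := by
    rw [hτ]
    exact (min_le_left _ _).trans (min_le_right _ _)
  have hτ3 : τ ≤ e₁ := by
    rw [hτ]
    exact (min_le_right _ _).trans (min_le_left _ _)
  have hτ4 : τ ≤ e₂ := by
    rw [hτ]
    exact (min_le_right _ _).trans (min_le_right _ _)
  have a1 := h1 (β * (1 + R)) y₁ (by rw [ePlus]; linarith) (by simpa using hη₁)
  have a2 := h2 (β * (1 - R)) y₂ (by rw [eMinus]; linarith) (by simpa using hη₂)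
  have a3 := h3 β y (by simpa using hη₃) hy
  have a4 := hI R hRρ₄
  rw [Real.dist_eq] at a4
  refine ⟨y₁, y₂, m₂, M₂, ?_, hm₂, ?_, ?_, le_refl _, ?_⟩
  · intro i
    exact hm₁.trans_le (h4 (β * (1 + R)) y₁ (by rw [ePlus]; linarith) (by simpa using he₁.le) i).1
  · intro i
    exact (h5 (β * (1 - R)) y₂ (by rw [eMinus]; linarith) (by simpa using he₂.le) i).1
  · intro i
    exact (h5 (β * (1 - R)) y₂ (by rw [eMinus]; linarith) (by simpa using he₂.le) i).2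
  · obtain ⟨b1, b2⟩ := abs_lt.1 a1
    obtain ⟨b3, b4⟩ := abs_lt.1 a2
    obtain ⟨b5, b6⟩ := abs_lt.1 a3
    obtain ⟨b7, b8⟩ := abs_lt.1 a4
    linarith

/-- The uniform statement on a compact interval of overlaps. -/
theorem far_uniform (h : Spec μ a b lam) {β y₀ r₀ : ℝ} (hβ : 0 < β) (hy₀ : β * a < y₀)
    (hr₀ : 0 < r₀)
    (H3 : ∀ R ∈ Set.Ioc (0 : ℝ) 1, ∃ y₁ y₂, β * (1 + R) * a < y₁ ∧ β * (1 - R) * a < y₂ ∧
      psi μ (β * (1 + R)) y₁ + psi μ (β * (1 - R)) y₂ - 2 * psi μ β y₀ < Ifun R) :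
    FarOn lam β y₀ (Set.Icc r₀ 1) := by
  refine isCompact_Icc.induction_on (farOn_empty β y₀) (fun _ _ hst hT => hT.mono hst)
    (fun _ _ h1 h2 => h1.union h2) ?_
  intro R hR
  have hR0 : 0 < R := hr₀.trans_le hR.1
  obtain ⟨y₁, y₂, h1, h2, h3⟩ := H3 R ⟨hR0, hR.2⟩
  obtain ⟨W, hW, hF⟩ := farOn_local h hβ hy₀ hR0.le hR.2 h1 h2 h3
  exact ⟨W, mem_nhdsWithin_of_mem_nhds hW, hF⟩

end Vale.Agent.Lib.P166
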