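import Vale.Agent.Lib.P166.Pair

/-!
Bounds for the exponential moments of the quadratic form at one vector and at a pair of vectors.
-/

open scoped BigOperators NNReal ENNReal
open MeasureTheory ProbabilityTheory Matrix

namespace Vale.Agent.Lib.P166

variable {N : ℕ}

/-- The diagonal matrix `y - t Λ`. -/
def Dg (lam : Fin N → ℝ) (t y : ℝ) : Matrix (Fin N) (Fin N) ℝ :=
  Matrix.diagonal fun i => y - t * lam i

/-- The function `Ψ_N(t,y) = ½ (y - 1 - N⁻¹ ∑ log (y - t λ_i))`. -/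
noncomputable def psiN (lam : Fin N → ℝ) (t y : ℝ) : ℝ :=
  (1 / 2) * (y - 1 - (1 / (N : ℝ)) * ∑ i, Real.log (y - t * lam i))

lemma Dg_symm (lam : Fin N → ℝ) (t y : ℝ) : (Dg lam t y).IsSymm := by
  unfold Dg
  exact Matrix.isSymm_diagonal _

lemma qf_Dg_unit (lam : Fin N → ℝ) (t y : ℝ) {u : Fin N → ℝ} (hu : nsq u = 1) :
    qf (Dg lam t y) u = y - t * qf (Matrix.diagonal lam) u := by
  unfold Dg
  rw [qf_diagonal, qf_diagonal]
  have : y = y * ∑ i, u i ^ 2 := by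
    change y = y * nsq u
    rw [hu, mul_one]
  rw [Finset.mul_sum]
  conv_rhs => rw [this, Finset.mul_sum]
  rw [← Finset.sum_sub_distrib]
  refine Finset.sum_congr rfl fun i _ => ?_
  ring

lemma qf_Dg_ge {lam : Fin N → ℝ} {t y δ : ℝ} (h : ∀ i, δ ≤ y - t * lam i) {u : Fin N → ℝ}
    (hu : nsq u = 1) : δ ≤ qf (Dg lam t y) u := by
  unfold Dg
  rw [qf_diagonal]
  calc δ = ∑ i, δ * u i ^ 2 := by
        rw [← Finset.mul_sum]
        change δ = δ * nsq u
        rw [hu, mul_one]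
    _ ≤ _ := Finset.sum_le_sum fun i _ => mul_le_mul_of_nonneg_right (h i) (sq_nonneg _)

lemma qf_Dg_le {lam : Fin N → ℝ} {t y Δ : ℝ} (h : ∀ i, y - t * lam i ≤ Δ) {u : Fin N → ℝ}
    (hu : nsq u = 1) : qf (Dg lam t y) u ≤ Δ := by
  unfold Dg
  rw [qf_diagonal]
  calc _ ≤ ∑ i, Δ * u i ^ 2 := Finset.sum_le_sum fun i _ =>
        mul_le_mul_of_nonneg_right (h i) (sq_nonneg _)
    _ = Δ := by
        rw [← Finset.mul_sum]
        change Δ * nsq u = Δ
        rw [hu, mul_one]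

lemma sqrt_one_div_ge_exp {v : ℝ} (hv : 0 < v) : Real.exp ((1 - v) / 2) ≤ Real.sqrt (1 / v) := by
  apply Real.le_sqrt_of_sq_le
  rw [← Real.exp_nat_mul]
  have h1 : ((2 : ℕ) : ℝ) * ((1 - v) / 2) = 1 - v := by
    push_cast
    ring
  rw [h1]
  have h2 : Real.log v ≤ v - 1 := Real.log_le_sub_one_of_pos hv
  have h3 : Real.exp (1 - v) ≤ Real.exp (-Real.log v) := Real.exp_le_exp.2 (by linarith)
  rw [Real.exp_neg, Real.exp_log hv] at h3
  simpa using h3

/-- The pointwise inequality on unit vectors. -/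
lemma exp_le_rt (lam : Fin N → ℝ) (t y : ℝ) {u : Fin N → ℝ} (hu : nsq u = 1)
    (hv : 0 < qf (Dg lam t y) u) :
    Real.exp ((t * N / 2) * qf (Matrix.diagonal lam) u)
      ≤ Real.exp ((N / 2) * (y - 1)) * rt (Dg lam t y) N u := by
  obtain ⟨v, hvv⟩ : ∃ v, v = qf (Dg lam t y) u := ⟨_, rfl⟩
  rw [← hvv] at hv
  have h1 : t * qf (Matrix.diagonal lam) u = y - v := by
    rw [hvv, qf_Dg_unit lam t y hu]
    ring
  have h2 : (t * N / 2) * qf (Matrix.diagonal lam) u = (N / 2) * (y - 1) + N * ((1 - v) / 2) := by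
    have : (t * N / 2) * qf (Matrix.diagonal lam) u = (N / 2) * (t * qf (Matrix.diagonal lam) u) := by
      ring
    rw [this, h1]
    ring
  rw [h2, Real.exp_add, Real.exp_nat_mul]
  unfold rt
  rw [← hvv]
  refine mul_le_mul_of_nonneg_left ?_ (Real.exp_pos _).le
  exact pow_le_pow_left₀ (Real.exp_pos _).le (sqrt_one_div_ge_exp hv) _

/-- The value of the exponential of `N Ψ_N`. -/
lemma exp_psiN (hN : N ≠ 0) (lam : Fin N → ℝ) {t y : ℝ} (h : ∀ i, 0 < y - t * lam i) :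
    Real.exp (N * psiN lam t y) = Real.exp ((N / 2) * (y - 1)) * gdet (Dg lam t y) := by
  unfold Dg
  rw [gdet_diagonal h]
  have e : ∀ i, Real.sqrt (1 / (y - t * lam i)) = Real.exp (-(1 / 2) * Real.log (y - t * lam i)) := by
    intro i
    have hp := h i
    rw [Real.sqrt_eq_rpow, Real.rpow_def_of_pos (by positivity), Real.log_div one_ne_zero hp.ne',
      Real.log_one]
    congr 1
    ring
  simp only [e]
  rw [← Real.exp_sum, ← Real.exp_add]
  congr 1
  unfold psiN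
  have hN' : (N : ℝ) ≠ 0 := Nat.cast_ne_zero.2 hN
  rw [← Finset.mul_sum]
  field_simp
  ring

lemma continuous_coe_mulVec (x : Fin N → ℝ) :
    Continuous fun U : OG N => (U : Matrix (Fin N) (Fin N) ℝ) *ᵥ x :=
  continuous_subtype_val.matrix_mulVec continuous_const

lemma integrable_OG {f : OG N → ℝ} (hf : Continuous f) : Integrable f (haarO N) :=
  integrableOn_univ.1 (hf.continuousOn.integrableOn_compact isCompact_univ)

lemma continuous_qf_mulVec (B : Matrix (Fin N) (Fin N) ℝ) (x : Fin N → ℝ) :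
    Continuous fun U : OG N => qf B ((U : Matrix (Fin N) (Fin N) ℝ) *ᵥ x) :=
  (continuous_qf B).comp (continuous_coe_mulVec x)

/-- The energy of a vector. -/
lemma energy_eq (lam : Fin N → ℝ) (U : OG N) (x : Fin N → ℝ) :
    x ⬝ᵥ (couplings lam U *ᵥ x)
      = qf (Matrix.diagonal lam) ((U : Matrix (Fin N) (Fin N) ℝ) *ᵥ x) := by
  change qf _ x = _
  unfold couplings
  rw [qf_conj]

/-- The unit vector attached to a vector of squared norm `N`. -/
lemma nsq_scale (hN : N ≠ 0) {x : Fin N → ℝ} (hx : nsq x = N) :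
    nsq ((Real.sqrt N)⁻¹ • x) = 1 := by
  have hN' : (0 : ℝ) < N := Nat.cast_pos.2 (Nat.pos_of_ne_zero hN)
  rw [nsq_smul, hx, inv_pow, Real.sq_sqrt hN'.le]
  exact inv_mul_cancel₀ hN'.ne'

lemma qf_scale (hN : N ≠ 0) (B : Matrix (Fin N) (Fin N) ℝ) (U : OG N) (x : Fin N → ℝ) :
    qf B ((U : Matrix (Fin N) (Fin N) ℝ) *ᵥ x)
      = N * qf B ((U : Matrix (Fin N) (Fin N) ℝ) *ᵥ ((Real.sqrt N)⁻¹ • x)) := by
  have hN' : (0 : ℝ) < N := Nat.cast_pos.2 (Nat.pos_of_ne_zero hN)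
  rw [Matrix.mulVec_smul, qf_smul, inv_pow, Real.sq_sqrt hN'.le, ← mul_assoc,
    mul_inv_cancel₀ hN'.ne', one_mul]

/-- The upper bound for the first moment, for every admissible `y`. -/
theorem moment_upper (hN : N ≠ 0) (lam : Fin N → ℝ) {t y : ℝ} (h : ∀ i, 0 < y - t * lam i)
    {x : Fin N → ℝ} (hx : nsq x = N) :
    ∫ U : OG N, Real.exp ((t / 2) * (x ⬝ᵥ (couplings lam U *ᵥ x))) ∂(haarO N)
      ≤ Real.exp (N * psiN lam t y) := by
  classical
  obtain ⟨e, he⟩ : ∃ e, e = (Real.sqrt N)⁻¹ • x := ⟨_, rfl⟩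
  have hunit : nsq e = 1 := by
    rw [he]
    exact nsq_scale hN hx
  have hN' : Nonempty (Fin N) := ⟨⟨0, Nat.pos_of_ne_zero hN⟩⟩
  obtain ⟨δ, hδ, hδ2⟩ : ∃ δ > 0, ∀ i, δ ≤ y - t * lam i := by
    obtain ⟨i₀, -, hi⟩ := Finset.exists_min_image Finset.univ (fun i => y - t * lam i)
      Finset.univ_nonempty
    exact ⟨_, h i₀, fun i => hi i (Finset.mem_univ i)⟩
  have hpos : ∀ u, nsq u = 1 → δ ≤ qf (Dg lam t y) u := fun u hu => qf_Dg_ge hδ2 hu
  have hunitU : ∀ U : OG N, nsq ((U : Matrix (Fin N) (Fin N) ℝ) *ᵥ e) = 1 := fun U => by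
    rw [nsq_mulVec (OG_tr_mul U), hunit]
  have hval := gdet_eq_haar (Dg lam t y) hδ hpos hunit
  rw [exp_psiN hN lam h, hval]
  have hrtI : Integrable (fun U : OG N => rt (Dg lam t y) N ((U : Matrix (Fin N) (Fin N) ℝ) *ᵥ e))
      (haarO N) := by
    refine Integrable.of_bound ((measurable_rt _ _).comp
      (measurable_mulVec_OG measurable_id measurable_const)).aestronglyMeasurable
      (Real.sqrt (1 / δ) ^ N) (Filter.Eventually.of_forall fun U => ?_)
    rw [Real.norm_eq_abs, abs_of_nonneg (rt_nonneg _ _ _)]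
    exact rt_le hδ hpos N (hunitU U)
  rw [← integral_const_mul]
  refine integral_mono_of_nonneg (Filter.Eventually.of_forall fun U => (Real.exp_pos _).le)
    (hrtI.const_mul _) (Filter.Eventually.of_forall fun U => ?_)
  simp only
  rw [energy_eq, qf_scale hN, ← he]
  have := exp_le_rt lam t y (hunitU U) (hδ.trans_le (hpos _ (hunitU U)))
  have e1 : (t / 2) * (N * qf (Matrix.diagonal lam) ((U : Matrix (Fin N) (Fin N) ℝ) *ᵥ e))
      = (t * N / 2) * qf (Matrix.diagonal lam) ((U : Matrix (Fin N) (Fin N) ℝ) *ᵥ e) := by ring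
  rw [e1]
  exact this

end Vale.Agent.Lib.P166
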