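import Vale.Agent.Lib.P166.Trunc4

/-!
Monotonicity of the free energy density divided by the temperature, and convexity of the pressure.
-/

open scoped BigOperators Topology BoundedContinuousFunction
open MeasureTheory Matrix Filter

namespace Vale.Agent.Lib.P166

section finite

variable {ι : Type*} [Fintype ι] [Nonempty ι]

/-- The logarithm of a sum of exponentials, scaled. -/
lemma log_sum_exp_le {x : ι → ℝ} {β' β : ℝ} (hβ' : 0 < β') (hβ : β' ≤ β) :
    Real.log (∑ σ, Real.exp (β * x σ)) ≤ (β / β') * Real.log (∑ σ, Real.exp (β' * x σ)) := by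
  obtain ⟨W, hW⟩ : ∃ W, W = ∑ σ, Real.exp (β' * x σ) := ⟨_, rfl⟩
  have hW0 : 0 < W := by
    rw [hW]
    exact Finset.sum_pos (fun σ _ => Real.exp_pos _) Finset.univ_nonempty
  rw [← hW]
  have h1 : ∀ σ, β' * x σ ≤ Real.log W := by
    intro σ
    have h2 : Real.exp (β' * x σ) ≤ W := by
      rw [hW]
      exact Finset.single_le_sum (f := fun σ => Real.exp (β' * x σ)) (fun _ _ => (Real.exp_pos _).le)
        (Finset.mem_univ σ)
    have := Real.log_le_log (Real.exp_pos _) h2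
    rwa [Real.log_exp] at this
  have h2 : ∀ σ, Real.exp (β * x σ) ≤ Real.exp (β' * x σ) * Real.exp (((β - β') / β') * Real.log W) := by
    intro σ
    rw [← Real.exp_add]
    apply Real.exp_le_exp.2
    have h3 : (β - β') * (β' * x σ) ≤ (β - β') * Real.log W :=
      mul_le_mul_of_nonneg_left (h1 σ) (by linarith)
    have e1 : ((β - β') / β') * Real.log W = ((β - β') * Real.log W) / β' := by ring
    have e2 : (β - β') * x σ = ((β - β') * (β' * x σ)) / β' := by
      field_simp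
    have h4 : (β - β') * x σ ≤ ((β - β') / β') * Real.log W := by
      rw [e1, e2]
      exact div_le_div_of_nonneg_right h3 hβ'.le
    linarith
  have h3 : ∑ σ, Real.exp (β * x σ) ≤ W * Real.exp (((β - β') / β') * Real.log W) := by
    rw [hW, Finset.sum_mul, ← hW]
    exact Finset.sum_le_sum fun σ _ => h2 σ
  have h4 : 0 < ∑ σ, Real.exp (β * x σ) := Finset.sum_pos (fun σ _ => Real.exp_pos _) Finset.univ_nonempty
  have h5 := Real.log_le_log h4 h3
  rw [Real.log_mul hW0.ne' (Real.exp_pos _).ne', Real.log_exp] at h5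
  have e : Real.log W + (β - β') / β' * Real.log W = β / β' * Real.log W := by
    field_simp
    ring
  linarith

/-- The tangent inequality for the logarithm of a sum of exponentials. -/
lemma log_sum_exp_tangent (x : ι → ℝ) (t₁ : ℝ) :
    ∃ m : ℝ, ∀ t, Real.log (∑ σ, Real.exp (t₁ * x σ)) + (t - t₁) * m ≤ Real.log (∑ σ, Real.exp (t * x σ)) := by
  obtain ⟨W, hW⟩ : ∃ W, W = ∑ σ, Real.exp (t₁ * x σ) := ⟨_, rfl⟩
  have hW0 : 0 < W := by
    rw [hW]
    exact Finset.sum_pos (fun σ _ => Real.exp_pos _) Finset.univ_nonempty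
  refine ⟨(∑ σ, Real.exp (t₁ * x σ) * x σ) / W, fun t => ?_⟩
  rw [← hW]
  obtain ⟨m, hm⟩ : ∃ m, m = (∑ σ, Real.exp (t₁ * x σ) * x σ) / W := ⟨_, rfl⟩
  rw [← hm]
  have h1 : ∀ σ, Real.exp (t₁ * x σ) * (Real.exp ((t - t₁) * m) * (1 + (t - t₁) * (x σ - m)))
      ≤ Real.exp (t * x σ) := by
    intro σ
    have h2 : 1 + (t - t₁) * (x σ - m) ≤ Real.exp ((t - t₁) * (x σ - m)) := by
      have := Real.add_one_le_exp ((t - t₁) * (x σ - m))
      linarith
    have h3 : Real.exp ((t - t₁) * m) * (1 + (t - t₁) * (x σ - m))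
        ≤ Real.exp ((t - t₁) * m) * Real.exp ((t - t₁) * (x σ - m)) :=
      mul_le_mul_of_nonneg_left h2 (Real.exp_pos _).le
    have h4 := mul_le_mul_of_nonneg_left h3 (Real.exp_pos (t₁ * x σ)).le
    refine h4.trans (le_of_eq ?_)
    rw [← Real.exp_add, ← Real.exp_add]
    congr 1
    ring
  have h2 : Real.exp ((t - t₁) * m) * W ≤ ∑ σ, Real.exp (t * x σ) := by
    have e : ∑ σ, Real.exp (t₁ * x σ) * (Real.exp ((t - t₁) * m) * (1 + (t - t₁) * (x σ - m)))
        = Real.exp ((t - t₁) * m) * W := by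
      have e1 : ∀ σ, Real.exp (t₁ * x σ) * (Real.exp ((t - t₁) * m) * (1 + (t - t₁) * (x σ - m)))
          = Real.exp ((t - t₁) * m) * ((1 - (t - t₁) * m) * Real.exp (t₁ * x σ)
            + (t - t₁) * (Real.exp (t₁ * x σ) * x σ)) := fun σ => by ring
      simp only [e1]
      rw [← Finset.mul_sum, Finset.sum_add_distrib, ← Finset.mul_sum, ← Finset.mul_sum, ← hW]
      have e2 : ∑ σ, Real.exp (t₁ * x σ) * x σ = m * W := by
        rw [hm]
        field_simp
      rw [e2]
      ring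
    rw [← e]
    exact Finset.sum_le_sum fun σ _ => h1 σ
  have h3 := Real.log_le_log (by positivity) h2
  rw [Real.log_mul (Real.exp_pos _).ne' hW0.ne', Real.log_exp] at h3
  linarith

/-- Convexity: three points, the right one bounded below. -/
lemma log_sum_exp_right (x : ι → ℝ) {t₀ t₁ t : ℝ} (h01 : t₀ < t₁) (h1 : t₁ ≤ t) :
    Real.log (∑ σ, Real.exp (t₁ * x σ))
        + ((t - t₁) / (t₁ - t₀)) * (Real.log (∑ σ, Real.exp (t₁ * x σ)) - Real.log (∑ σ, Real.exp (t₀ * x σ)))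
      ≤ Real.log (∑ σ, Real.exp (t * x σ)) := by
  obtain ⟨m, hm⟩ := log_sum_exp_tangent x t₁
  have h2 := hm t₀
  have h3 := hm t
  have hd : 0 < t₁ - t₀ := by linarith
  have h4 : (Real.log (∑ σ, Real.exp (t₁ * x σ)) - Real.log (∑ σ, Real.exp (t₀ * x σ))) / (t₁ - t₀) ≤ m := by
    rw [div_le_iff₀ hd]
    nlinarith
  have h5 := mul_le_mul_of_nonneg_left h4 (by linarith : 0 ≤ t - t₁)
  have e : ((t - t₁) / (t₁ - t₀)) * (Real.log (∑ σ, Real.exp (t₁ * x σ)) - Real.log (∑ σ, Real.exp (t₀ * x σ)))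
      = (t - t₁) * ((Real.log (∑ σ, Real.exp (t₁ * x σ)) - Real.log (∑ σ, Real.exp (t₀ * x σ))) / (t₁ - t₀)) := by
    ring
  rw [e]
  linarith

/-- Convexity: three points, the left one bounded below. -/
lemma log_sum_exp_left (x : ι → ℝ) {t t₁ t₂ : ℝ} (h1 : t ≤ t₁) (h12 : t₁ < t₂) :
    Real.log (∑ σ, Real.exp (t₁ * x σ))
        - ((t₁ - t) / (t₂ - t₁)) * (Real.log (∑ σ, Real.exp (t₂ * x σ)) - Real.log (∑ σ, Real.exp (t₁ * x σ)))
      ≤ Real.log (∑ σ, Real.exp (t * x σ)) := by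
  obtain ⟨m, hm⟩ := log_sum_exp_tangent x t₁
  have h2 := hm t₂
  have h3 := hm t
  have hd : 0 < t₂ - t₁ := by linarith
  have h4 : m ≤ (Real.log (∑ σ, Real.exp (t₂ * x σ)) - Real.log (∑ σ, Real.exp (t₁ * x σ))) / (t₂ - t₁) := by
    rw [le_div_iff₀ hd]
    nlinarith
  have h5 := mul_le_mul_of_nonneg_left h4 (by linarith : 0 ≤ t₁ - t)
  have e : ((t₁ - t) / (t₂ - t₁)) * (Real.log (∑ σ, Real.exp (t₂ * x σ)) - Real.log (∑ σ, Real.exp (t₁ * x σ)))
      = (t₁ - t) * ((Real.log (∑ σ, Real.exp (t₂ * x σ)) - Real.log (∑ σ, Real.exp (t₁ * x σ))) / (t₂ - t₁)) := by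
    ring
  rw [e]
  linarith

end finite

variable {N : ℕ}

/-- The half energy of a configuration. -/
noncomputable def hEn (lam : Fin N → ℝ) (U : OG N) (σ : Fin N → Bool) : ℝ :=
  (1 / 2) * (spin σ ⬝ᵥ (couplings lam U *ᵥ spin σ))

lemma pressure_eq_log (hN : N ≠ 0) (β : ℝ) (lam : Fin N → ℝ) (U : OG N) :
    N * pressure β lam U = Real.log (∑ σ, Real.exp (β * hEn lam U σ)) - N * Real.log 2 := by
  have hN' : (N : ℝ) ≠ 0 := Nat.cast_ne_zero.2 hN
  unfold pressure partitionFn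
  have e1 : ∀ σ : Fin N → Bool, (β / 2) * (spin σ ⬝ᵥ (couplings lam U *ᵥ spin σ)) = β * hEn lam U σ := by
    intro σ
    unfold hEn
    ring
  simp only [e1]
  have hpos : 0 < ∑ σ : Fin N → Bool, Real.exp (β * hEn lam U σ) :=
    Finset.sum_pos (fun σ _ => Real.exp_pos _) Finset.univ_nonempty
  rw [Real.log_mul (by positivity) hpos.ne']
  have e2 : Real.log (1 / 2 ^ N) = - (N * Real.log 2) := by
    rw [one_div, Real.log_inv, Real.log_pow]
  rw [e2]
  field_simp
  ring

/-- The function `β ↦ (P(β) + log 2) / β` is nonincreasing. -/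
theorem pressure_frozen (hN : N ≠ 0) (lam : Fin N → ℝ) (U : OG N) {β' β : ℝ} (hβ' : 0 < β') (hβ : β' ≤ β) :
    pressure β lam U + Real.log 2 ≤ (β / β') * (pressure β' lam U + Real.log 2) := by
  have hN0 : (0:ℝ) < N := by exact_mod_cast Nat.pos_of_ne_zero hN
  have h1 := log_sum_exp_le (x := hEn lam U) hβ' hβ
  have e1 := pressure_eq_log hN β lam U
  have e2 := pressure_eq_log hN β' lam U
  have h2 : N * (pressure β lam U + Real.log 2) ≤ N * ((β / β') * (pressure β' lam U + Real.log 2)) := by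
    have e3 : N * (pressure β lam U + Real.log 2) = Real.log (∑ σ, Real.exp (β * hEn lam U σ)) := by
      rw [mul_add, e1]
      ring
    have e4 : N * ((β / β') * (pressure β' lam U + Real.log 2))
        = (β / β') * Real.log (∑ σ, Real.exp (β' * hEn lam U σ)) := by
      rw [mul_left_comm, mul_add, e2]
      ring
    rw [e3, e4]
    exact h1
  exact le_of_mul_le_mul_left h2 hN0

/-- Convexity of the pressure, right side. -/
theorem pressure_right (hN : N ≠ 0) (lam : Fin N → ℝ) (U : OG N) {t₀ t₁ t : ℝ} (h01 : t₀ < t₁) (h1 : t₁ ≤ t) :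
    pressure t₁ lam U + ((t - t₁) / (t₁ - t₀)) * (pressure t₁ lam U - pressure t₀ lam U) ≤ pressure t lam U := by
  have hN0 : (0:ℝ) < N := by exact_mod_cast Nat.pos_of_ne_zero hN
  have h2 := log_sum_exp_right (hEn lam U) h01 h1
  have e1 := pressure_eq_log hN t lam U
  have e2 := pressure_eq_log hN t₁ lam U
  have e3 := pressure_eq_log hN t₀ lam U
  refine le_of_mul_le_mul_left ?_ hN0
  have e4 : N * (pressure t₁ lam U + ((t - t₁) / (t₁ - t₀)) * (pressure t₁ lam U - pressure t₀ lam U))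
      = N * pressure t₁ lam U + ((t - t₁) / (t₁ - t₀)) * (N * pressure t₁ lam U - N * pressure t₀ lam U) := by
    ring
  rw [e4, e1, e2, e3]
  have e5 : Real.log (∑ σ, Real.exp (t₁ * hEn lam U σ)) - N * Real.log 2 - (Real.log (∑ σ, Real.exp (t₀ * hEn lam U σ)) - N * Real.log 2)
      = Real.log (∑ σ, Real.exp (t₁ * hEn lam U σ)) - Real.log (∑ σ, Real.exp (t₀ * hEn lam U σ)) := by ring
  rw [e5]
  linarith

/-- Convexity of the pressure, left side. -/
theorem pressure_left (hN : N ≠ 0) (lam : Fin N → ℝ) (U : OG N) {t t₁ t₂ : ℝ} (h1 : t ≤ t₁) (h12 : t₁ < t₂) :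
    pressure t₁ lam U - ((t₁ - t) / (t₂ - t₁)) * (pressure t₂ lam U - pressure t₁ lam U) ≤ pressure t lam U := by
  have hN0 : (0:ℝ) < N := by exact_mod_cast Nat.pos_of_ne_zero hN
  have h2 := log_sum_exp_left (hEn lam U) h1 h12
  have e1 := pressure_eq_log hN t lam U
  have e2 := pressure_eq_log hN t₁ lam U
  have e3 := pressure_eq_log hN t₂ lam U
  refine le_of_mul_le_mul_left ?_ hN0
  have e4 : N * (pressure t₁ lam U - ((t₁ - t) / (t₂ - t₁)) * (pressure t₂ lam U - pressure t₁ lam U))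
      = N * pressure t₁ lam U - ((t₁ - t) / (t₂ - t₁)) * (N * pressure t₂ lam U - N * pressure t₁ lam U) := by
    ring
  rw [e4, e1, e2, e3]
  have e5 : Real.log (∑ σ, Real.exp (t₂ * hEn lam U σ)) - N * Real.log 2 - (Real.log (∑ σ, Real.exp (t₁ * hEn lam U σ)) - N * Real.log 2)
      = Real.log (∑ σ, Real.exp (t₂ * hEn lam U σ)) - Real.log (∑ σ, Real.exp (t₁ * hEn lam U σ)) := by ring
  rw [e5]
  linarith

end Vale.Agent.Lib.P166
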