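import Vale.Agent.Lib.P166.Haar

/-!
One dimensional Gaussian integrals and sums of squares.
-/

open scoped BigOperators NNReal ENNReal
open MeasureTheory ProbabilityTheory

namespace Vale.Agent.Lib.P166

lemma integral_mul_pdf (f : ℝ → ℝ) (m : ℝ) {v : ℝ≥0} (hv : v ≠ 0) :
    ∫ x, f x * gaussianPDFReal m v x = ∫ x, f x ∂(gaussianReal m v) := by
  rw [integral_gaussianReal_eq_integral_smul hv]
  refine integral_congr_ae ?_
  filter_upwards with x
  rw [smul_eq_mul, mul_comm]

lemma integral_exp_sq_pdf {θ : ℝ} (hθ : θ < 1 / 2) :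
    Integrable (fun x => Real.exp (θ * x ^ 2)) (gaussianReal 0 1) ∧
    ∫ x, Real.exp (θ * x ^ 2) ∂(gaussianReal 0 1) = Real.sqrt (1 / (1 - 2 * θ)) := by
  have hb : 0 < 1 / 2 - θ := by linarith
  have hpdf : ∀ x : ℝ, gaussianPDFReal 0 1 x = (Real.sqrt (2 * Real.pi))⁻¹ * Real.exp (-x ^ 2 / 2) := by
    intro x
    rw [gaussianPDFReal_def]
    simp
  have hprod : ∀ x : ℝ, Real.exp (θ * x ^ 2) * gaussianPDFReal 0 1 x
      = (Real.sqrt (2 * Real.pi))⁻¹ * Real.exp (-(1 / 2 - θ) * x ^ 2) := by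
    intro x
    rw [hpdf, mul_left_comm, ← Real.exp_add]
    congr 2
    ring
  have hone : (1 : ℝ≥0) ≠ 0 := one_ne_zero
  constructor
  · rw [gaussianReal_of_var_ne_zero 0 hone, gaussianPDF_def]
    have hm : Measurable fun x => ENNReal.ofReal (gaussianPDFReal 0 1 x) :=
      (measurable_gaussianPDFReal 0 1).ennreal_ofReal
    refine (integrable_withDensity_iff_integrable_smul₀' (μ := volume) hm.aemeasurable
      (by simp)).2 ?_
    have hi := (integrable_exp_neg_mul_sq hb).const_mul (Real.sqrt (2 * Real.pi))⁻¹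
    refine hi.congr ?_
    filter_upwards with x
    simp only [smul_eq_mul]
    rw [ENNReal.toReal_ofReal (gaussianPDFReal_nonneg 0 1 x), mul_comm (gaussianPDFReal 0 1 x),
      hprod]
  · rw [← integral_mul_pdf _ 0 hone]
    simp only [hprod]
    rw [integral_const_mul, integral_gaussian]
    have hpi := Real.pi_pos
    have e : (1 / (1 - 2 * θ)) = (Real.sqrt (2 * Real.pi))⁻¹ ^ 2 * (Real.pi / (1 / 2 - θ)) := by
      rw [inv_pow, Real.sq_sqrt (by positivity)]
      have : 1 - 2 * θ ≠ 0 := by linarith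
      field_simp
      try ring
    rw [e, Real.sqrt_mul (sq_nonneg _), Real.sqrt_sq (by positivity)]

/-- Exponential moments of the sum of squares. -/
lemma chi_mgf (I : Type*) [Fintype I] {θ : ℝ} (hθ : θ < 1 / 2) :
    Integrable (fun ω : I → ℝ => Real.exp (θ * ∑ i, ω i ^ 2)) (gam I) ∧
    ∫ ω, Real.exp (θ * ∑ i, ω i ^ 2) ∂(gam I) = Real.sqrt (1 / (1 - 2 * θ)) ^ Fintype.card I := by
  have hprod : ∀ ω : I → ℝ, Real.exp (θ * ∑ i, ω i ^ 2) = ∏ i, Real.exp (θ * ω i ^ 2) := by
    intro ω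
    rw [Finset.mul_sum, Real.exp_sum]
  simp only [hprod]
  obtain ⟨hi, hv⟩ := integral_exp_sq_pdf hθ
  constructor
  · exact Integrable.fintype_prod (μ := fun _ : I => gaussianReal 0 1)
      (f := fun _ x => Real.exp (θ * x ^ 2)) fun _ => hi
  · have := integral_fintype_prod_eq_prod (𝕜 := ℝ) (μ := fun _ : I => gaussianReal 0 1)
      (fun _ x => Real.exp (θ * x ^ 2))
    simp only [hv] at this
    unfold gam
    rw [this]
    simp [Finset.card_univ]

/-- Gaussian integrals of products of functions of the coordinates. -/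
lemma gam_prod (I : Type*) [Fintype I] (f : I → ℝ → ℝ) :
    ∫ ω : I → ℝ, ∏ i, f i (ω i) ∂(gam I) = ∏ i, ∫ x, f i x ∂(gaussianReal 0 1) :=
  integral_fintype_prod_eq_prod (𝕜 := ℝ) (μ := fun _ : I => gaussianReal 0 1) f

lemma gam_prod_integrable (I : Type*) [Fintype I] {f : I → ℝ → ℝ}
    (hf : ∀ i, Integrable (f i) (gaussianReal 0 1)) :
    Integrable (fun ω : I → ℝ => ∏ i, f i (ω i)) (gam I) :=
  Integrable.fintype_prod (μ := fun _ : I => gaussianReal 0 1) hf

/-- The origin is a null set for the Gaussian measure. -/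
lemma gam_zero {I : Type*} [Fintype I] (i : I) : (gam I) {g | g = 0} = 0 := by
  have hsub : {g : I → ℝ | g = 0} ⊆ (Function.eval i) ⁻¹' {0} := by
    intro g hg
    have : g = 0 := hg
    simp [this]
  refine measure_mono_null hsub ?_
  have hmp : MeasurePreserving (Function.eval i) (gam I) (gaussianReal 0 1) :=
    measurePreserving_eval (fun _ : I => gaussianReal 0 1) i
  rw [hmp.measure_preimage (measurableSet_singleton 0).nullMeasurableSet]
  have := nullSingletonClass_gaussianReal (μ := 0) (v := 1) one_ne_zero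
  exact measure_singleton 0

end Vale.Agent.Lib.P166
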