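import Vale.Agent.Lib.P166.Sphere

/-!
The Gaussian integral `gdet B` (which equals `det(B)^{-1/2}`), its invariance and compression.
-/

open scoped BigOperators NNReal ENNReal
open MeasureTheory ProbabilityTheory Matrix

namespace Vale.Agent.Lib.P166

variable {m : ℕ}

/-- The Gaussian integral `∫ exp((|g|² - gᵀ B g)/2) dγ(g)`. -/
noncomputable def gdet {I : Type*} [Fintype I] (B : Matrix I I ℝ) : ℝ :=
  ∫ g, Real.exp ((nsq g - qf B g) / 2) ∂(gam I)

/-- The law of a uniform unit vector. -/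
theorem sphere_law {e : Fin m → ℝ} (he : nsq e = 1)
    {F : (Fin m → ℝ) → ℝ} (hFm : Measurable F) {C : ℝ} (hC : ∀ u, |F u| ≤ C) :
    ∫ g, F (hatv g) ∂(gam (Fin m))
      = ∫ U : OG m, F ((U : Matrix (Fin m) (Fin m) ℝ) *ᵥ e) ∂(haarO m) := by
  have h := key_identity (1 : Matrix (Fin m) (Fin m) ℝ) (δ := 1) one_pos
    (fun u hu => by rw [qf_one, hu]) he hFm hC
  have e1 : ∀ g : Fin m → ℝ, F (hatv g) * Real.exp ((nsq g - qf 1 g) / 2) = F (hatv g) := by
    intro g
    rw [qf_one]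
    simp
  have e2 : ∀ U : OG m, F ((U : Matrix (Fin m) (Fin m) ℝ) *ᵥ e)
      * Real.sqrt (1 / qf 1 ((U : Matrix (Fin m) (Fin m) ℝ) *ᵥ e)) ^ m
      = F ((U : Matrix (Fin m) (Fin m) ℝ) *ᵥ e) := by
    intro U
    rw [qf_one, nsq_mulVec (OG_tr_mul U), he]
    simp
  simp only [e1, e2] at h
  exact h

/-- The Gaussian integral in terms of the Haar measure. -/
theorem gdet_eq_haar (B : Matrix (Fin m) (Fin m) ℝ) {δ : ℝ} (hδ : 0 < δ)
    (hB : ∀ u, nsq u = 1 → δ ≤ qf B u) {e : Fin m → ℝ} (he : nsq e = 1) :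
    gdet B = ∫ U : OG m, Real.sqrt (1 / qf B ((U : Matrix (Fin m) (Fin m) ℝ) *ᵥ e)) ^ m ∂(haarO m) := by
  have h := key_identity B hδ hB he (F := fun _ => 1) measurable_const (C := 1) (by simp)
  simp only [one_mul] at h
  exact h

/-- A bounded truncation of the power of the inverse form. -/
noncomputable def rootPow (B : Matrix (Fin m) (Fin m) ℝ) (δ : ℝ) (k : ℕ) (u : Fin m → ℝ) : ℝ :=
  Real.sqrt (1 / max (qf B u) δ) ^ k

lemma rootPow_eq {B : Matrix (Fin m) (Fin m) ℝ} {δ : ℝ} {k : ℕ} {u : Fin m → ℝ}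
    (h : δ ≤ qf B u) : rootPow B δ k u = Real.sqrt (1 / qf B u) ^ k := by
  unfold rootPow
  rw [max_eq_left h]

lemma rootPow_abs_le (B : Matrix (Fin m) (Fin m) ℝ) {δ : ℝ} (hδ : 0 < δ) (k : ℕ) (u : Fin m → ℝ) :
    |rootPow B δ k u| ≤ Real.sqrt (1 / δ) ^ k := by
  unfold rootPow
  rw [abs_of_nonneg (by positivity)]
  refine pow_le_pow_left₀ (Real.sqrt_nonneg _) (Real.sqrt_le_sqrt ?_) _
  exact one_div_le_one_div_of_le hδ (le_max_right _ _)

lemma measurable_rootPow (B : Matrix (Fin m) (Fin m) ℝ) (δ : ℝ) (k : ℕ) :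
    Measurable (rootPow B δ k) := by
  unfold rootPow
  exact (((measurable_const.div ((measurable_qf B).max measurable_const)).sqrt)).pow_const k

/-- The Gaussian integral as a Gaussian average of the power of the inverse form
on the sphere. -/
theorem gdet_eq_gauss (B : Matrix (Fin m) (Fin m) ℝ) {δ : ℝ} (hδ : 0 < δ)
    (hB : ∀ u, nsq u = 1 → δ ≤ qf B u) {e : Fin m → ℝ} (he : nsq e = 1) :
    gdet B = ∫ g, rootPow B δ m (hatv g) ∂(gam (Fin m)) := by
  rw [gdet_eq_haar B hδ hB he, sphere_law he (measurable_rootPow B δ m)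
    (rootPow_abs_le B hδ m)]
  refine integral_congr_ae (Filter.Eventually.of_forall fun U => ?_)
  have hu : nsq ((U : Matrix (Fin m) (Fin m) ℝ) *ᵥ e) = 1 := by
    rw [nsq_mulVec (OG_tr_mul U), he]
  change _ = rootPow B δ m _
  rw [rootPow_eq (hB _ hu)]

section basic

variable {I : Type*} [Fintype I] [DecidableEq I]

omit [DecidableEq I] in
lemma qf_ge_of_unit {B : Matrix I I ℝ} {δ : ℝ} (hB : ∀ u, nsq u = 1 → δ ≤ qf B u) (g : I → ℝ) :
    δ * nsq g ≤ qf B g := by
  by_cases hg : g = 0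
  · subst hg
    simp [nsq, qf]
  · rw [qf_eq_nsq_mul]
    have := hB _ (nsq_hatv hg)
    have h2 := nsq_nonneg g
    nlinarith

omit [DecidableEq I] in
lemma continuous_qf (B : Matrix I I ℝ) : Continuous (qf B) := by
  unfold qf
  fun_prop

omit [DecidableEq I] in
lemma continuous_nsq : Continuous (nsq : (I → ℝ) → ℝ) := by
  unfold nsq
  fun_prop

omit [DecidableEq I] in
lemma integrable_gdet {B : Matrix I I ℝ} {δ : ℝ} (hδ : 0 < δ)
    (hB : ∀ u, nsq u = 1 → δ ≤ qf B u) :
    Integrable (fun g => Real.exp ((nsq g - qf B g) / 2)) (gam I) := by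
  have hθ : (1 - δ) / 2 < 1 / 2 := by linarith
  obtain ⟨hint, -⟩ := chi_mgf I hθ
  refine hint.mono' ?_ (Filter.Eventually.of_forall fun g => ?_)
  · refine Continuous.aestronglyMeasurable ?_
    exact Real.continuous_exp.comp ((continuous_nsq.sub (continuous_qf B)).div_const 2)
  · rw [Real.norm_eq_abs, abs_of_pos (Real.exp_pos _)]
    apply Real.exp_le_exp.2
    have := qf_ge_of_unit hB g
    change _ ≤ (1 - δ) / 2 * nsq g
    nlinarith

omit [DecidableEq I] in
lemma gdet_pos {B : Matrix I I ℝ} {δ : ℝ} (hδ : 0 < δ) (hB : ∀ u, nsq u = 1 → δ ≤ qf B u) :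
    0 < gdet B := by
  unfold gdet
  refine (integral_pos_iff_support_of_nonneg (fun g => (Real.exp_pos _).le)
    (integrable_gdet hδ hB)).2 ?_
  have : Function.support (fun g : I → ℝ => Real.exp ((nsq g - qf B g) / 2)) = Set.univ := by
    ext g
    simp [(Real.exp_pos _).ne']
  rw [this, measure_univ]
  exact one_pos

omit [DecidableEq I] in
lemma qf_conj (B Q : Matrix I I ℝ) (g : I → ℝ) :
    qf (Q.transpose * B * Q) g = qf B (Q *ᵥ g) := by
  unfold qf
  rw [← Matrix.mulVec_mulVec, ← Matrix.mulVec_mulVec, Matrix.dotProduct_mulVec,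
    Matrix.vecMul_transpose]

/-- Invariance under rotations. -/
lemma gdet_rot (B : Matrix I I ℝ) {Q : Matrix I I ℝ} (hQ : Q.transpose * Q = 1) :
    gdet (Q.transpose * B * Q) = gdet B := by
  unfold gdet
  rw [← integral_mulVec_gam hQ (fun g => Real.exp ((nsq g - qf B g) / 2))]
  refine integral_congr_ae (Filter.Eventually.of_forall fun g => ?_)
  simp only
  rw [nsq_mulVec hQ, qf_conj]

/-- The value for diagonal matrices. -/
lemma qf_diagonal (D : I → ℝ) (g : I → ℝ) : qf (Matrix.diagonal D) g = ∑ i, D i * g i ^ 2 := by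
  unfold qf
  simp only [dotProduct, Matrix.mulVec_diagonal]
  refine Finset.sum_congr rfl fun i _ => ?_
  ring

lemma gdet_diagonal {D : I → ℝ} (hD : ∀ i, 0 < D i) :
    gdet (Matrix.diagonal D) = ∏ i, Real.sqrt (1 / D i) := by
  unfold gdet
  have e : ∀ g : I → ℝ, Real.exp ((nsq g - qf (Matrix.diagonal D) g) / 2)
      = ∏ i, Real.exp (((1 - D i) / 2) * g i ^ 2) := by
    intro g
    rw [← Real.exp_sum, qf_diagonal]
    congr 1
    unfold nsq
    rw [← Finset.sum_sub_distrib, Finset.sum_div]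
    refine Finset.sum_congr rfl fun i _ => ?_
    ring
  simp only [e]
  rw [gam_prod I (fun i x => Real.exp (((1 - D i) / 2) * x ^ 2))]
  refine Finset.prod_congr rfl fun i _ => ?_
  have hθ : (1 - D i) / 2 < 1 / 2 := by
    have := hD i
    linarith
  rw [(integral_exp_sq_pdf hθ).2]
  congr 2
  ring

end basic

end Vale.Agent.Lib.P166
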