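import Vale.Agent.Lib.P166.Frozen

/-!
Limit statements: concentration, the upper bound with freezing, the lower bound by tangent lines.
-/

open scoped BigOperators Topology BoundedContinuousFunction
open MeasureTheory Matrix Filter

namespace Vale.Agent.Lib.P166

variable {μ : Measure ℝ} {a b : ℝ} {lam : ∀ N, Fin N → ℝ}

lemma integral_combo {N : ℕ} (c : ℝ) {f g k : OG N → ℝ} (hf : Continuous f) (hg : Continuous g) (hk : Continuous k) :
    ∫ U, (f U + c * (g U - k U)) ∂(haarO N) = ∫ U, f U ∂(haarO N) + c * (∫ U, g U ∂(haarO N) - ∫ U, k U ∂(haarO N)) := by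
  have i1 : Integrable (fun U => f U) (haarO N) := integrable_OG hf
  have i2 : Integrable (fun U => c * (g U - k U)) (haarO N) := integrable_OG (continuous_const.mul (hg.sub hk))
  have i3 : Integrable (fun U => g U) (haarO N) := integrable_OG hg
  have i4 : Integrable (fun U => k U) (haarO N) := integrable_OG hk
  rw [integral_add i1 i2, integral_const_mul, integral_sub i3 i4]

/-- The eigenvalues are eventually bounded. -/
lemma Spec.bound (h : Spec μ a b lam) : ∀ᶠ N : ℕ in atTop, ∀ i, |lam N i| ≤ |a| + |b| + 1 := by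
  filter_upwards [h.edge 1 one_pos] with N hN i
  obtain ⟨h13, h14⟩ := hN i
  rw [abs_le]
  have := neg_abs_le b
  have := le_abs_self a
  have := abs_nonneg a
  have := abs_nonneg b
  constructor <;> linarith

/-- The variance of the pressure tends to zero. -/
theorem var_tendsto (h : Spec μ a b lam) (β : ℝ) :
    Tendsto (fun N : ℕ => ∫ U, (pressure β (lam N) U - ∫ V, pressure β (lam N) V ∂(haarO N)) ^ 2 ∂(haarO N))
      atTop (𝓝 0) := by
  obtain ⟨C, hC⟩ : ∃ C, C = |a| + |b| + 1 := ⟨_, rfl⟩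
  have h1 : Tendsto (fun N : ℕ => (N : ℝ) - 1) atTop atTop :=
    tendsto_atTop_add_const_right _ _ tendsto_natCast_atTop_atTop
  have h2 : Tendsto (fun N : ℕ => Real.pi ^ 2 * β ^ 2 * C ^ 2 / ((N : ℝ) - 1)) atTop (𝓝 0) :=
    (tendsto_const_nhds (x := Real.pi ^ 2 * β ^ 2 * C ^ 2)).div_atTop h1
  refine squeeze_zero' (Eventually.of_forall fun N => integral_nonneg fun U => sq_nonneg _) ?_ h2
  filter_upwards [h.bound, eventually_ge_atTop 2] with N hN hN2
  rw [← hC] at hN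
  exact variance_bound hN2 β hN

/-- Upgrading a bound for the mean from above to a bound in probability. -/
theorem prob_upper (h : Spec μ a b lam) {β A : ℝ}
    (hm : ∀ ε > 0, ∀ᶠ N : ℕ in atTop, ∫ U, pressure β (lam N) U ∂(haarO N) ≤ A + ε) {ε : ℝ} (hε : 0 < ε) :
    Tendsto (fun N : ℕ => (haarO N).real {U | A + ε ≤ pressure β (lam N) U}) atTop (𝓝 0) := by
  have hv := (var_tendsto h β).div_const ((ε / 2) ^ 2)
  rw [zero_div] at hv
  refine squeeze_zero' (Eventually.of_forall fun N => measureReal_nonneg) ?_ hv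
  filter_upwards [hm (ε / 2) (half_pos hε)] with N hN
  refine le_trans (measureReal_mono ?_ (measure_ne_top _ _)) (pressure_chebyshev β (lam N) (half_pos hε))
  intro U hU
  have hU' : A + ε ≤ pressure β (lam N) U := hU
  change ε / 2 ≤ |pressure β (lam N) U - ∫ V, pressure β (lam N) V ∂(haarO N)|
  refine le_trans ?_ (le_abs_self _)
  linarith

/-- Upgrading a bound for the mean from below to a bound in probability. -/
theorem prob_lower (h : Spec μ a b lam) {β A : ℝ}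
    (hm : ∀ ε > 0, ∀ᶠ N : ℕ in atTop, A - ε ≤ ∫ U, pressure β (lam N) U ∂(haarO N)) {ε : ℝ} (hε : 0 < ε) :
    Tendsto (fun N : ℕ => (haarO N).real {U | pressure β (lam N) U ≤ A - ε}) atTop (𝓝 0) := by
  have hv := (var_tendsto h β).div_const ((ε / 2) ^ 2)
  rw [zero_div] at hv
  refine squeeze_zero' (Eventually.of_forall fun N => measureReal_nonneg) ?_ hv
  filter_upwards [hm (ε / 2) (half_pos hε)] with N hN
  refine le_trans (measureReal_mono ?_ (measure_ne_top _ _)) (pressure_chebyshev β (lam N) (half_pos hε))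
  intro U hU
  have hU' : pressure β (lam N) U ≤ A - ε := hU
  change ε / 2 ≤ |pressure β (lam N) U - ∫ V, pressure β (lam N) V ∂(haarO N)|
  refine le_trans ?_ (neg_le_abs _)
  linarith

/-- Convergence of the mean gives convergence in probability. -/
theorem prob_limit (h : Spec μ a b lam) {β A : ℝ}
    (hm : Tendsto (fun N : ℕ => ∫ U, pressure β (lam N) U ∂(haarO N)) atTop (𝓝 A)) {ε : ℝ} (hε : 0 < ε) :
    Tendsto (fun N : ℕ => (haarO N).real {U | ε ≤ |pressure β (lam N) U - A|}) atTop (𝓝 0) := by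
  have h1 := prob_upper h (β := β) (A := A) (fun ε hε => by
    filter_upwards [(tendsto_order.1 hm).2 (A + ε) (by linarith)] with N hN using hN.le) hε
  have h2 := prob_lower h (β := β) (A := A) (fun ε hε => by
    filter_upwards [(tendsto_order.1 hm).1 (A - ε) (by linarith)] with N hN using hN.le) hε
  have h3 := h1.add h2
  rw [add_zero] at h3
  refine squeeze_zero' (Eventually.of_forall fun N => measureReal_nonneg) (Eventually.of_forall fun N => ?_) h3
  refine le_trans (measureReal_mono (s₂ := {U | A + ε ≤ pressure β (lam N) U} ∪ {U | pressure β (lam N) U ≤ A - ε}) ?_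
    (measure_ne_top _ _)) (measureReal_union_le _ _)
  intro U hU
  have hU' : ε ≤ |pressure β (lam N) U - A| := hU
  rcases le_abs.1 hU' with h4 | h4
  · left
    change A + ε ≤ _
    linarith
  · right
    change _ ≤ A - ε
    linarith

/-- The upper bound with freezing, for the mean. -/
theorem mean_frozen (h : Spec μ a b lam) {β' β y : ℝ} (hβ' : 0 < β') (hβ : β' ≤ β) (hy : β' * a < y)
    {ε : ℝ} (hε : 0 < ε) :
    ∀ᶠ N : ℕ in atTop, ∫ U, pressure β (lam N) U ∂(haarO N)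
      ≤ (β / β') * (psi μ β' y + Real.log 2) - Real.log 2 + ε := by
  have hr : 0 < β / β' := div_pos (hβ'.trans_le hβ) hβ'
  have hε1 : 0 < ε / (β / β') := by positivity
  obtain ⟨η₀, hη₀, hev₀⟩ := psi_conv h hβ'.le hy hε1
  obtain ⟨e₀, he₀, m, hm, M, hevm⟩ := margin h hβ'.le hy
  filter_upwards [hev₀, hevm, eventually_gt_atTop 0] with N h1 h2 hN
  have hD := h2 β' y (by simpa using he₀.le) (by simpa using he₀.le)
  have h3 := mean_pressure_le hN.ne' (lam N) (fun i => hm.trans_le (hD i).1)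
  have h4 := (abs_lt.1 (h1 β' y (by simpa using hη₀) (by simpa using hη₀))).2
  have hcb := continuous_pressure β (lam N)
  have hcb' := continuous_pressure β' (lam N)
  have h5 : ∫ U, (pressure β (lam N) U + Real.log 2) ∂(haarO N)
      ≤ ∫ U, (β / β') * (pressure β' (lam N) U + Real.log 2) ∂(haarO N) :=
    integral_mono (integrable_OG (hcb.add continuous_const))
      (integrable_OG (continuous_const.mul (hcb'.add continuous_const)))
      fun U => pressure_frozen hN.ne' (lam N) U hβ' hβ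
  rw [integral_add (integrable_OG hcb) (integrable_const _), integral_const_mul,
    integral_add (integrable_OG hcb') (integrable_const _)] at h5
  simp only [integral_const, probReal_univ, smul_eq_mul, one_mul] at h5
  have h6 : ∫ U, pressure β' (lam N) U ∂(haarO N) ≤ psi μ β' y + ε / (β / β') := by linarith
  have h7 := mul_le_mul_of_nonneg_left h6 hr.le
  have e : β / β' * (psi μ β' y + ε / (β / β')) = β / β' * psi μ β' y + ε := by
    rw [mul_add, mul_div_cancel₀ _ hr.ne']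
  nlinarith

lemma tangent_num₁ {ψ₁ e Q D s ε ε₂ m₀ mA : ℝ} (hε : 0 < ε) (hs0 : 0 < s) (hD0 : 0 ≤ D) (h0 : ψ₁ - ε₂ < m₀)
    (hm : mA ≤ ψ₁ - (s / 2) * e + s ^ 2 * Q + ε₂) (hsQ : D * (s * Q) ≤ ε / 4) (h1 : ε₂ ≤ ε / 4)
    (h2 : D * (2 * ε₂ / s) ≤ ε / 4) :
    ψ₁ + D * ((1 / 2) * e) - ε ≤ m₀ + D / s * (m₀ - mA) := by
  have c1 : m₀ - mA ≥ (s / 2) * e - s ^ 2 * Q - 2 * ε₂ := by linarith
  have c2 : D / s * (m₀ - mA) ≥ D / s * ((s / 2) * e - s ^ 2 * Q - 2 * ε₂) :=
    mul_le_mul_of_nonneg_left c1 (by positivity)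
  have e2 : D / s * ((s / 2) * e - s ^ 2 * Q - 2 * ε₂) = D * ((1 / 2) * e) - D * (s * Q) - D * (2 * ε₂ / s) := by
    field_simp
  linarith

lemma tangent_num₂ {ψ₁ e Q D s ε ε₂ m₀ mB : ℝ} (hε : 0 < ε) (hs0 : 0 < s) (hD0 : 0 ≤ D) (h0 : ψ₁ - ε₂ < m₀)
    (hm : mB ≤ ψ₁ + (s / 2) * e + s ^ 2 * Q + ε₂) (hsQ : D * (s * Q) ≤ ε / 4) (h1 : ε₂ ≤ ε / 4)
    (h2 : D * (2 * ε₂ / s) ≤ ε / 4) :
    ψ₁ - D * ((1 / 2) * e) - ε ≤ m₀ + (- (D / s)) * (mB - m₀) := by
  have c1 : mB - m₀ ≤ (s / 2) * e + s ^ 2 * Q + 2 * ε₂ := by linarith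
  have c2 : D / s * (mB - m₀) ≤ D / s * ((s / 2) * e + s ^ 2 * Q + 2 * ε₂) :=
    mul_le_mul_of_nonneg_left c1 (by positivity)
  have e2 : D / s * ((s / 2) * e + s ^ 2 * Q + 2 * ε₂) = D * ((1 / 2) * e) + D * (s * Q) + D * (2 * ε₂ / s) := by
    field_simp
  have e3 : (- (D / s)) * (mB - m₀) = - (D / s * (mB - m₀)) := by ring
  rw [e3]
  linarith

/-- The tangent line lower bound for the mean. -/
theorem mean_tangent (h : Spec μ a b lam) {β₁ y₀ : ℝ} (hβ₁ : 0 < β₁) (hy₀ : β₁ * a < y₀)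
    (hlim : Tendsto (fun N : ℕ => ∫ U, pressure β₁ (lam N) U ∂(haarO N)) atTop (𝓝 (psi μ β₁ y₀)))
    (β : ℝ) {ε : ℝ} (hε : 0 < ε) :
    ∀ᶠ N : ℕ in atTop, psi μ β₁ y₀ + (β - β₁) * ((1 / 2) * ∫ x, x / (y₀ - β₁ * x) ∂μ) - ε
      ≤ ∫ U, pressure β (lam N) U ∂(haarO N) := by
  obtain ⟨Q, hQ, s₀, hs₀, htilt⟩ := psi_tilt h hβ₁.le hy₀
  obtain ⟨e, he⟩ : ∃ e, e = ∫ x, x / (y₀ - β₁ * x) ∂μ := ⟨_, rfl⟩
  rw [← he] at htilt ⊢
  obtain ⟨ψ₁, hψ₁⟩ : ∃ ψ₁, ψ₁ = psi μ β₁ y₀ := ⟨_, rfl⟩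
  rw [← hψ₁] at htilt hlim ⊢
  obtain ⟨g, hg⟩ : ∃ g, g = y₀ - β₁ * a := ⟨_, rfl⟩
  have hg0 : 0 < g := by
    rw [hg]
    linarith
  obtain ⟨D, hD⟩ : ∃ D, D = |β - β₁| := ⟨_, rfl⟩
  have hD0 : 0 ≤ D := by
    rw [hD]
    exact abs_nonneg _
  -- the small increment
  obtain ⟨s, hs⟩ : ∃ s, s = min (min s₀ β₁) (min (g / (2 * (|a| + 1))) (ε / (4 * (D + 1) * (Q + 1)))) := ⟨_, rfl⟩
  have hs0 : 0 < s := by
    rw [hs]
    exact lt_min (lt_min hs₀ hβ₁) (lt_min (by positivity) (by positivity))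
  have hs1 : s ≤ s₀ := by
    rw [hs]
    exact (min_le_left _ _).trans (min_le_left _ _)
  have hs2 : s ≤ β₁ := by
    rw [hs]
    exact (min_le_left _ _).trans (min_le_right _ _)
  have hs3 : s ≤ g / (2 * (|a| + 1)) := by
    rw [hs]
    exact (min_le_right _ _).trans (min_le_left _ _)
  have hs4 : s ≤ ε / (4 * (D + 1) * (Q + 1)) := by
    rw [hs]
    exact (min_le_right _ _).trans (min_le_right _ _)
  have hsa : s * |a| ≤ g / 2 := by
    rw [le_div_iff₀ (by positivity)] at hs3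
    nlinarith [abs_nonneg a]
  have hplus : (β₁ + s) * a < y₀ := by
    have := le_abs_self a
    have h1 : s * a ≤ s * |a| := mul_le_mul_of_nonneg_left this hs0.le
    rw [hg] at hsa
    nlinarith
  have hminus : (β₁ - s) * a < y₀ := by
    have := neg_abs_le a
    have h1 : s * (-a) ≤ s * |a| := mul_le_mul_of_nonneg_left (by linarith) hs0.le
    rw [hg] at hsa
    nlinarith
  have ht1 := htilt s (by rw [abs_of_pos hs0]; exact hs1)
  have ht2 := htilt (-s) (by rw [abs_neg, abs_of_pos hs0]; exact hs1)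
  rw [← sub_eq_add_neg] at ht2
  have eQ : (-s) ^ 2 * Q = s ^ 2 * Q := by ring
  rw [eQ] at ht2
  have hsQ : D * (s * Q) ≤ ε / 4 := by
    rw [le_div_iff₀ (by positivity)] at hs4
    have h5 : D * Q ≤ (D + 1) * (Q + 1) := by nlinarith
    have h6 : s * (D * Q) ≤ s * ((D + 1) * (Q + 1)) := mul_le_mul_of_nonneg_left h5 hs0.le
    nlinarith
  -- the small error
  obtain ⟨ε₂, hε₂⟩ : ∃ ε₂, ε₂ = min (ε / 4) (ε * s / (16 * (D + 1))) := ⟨_, rfl⟩
  have hε₂0 : 0 < ε₂ := by
    rw [hε₂]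
    exact lt_min (by positivity) (by positivity)
  have hε₂1 : ε₂ ≤ ε / 4 := by
    rw [hε₂]
    exact min_le_left _ _
  have hε₂2 : D * (2 * ε₂ / s) ≤ ε / 4 := by
    have h5 : ε₂ ≤ ε * s / (16 * (D + 1)) := by
      rw [hε₂]
      exact min_le_right _ _
    rw [le_div_iff₀ (by positivity)] at h5
    rw [mul_div_assoc', div_le_iff₀ hs0]
    nlinarith [mul_nonneg hD0 hε₂0.le]
  obtain ⟨η₁, hη₁, hev₁⟩ := psi_conv h (by positivity : 0 ≤ β₁ + s) hplus hε₂0
  obtain ⟨η₂, hη₂, hev₂⟩ := psi_conv h (by linarith : 0 ≤ β₁ - s) hminus hε₂0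
  obtain ⟨e₁, he₁, m₁, hm₁, M₁, hevm₁⟩ := margin h (by positivity : 0 ≤ β₁ + s) hplus
  obtain ⟨e₂, he₂, m₂, hm₂, M₂, hevm₂⟩ := margin h (by linarith : 0 ≤ β₁ - s) hminus
  filter_upwards [hev₁, hev₂, hevm₁, hevm₂, eventually_gt_atTop 0,
    (tendsto_order.1 hlim).1 (ψ₁ - ε₂) (by linarith)] with N h1 h2 h3 h4 hNpos h0
  have a1 := h1 (β₁ + s) y₀ (by simpa using hη₁) (by simpa using hη₁)
  have a2 := h2 (β₁ - s) y₀ (by simpa using hη₂) (by simpa using hη₂)
  have a3 := h3 (β₁ + s) y₀ (by simpa using he₁.le) (by simpa using he₁.le)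
  have a4 := h4 (β₁ - s) y₀ (by simpa using he₂.le) (by simpa using he₂.le)
  have up1 := mean_pressure_le hNpos.ne' (lam N) (fun i => hm₁.trans_le (a3 i).1)
  have up2 := mean_pressure_le hNpos.ne' (lam N) (fun i => hm₂.trans_le (a4 i).1)
  have b1 := (abs_lt.1 a1).2
  have b2 := (abs_lt.1 a2).2
  obtain ⟨m₀, hm₀⟩ : ∃ m₀, m₀ = ∫ U, pressure β₁ (lam N) U ∂(haarO N) := ⟨_, rfl⟩
  rw [← hm₀] at h0
  have hc := fun t => continuous_pressure t (lam N)
  by_cases hcase : β₁ ≤ β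
  · have hDe : D = β - β₁ := by
      rw [hD, abs_of_nonneg (by linarith)]
    have hlin := integral_mono (f := fun U => pressure β₁ (lam N) U + ((β - β₁) / (β₁ - (β₁ - s))) * (pressure β₁ (lam N) U - pressure (β₁ - s) (lam N) U))
      (integrable_OG ((hc β₁).add (continuous_const.mul ((hc β₁).sub (hc (β₁ - s))))))
      (integrable_OG (hc β)) (fun U => pressure_right hNpos.ne' (lam N) U (by linarith) hcase)
    rw [integral_combo _ (hc β₁) (hc β₁) (hc (β₁ - s)), ← hm₀] at hlin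
    refine le_trans ?_ hlin
    have e1 : β₁ - (β₁ - s) = s := by ring
    rw [e1, ← hDe]
    refine tangent_num₁ hε hs0 hD0 h0 ?_ hsQ hε₂1 hε₂2
    have e5 : -s / 2 * e = - ((s / 2) * e) := by ring
    rw [e5] at ht2
    linarith
  · push Not at hcase
    have hDe : D = β₁ - β := by
      rw [hD, abs_of_neg (by linarith)]
      ring
    have hlin := integral_mono (f := fun U => pressure β₁ (lam N) U + (-((β₁ - β) / ((β₁ + s) - β₁))) * (pressure (β₁ + s) (lam N) U - pressure β₁ (lam N) U))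
      (integrable_OG ((hc β₁).add (continuous_const.mul ((hc (β₁ + s)).sub (hc β₁)))))
      (integrable_OG (hc β)) (fun U => by
        have := pressure_left hNpos.ne' (lam N) U hcase.le (by linarith : β₁ < β₁ + s)
        linarith)
    rw [integral_combo _ (hc β₁) (hc (β₁ + s)) (hc β₁), ← hm₀] at hlin
    refine le_trans ?_ hlin
    have e1 : (β₁ + s) - β₁ = s := by ring
    rw [e1, ← hDe]
    have e3 : (β - β₁) * ((1 / 2) * e) = - (D * ((1 / 2) * e)) := by
      rw [hDe]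
      ring
    rw [e3, ← sub_eq_add_neg]
    refine tangent_num₂ hε hs0 hD0 h0 ?_ hsQ hε₂1 hε₂2
    linarith

end Vale.Agent.Lib.P166
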