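import Vale.Agent.Lib.P166.Lower

/-!
Sums over the cube: the entropy bound, the Gaussian linearisation bound, and the first and second
moments of the partition function.
-/

open scoped BigOperators NNReal ENNReal
open MeasureTheory ProbabilityTheory Matrix

namespace Vale.Agent.Lib.P166

variable {N : ℕ}

lemma spin_sq (σ : Fin N → Bool) (i : Fin N) : spin σ i ^ 2 = 1 := by
  unfold spin
  split_ifs <;> norm_num

lemma nsq_spin (σ : Fin N → Bool) : nsq (spin σ) = N := by
  unfold nsq
  simp [spin_sq]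

/-- The coordinatewise product of two configurations. -/
def xorB (σ τ : Fin N → Bool) : Fin N → Bool := fun i => σ i == τ i

lemma spin_mul (σ τ : Fin N → Bool) (i : Fin N) : spin σ i * spin τ i = spin (xorB σ τ) i := by
  unfold spin xorB
  cases σ i <;> cases τ i <;> simp

/-- The magnetisation. -/
def sumS (ε : Fin N → Bool) : ℝ := ∑ i, spin ε i

lemma dot_spin (σ τ : Fin N → Bool) : spin σ ⬝ᵥ spin τ = sumS (xorB σ τ) := by
  unfold sumS dotProduct
  exact Finset.sum_congr rfl fun i _ => spin_mul σ τ i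

lemma abs_sumS_le (ε : Fin N → Bool) : |sumS ε| ≤ N := by
  unfold sumS
  refine (Finset.abs_sum_le_sum_abs _ _).trans ?_
  have : ∀ i, |spin ε i| = 1 := by
    intro i
    unfold spin
    split_ifs <;> simp
  simp [this]

/-- The bijection of the cube given by multiplication by a fixed configuration. -/
def xorEquiv (σ : Fin N → Bool) : (Fin N → Bool) ≃ (Fin N → Bool) where
  toFun τ := xorB σ τ
  invFun τ := xorB σ τ
  left_inv τ := by
    ext i
    change (σ i == (σ i == τ i)) = τ i
    cases σ i <;> cases τ i <;> rfl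
  right_inv τ := by
    ext i
    change (σ i == (σ i == τ i)) = τ i
    cases σ i <;> cases τ i <;> rfl

/-- The function `I(R) = ½ ((1+R) log(1+R) + (1-R) log(1-R))`. -/
noncomputable def Ifun (R : ℝ) : ℝ :=
  (1 / 2) * ((1 + R) * Real.log (1 + R) + (1 - R) * Real.log (1 - R))

lemma Ifun_neg (R : ℝ) : Ifun (-R) = Ifun R := by
  unfold Ifun
  rw [sub_neg_eq_add, ← sub_eq_add_neg]
  ring

lemma Ifun_abs (R : ℝ) : Ifun |R| = Ifun R := by
  rcases abs_cases R with ⟨h, -⟩ | ⟨h, -⟩ <;> rw [h]
  exact Ifun_neg R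

/-- The number of positive coordinates. -/
def cnt (ε : Fin N → Bool) : ℕ := (Finset.univ.filter fun i => ε i = true).card

lemma cnt_le (ε : Fin N → Bool) : cnt ε ≤ N := by
  unfold cnt
  calc _ ≤ (Finset.univ : Finset (Fin N)).card := Finset.card_filter_le _ _
    _ = N := by simp

lemma sumS_eq (ε : Fin N → Bool) : sumS ε = 2 * cnt ε - N := by
  unfold sumS cnt spin
  rw [Finset.sum_ite]
  simp only [Finset.sum_const, nsmul_eq_mul, mul_one, mul_neg]
  have h := Finset.card_filter_add_card_filter_not (s := (Finset.univ : Finset (Fin N)))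
    (fun i => ε i = true)
  have h3 : ((Finset.univ.filter fun i => ε i = true).card : ℝ)
      + ((Finset.univ.filter fun i => ¬ ε i = true).card : ℝ) = N := by
    have h4 : (Finset.univ.filter fun i => ε i = true).card
      + (Finset.univ.filter fun i => ¬ ε i = true).card = N := by
      simpa using h
    exact_mod_cast h4
  linarith

lemma weight_eq (p q : ℝ) (ε : Fin N → Bool) :
    ∏ i, (if ε i = true then p else q) = p ^ cnt ε * q ^ (N - cnt ε) := by
  rw [Finset.prod_ite]
  simp only [Finset.prod_const]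
  unfold cnt
  congr 2
  have h := Finset.card_filter_add_card_filter_not (s := (Finset.univ : Finset (Fin N)))
    (fun i => ε i = true)
  simp at h
  simp
  omega

lemma weight_sum (p q : ℝ) (hpq : p + q = 1) :
    ∑ ε : Fin N → Bool, ∏ i, (if ε i = true then p else q) = 1 := by
  have h := Finset.prod_univ_sum (fun _ : Fin N => (Finset.univ : Finset Bool))
    (fun _ b => if b = true then p else q)
  rw [Fintype.piFinset_univ] at h
  rw [← h]
  simp [hpq]

lemma exp_nat_mul_log (a : ℕ) {x : ℝ} (hx : 0 ≤ x) (h : a = 0 ∨ 0 < x) :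
    Real.exp (a * Real.log x) = x ^ a := by
  rcases h with rfl | h
  · simp
  · rw [Real.exp_nat_mul, Real.exp_log h]

/-- The identity between the entropy and the product weights. -/
lemma ent_weight (hN : N ≠ 0) {a : ℕ} (ha : a ≤ N) :
    (1 / 2 ^ N) * Real.exp (N * Ifun (2 * ((a : ℝ) / N) - 1))
      = ((a : ℝ) / N) ^ a * (1 - (a : ℝ) / N) ^ (N - a) := by
  have hN' : (0 : ℝ) < N := Nat.cast_pos.2 (Nat.pos_of_ne_zero hN)
  obtain ⟨p, hp⟩ : ∃ p : ℝ, p = (a : ℝ) / N := ⟨_, rfl⟩
  rw [← hp]
  have hNp : N * p = a := by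
    rw [hp]
    field_simp
  have hle : (a : ℝ) ≤ N := by exact_mod_cast ha
  have hp0 : 0 ≤ p := by
    rw [hp]
    positivity
  have hp1 : p ≤ 1 := by
    rw [hp, div_le_one hN']
    exact hle
  have hb : ((N - a : ℕ) : ℝ) = N * (1 - p) := by
    rw [Nat.cast_sub ha, ← hNp]
    ring
  have e1 : N * Ifun (2 * p - 1) = a * Real.log (2 * p)
      + ((N - a : ℕ) : ℝ) * Real.log (2 * (1 - p)) := by
    unfold Ifun
    rw [hb, ← hNp, show 1 + (2 * p - 1) = 2 * p by ring,
      show 1 - (2 * p - 1) = 2 * (1 - p) by ring]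
    ring
  have h1 : Real.exp (a * Real.log (2 * p)) = (2 * p) ^ a := by
    refine exp_nat_mul_log a (by positivity) ?_
    by_cases h : a = 0
    · exact Or.inl h
    · right
      have : (0 : ℝ) < a := Nat.cast_pos.2 (Nat.pos_of_ne_zero h)
      have hpp : 0 < p := by
        rw [hp]
        positivity
      positivity
  have h2 : Real.exp (((N - a : ℕ) : ℝ) * Real.log (2 * (1 - p))) = (2 * (1 - p)) ^ (N - a) := by
    refine exp_nat_mul_log _ (by linarith) ?_
    by_cases h : N - a = 0
    · exact Or.inl h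
    · right
      have hlt : a < N := by omega
      have : (a : ℝ) < N := by exact_mod_cast hlt
      have hpp : p < 1 := by
        rw [hp, div_lt_one hN']
        exact this
      linarith
  rw [e1, Real.exp_add, h1, h2, mul_pow, mul_pow]
  have h2N : (2 : ℝ) ^ N = 2 ^ a * 2 ^ (N - a) := by
    rw [← pow_add]
    congr 1
    omega
  rw [h2N]
  field_simp

/-- The entropy bound. -/
theorem ent_sum (hN : N ≠ 0) :
    (1 / 2 ^ N) * ∑ ε : Fin N → Bool, Real.exp (N * Ifun (|sumS ε| / N)) ≤ N + 1 := by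
  classical
  have hN' : (N : ℝ) ≠ 0 := Nat.cast_ne_zero.2 hN
  have hpt : ∀ ε : Fin N → Bool, (1 / 2 ^ N) * Real.exp (N * Ifun (|sumS ε| / N))
      = ∏ i, (if ε i = true then ((cnt ε : ℝ) / N) else 1 - (cnt ε : ℝ) / N) := by
    intro ε
    rw [weight_eq, ← ent_weight hN (cnt_le ε)]
    congr 3
    have : |sumS ε| / N = |sumS ε / N| := by
      rw [abs_div, abs_of_pos (Nat.cast_pos.2 (Nat.pos_of_ne_zero hN) : (0 : ℝ) < N)]
    rw [this, Ifun_abs, sumS_eq]
    congr 1
    field_simp
  rw [Finset.mul_sum]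
  simp only [hpt]
  have hmaps : ∀ ε ∈ (Finset.univ : Finset (Fin N → Bool)), cnt ε ∈ Finset.range (N + 1) :=
    fun ε _ => Finset.mem_range.2 (Nat.lt_succ_of_le (cnt_le ε))
  rw [← Finset.sum_fiberwise_of_maps_to hmaps]
  have hfib : ∀ a ∈ Finset.range (N + 1),
      ∑ ε ∈ Finset.univ.filter (fun ε : Fin N → Bool => cnt ε = a),
        ∏ i, (if ε i = true then ((cnt ε : ℝ) / N) else 1 - (cnt ε : ℝ) / N) ≤ 1 := by
    intro a ha
    have ha' : a ≤ N := Nat.lt_succ_iff.1 (Finset.mem_range.1 ha)
    have hp0 : 0 ≤ (a : ℝ) / N := by positivity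
    have hp1 : 0 ≤ 1 - (a : ℝ) / N := by
      have : (a : ℝ) ≤ N := by exact_mod_cast ha'
      have hN0 : (0 : ℝ) < N := Nat.cast_pos.2 (Nat.pos_of_ne_zero hN)
      rw [sub_nonneg, div_le_one hN0]
      exact this
    calc ∑ ε ∈ Finset.univ.filter (fun ε : Fin N → Bool => cnt ε = a),
        ∏ i, (if ε i = true then ((cnt ε : ℝ) / N) else 1 - (cnt ε : ℝ) / N)
        = ∑ ε ∈ Finset.univ.filter (fun ε : Fin N → Bool => cnt ε = a),
          ∏ i, (if ε i = true then ((a : ℝ) / N) else 1 - (a : ℝ) / N) := by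
          refine Finset.sum_congr rfl fun ε hε => ?_
          rw [(Finset.mem_filter.1 hε).2]
      _ ≤ ∑ ε : Fin N → Bool, ∏ i, (if ε i = true then ((a : ℝ) / N) else 1 - (a : ℝ) / N) := by
          refine Finset.sum_le_sum_of_subset_of_nonneg (Finset.filter_subset _ _) fun ε _ _ => ?_
          refine Finset.prod_nonneg fun i _ => ?_
          split_ifs
          · exact hp0
          · exact hp1
      _ = 1 := weight_sum _ _ (by ring)
  calc _ ≤ ∑ _a ∈ Finset.range (N + 1), (1 : ℝ) := Finset.sum_le_sum hfib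
    _ = N + 1 := by simp

/-- The sum of a product of exponentials over the cube. -/
lemma cube_exp_sum (t : ℝ) :
    (1 / 2 ^ N) * ∑ ε : Fin N → Bool, Real.exp (t * sumS ε) = Real.cosh t ^ N := by
  have h := Finset.prod_univ_sum (fun _ : Fin N => (Finset.univ : Finset Bool))
    (fun _ b => Real.exp (t * (if b = true then 1 else -1)))
  rw [Fintype.piFinset_univ] at h
  have e : ∀ ε : Fin N → Bool, Real.exp (t * sumS ε)
      = ∏ i, Real.exp (t * (if ε i = true then 1 else -1)) := by
    intro ε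
    rw [← Real.exp_sum, ← Finset.mul_sum]
    rfl
  simp only [e]
  rw [← h]
  simp only [Fintype.univ_bool, Finset.mem_insert, Finset.mem_singleton, Bool.true_eq_false,
    or_false, not_false_eq_true, Finset.sum_insert, Finset.sum_singleton, if_true,
    Bool.false_eq_true, if_false, mul_one, mul_neg, Finset.prod_const, Finset.card_univ,
    Fintype.card_fin]
  rw [Real.cosh_eq, div_pow]
  ring

/-- The Gaussian linearisation bound for the sum near the origin. -/
theorem near_sum (hN : N ≠ 0) {c : ℝ} (hc0 : 0 ≤ c) (hc : c < 1 / 2) :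
    (1 / 2 ^ N) * ∑ ε : Fin N → Bool, Real.exp (c * sumS ε ^ 2 / N)
      ≤ Real.sqrt (1 / (1 - 2 * c)) := by
  have hN0 : (0 : ℝ) < N := Nat.cast_pos.2 (Nat.pos_of_ne_zero hN)
  obtain ⟨a, ha⟩ : ∃ a, a = Real.sqrt (2 * c / N) := ⟨_, rfl⟩
  have ha2 : a ^ 2 = 2 * c / N := by
    rw [ha, Real.sq_sqrt (by positivity)]
  have hmgf : ∀ t : ℝ, ∫ x, Real.exp (t * x) ∂(gaussianReal 0 1) = Real.exp (t ^ 2 / 2) := by
    intro t
    have := congrFun (mgf_fun_id_gaussianReal (μ := 0) (v := 1)) t
    unfold mgf at this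
    simpa using this
  have he : ∀ ε : Fin N → Bool, Real.exp (c * sumS ε ^ 2 / N)
      = ∫ x, Real.exp ((a * sumS ε) * x) ∂(gaussianReal 0 1) := by
    intro ε
    rw [hmgf]
    congr 1
    rw [mul_pow, ha2]
    field_simp
  simp only [he]
  rw [← integral_finsetSum _ fun ε _ => integrable_exp_mul_gaussianReal _, ← integral_const_mul]
  have hI := (integral_exp_sq_pdf (θ := c) hc)
  rw [← hI.2]
  refine integral_mono_of_nonneg (Filter.Eventually.of_forall fun x => by positivity) hI.1
    (Filter.Eventually.of_forall fun x => ?_)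
  simp only
  have e2 : ∀ ε : Fin N → Bool, Real.exp (a * sumS ε * x) = Real.exp ((a * x) * sumS ε) := by
    intro ε
    congr 1
    ring
  simp only [e2]
  rw [cube_exp_sum]
  calc Real.cosh (a * x) ^ N ≤ Real.exp ((a * x) ^ 2 / 2) ^ N :=
        pow_le_pow_left₀ (Real.cosh_pos _).le (Real.cosh_le_exp_half_sq _) _
    _ = Real.exp (c * x ^ 2) := by
        rw [← Real.exp_nat_mul]
        congr 1
        rw [mul_pow, ha2]
        field_simp

end Vale.Agent.Lib.P166
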