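import Vale.Agent.Lib.P166.Second

/-!
The first two moments of the partition function, the Paley-Zygmund inequality, and the lower bound
on the mean of the pressure that follows from them.
-/

open scoped BigOperators NNReal ENNReal
open MeasureTheory ProbabilityTheory Matrix

namespace Vale.Agent.Lib.P166

section abstract

variable {α : Type*} [MeasurableSpace α] {μ : Measure α} [IsProbabilityMeasure μ]

/-- The Paley-Zygmund inequality. -/
theorem paley_zygmund {Z : α → ℝ} (hZ : Measurable Z) (hZ0 : ∀ a, 0 ≤ Z a) (hI : Integrable Z μ)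
    (hI2 : Integrable (fun a => Z a ^ 2) μ) {K : ℝ} (hK : 0 < K) (hE : 0 < ∫ a, Z a ∂μ)
    (h2 : ∫ a, Z a ^ 2 ∂μ ≤ K * (∫ a, Z a ∂μ) ^ 2) :
    1 / (4 * K) ≤ μ.real {a | (1 / 2) * ∫ a, Z a ∂μ ≤ Z a} := by
  obtain ⟨E, hEE⟩ : ∃ E, E = ∫ a, Z a ∂μ := ⟨_, rfl⟩
  rw [← hEE] at hE h2 ⊢
  obtain ⟨B, hB⟩ : ∃ B, B = {a | (1 / 2) * E ≤ Z a} := ⟨_, rfl⟩
  rw [← hB]
  have hBm : MeasurableSet B := by
    rw [hB]
    exact measurableSet_le measurable_const hZ
  obtain ⟨t, ht⟩ : ∃ t, t = 2 * K * E := ⟨_, rfl⟩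
  have ht0 : 0 < t := by
    rw [ht]
    positivity
  have hind : Integrable (B.indicator fun _ => (1 : ℝ)) μ :=
    (integrable_const (1 : ℝ)).indicator hBm
  have hval : ∫ a, B.indicator (fun _ => (1 : ℝ)) a ∂μ = μ.real B := by
    rw [integral_indicator hBm]
    simp
  have hpt : ∀ a, Z a ≤ (1 / 2) * E + (t / 2) * B.indicator (fun _ => (1 : ℝ)) a
      + (1 / (2 * t)) * Z a ^ 2 := by
    intro a
    have h1 : 0 ≤ (1 / (2 * t)) * Z a ^ 2 := by positivity
    by_cases ha : a ∈ B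
    · rw [Set.indicator_of_mem ha]
      have h3 : Z a ≤ t / 2 + (1 / (2 * t)) * Z a ^ 2 := by
        have : 0 ≤ (1 / (2 * t)) * (Z a - t) ^ 2 := by positivity
        have e : (1 / (2 * t)) * (Z a - t) ^ 2 = (1 / (2 * t)) * Z a ^ 2 - Z a + t / 2 := by
          field_simp
          ring
        linarith
      have hE' : 0 ≤ (1 / 2) * E := by positivity
      linarith
    · rw [Set.indicator_of_notMem ha]
      have : Z a < (1 / 2) * E := by
        by_contra h
        apply ha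
        rw [hB]
        exact not_lt.1 h
      linarith
  have hI12 : Integrable (fun a => (1 / 2) * E + (t / 2) * B.indicator (fun _ => (1 : ℝ)) a) μ :=
    (integrable_const _).add (hind.const_mul _)
  have hI123 : Integrable (fun a => (1 / 2) * E + (t / 2) * B.indicator (fun _ => (1 : ℝ)) a
      + (1 / (2 * t)) * Z a ^ 2) μ := hI12.add (hI2.const_mul _)
  have hint := integral_mono hI hI123 hpt
  rw [integral_add hI12 (hI2.const_mul _), integral_add (integrable_const _) (hind.const_mul _),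
    integral_const, integral_const_mul, hval, integral_const_mul, ← hEE] at hint
  simp only [probReal_univ, smul_eq_mul, one_mul] at hint
  have h5 : (1 / (2 * t)) * ∫ a, Z a ^ 2 ∂μ ≤ E / 4 := by
    calc (1 / (2 * t)) * ∫ a, Z a ^ 2 ∂μ ≤ (1 / (2 * t)) * (K * E ^ 2) :=
          mul_le_mul_of_nonneg_left h2 (by positivity)
      _ = E / 4 := by
          rw [ht]
          field_simp
          ring
  have h6 : E / 4 ≤ (t / 2) * μ.real B := by linarith
  rw [ht] at h6
  rw [div_le_iff₀ (by positivity)]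
  have h7 : E * 1 ≤ E * (μ.real B * (4 * K)) := by
    have : (2 * K * E / 2) * μ.real B = E * (K * μ.real B) := by ring
    rw [this] at h6
    nlinarith
  exact le_of_mul_le_mul_left h7 hE

/-- The lower bound for the mean following from the lower bound on a probability and a variance
bound. -/
theorem mean_lower {P : α → ℝ} (hPm : Measurable P) (hP2 : Integrable (fun a => (P a - ∫ a, P a ∂μ) ^ 2) μ)
    {L p : ℝ} (hp : 0 < p) (hA : p ≤ μ.real {a | L ≤ P a}) :
    L - Real.sqrt ((∫ a, (P a - ∫ a, P a ∂μ) ^ 2 ∂μ) / p) ≤ ∫ a, P a ∂μ := by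
  obtain ⟨m, hm⟩ : ∃ m, m = ∫ a, P a ∂μ := ⟨_, rfl⟩
  rw [← hm] at hP2 ⊢
  by_cases hLm : L ≤ m
  · have := Real.sqrt_nonneg ((∫ a, (P a - m) ^ 2 ∂μ) / p)
    linarith
  · push Not at hLm
    obtain ⟨d, hd⟩ : ∃ d, d = L - m := ⟨_, rfl⟩
    have hd0 : 0 < d := by
      rw [hd]
      linarith
    obtain ⟨A, hAdef⟩ : ∃ A, A = {a | L ≤ P a} := ⟨_, rfl⟩
    rw [← hAdef] at hA
    have hAm : MeasurableSet A := by
      rw [hAdef]
      exact measurableSet_le measurable_const hPm
    have hind : Integrable (A.indicator fun _ => d ^ 2) μ :=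
      (integrable_const (d ^ 2)).indicator hAm
    have hval : ∫ a, A.indicator (fun _ => d ^ 2) a ∂μ = μ.real A * d ^ 2 := by
      rw [integral_indicator hAm]
      simp
    have hpt : ∀ a, A.indicator (fun _ => d ^ 2) a ≤ (P a - m) ^ 2 := by
      intro a
      by_cases ha : a ∈ A
      · rw [Set.indicator_of_mem ha]
        have : L ≤ P a := by
          rw [hAdef] at ha
          exact ha
        apply pow_le_pow_left₀ hd0.le
        rw [hd]
        linarith
      · rw [Set.indicator_of_notMem ha]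
        positivity
    have h1 := integral_mono hind hP2 hpt
    rw [hval] at h1
    have h2 : p * d ^ 2 ≤ ∫ a, (P a - m) ^ 2 ∂μ :=
      (mul_le_mul_of_nonneg_right hA (sq_nonneg d)).trans h1
    have h3 : d ≤ Real.sqrt ((∫ a, (P a - m) ^ 2 ∂μ) / p) := by
      apply Real.le_sqrt_of_sq_le
      rw [le_div_iff₀ hp]
      linarith
    rw [hd] at h3
    linarith

end abstract

variable {N : ℕ}

/-- The energy as a continuous function of the orthogonal matrix. -/
lemma continuous_energy (lam : Fin N → ℝ) (x : Fin N → ℝ) :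
    Continuous fun U : OG N => x ⬝ᵥ (couplings lam U *ᵥ x) := by
  simp only [energy_eq]
  exact continuous_qf_mulVec _ x

lemma continuous_partitionFn (β : ℝ) (lam : Fin N → ℝ) : Continuous (partitionFn β lam) := by
  unfold partitionFn
  refine continuous_const.mul (continuous_finsetSum _ fun σ _ => ?_)
  exact Real.continuous_exp.comp (continuous_const.mul (continuous_energy lam _))

lemma partitionFn_pos (β : ℝ) (lam : Fin N → ℝ) (U : OG N) : 0 < partitionFn β lam U := by
  unfold partitionFn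
  refine mul_pos (by positivity) (Finset.sum_pos (fun σ _ => Real.exp_pos _) ?_)
  exact Finset.univ_nonempty

lemma integral_partitionFn (β : ℝ) (lam : Fin N → ℝ) :
    ∫ U, partitionFn β lam U ∂(haarO N) = (1 / 2 ^ N) * ∑ σ : Fin N → Bool,
      ∫ U, Real.exp ((β / 2) * (spin σ ⬝ᵥ (couplings lam U *ᵥ spin σ))) ∂(haarO N) := by
  unfold partitionFn
  rw [integral_const_mul, integral_finsetSum]
  intro σ _
  exact integrable_OG (Real.continuous_exp.comp (continuous_const.mul (continuous_energy lam _)))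

/-- The upper bound for the mean of the partition function. -/
theorem mean_Z_upper (hN : N ≠ 0) (lam : Fin N → ℝ) {β y : ℝ} (h : ∀ i, 0 < y - β * lam i) :
    ∫ U, partitionFn β lam U ∂(haarO N) ≤ Real.exp (N * psiN lam β y) := by
  rw [integral_partitionFn]
  have h1 : ∀ σ : Fin N → Bool,
      ∫ U, Real.exp ((β / 2) * (spin σ ⬝ᵥ (couplings lam U *ᵥ spin σ))) ∂(haarO N)
        ≤ Real.exp (N * psiN lam β y) :=
    fun σ => moment_upper hN lam h (nsq_spin σ)
  calc _ ≤ (1 / 2 ^ N) * ∑ _σ : Fin N → Bool, Real.exp (N * psiN lam β y) :=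
        mul_le_mul_of_nonneg_left (Finset.sum_le_sum fun σ _ => h1 σ) (by positivity)
    _ = _ := by
        simp

/-- The lower bound for the mean of the partition function. -/
theorem mean_Z_lower {δ₀ : ℝ} (hδ₀ : 0 < δ₀) :
    ∃ c₀ > 0, ∃ N₀ : ℕ, ∀ N ≥ N₀, ∀ (lam : Fin N → ℝ) (β y : ℝ),
      (∀ i, δ₀ ≤ y - β * lam i) → (∑ i, 1 / (y - β * lam i) = N) →
      c₀ * Real.exp (N * psiN lam β y) ≤ ∫ U, partitionFn β lam U ∂(haarO N) := by
  obtain ⟨c₀, hc₀, N₀, h⟩ := moment_lower hδ₀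
  refine ⟨c₀, hc₀, N₀, ?_⟩
  intro N hN lam β y h1 h2
  rw [integral_partitionFn]
  have h3 : ∀ σ : Fin N → Bool, c₀ * Real.exp (N * psiN lam β y)
      ≤ ∫ U, Real.exp ((β / 2) * (spin σ ⬝ᵥ (couplings lam U *ᵥ spin σ))) ∂(haarO N) :=
    fun σ => h N hN lam β y h1 h2 _ (nsq_spin σ)
  calc _ = (1 / 2 ^ N) * ∑ _σ : Fin N → Bool, c₀ * Real.exp (N * psiN lam β y) := by
        simp
    _ ≤ _ := mul_le_mul_of_nonneg_left (Finset.sum_le_sum fun σ _ => h3 σ) (by positivity)

lemma energy_neg (lam : Fin N → ℝ) (U : OG N) (x : Fin N → ℝ) :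
    (-x) ⬝ᵥ (couplings lam U *ᵥ (-x)) = x ⬝ᵥ (couplings lam U *ᵥ x) := by
  rw [Matrix.mulVec_neg, neg_dotProduct, dotProduct_neg, neg_neg]

lemma nsq_neg (x : Fin N → ℝ) : nsq (-x) = nsq x := by
  unfold nsq
  simp

/-- The second moment in terms of the overlap. -/
theorem second_Z_le (hN : N ≠ 0) (β : ℝ) (lam : Fin N → ℝ) {H : ℝ → ℝ}
    (hH : ∀ R, 0 ≤ R → R ≤ 1 → ∀ x z : Fin N → ℝ, nsq x = N → nsq z = N → x ⬝ᵥ z = N * R →
      ∫ U, Real.exp ((β / 2) * (x ⬝ᵥ (couplings lam U *ᵥ x) + z ⬝ᵥ (couplings lam U *ᵥ z)))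
        ∂(haarO N) ≤ H R) :
    ∫ U, partitionFn β lam U ^ 2 ∂(haarO N)
      ≤ (1 / 2 ^ N) * ∑ ε : Fin N → Bool, H (|sumS ε| / N) := by
  have hN0 : (0 : ℝ) < N := Nat.cast_pos.2 (Nat.pos_of_ne_zero hN)
  have hcont : ∀ σ τ : Fin N → Bool, Continuous fun U : OG N =>
      Real.exp ((β / 2) * (spin σ ⬝ᵥ (couplings lam U *ᵥ spin σ)
        + spin τ ⬝ᵥ (couplings lam U *ᵥ spin τ))) := by
    intro σ τ
    exact Real.continuous_exp.comp (continuous_const.mul
      ((continuous_energy lam _).add (continuous_energy lam _)))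
  have hsq : ∀ U : OG N, partitionFn β lam U ^ 2
      = (1 / 2 ^ N) * ∑ σ : Fin N → Bool, ((1 / 2 ^ N) * ∑ τ : Fin N → Bool,
        Real.exp ((β / 2) * (spin σ ⬝ᵥ (couplings lam U *ᵥ spin σ)
          + spin τ ⬝ᵥ (couplings lam U *ᵥ spin τ)))) := by
    intro U
    unfold partitionFn
    rw [pow_two, mul_assoc, Finset.sum_mul]
    congr 1
    refine Finset.sum_congr rfl fun σ _ => ?_
    rw [mul_left_comm, Finset.mul_sum]
    congr 1
    refine Finset.sum_congr rfl fun τ _ => ?_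
    rw [← Real.exp_add]
    congr 1
    ring
  simp only [hsq]
  rw [integral_const_mul]
  rw [integral_finsetSum _ fun σ _ => by
    refine Integrable.const_mul ?_ _
    exact integrable_OG (continuous_finsetSum _ fun τ _ => hcont σ τ)]
  have hfix : ∀ σ : Fin N → Bool, ∫ U : OG N, (1 / 2 ^ N) * ∑ τ : Fin N → Bool,
      Real.exp ((β / 2) * (spin σ ⬝ᵥ (couplings lam U *ᵥ spin σ)
        + spin τ ⬝ᵥ (couplings lam U *ᵥ spin τ))) ∂(haarO N)
      ≤ (1 / 2 ^ N) * ∑ ε : Fin N → Bool, H (|sumS ε| / N) := by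
    intro σ
    rw [integral_const_mul, integral_finsetSum _ fun τ _ => integrable_OG (hcont σ τ)]
    refine mul_le_mul_of_nonneg_left ?_ (by positivity)
    rw [← Equiv.sum_comp (xorEquiv σ) (fun ε : Fin N → Bool => H (|sumS ε| / N))]
    refine Finset.sum_le_sum fun τ _ => ?_
    change _ ≤ H (|sumS (xorB σ τ)| / N)
    rw [← dot_spin]
    obtain ⟨S, hS⟩ : ∃ S, S = spin σ ⬝ᵥ spin τ := ⟨_, rfl⟩
    rw [← hS]
    have hS1 : |S| ≤ N := by
      rw [hS, dot_spin]
      exact abs_sumS_le _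
    have hR0 : 0 ≤ |S| / N := by positivity
    have hR1 : |S| / N ≤ 1 := (div_le_one hN0).2 hS1
    by_cases h0 : 0 ≤ S
    · refine hH _ hR0 hR1 _ _ (nsq_spin σ) (nsq_spin τ) ?_
      rw [← hS, abs_of_nonneg h0]
      field_simp
    · push Not at h0
      have := hH _ hR0 hR1 (spin σ) (-spin τ) (nsq_spin σ) (by rw [nsq_neg]; exact nsq_spin τ) (by
        rw [dotProduct_neg, ← hS, abs_of_neg h0]
        field_simp)
      simp only [energy_neg] at this
      exact this
  calc _ ≤ (1 / 2 ^ N) * ∑ _σ : Fin N → Bool, (1 / 2 ^ N) * ∑ ε : Fin N → Bool, H (|sumS ε| / N) :=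
        mul_le_mul_of_nonneg_left (Finset.sum_le_sum fun σ _ => hfix σ) (by positivity)
    _ = _ := by
        simp

end Vale.Agent.Lib.P166
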