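import Vale.Agent.Lib.P166.Canon
import Vale.Agent.Lib.P166.Second
import Vale.Agent.Lib.P166.ZMoments

/-!
The derivative of the pressure along a path of orthogonal matrices.
-/

open scoped BigOperators
open MeasureTheory Matrix

namespace Vale.Agent.Lib.P166

variable {N : ℕ}

/-- The Boltzmann factor of a configuration. -/
noncomputable def bz (β : ℝ) (lam : Fin N → ℝ) (X : OG N) (σ : Fin N → Bool) : ℝ :=
  Real.exp ((β / 2) * (spin σ ⬝ᵥ (couplings lam X *ᵥ spin σ)))

/-- The sum of the Boltzmann factors. -/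
noncomputable def bzs (β : ℝ) (lam : Fin N → ℝ) (X : OG N) : ℝ := ∑ σ, bz β lam X σ

/-- The coordinates of a spin configuration under an orthogonal matrix. -/
noncomputable def coord (X : OG N) (σ : Fin N → Bool) : Fin N → ℝ :=
  (X : Matrix (Fin N) (Fin N) ℝ) *ᵥ spin σ

/-- The gradient matrix of the pressure. -/
noncomputable def mm (β : ℝ) (lam : Fin N → ℝ) (X : OG N) (i j : Fin N) : ℝ :=
  (β / N) * lam i * ((∑ σ, bz β lam X σ * (coord X σ i * coord X σ j)) / bzs β lam X)

lemma bz_pos (β : ℝ) (lam : Fin N → ℝ) (X : OG N) (σ : Fin N → Bool) : 0 < bz β lam X σ :=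
  Real.exp_pos _

lemma bzs_pos (β : ℝ) (lam : Fin N → ℝ) (X : OG N) : 0 < bzs β lam X :=
  Finset.sum_pos (fun σ _ => bz_pos β lam X σ) Finset.univ_nonempty

lemma partitionFn_eq (β : ℝ) (lam : Fin N → ℝ) (X : OG N) :
    partitionFn β lam X = (1 / 2 ^ N) * bzs β lam X := rfl

lemma energy_coord (lam : Fin N → ℝ) (X : OG N) (σ : Fin N → Bool) :
    spin σ ⬝ᵥ (couplings lam X *ᵥ spin σ) = ∑ i, lam i * coord X σ i ^ 2 := by
  rw [energy_eq]
  unfold qf coord
  simp only [dotProduct, Matrix.mulVec_diagonal]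
  refine Finset.sum_congr rfl fun i _ => ?_
  ring

lemma nsq_coord (X : OG N) (σ : Fin N → Bool) : ∑ i, coord X σ i ^ 2 = N := by
  have h := nsq_mulVec (OG_tr_mul X) (spin σ)
  rw [nsq_spin] at h
  exact h

lemma continuous_coord (σ : Fin N → Bool) (i : Fin N) : Continuous fun X : OG N => coord X σ i :=
  continuous_apply i |>.comp (continuous_coe_mulVec (spin σ))

lemma continuous_bz (β : ℝ) (lam : Fin N → ℝ) (σ : Fin N → Bool) :
    Continuous fun X : OG N => bz β lam X σ :=
  Real.continuous_exp.comp (continuous_const.mul (continuous_energy lam _))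

lemma continuous_bzs (β : ℝ) (lam : Fin N → ℝ) : Continuous (bzs β lam (N := N)) :=
  continuous_finsetSum _ fun σ _ => continuous_bz β lam σ

lemma continuous_mm (β : ℝ) (lam : Fin N → ℝ) (i j : Fin N) : Continuous fun X : OG N => mm β lam X i j := by
  unfold mm
  refine continuous_const.mul (Continuous.div ?_ (continuous_bzs β lam) fun X => (bzs_pos β lam X).ne')
  refine continuous_finsetSum _ fun σ _ => (continuous_bz β lam σ).mul ?_
  exact (continuous_coord σ i).mul (continuous_coord σ j)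

/-- The Hilbert-Schmidt bound for the gradient. -/
theorem hs_mm_le {C : ℝ} (hN : N ≠ 0) (β : ℝ) {lam : Fin N → ℝ} (hC : ∀ i, |lam i| ≤ C) (X : OG N) :
    ∑ i, ∑ j, mm β lam X i j ^ 2 ≤ β ^ 2 * C ^ 2 := by
  have hNpos : (0:ℝ) < N := by exact_mod_cast Nat.pos_of_ne_zero hN
  have hZ := bzs_pos β lam X
  have hJ : ∀ i j, ((∑ σ, bz β lam X σ * (coord X σ i * coord X σ j)) / bzs β lam X) ^ 2
      ≤ (∑ σ, bz β lam X σ * (coord X σ i ^ 2 * coord X σ j ^ 2)) / bzs β lam X := by
    intro i j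
    have h1 : (∑ σ, bz β lam X σ * (coord X σ i * coord X σ j)) ^ 2
        ≤ (∑ σ, bz β lam X σ) * ∑ σ, bz β lam X σ * (coord X σ i ^ 2 * coord X σ j ^ 2) := by
      have := Finset.sum_mul_sq_le_sq_mul_sq Finset.univ
        (fun σ => Real.sqrt (bz β lam X σ)) (fun σ => Real.sqrt (bz β lam X σ) * (coord X σ i * coord X σ j))
      have e1 : ∀ σ, Real.sqrt (bz β lam X σ) * (Real.sqrt (bz β lam X σ) * (coord X σ i * coord X σ j))
          = bz β lam X σ * (coord X σ i * coord X σ j) := fun σ => by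
        rw [← mul_assoc, Real.mul_self_sqrt (bz_pos β lam X σ).le]
      have e2 : ∀ σ, Real.sqrt (bz β lam X σ) ^ 2 = bz β lam X σ := fun σ =>
        Real.sq_sqrt (bz_pos β lam X σ).le
      have e3 : ∀ σ, (Real.sqrt (bz β lam X σ) * (coord X σ i * coord X σ j)) ^ 2
          = bz β lam X σ * (coord X σ i ^ 2 * coord X σ j ^ 2) := fun σ => by
        rw [mul_pow, e2]
        ring
      simp only [e1, e2, e3] at this
      exact this
    change _ ≤ bzs β lam X * _ at h1
    rw [div_pow, div_le_div_iff₀ (pow_pos hZ 2) hZ]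
    nlinarith [h1, hZ]
  have h2 : ∀ i j, mm β lam X i j ^ 2 ≤ (β / N) ^ 2 * C ^ 2 *
      ((∑ σ, bz β lam X σ * (coord X σ i ^ 2 * coord X σ j ^ 2)) / bzs β lam X) := by
    intro i j
    unfold mm
    rw [mul_pow, mul_pow]
    have h3 : lam i ^ 2 ≤ C ^ 2 := sq_le_sq' (by linarith [abs_le.1 (hC i)]) (abs_le.1 (hC i)).2
    have h4 := hJ i j
    have h5 : 0 ≤ (β / N) ^ 2 := sq_nonneg _
    calc (β / N) ^ 2 * lam i ^ 2 * ((∑ σ, bz β lam X σ * (coord X σ i * coord X σ j)) / bzs β lam X) ^ 2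
        ≤ (β / N) ^ 2 * C ^ 2 * ((∑ σ, bz β lam X σ * (coord X σ i * coord X σ j)) / bzs β lam X) ^ 2 := by
          exact mul_le_mul_of_nonneg_right (mul_le_mul_of_nonneg_left h3 h5) (sq_nonneg _)
      _ ≤ _ := mul_le_mul_of_nonneg_left h4 (mul_nonneg h5 (sq_nonneg _))
  have h6 : ∑ i, ∑ j, ((∑ σ, bz β lam X σ * (coord X σ i ^ 2 * coord X σ j ^ 2)) / bzs β lam X)
      = N ^ 2 := by
    have e1 : ∑ i, ∑ j, ((∑ σ, bz β lam X σ * (coord X σ i ^ 2 * coord X σ j ^ 2)) / bzs β lam X)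
        = (∑ σ, bz β lam X σ * ((∑ i, coord X σ i ^ 2) * ∑ j, coord X σ j ^ 2)) / bzs β lam X := by
      have e2 : ∀ σ, bz β lam X σ * ((∑ i, coord X σ i ^ 2) * ∑ j, coord X σ j ^ 2)
          = ∑ i, ∑ j, bz β lam X σ * (coord X σ i ^ 2 * coord X σ j ^ 2) := fun σ => by
        rw [Finset.sum_mul_sum, Finset.mul_sum]
        refine Finset.sum_congr rfl fun i _ => ?_
        rw [Finset.mul_sum]
      simp only [e2]
      rw [Finset.sum_comm (s := Finset.univ (α := Fin N → Bool)), Finset.sum_div]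
      refine Finset.sum_congr rfl fun i _ => ?_
      rw [Finset.sum_comm, Finset.sum_div]
    rw [e1]
    simp only [nsq_coord]
    rw [← Finset.sum_mul]
    change bzs β lam X * _ / bzs β lam X = _
    rw [mul_div_cancel_left₀ _ hZ.ne']
    ring
  calc ∑ i, ∑ j, mm β lam X i j ^ 2
      ≤ ∑ i, ∑ j, (β / N) ^ 2 * C ^ 2 *
        ((∑ σ, bz β lam X σ * (coord X σ i ^ 2 * coord X σ j ^ 2)) / bzs β lam X) :=
        Finset.sum_le_sum fun i _ => Finset.sum_le_sum fun j _ => h2 i j
    _ = (β / N) ^ 2 * C ^ 2 * N ^ 2 := by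
        simp only [← Finset.mul_sum]
        rw [h6]
    _ = β ^ 2 * C ^ 2 := by
        field_simp

/-- The derivative of the coordinates along a path. -/
lemma coord_deriv {W : OG N} {V : ℝ → OG N} {A : Matrix (Fin N) (Fin N) ℝ} (h : IsPath W V A)
    (U : OG N) (σ : Fin N → Bool) (θ : ℝ) (i : Fin N) :
    HasDerivAt (fun t => coord (V t * U) σ i) (∑ j, A i j * coord (V θ * U) σ j) θ := by
  have e1 : ∀ t i, coord (V t * U) σ i = ∑ k, (V t : Matrix (Fin N) (Fin N) ℝ) i k * coord U σ k := by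
    intro t i
    unfold coord
    change (((V t : Matrix (Fin N) (Fin N) ℝ) * (U : Matrix (Fin N) (Fin N) ℝ)) *ᵥ spin σ) i = _
    rw [← Matrix.mulVec_mulVec]
    rfl
  have e2 : ∑ j, A i j * coord (V θ * U) σ j
      = ∑ k, (A * (V θ : Matrix (Fin N) (Fin N) ℝ)) i k * coord U σ k := by
    simp only [e1, Matrix.mul_apply, Finset.mul_sum, Finset.sum_mul]
    rw [Finset.sum_comm]
    refine Finset.sum_congr rfl fun k _ => Finset.sum_congr rfl fun j _ => ?_
    ring
  rw [e2]
  have e3 : (fun t => coord (V t * U) σ i)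
      = fun t => ∑ k, (V t : Matrix (Fin N) (Fin N) ℝ) i k * coord U σ k := by
    ext t
    exact e1 t i
  rw [e3]
  exact HasDerivAt.fun_sum fun k _ => (h.deriv θ i k).mul_const _

/-- The derivative of the Boltzmann factor along a path. -/
lemma bz_deriv {W : OG N} {V : ℝ → OG N} {A : Matrix (Fin N) (Fin N) ℝ} (h : IsPath W V A)
    (β : ℝ) (lam : Fin N → ℝ) (U : OG N) (σ : Fin N → Bool) (θ : ℝ) :
    HasDerivAt (fun t => bz β lam (V t * U) σ)
      (bz β lam (V θ * U) σ * (β * ∑ i, ∑ j, A i j *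
        (lam i * (coord (V θ * U) σ i * coord (V θ * U) σ j)))) θ := by
  unfold bz
  simp only [energy_coord]
  have h1 : HasDerivAt (fun t => ∑ i, lam i * coord (V t * U) σ i ^ 2)
      (∑ i, lam i * (2 * coord (V θ * U) σ i * ∑ j, A i j * coord (V θ * U) σ j)) θ := by
    refine HasDerivAt.fun_sum fun i _ => HasDerivAt.const_mul _ ?_
    have := (coord_deriv h U σ θ i).fun_pow 2
    simpa using this
  have h2 := ((h1.const_mul (β / 2)).exp)
  have e : β * ∑ i, ∑ j, A i j * (lam i * (coord (V θ * U) σ i * coord (V θ * U) σ j))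
      = β / 2 * ∑ i, lam i * (2 * coord (V θ * U) σ i * ∑ j, A i j * coord (V θ * U) σ j) := by
    have e1 : ∀ i, lam i * (2 * coord (V θ * U) σ i * ∑ j, A i j * coord (V θ * U) σ j)
        = 2 * ∑ j, A i j * (lam i * (coord (V θ * U) σ i * coord (V θ * U) σ j)) := fun i => by
      rw [Finset.mul_sum, Finset.mul_sum, Finset.mul_sum]
      refine Finset.sum_congr rfl fun j _ => ?_
      ring
    simp only [e1]
    rw [← Finset.mul_sum]
    ring
  rw [e]
  exact h2

/-- The derivative of the pressure along a path. -/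
theorem pressure_deriv {W : OG N} {V : ℝ → OG N} {A : Matrix (Fin N) (Fin N) ℝ} (h : IsPath W V A)
    (β : ℝ) (lam : Fin N → ℝ) (U : OG N) (θ : ℝ) :
    HasDerivAt (fun t => pressure β lam (V t * U))
      (∑ i, ∑ j, A i j * mm β lam (V θ * U) i j) θ := by
  have h1 : HasDerivAt (fun t => bzs β lam (V t * U))
      (∑ σ, (bz β lam (V θ * U) σ * (β * ∑ i, ∑ j, A i j *
        (lam i * (coord (V θ * U) σ i * coord (V θ * U) σ j))))) θ :=
    HasDerivAt.fun_sum fun σ _ => bz_deriv h β lam U σ θ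
  have h2 : HasDerivAt (fun t => partitionFn β lam (V t * U)) _ θ := h1.const_mul (1 / 2 ^ N)
  have h3 := (h2.log (partitionFn_pos β lam (V θ * U)).ne').const_mul (1 / (N : ℝ))
  change HasDerivAt (fun t => (1 / (N : ℝ)) * Real.log (partitionFn β lam (V t * U))) _ θ
  refine HasDerivAt.congr_deriv h3 ?_
  rw [partitionFn_eq]
  have hZ := bzs_pos β lam (V θ * U)
  have h4 : (1 / 2 ^ N : ℝ) ≠ 0 := by positivity
  rw [mul_div_mul_left _ _ h4]
  have key : ∑ σ, bz β lam (V θ * U) σ * (β * ∑ i, ∑ j, A i j *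
        (lam i * (coord (V θ * U) σ i * coord (V θ * U) σ j)))
      = β * ∑ i, ∑ j, A i j * lam i * ∑ σ, bz β lam (V θ * U) σ *
        (coord (V θ * U) σ i * coord (V θ * U) σ j) := by
    have e1 : ∀ σ, bz β lam (V θ * U) σ * (β * ∑ i, ∑ j, A i j *
        (lam i * (coord (V θ * U) σ i * coord (V θ * U) σ j)))
        = β * ∑ i, ∑ j, A i j * lam i * (bz β lam (V θ * U) σ *
          (coord (V θ * U) σ i * coord (V θ * U) σ j)) := fun σ => by
      rw [mul_left_comm]
      congr 1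
      rw [Finset.mul_sum]
      refine Finset.sum_congr rfl fun i _ => ?_
      rw [Finset.mul_sum]
      refine Finset.sum_congr rfl fun j _ => ?_
      ring
    simp only [e1]
    rw [← Finset.mul_sum]
    congr 1
    rw [Finset.sum_comm]
    refine Finset.sum_congr rfl fun i _ => ?_
    rw [Finset.sum_comm]
    refine Finset.sum_congr rfl fun j _ => ?_
    rw [Finset.mul_sum]
  rw [key]
  unfold mm
  rw [Finset.mul_sum, Finset.sum_div, Finset.mul_sum]
  refine Finset.sum_congr rfl fun i _ => ?_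
  rw [Finset.mul_sum, Finset.sum_div, Finset.mul_sum]
  refine Finset.sum_congr rfl fun j _ => ?_
  field_simp

end Vale.Agent.Lib.P166
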