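import Vale.Agent.Lib.P166.Defs

/-!
Invariance of the Haar measure and of the standard Gaussian measure.
-/

open MeasureTheory Matrix ProbabilityTheory
open scoped BigOperators Topology

namespace Vale.Agent.Lib.P166

instance instRight (N : ℕ) : (haarO N).IsMulRightInvariant := by
  constructor
  intro g
  have hm : Measurable fun U : OG N => U * g := measurable_mul_const g
  have hprob : IsProbabilityMeasure ((haarO N).map (fun U : OG N => U * g)) :=
    Measure.isProbabilityMeasure_map hm.aemeasurable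
  have hleft : ((haarO N).map (fun U : OG N => U * g)).IsMulLeftInvariant := by
    constructor
    intro h
    rw [Measure.map_map (measurable_const_mul h) hm]
    have e : (fun x : OG N => h * x) ∘ (fun U : OG N => U * g)
        = (fun U : OG N => U * g) ∘ (fun x : OG N => h * x) := by
      ext x
      simp [mul_assoc]
    rw [e, ← Measure.map_map hm (measurable_const_mul h), map_mul_left_eq_self]
  obtain ⟨c, hc⟩ : ∃ c, (haarO N).map (fun U : OG N => U * g) = c • haarO N :=
    ⟨_, Measure.isMulInvariant_eq_smul_of_compactSpace _ (haarO N)⟩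
  have h1 : ((haarO N).map (fun U : OG N => U * g)) Set.univ = 1 := measure_univ
  rw [hc] at h1
  have hc1 : (c : ENNReal) = 1 := by
    rw [Measure.smul_apply, measure_univ, ENNReal.smul_def, smul_eq_mul, mul_one] at h1
    exact h1
  have hc2 : c = 1 := by exact_mod_cast hc1
  change (haarO N).map (fun U : OG N => U * g) = haarO N
  rw [hc, hc2, one_smul]

/-- Right invariance for integrals. -/
lemma integral_mul_right_haar {N : ℕ} {E : Type*} [NormedAddCommGroup E] [NormedSpace ℝ E]
    (f : OG N → E) (g : OG N) : ∫ U, f (U * g) ∂(haarO N) = ∫ U, f U ∂(haarO N) :=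
  integral_mul_right_eq_self f g

/-- Left invariance for integrals. -/
lemma integral_mul_left_haar {N : ℕ} {E : Type*} [NormedAddCommGroup E] [NormedSpace ℝ E]
    (f : OG N → E) (g : OG N) : ∫ U, f (g * U) ∂(haarO N) = ∫ U, f U ∂(haarO N) :=
  integral_mul_left_eq_self f g

/-- The standard Gaussian measure on `I → ℝ`. -/
noncomputable def gam (I : Type*) [Fintype I] : Measure (I → ℝ) :=
  Measure.pi fun _ : I => gaussianReal 0 1

instance instGamProb (I : Type*) [Fintype I] : IsProbabilityMeasure (gam I) := by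
  unfold gam
  infer_instance

/-- An orthogonal matrix preserves dot products. -/
lemma dot_mulVec_mulVec {I : Type*} [Fintype I] [DecidableEq I] {Q : Matrix I I ℝ}
    (hQ : Q.transpose * Q = 1) (u v : I → ℝ) : (Q *ᵥ u) ⬝ᵥ (Q *ᵥ v) = u ⬝ᵥ v := by
  rw [Matrix.dotProduct_mulVec, ← Matrix.vecMul_transpose, Matrix.vecMul_vecMul, hQ,
    Matrix.vecMul_one]

/-- An orthogonal matrix preserves the sum of squares. -/
lemma sum_sq_mulVec {I : Type*} [Fintype I] [DecidableEq I] {Q : Matrix I I ℝ}
    (hQ : Q.transpose * Q = 1) (v : I → ℝ) : ∑ i, (Q *ᵥ v) i ^ 2 = ∑ i, v i ^ 2 := by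
  have h1 : ∀ v : I → ℝ, ∑ i, v i ^ 2 = v ⬝ᵥ v := fun v => by
    simp [dotProduct, pow_two]
  rw [h1, h1, dot_mulVec_mulVec hQ]

/-- A linear isometry attached to an orthogonal matrix. -/
noncomputable def orthIso {I : Type*} [Fintype I] [DecidableEq I] (Q : Matrix I I ℝ)
    (hQ : Q.transpose * Q = 1) :
    EuclideanSpace ℝ I →ₗᵢ[ℝ] EuclideanSpace ℝ I where
  toLinearMap := Matrix.toEuclideanLin Q
  norm_map' := by
    intro x
    have hsq : ‖Matrix.toEuclideanLin Q x‖ ^ 2 = ‖x‖ ^ 2 := by
      rw [EuclideanSpace.real_norm_sq_eq, EuclideanSpace.real_norm_sq_eq]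
      exact sum_sq_mulVec hQ (WithLp.ofLp x)
    have h0 : 0 ≤ ‖Matrix.toEuclideanLin Q x‖ := norm_nonneg _
    exact (pow_left_inj₀ h0 (norm_nonneg x) (by norm_num)).1 hsq

/-- Rotation invariance of the standard Gaussian measure. -/
theorem map_mulVec_gam {I : Type*} [Fintype I] [DecidableEq I] (Q : Matrix I I ℝ)
    (hQ : Q.transpose * Q = 1) : (gam I).map (fun x => Q *ᵥ x) = gam I := by
  obtain ⟨f, hf⟩ : ∃ f : EuclideanSpace ℝ I ≃ₗᵢ[ℝ] EuclideanSpace ℝ I,
      f = (orthIso Q hQ).toLinearIsometryEquiv rfl := ⟨_, rfl⟩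
  have hfun : (fun x : I → ℝ => Q *ᵥ x)
      = (fun y : EuclideanSpace ℝ I => WithLp.ofLp y) ∘ f ∘ (fun x : I → ℝ => WithLp.toLp 2 x) := by
    ext x i
    rw [hf]
    rfl
  have hid : (gam I) = ((gam I).map (fun x : I → ℝ => WithLp.toLp 2 x)).map
      (fun y : EuclideanSpace ℝ I => WithLp.ofLp y) := by
    rw [Measure.map_map (by fun_prop) (by fun_prop)]
    have : (fun y : EuclideanSpace ℝ I => WithLp.ofLp y) ∘ (fun x : I → ℝ => WithLp.toLp 2 x)
        = id := by
      ext x i
      rfl
    rw [this, Measure.map_id]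
  have hst : (gam I).map (fun x : I → ℝ => WithLp.toLp 2 x) = stdGaussian (EuclideanSpace ℝ I) :=
    map_pi_eq_stdGaussian
  rw [hfun, ← Measure.map_map (by fun_prop) (by fun_prop),
    ← Measure.map_map (by fun_prop) (by fun_prop), hst, stdGaussian_map f, ← hst, ← hid]

/-- Rotation invariance of Gaussian integrals. -/
lemma integral_mulVec_gam {I : Type*} [Fintype I] [DecidableEq I] {Q : Matrix I I ℝ}
    (hQ : Q.transpose * Q = 1) {E : Type*} [NormedAddCommGroup E] [NormedSpace ℝ E]
    (f : (I → ℝ) → E) : ∫ x, f (Q *ᵥ x) ∂(gam I) = ∫ x, f x ∂(gam I) := by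
  have hmp : MeasurePreserving (fun x : I → ℝ => Q *ᵥ x) (gam I) (gam I) :=
    ⟨by fun_prop, map_mulVec_gam Q hQ⟩
  have hme : MeasurableEmbedding (fun x : I → ℝ => Q *ᵥ x) := by
    have hQ' : Q * Q.transpose = 1 := mul_eq_one_comm.1 hQ
    have hinv : Function.LeftInverse (fun x : I → ℝ => Q.transpose *ᵥ x) (fun x : I → ℝ => Q *ᵥ x) := by
      intro x
      simp [Matrix.mulVec_mulVec, hQ]
    have hinv2 : Function.RightInverse (fun x : I → ℝ => Q.transpose *ᵥ x) (fun x : I → ℝ => Q *ᵥ x) := by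
      intro x
      simp [Matrix.mulVec_mulVec, hQ']
    have hm1 : Measurable (fun x : I → ℝ => Q *ᵥ x) := by fun_prop
    have hm2 : Measurable (fun x : I → ℝ => Q.transpose *ᵥ x) := by fun_prop
    exact (MeasurableEquiv.mk ⟨_, _, hinv, hinv2⟩ hm1 hm2).measurableEmbedding
  exact hmp.integral_comp hme f

end Vale.Agent.Lib.P166
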