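import Vale.Agent.Lib.P166.General

/-!
The conditions of the limit theorem hold for every limiting measure at high temperature.
-/

open scoped BigOperators Topology BoundedContinuousFunction
open MeasureTheory Matrix Filter

namespace Vale.Agent.Lib.P166

/-- The entropy function dominates its quadratic part. -/
theorem Ifun_ge {R : ℝ} (h0 : 0 ≤ R) (h1 : R ≤ 1) : R ^ 2 / 2 ≤ Ifun R := by
  rcases h1.lt_or_eq with hlt | rfl
  · have hderiv : ∀ x ∈ Set.Ioo (0:ℝ) 1, HasDerivAt (fun r => Ifun r - r ^ 2 / 2)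
        ((1 / 2) * (Real.log (1 + x) - Real.log (1 - x)) - x) x := by
      intro x hx
      have hp : (1:ℝ) + x ≠ 0 := by linarith [hx.1]
      have hm : (1:ℝ) - x ≠ 0 := by linarith [hx.2]
      have d1 : HasDerivAt (fun r : ℝ => (1 + r) * Real.log (1 + r)) (Real.log (1 + x) + 1) x := by
        have h2 : HasDerivAt (fun r : ℝ => 1 + r) 1 x := by simpa using (hasDerivAt_id x).const_add 1
        have h3 := h2.mul (h2.log hp)
        refine h3.congr_deriv ?_
        field_simp
      have d2 : HasDerivAt (fun r : ℝ => (1 - r) * Real.log (1 - r)) (- Real.log (1 - x) - 1) x := by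
        have h2 : HasDerivAt (fun r : ℝ => 1 - r) (-1) x := by simpa using (hasDerivAt_id x).const_sub 1
        have h3 := h2.mul (h2.log hm)
        refine h3.congr_deriv ?_
        field_simp
        ring
      have d3 := ((d1.add d2).const_mul (1 / 2 : ℝ)).sub (((hasDerivAt_id x).pow 2).div_const 2)
      refine d3.congr_deriv ?_
      simp
      ring
    have hcont : ContinuousOn (fun r => Ifun r - r ^ 2 / 2) (Set.Icc 0 R) :=
      (continuous_Ifun.sub ((continuous_id.pow 2).div_const 2)).continuousOn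
    have hmono : MonotoneOn (fun r => Ifun r - r ^ 2 / 2) (Set.Icc 0 R) := by
      refine monotoneOn_of_deriv_nonneg (convex_Icc 0 R) hcont ?_ ?_
      · intro x hx
        rw [interior_Icc] at hx
        exact (hderiv x ⟨hx.1, hx.2.trans hlt⟩).differentiableAt.differentiableWithinAt
      · intro x hx
        rw [interior_Icc] at hx
        rw [(hderiv x ⟨hx.1, hx.2.trans hlt⟩).deriv]
        have hx1 : |x| < 1 := by
          rw [abs_of_pos hx.1]
          exact hx.2.trans hlt
        have hs := Real.hasSum_log_sub_log_of_abs_lt_one hx1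
        have h2 : 2 * (1 / (2 * ((0:ℕ):ℝ) + 1)) * x ^ (2 * 0 + 1) ≤ Real.log (1 + x) - Real.log (1 - x) := by
          refine le_hasSum hs 0 ?_
          intro k _
          have : 0 < x := hx.1
          positivity
        norm_num at h2
        linarith
    have h2 := hmono (Set.left_mem_Icc.2 h0) (Set.right_mem_Icc.2 h0) h0
    simp only at h2
    have h3 : Ifun 0 = 0 := by
      simp [Ifun]
    rw [h3] at h2
    linarith
  · have h3 : Ifun 1 = Real.log 2 := by
      simp [Ifun]
      norm_num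
      ring
    rw [h3]
    have := Real.log_two_gt_d9
    norm_num
    linarith

variable {μ : Measure ℝ} {a b : ℝ} {lam : ∀ N, Fin N → ℝ}

/-- Integrability of logarithms of affine functions that are positive on the support. -/
lemma integrable_log_affine (h : Spec μ a b lam) {t y m : ℝ} (hm : 0 < m) (hpos : ∀ x ∈ Set.Icc b a, m ≤ y - t * x) :
    Integrable (fun x => Real.log (y - t * x)) μ := by
  obtain ⟨M, hM⟩ : ∃ M, M = m + |y| + |t| * (|a| + |b|) := ⟨_, rfl⟩
  refine integrable_supp h (C := |Real.log m| + |Real.log M|) (by fun_prop) ?_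
  intro x hx
  have h1 := hpos x hx
  have h2 : 0 < y - t * x := hm.trans_le h1
  have h3 : y - t * x ≤ M := by
    have h4 : |x| ≤ |a| + |b| := by
      rw [abs_le]
      have := neg_abs_le b
      have := le_abs_self a
      have := abs_nonneg a
      have := abs_nonneg b
      constructor <;> linarith [hx.1, hx.2]
    have h5 : |t * x| ≤ |t| * (|a| + |b|) := by
      rw [abs_mul]
      exact mul_le_mul_of_nonneg_left h4 (abs_nonneg _)
    have h6 := neg_abs_le (t * x)
    have h7 := le_abs_self y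
    rw [hM]
    linarith
  have h8 := Real.log_le_log hm h1
  have h9 := Real.log_le_log h2 h3
  rw [abs_le]
  have h10 := neg_abs_le (Real.log m)
  have h11 := le_abs_self (Real.log M)
  have h12 := abs_nonneg (Real.log m)
  have h13 := abs_nonneg (Real.log M)
  constructor <;> linarith

/-- The bracket at high temperature. -/
theorem highT_bracket (h : Spec μ a b lam) {β κ y₀ R : ℝ} (hβ : 0 < β) (hR0 : 0 < R) (hR1 : R ≤ 1)
    (hD : ∀ x ∈ Set.Icc b a, 3 / 5 ≤ y₀ - β * x) (hxκ : ∀ x ∈ Set.Icc b a, |β * (x - κ)| ≤ 2 / 5) :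
    psi μ (β * (1 + R)) (y₀ + κ * β * R) + psi μ (β * (1 - R)) (y₀ - κ * β * R) - 2 * psi μ β y₀ < Ifun R := by
  have hprob := h.prob
  have hterm : ∀ x ∈ Set.Icc b a, 2 * Real.log (y₀ - β * x) - (4 / 5) * R ^ 2
      ≤ Real.log (y₀ + κ * β * R - β * (1 + R) * x) + Real.log (y₀ - κ * β * R - β * (1 - R) * x) := by
    intro x hx
    have h2 := hD x hx
    have h3 := hxκ x hx
    have hDp : 0 < y₀ - β * x := by linarith
    obtain ⟨w, hw⟩ : ∃ w, w = R * (β * (x - κ)) / (y₀ - β * x) := ⟨_, rfl⟩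
    have hw2 : w ^ 2 ≤ (4 / 9) * R ^ 2 := by
      have h5 : (β * (x - κ)) ^ 2 ≤ (2 / 5) ^ 2 := by
        rw [← sq_abs]
        exact pow_le_pow_left₀ (abs_nonneg _) h3 2
      have h6 : (3 / 5 : ℝ) ^ 2 ≤ (y₀ - β * x) ^ 2 := pow_le_pow_left₀ (by norm_num) h2 2
      rw [hw, div_pow, mul_pow, div_le_iff₀ (by positivity)]
      have h7 : 0 ≤ R ^ 2 := sq_nonneg R
      nlinarith
    have hR2 : R ^ 2 ≤ 1 := by nlinarith
    have hw3 : w ^ 2 ≤ (4 / 5) / (1 + 4 / 5) := by
      norm_num
      nlinarith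
    have h8 := log_term hDp (by norm_num : (0:ℝ) < 4 / 5) hw3
    have e1 : y₀ + κ * β * R - β * (1 + R) * x = (y₀ - β * x) * (1 - w) := by
      rw [hw]
      field_simp
      ring
    have e2 : y₀ - κ * β * R - β * (1 - R) * x = (y₀ - β * x) * (1 + w) := by
      rw [hw]
      field_simp
      ring
    rw [e1, e2]
    have h9 : (1 + 4 / 5 : ℝ) * w ^ 2 ≤ (4 / 5) * R ^ 2 := by nlinarith
    linarith
  have hR' : ∀ x ∈ Set.Icc b a, |R * (β * (x - κ))| ≤ 2 / 5 := by
    intro x hx
    rw [abs_mul, abs_of_pos hR0]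
    calc R * |β * (x - κ)| ≤ 1 * (2 / 5) := mul_le_mul hR1 (hxκ x hx) (abs_nonneg _) zero_le_one
      _ = 2 / 5 := one_mul _
  have hpos1 : ∀ x ∈ Set.Icc b a, 1 / 5 ≤ y₀ + κ * β * R - β * (1 + R) * x := by
    intro x hx
    have h2 := hD x hx
    have h5 := (abs_le.1 (hR' x hx)).2
    nlinarith
  have hpos2 : ∀ x ∈ Set.Icc b a, 1 / 5 ≤ y₀ - κ * β * R - β * (1 - R) * x := by
    intro x hx
    have h2 := hD x hx
    have h5 := (abs_le.1 (hR' x hx)).1
    nlinarith
  have i0 := integrable_log_affine h (t := β) (y := y₀) (m := 3 / 5) (by norm_num) hD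
  have i1 := integrable_log_affine h (t := β * (1 + R)) (y := y₀ + κ * β * R) (m := 1 / 5) (by norm_num) hpos1
  have i2 := integrable_log_affine h (t := β * (1 - R)) (y := y₀ - κ * β * R) (m := 1 / 5) (by norm_num) hpos2
  have hmono : ∫ x, (2 * Real.log (y₀ - β * x) - (4 / 5) * R ^ 2) ∂μ
      ≤ ∫ x, (Real.log (y₀ + κ * β * R - β * (1 + R) * x) + Real.log (y₀ - κ * β * R - β * (1 - R) * x)) ∂μ := by
    refine integral_mono_ae ((i0.const_mul 2).sub (integrable_const _)) (i1.add i2) ?_
    filter_upwards [h.supp] with x hx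
    exact hterm x hx
  rw [integral_sub (i0.const_mul 2) (integrable_const _), integral_const_mul, integral_add i1 i2] at hmono
  simp only [integral_const, probReal_univ, smul_eq_mul, one_mul] at hmono
  have hI := Ifun_ge hR0.le hR1
  unfold psi
  have hR3 : 0 < R ^ 2 := by positivity
  nlinarith

/-- The conditions of the limit theorem at high temperature. -/
theorem highT_conditions (h : Spec μ a b lam) {β ρ : ℝ} (hβ : 0 < β) (hρa : a - ∫ x, x ∂μ ≤ ρ)
    (hρb : (∫ x, x ∂μ) - b ≤ ρ) (hs : β * ρ ≤ 2 / 5) :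
    ∃ y₀, β * a < y₀ ∧ (∫ x, 1 / (y₀ - β * x) ∂μ = 1) ∧
      (β ^ 2 * ∫ x, (x - ∫ x, x ∂μ) ^ 2 / (y₀ - β * x) ^ 2 ∂μ < 1) ∧
      ∀ E : ℝ, ∀ R ∈ Set.Ioc (0 : ℝ) 1, ∃ τ y₁ y₂, 0 ≤ τ ∧ τ * (1 + R) * a < y₁ ∧ τ * (1 - R) * a < y₂ ∧
        psi μ (τ * (1 + R)) y₁ + psi μ (τ * (1 - R)) y₂ - (τ - β) * E - 2 * psi μ β y₀ < Ifun R := by
  have hprob := h.prob
  obtain ⟨κ, hκ⟩ : ∃ κ, κ = ∫ x, x ∂μ := ⟨_, rfl⟩
  rw [← hκ] at hρa hρb ⊢
  have hint_id : Integrable (fun x : ℝ => x) μ := by
    refine integrable_supp h (C := |a| + |b|) measurable_id ?_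
    intro x hx
    rw [abs_le]
    have := neg_abs_le b
    have := le_abs_self a
    have := abs_nonneg a
    have := abs_nonneg b
    constructor <;> linarith [hx.1, hx.2]
  obtain ⟨s, hsdef⟩ : ∃ s, s = β * ρ := ⟨_, rfl⟩
  rw [← hsdef] at hs
  have hρ0 : 0 ≤ ρ := by
    have := h.le
    linarith
  have hs0 : 0 ≤ s := by
    rw [hsdef]
    positivity
  have hxκ : ∀ x ∈ Set.Icc b a, |β * (x - κ)| ≤ s := by
    intro x hx
    rw [abs_mul, abs_of_pos hβ, hsdef]
    refine mul_le_mul_of_nonneg_left ?_ hβ.le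
    rw [abs_le]
    constructor <;> linarith [hx.1, hx.2]
  obtain ⟨yL, hyL⟩ : ∃ yL, yL = β * κ + 1 := ⟨_, rfl⟩
  obtain ⟨yU, hyU⟩ : ∃ yU, yU = β * κ + 1 + s := ⟨_, rfl⟩
  have hLU : yL ≤ yU := by
    rw [hyL, hyU]
    linarith
  have hden : ∀ y ∈ Set.Icc yL yU, ∀ x ∈ Set.Icc b a, 3 / 5 ≤ y - β * x := by
    intro y hy x hx
    have h1 := (abs_le.1 (hxκ x hx)).2
    have h2 := hy.1
    rw [hyL] at h2
    nlinarith
  have hcont : ContinuousOn (fun y => ∫ x, 1 / (y - β * x) ∂μ) (Set.Icc yL yU) := by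
    refine continuousOn_of_dominated (bound := fun _ => 5 / 3) ?_ ?_ (integrable_const _) ?_
    · intro y _
      exact Measurable.aestronglyMeasurable (by fun_prop)
    · intro y hy
      filter_upwards [h.supp] with x hx
      have h1 := hden y hy x hx
      have h2 : 0 < y - β * x := by linarith
      rw [Real.norm_eq_abs, abs_of_pos (by positivity)]
      rw [div_le_iff₀ h2]
      linarith
    · filter_upwards [h.supp] with x hx
      refine ContinuousOn.div continuousOn_const (by fun_prop) ?_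
      intro y hy
      have h1 := hden y hy x hx
      linarith
  have hintg : ∀ y ∈ Set.Icc yL yU, Integrable (fun x => 1 / (y - β * x)) μ := by
    intro y hy
    refine integrable_supp h (C := 5 / 3) (by fun_prop) ?_
    intro x hx
    have h1 := hden y hy x hx
    have h2 : 0 < y - β * x := by linarith
    rw [abs_of_pos (by positivity), div_le_iff₀ h2]
    linarith
  have hgL : 1 ≤ ∫ x, 1 / (yL - β * x) ∂μ := by
    have h1 : ∫ x, (2 - (yL - β * x)) ∂μ ≤ ∫ x, 1 / (yL - β * x) ∂μ := by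
      refine integral_mono_ae ((integrable_const _).sub ((integrable_const _).sub (hint_id.const_mul β)))
        (hintg yL (Set.left_mem_Icc.2 hLU)) ?_
      filter_upwards [h.supp] with x hx
      have h2 := hden yL (Set.left_mem_Icc.2 hLU) x hx
      have h3 : 0 < yL - β * x := by linarith
      change 2 - (yL - β * x) ≤ 1 / (yL - β * x)
      rw [le_div_iff₀ h3]
      nlinarith [sq_nonneg (yL - β * x - 1)]
    have h4 : ∫ x, (2 - (yL - β * x)) ∂μ = 1 := by
      have e : ∀ x, 2 - (yL - β * x) = (2 - yL) + β * x := fun x => by ring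
      simp only [e]
      rw [integral_add (integrable_const _) (hint_id.const_mul β), integral_const_mul, ← hκ, hyL]
      simp
      ring
    linarith
  have hgU : ∫ x, 1 / (yU - β * x) ∂μ ≤ 1 := by
    have h1 : ∫ x, 1 / (yU - β * x) ∂μ ≤ ∫ _x, (1:ℝ) ∂μ := by
      refine integral_mono_ae (hintg yU (Set.right_mem_Icc.2 hLU)) (integrable_const _) ?_
      filter_upwards [h.supp] with x hx
      have h2 := (abs_le.1 (hxκ x hx)).2
      have h3 : 1 ≤ yU - β * x := by
        rw [hyU]
        nlinarith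
      change 1 / (yU - β * x) ≤ 1
      rw [div_le_iff₀ (by linarith)]
      linarith
    simpa using h1
  obtain ⟨y₀, hy₀, hsad⟩ := intermediate_value_Icc' hLU hcont ⟨hgU, hgL⟩
  have hD : ∀ x ∈ Set.Icc b a, 3 / 5 ≤ y₀ - β * x := fun x hx => hden y₀ hy₀ x hx
  have hκa : 0 ≤ a - κ := by
    have h1 : ∫ x, x ∂μ ≤ ∫ _x, a ∂μ := by
      refine integral_mono_ae hint_id (integrable_const _) ?_
      filter_upwards [h.supp] with x hx using hx.2
    simp at h1
    rw [hκ]
    linarith
  have hy₀a : y₀ - β * κ - 1 ≥ 0 := by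
    have := hy₀.1
    rw [hyL] at this
    linarith
  have hβa : β * (a - κ) ≤ s := by
    rw [hsdef]
    exact mul_le_mul_of_nonneg_left hρa hβ.le
  have hya : β * a < y₀ := by
    nlinarith
  refine ⟨y₀, hya, hsad, ?_, ?_⟩
  · -- the local condition
    have h1 : ∫ x, β ^ 2 * ((x - κ) ^ 2 / (y₀ - β * x) ^ 2) ∂μ ≤ ∫ _x, (4 / 9 : ℝ) ∂μ := by
      refine integral_mono_of_nonneg (Filter.Eventually.of_forall fun x => by positivity) (integrable_const _) ?_
      filter_upwards [h.supp] with x hx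
      have h2 := hD x hx
      have h3 := hxκ x hx
      have h4 : 0 < y₀ - β * x := by linarith
      have h5 : (β * (x - κ)) ^ 2 ≤ (2 / 5) ^ 2 := by
        rw [← sq_abs]
        exact pow_le_pow_left₀ (abs_nonneg _) (h3.trans hs) 2
      have h6 : (3 / 5 : ℝ) ^ 2 ≤ (y₀ - β * x) ^ 2 := pow_le_pow_left₀ (by norm_num) h2 2
      change β ^ 2 * ((x - κ) ^ 2 / (y₀ - β * x) ^ 2) ≤ 4 / 9
      rw [← mul_div_assoc, div_le_iff₀ (by positivity)]
      nlinarith
    rw [integral_const_mul] at h1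
    simp at h1
    linarith
  · intro E R hR
    obtain ⟨hR0, hR1⟩ := hR
    have hy1 : β * (1 + R) * a < y₀ + κ * β * R := by
      have h2 : β * R * (a - κ) ≤ s := by
        calc β * R * (a - κ) = R * (β * (a - κ)) := by ring
          _ ≤ 1 * s := mul_le_mul hR1 hβa (by positivity) zero_le_one
          _ = s := one_mul s
      nlinarith
    have hy2 : β * (1 - R) * a < y₀ - κ * β * R := by
      have h2 : 0 ≤ β * R * (a - κ) := by positivity
      nlinarith
    refine ⟨β, y₀ + κ * β * R, y₀ - κ * β * R, hβ.le, hy1, hy2, ?_⟩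
    have hb := highT_bracket h (κ := κ) hβ hR0 hR1 hD (fun x hx => (hxκ x hx).trans hs)
    simp only [sub_self, zero_mul, sub_zero]
    exact hb

end Vale.Agent.Lib.P166
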