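import Vale.Agent.Lib.P166.ZMoments

/-!
Convergence of averages over the spectrum, uniformly in parameters.
-/

open scoped BigOperators NNReal ENNReal Topology BoundedContinuousFunction
open MeasureTheory ProbabilityTheory Matrix Filter

namespace Vale.Agent.Lib.P166

/-- The hypotheses on the spectra: weak convergence of the empirical measures to a probability
measure supported in `[b, a]`, and eventual confinement of all eigenvalues to any neighbourhood of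
`[b, a]`. -/
structure Spec (μ : Measure ℝ) (a b : ℝ) (lam : ∀ N, Fin N → ℝ) : Prop where
  prob : IsProbabilityMeasure μ
  supp : ∀ᵐ x ∂μ, x ∈ Set.Icc b a
  weak : ∀ f : ℝ →ᵇ ℝ, Tendsto (fun N : ℕ => (1 / (N : ℝ)) * ∑ i, f (lam N i)) atTop
    (𝓝 (∫ x, f x ∂μ))
  edge : ∀ ε > 0, ∀ᶠ N : ℕ in atTop, ∀ i, b - ε ≤ lam N i ∧ lam N i ≤ a + ε

variable {μ : Measure ℝ} {a b : ℝ} {lam : ∀ N, Fin N → ℝ}

lemma Spec.le (h : Spec μ a b lam) : b ≤ a := by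
  have := h.prob
  obtain ⟨x, hx⟩ := h.supp.exists
  exact hx.1.trans hx.2

/-- Bounds on `y - t x` near a point, for `x` near `[b, a]`. -/
lemma margin_box (hab : b ≤ a) {t₀ y₀ : ℝ} (ht₀ : 0 ≤ t₀) (hy₀ : t₀ * a < y₀) :
    ∃ e₀ > 0, ∃ m > 0, ∃ M, ∀ t y x : ℝ, |t - t₀| ≤ e₀ → |y - y₀| ≤ e₀ → b - e₀ ≤ x → x ≤ a + e₀ →
      m ≤ y - t * x ∧ y - t * x ≤ M := by
  obtain ⟨Λ, hΛ⟩ : ∃ Λ, Λ = |a| + |b| + 1 := ⟨_, rfl⟩
  have hΛ1 : 1 ≤ Λ := by
    rw [hΛ]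
    have := abs_nonneg a
    have := abs_nonneg b
    linarith
  obtain ⟨g, hg⟩ : ∃ g, g = y₀ - t₀ * a := ⟨_, rfl⟩
  have hg0 : 0 < g := by
    rw [hg]
    linarith
  obtain ⟨e₀, he₀⟩ : ∃ e₀, e₀ = min 1 (g / (2 * (1 + Λ + t₀))) := ⟨_, rfl⟩
  have hden : 0 < 2 * (1 + Λ + t₀) := by positivity
  have he0 : 0 < e₀ := by
    rw [he₀]
    exact lt_min one_pos (by positivity)
  have he1 : e₀ ≤ 1 := by
    rw [he₀]
    exact min_le_left _ _
  have he2 : e₀ * (2 * (1 + Λ + t₀)) ≤ g := by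
    have : e₀ ≤ g / (2 * (1 + Λ + t₀)) := by
      rw [he₀]
      exact min_le_right _ _
    rwa [le_div_iff₀ hden] at this
  refine ⟨e₀, he0, g / 2, by positivity, |y₀| + 1 + (t₀ + 1) * Λ, ?_⟩
  intro t y x ht hy hx1 hx2
  obtain ⟨ht1, ht2⟩ := abs_le.1 ht
  obtain ⟨hy1, hy2⟩ := abs_le.1 hy
  have hxabs : |x| ≤ Λ := by
    rw [abs_le, hΛ]
    have h1 := neg_abs_le b
    have h2 := le_abs_self a
    have h3 := abs_nonneg a
    have h4 := abs_nonneg b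
    constructor <;> linarith
  obtain ⟨hx3, hx4⟩ := abs_le.1 hxabs
  have key1 : t * x ≤ t₀ * a + (t₀ + Λ) * e₀ := by
    have h1 : t * x = t₀ * x + (t - t₀) * x := by ring
    have h2 : t₀ * x ≤ t₀ * a + t₀ * e₀ := by nlinarith
    have h3 : (t - t₀) * x ≤ e₀ * Λ := by
      calc (t - t₀) * x ≤ |(t - t₀) * x| := le_abs_self _
        _ = |t - t₀| * |x| := abs_mul _ _
        _ ≤ e₀ * Λ := mul_le_mul ht hxabs (abs_nonneg _) he0.le
    linarith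
  constructor
  · have : e₀ * (2 * (1 + Λ + t₀)) = 2 * e₀ + 2 * (Λ * e₀) + 2 * (t₀ * e₀) := by ring
    rw [hg] at he2
    rw [hg]
    nlinarith
  · have h1 : |t * x| ≤ (t₀ + 1) * Λ := by
      rw [abs_mul]
      have : |t| ≤ t₀ + 1 := by
        rw [abs_le]
        constructor <;> linarith
      exact mul_le_mul this hxabs (abs_nonneg _) (by linarith)
    have h2 := (abs_le.1 h1).1
    have h3 := le_abs_self y₀
    linarith

/-- The eigenvalues stay in a neighbourhood. -/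
lemma margin (h : Spec μ a b lam) {t₀ y₀ : ℝ} (ht₀ : 0 ≤ t₀) (hy₀ : t₀ * a < y₀) :
    ∃ e₀ > 0, ∃ m > 0, ∃ M, ∀ᶠ N : ℕ in atTop, ∀ t y : ℝ, |t - t₀| ≤ e₀ → |y - y₀| ≤ e₀ →
      ∀ i, m ≤ y - t * lam N i ∧ y - t * lam N i ≤ M := by
  obtain ⟨e₀, he₀, m, hm, M, hb⟩ := margin_box h.le ht₀ hy₀
  refine ⟨e₀, he₀, m, hm, M, ?_⟩
  filter_upwards [h.edge e₀ he₀] with N hN t y ht hy i
  exact hb t y _ ht hy (hN i).1 (hN i).2

/-- Uniform convergence of averages. -/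
theorem avg_conv (h : Spec μ a b lam) {Φ : ℝ → ℝ → ℝ}
    (hΦ : ContinuousOn (fun p : ℝ × ℝ => Φ p.1 p.2) {p | 0 < p.1}) {t₀ y₀ : ℝ} (ht₀ : 0 ≤ t₀)
    (hy₀ : t₀ * a < y₀) {ε : ℝ} (hε : 0 < ε) :
    ∃ η > 0, ∀ᶠ N : ℕ in atTop, ∀ t y : ℝ, |t - t₀| < η → |y - y₀| < η →
      |(1 / (N : ℝ)) * ∑ i, Φ (y - t * lam N i) (lam N i) - ∫ x, Φ (y₀ - t₀ * x) x ∂μ| < ε := by
  classical
  have hprob := h.prob
  obtain ⟨e₀, he₀, m, hm, M, hb⟩ := margin_box h.le ht₀ hy₀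
  -- the compact box
  obtain ⟨C, hC⟩ : ∃ C : Set (ℝ × ℝ × ℝ), C = Set.Icc (t₀ - e₀) (t₀ + e₀)
      ×ˢ Set.Icc (y₀ - e₀) (y₀ + e₀) ×ˢ Set.Icc (b - e₀) (a + e₀) := ⟨_, rfl⟩
  have hCc : IsCompact C := by
    rw [hC]
    exact isCompact_Icc.prod (isCompact_Icc.prod isCompact_Icc)
  have hCpos : ∀ p ∈ C, 0 < p.2.1 - p.1 * p.2.2 := by
    intro p hp
    rw [hC] at hp
    obtain ⟨h1, h2, h3⟩ := hp
    have := (hb p.1 p.2.1 p.2.2 (abs_le.2 ⟨by linarith [h1.1], by linarith [h1.2]⟩)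
      (abs_le.2 ⟨by linarith [h2.1], by linarith [h2.2]⟩) h3.1 h3.2).1
    linarith
  have hfc : ContinuousOn (fun p : ℝ × ℝ × ℝ => Φ (p.2.1 - p.1 * p.2.2) p.2.2) C := by
    have hinner : ContinuousOn (fun p : ℝ × ℝ × ℝ => ((p.2.1 - p.1 * p.2.2, p.2.2) : ℝ × ℝ)) C := by
      apply Continuous.continuousOn
      fun_prop
    exact hΦ.comp hinner (fun p hp => hCpos p hp)
  have huc := hCc.uniformContinuousOn_of_continuous hfc
  rw [Metric.uniformContinuousOn_iff] at huc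
  obtain ⟨η₀, hη₀, huc⟩ := huc (ε / 3) (by positivity)
  -- the test function
  obtain ⟨cl, hcl⟩ : ∃ cl : ℝ → ℝ, cl = fun x => max (b - e₀) (min x (a + e₀)) := ⟨_, rfl⟩
  have hab := h.le
  have hcl1 : ∀ x, cl x ∈ Set.Icc (b - e₀) (a + e₀) := by
    intro x
    rw [hcl]
    constructor
    · exact le_max_left _ _
    · exact max_le (by linarith) (min_le_right _ _)
  have hclc : Continuous cl := by
    rw [hcl]
    fun_prop
  have hcl2 : ∀ x, x ∈ Set.Icc (b - e₀) (a + e₀) → cl x = x := by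
    intro x hx
    rw [hcl]
    simp only
    rw [min_eq_left hx.2, max_eq_right hx.1]
  obtain ⟨g₀, hg₀⟩ : ∃ g₀ : ℝ → ℝ, g₀ = fun x => Φ (y₀ - t₀ * x) x := ⟨_, rfl⟩
  have hg₀c : ContinuousOn g₀ (Set.Icc (b - e₀) (a + e₀)) := by
    rw [hg₀]
    have hinner : ContinuousOn (fun x : ℝ => ((y₀ - t₀ * x, x) : ℝ × ℝ)) (Set.Icc (b - e₀) (a + e₀)) := by
      apply Continuous.continuousOn
      fun_prop
    refine hΦ.comp hinner (fun x hx => ?_)
    have := (hb t₀ y₀ x (by simpa using he₀.le) (by simpa using he₀.le) hx.1 hx.2).1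
    change 0 < y₀ - t₀ * x
    linarith
  obtain ⟨B, hB⟩ := isCompact_Icc.exists_bound_of_continuousOn hg₀c
  have hgc : Continuous (fun x => g₀ (cl x)) :=
    hg₀c.comp_continuous hclc hcl1
  obtain ⟨f, hf⟩ : ∃ f : ℝ →ᵇ ℝ, ∀ x, f x = g₀ (cl x) :=
    ⟨BoundedContinuousFunction.ofNormedAddCommGroup _ hgc B (fun x => hB _ (hcl1 x)), fun _ => rfl⟩
  have hint : ∫ x, f x ∂μ = ∫ x, Φ (y₀ - t₀ * x) x ∂μ := by
    refine integral_congr_ae ?_
    filter_upwards [h.supp] with x hx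
    rw [hf, hcl2 x ⟨by linarith [hx.1], by linarith [hx.2]⟩, hg₀]
  have hlim := h.weak f
  rw [hint] at hlim
  have hev := (Metric.tendsto_nhds.1 hlim) (ε / 3) (by positivity)
  refine ⟨min e₀ η₀, lt_min he₀ hη₀, ?_⟩
  filter_upwards [hev, h.edge e₀ he₀, eventually_gt_atTop 0] with N h1 h2 hNpos t y ht hy
  rw [Real.dist_eq] at h1
  have hN0 : (0 : ℝ) < N := Nat.cast_pos.2 hNpos
  have hdiff : ∀ i, |Φ (y - t * lam N i) (lam N i) - f (lam N i)| ≤ ε / 3 := by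
    intro i
    have hi : lam N i ∈ Set.Icc (b - e₀) (a + e₀) := h2 i
    rw [hf, hcl2 _ hi, hg₀]
    have htt := abs_lt.1 (ht.trans_le (min_le_left _ _))
    have hyy := abs_lt.1 (hy.trans_le (min_le_left _ _))
    have hp1 : ((t, y, lam N i) : ℝ × ℝ × ℝ) ∈ C := by
      rw [hC]
      exact ⟨⟨by linarith [htt.1], by linarith [htt.2]⟩,
        ⟨by linarith [hyy.1], by linarith [hyy.2]⟩, hi⟩
    have hp2 : ((t₀, y₀, lam N i) : ℝ × ℝ × ℝ) ∈ C := by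
      rw [hC]
      exact ⟨⟨by linarith, by linarith⟩, ⟨by linarith, by linarith⟩, hi⟩
    have hd : dist ((t, y, lam N i) : ℝ × ℝ × ℝ) (t₀, y₀, lam N i) < η₀ := by
      rw [Prod.dist_eq, Prod.dist_eq, dist_self]
      simp only
      rw [Real.dist_eq, Real.dist_eq]
      refine max_lt (ht.trans_le (min_le_right _ _)) (max_lt (hy.trans_le (min_le_right _ _)) hη₀)
    have := huc _ hp1 _ hp2 hd
    rw [Real.dist_eq] at this
    exact this.le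
  have hsum : |(1 / (N : ℝ)) * ∑ i, Φ (y - t * lam N i) (lam N i) - (1 / (N : ℝ)) * ∑ i, f (lam N i)|
      ≤ ε / 3 := by
    rw [← mul_sub, abs_mul, abs_of_pos (by positivity : 0 < 1 / (N : ℝ)), ← Finset.sum_sub_distrib]
    calc (1 / (N : ℝ)) * |∑ i, (Φ (y - t * lam N i) (lam N i) - f (lam N i))|
        ≤ (1 / (N : ℝ)) * ∑ i : Fin N, ε / 3 :=
          mul_le_mul_of_nonneg_left ((Finset.abs_sum_le_sum_abs _ _).trans
            (Finset.sum_le_sum fun i _ => hdiff i)) (by positivity)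
      _ = ε / 3 := by
          simp
          field_simp
  calc _ ≤ |(1 / (N : ℝ)) * ∑ i, Φ (y - t * lam N i) (lam N i) - (1 / (N : ℝ)) * ∑ i, f (lam N i)|
        + |(1 / (N : ℝ)) * ∑ i, f (lam N i) - ∫ x, Φ (y₀ - t₀ * x) x ∂μ| := abs_sub_le _ _ _
    _ < ε := by linarith

end Vale.Agent.Lib.P166
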