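import Vale.Agent.Lib.P166.PairMoment

/-!
The lower bound for the first moment at the saddle point.
-/

open scoped BigOperators NNReal ENNReal
open MeasureTheory ProbabilityTheory Matrix

namespace Vale.Agent.Lib.P166

variable {N : ℕ}

lemma qf_diag_ge {D : Fin N → ℝ} {δ : ℝ} (h : ∀ i, δ ≤ D i) {u : Fin N → ℝ} (hu : nsq u = 1) :
    δ ≤ qf (Matrix.diagonal D) u := by
  rw [qf_diagonal]
  calc δ = ∑ i, δ * u i ^ 2 := by
        rw [← Finset.mul_sum]
        change δ = δ * nsq u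
        rw [hu, mul_one]
    _ ≤ _ := Finset.sum_le_sum fun i _ => mul_le_mul_of_nonneg_right (h i) (sq_nonneg _)

lemma exists_lower' (hN : N ≠ 0) {D : Fin N → ℝ} (h : ∀ i, 0 < D i) :
    ∃ δ > 0, ∀ i, δ ≤ D i := by
  have hN' : Nonempty (Fin N) := ⟨⟨0, Nat.pos_of_ne_zero hN⟩⟩
  obtain ⟨i₀, -, hi⟩ := Finset.exists_min_image Finset.univ D Finset.univ_nonempty
  exact ⟨_, h i₀, fun i => hi i (Finset.mem_univ i)⟩

/-- A bound for the square root of an inverse. -/
lemma sqrt_inv_one_sub_le {x : ℝ} (hx : |x| ≤ 1 / 2) :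
    Real.sqrt (1 / (1 - x)) ≤ Real.exp (x / 2 + x ^ 2) := by
  obtain ⟨h1, h2⟩ := abs_le.1 hx
  have hu : 0 < 1 - x := by linarith
  have hlog : 1 - (1 - x)⁻¹ ≤ Real.log (1 - x) := Real.one_sub_inv_le_log_of_pos hu
  have hbound : -(x + 2 * x ^ 2) ≤ Real.log (1 - x) := by
    refine le_trans ?_ hlog
    have h3 : (1 - x)⁻¹ ≤ 1 + x + 2 * x ^ 2 := by
      rw [inv_le_iff_one_le_mul₀ hu]
      nlinarith [sq_nonneg x, mul_nonneg (sq_nonneg x) (by linarith : (0 : ℝ) ≤ 1 / 2 - x)]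
    linarith
  apply Real.sqrt_le_iff.2
  refine ⟨(Real.exp_pos _).le, ?_⟩
  rw [← Real.exp_nat_mul]
  have h4 : (1 - x)⁻¹ = Real.exp (-Real.log (1 - x)) := by
    rw [Real.exp_neg, Real.exp_log hu]
  rw [one_div, h4]
  apply Real.exp_le_exp.2
  push_cast
  nlinarith [sq_nonneg x]

/-- The tail of a weighted sum of squares under the tilted Gaussian measure. -/
lemma tilt_tail (hN : N ≠ 0) {D c : Fin N → ℝ} (hD : ∀ i, 0 < D i) {s : ℝ} (hs : 0 < s)
    (hx : ∀ i, |2 * s * c i / D i| ≤ 1 / 2) (K : ℝ) :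
    ∫ g : Fin N → ℝ, (if (∑ i, c i / D i) + K ≤ ∑ i, c i * g i ^ 2 then (1 : ℝ) else 0)
        * Real.exp ((nsq g - qf (Matrix.diagonal D) g) / 2) ∂(gam (Fin N))
      ≤ Real.exp (-(s * K) + ∑ i, (2 * s * c i / D i) ^ 2) * gdet (Matrix.diagonal D) := by
  classical
  obtain ⟨D', hD'⟩ : ∃ D' : Fin N → ℝ, D' = fun i => D i - 2 * s * c i := ⟨_, rfl⟩
  have hfac : ∀ i, D' i = D i * (1 - 2 * s * c i / D i) := by
    intro i
    rw [hD']
    have := (hD i).ne'
    field_simp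
  have hpos : ∀ i, 0 < D' i := by
    intro i
    rw [hfac]
    have h1 := (abs_le.1 (hx i)).2
    exact mul_pos (hD i) (by linarith)
  obtain ⟨δ, hδ, hδ'⟩ := exists_lower' hN hpos
  have hint := integrable_gdet (B := Matrix.diagonal D') hδ (fun u hu => qf_diag_ge hδ' hu)
  have hq : ∀ g : Fin N → ℝ, qf (Matrix.diagonal D') g
      = qf (Matrix.diagonal D) g - 2 * s * ∑ i, c i * g i ^ 2 := by
    intro g
    rw [qf_diagonal, qf_diagonal, Finset.mul_sum, ← Finset.sum_sub_distrib, hD']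
    refine Finset.sum_congr rfl fun i _ => ?_
    ring
  obtain ⟨L, hL⟩ : ∃ L, L = ∑ i, c i / D i := ⟨_, rfl⟩
  rw [← hL]
  have hpt : ∀ g : Fin N → ℝ, (if L + K ≤ ∑ i, c i * g i ^ 2 then (1 : ℝ) else 0)
        * Real.exp ((nsq g - qf (Matrix.diagonal D) g) / 2)
      ≤ Real.exp (-(s * (L + K))) * Real.exp ((nsq g - qf (Matrix.diagonal D') g) / 2) := by
    intro g
    have e : Real.exp (-(s * (L + K))) * Real.exp ((nsq g - qf (Matrix.diagonal D') g) / 2)
        = Real.exp (s * ((∑ i, c i * g i ^ 2) - (L + K)))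
          * Real.exp ((nsq g - qf (Matrix.diagonal D) g) / 2) := by
      rw [← Real.exp_add, ← Real.exp_add, hq]
      congr 1
      ring
    rw [e]
    refine mul_le_mul_of_nonneg_right ?_ (Real.exp_pos _).le
    split_ifs with h
    · apply Real.one_le_exp
      exact mul_nonneg hs.le (by linarith)
    · exact (Real.exp_pos _).le
  have hval : gdet (Matrix.diagonal D')
      ≤ Real.exp (s * L + ∑ i, (2 * s * c i / D i) ^ 2) * gdet (Matrix.diagonal D) := by
    rw [gdet_diagonal hpos, gdet_diagonal hD]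
    have hsum : s * L + ∑ i, (2 * s * c i / D i) ^ 2
        = ∑ i, ((2 * s * c i / D i) / 2 + (2 * s * c i / D i) ^ 2) := by
      rw [hL, Finset.mul_sum, ← Finset.sum_add_distrib]
      refine Finset.sum_congr rfl fun i _ => ?_
      ring
    rw [hsum, Real.exp_sum, ← Finset.prod_mul_distrib]
    refine Finset.prod_le_prod (fun i _ => Real.sqrt_nonneg _) fun i _ => ?_
    rw [hfac, one_div, mul_inv, Real.sqrt_mul (inv_nonneg.2 (hD i).le), mul_comm]
    rw [← one_div, ← one_div]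
    exact mul_le_mul_of_nonneg_right (sqrt_inv_one_sub_le (hx i)) (Real.sqrt_nonneg _)
  have hmeas : Measurable fun g : Fin N → ℝ =>
      (if L + K ≤ ∑ i, c i * g i ^ 2 then (1 : ℝ) else 0)
        * Real.exp ((nsq g - qf (Matrix.diagonal D) g) / 2) := by
    refine Measurable.mul ?_ ?_
    · refine Measurable.ite ?_ measurable_const measurable_const
      exact measurableSet_le measurable_const
        (Finset.measurable_sum _ fun i _ => ((measurable_pi_apply i).pow_const 2).const_mul _)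
    · exact Real.measurable_exp.comp ((measurable_nsq.sub (measurable_qf _)).div_const 2)
  calc _ ≤ ∫ g : Fin N → ℝ, Real.exp (-(s * (L + K)))
        * Real.exp ((nsq g - qf (Matrix.diagonal D') g) / 2) ∂(gam (Fin N)) := by
        refine integral_mono_of_nonneg (Filter.Eventually.of_forall fun g => ?_)
          (hint.const_mul _) (Filter.Eventually.of_forall hpt)
        simp only [Pi.zero_apply]
        split_ifs <;> positivity
    _ = Real.exp (-(s * (L + K))) * gdet (Matrix.diagonal D') := integral_const_mul _ _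
    _ ≤ Real.exp (-(s * (L + K)))
        * (Real.exp (s * L + ∑ i, (2 * s * c i / D i) ^ 2) * gdet (Matrix.diagonal D)) :=
        mul_le_mul_of_nonneg_left hval (Real.exp_pos _).le
    _ = _ := by
        rw [← mul_assoc, ← Real.exp_add]
        congr 2
        ring

/-- An elementary bound for the logarithm near one. -/
lemma log_one_add_ge {w : ℝ} (hw : |w| ≤ 1 / 2) : w - 2 * w ^ 2 ≤ Real.log (1 + w) := by
  obtain ⟨h1, h2⟩ := abs_le.1 hw
  have hu : 0 < 1 + w := by linarith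
  have hlog : 1 - (1 + w)⁻¹ ≤ Real.log (1 + w) := Real.one_sub_inv_le_log_of_pos hu
  refine le_trans ?_ hlog
  have h3 : (1 + w)⁻¹ ≤ 1 - w + 2 * w ^ 2 := by
    rw [inv_le_iff_one_le_mul₀ hu]
    nlinarith [sq_nonneg w, mul_nonneg (sq_nonneg w) (by linarith : (0 : ℝ) ≤ 1 / 2 + w)]
  linarith

/-- Combination of four tails. -/
private lemma four_tails {α : Type*} [MeasurableSpace α] {μ : Measure α} [IsProbabilityMeasure μ]
    {W F t₁ t₂ t₃ t₄ : α → ℝ} (hW : Integrable W μ) (hW0 : ∀ a, 0 ≤ W a)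
    (hF : Measurable F) (hF0 : ∀ a, 0 ≤ F a) (hF1 : ∀ a, F a ≤ 1)
    (ht₁ : Measurable t₁) (ht₂ : Measurable t₂) (ht₃ : Measurable t₃) (ht₄ : Measurable t₄)
    (h₁ : ∀ a, t₁ a = 0 ∨ t₁ a = 1) (h₂ : ∀ a, t₂ a = 0 ∨ t₂ a = 1)
    (h₃ : ∀ a, t₃ a = 0 ∨ t₃ a = 1) (h₄ : ∀ a, t₄ a = 0 ∨ t₄ a = 1)
    (hcov : ∀ a, t₁ a = 0 → t₂ a = 0 → t₃ a = 0 → t₄ a = 0 → F a = 1) :
    ∫ a, W a ∂μ - (∫ a, t₁ a * W a ∂μ + ∫ a, t₂ a * W a ∂μ + ∫ a, t₃ a * W a ∂μ
      + ∫ a, t₄ a * W a ∂μ) ≤ ∫ a, F a * W a ∂μ := by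
  have hb : ∀ {t : α → ℝ}, Measurable t → (∀ a, t a = 0 ∨ t a = 1) →
      Integrable (fun a => t a * W a) μ := by
    intro t ht h
    refine hW.mono' (ht.aestronglyMeasurable.mul hW.aestronglyMeasurable)
      (Filter.Eventually.of_forall fun a => ?_)
    rw [Real.norm_eq_abs, abs_of_nonneg ?_]
    · rcases h a with h0 | h0 <;> simp [h0, hW0 a]
    · rcases h a with h0 | h0 <;> simp [h0, hW0 a]
  have hFI : Integrable (fun a => F a * W a) μ := by
    refine hW.mono' (hF.aestronglyMeasurable.mul hW.aestronglyMeasurable)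
      (Filter.Eventually.of_forall fun a => ?_)
    rw [Real.norm_eq_abs, abs_of_nonneg (mul_nonneg (hF0 a) (hW0 a))]
    exact mul_le_of_le_one_left (hW0 a) (hF1 a)
  have h12 : Integrable (fun a => t₁ a * W a + t₂ a * W a) μ := (hb ht₁ h₁).add (hb ht₂ h₂)
  have h123 : Integrable (fun a => t₁ a * W a + t₂ a * W a + t₃ a * W a) μ := h12.add (hb ht₃ h₃)
  have h1234 : Integrable (fun a => t₁ a * W a + t₂ a * W a + t₃ a * W a + t₄ a * W a) μ :=
    h123.add (hb ht₄ h₄)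
  have hsum : ∫ a, W a ∂μ - (∫ a, t₁ a * W a ∂μ + ∫ a, t₂ a * W a ∂μ + ∫ a, t₃ a * W a ∂μ
      + ∫ a, t₄ a * W a ∂μ)
      = ∫ a, (W a - (t₁ a * W a + t₂ a * W a + t₃ a * W a + t₄ a * W a)) ∂μ := by
    rw [integral_sub hW h1234, integral_add h123 (hb ht₄ h₄), integral_add h12 (hb ht₃ h₃),
      integral_add (hb ht₁ h₁) (hb ht₂ h₂)]
  rw [hsum]
  refine integral_mono (hW.sub h1234) hFI fun a => ?_
  simp only
  by_cases h : t₁ a = 0 ∧ t₂ a = 0 ∧ t₃ a = 0 ∧ t₄ a = 0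
  · obtain ⟨e1, e2, e3, e4⟩ := h
    rw [e1, e2, e3, e4, hcov a e1 e2 e3 e4]
    simp
  · have h5 : 0 ≤ F a * W a := mul_nonneg (hF0 a) (hW0 a)
    have nn : ∀ {t : α → ℝ}, (∀ a, t a = 0 ∨ t a = 1) → 0 ≤ t a * W a := by
      intro t ht
      rcases ht a with h0 | h0 <;> simp [h0, hW0 a]
    have key : W a ≤ t₁ a * W a + t₂ a * W a + t₃ a * W a + t₄ a * W a := by
      have n1 := nn h₁
      have n2 := nn h₂
      have n3 := nn h₃
      have n4 := nn h₄
      by_cases e1 : t₁ a = 0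
      · by_cases e2 : t₂ a = 0
        · by_cases e3 : t₃ a = 0
          · by_cases e4 : t₄ a = 0
            · exact absurd ⟨e1, e2, e3, e4⟩ h
            · rw [(h₄ a).resolve_left e4] at n4 ⊢
              linarith
          · rw [(h₃ a).resolve_left e3] at n3 ⊢
            linarith
        · rw [(h₂ a).resolve_left e2] at n2 ⊢
          linarith
      · rw [(h₁ a).resolve_left e1] at n1 ⊢
        linarith
    linarith

section tails

variable {D : Fin N → ℝ} {n s r K a δ₀ : ℝ}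

private lemma tail_const (hN0 : N ≠ 0) (hDpos : ∀ i, 0 < D i) (hs0 : 0 < s) (hsr : s * r = 1)
    (hKa : Real.exp (-K + a) ≤ 1 / 8) (hg : 0 ≤ gdet (Matrix.diagonal D)) {c : Fin N → ℝ}
    (hx : ∀ i, |2 * s * c i / D i| ≤ 1 / 2) (hq : ∑ i, (2 * s * c i / D i) ^ 2 ≤ a) :
    ∫ g : Fin N → ℝ, (if (∑ i, c i / D i) + K * r ≤ ∑ i, c i * g i ^ 2 then (1 : ℝ) else 0)
        * Real.exp ((nsq g - qf (Matrix.diagonal D) g) / 2) ∂(gam (Fin N))
      ≤ (1 / 8) * gdet (Matrix.diagonal D) := by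
  refine (tilt_tail hN0 hDpos hs0 hx (K * r)).trans ?_
  refine mul_le_mul_of_nonneg_right ?_ hg
  refine le_trans (Real.exp_le_exp.2 ?_) hKa
  have e : s * (K * r) = K := by
    calc s * (K * r) = (s * r) * K := by ring
      _ = K := by rw [hsr, one_mul]
  rw [e]
  linarith

private lemma sum_div_self (hDpos : ∀ i, 0 < D i) (hn : (N : ℝ) = n) : ∑ i, D i / D i = n := by
  have : ∀ i, D i / D i = 1 := fun i => div_self (hDpos i).ne'
  simp only [this, Finset.sum_const, Finset.card_univ, Fintype.card_fin, nsmul_eq_mul, mul_one]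
  exact hn

private lemma sum_sq_self (hDpos : ∀ i, 0 < D i) (hn : (N : ℝ) = n) (hs2n : (2 * s) ^ 2 * n = 4) :
    ∑ i, (2 * s * D i / D i) ^ 2 = 4 := by
  have : ∀ i, (2 * s * D i / D i) ^ 2 = (2 * s) ^ 2 := fun i => by
    have := (hDpos i).ne'
    field_simp
  simp only [this, Finset.sum_const, Finset.card_univ, Fintype.card_fin, nsmul_eq_mul]
  rw [hn, mul_comm, hs2n]

private lemma sum_sq_one (hDpos : ∀ i, 0 < D i) (hDge : ∀ i, δ₀ ≤ D i) (hδ₀ : 0 < δ₀)
    (hsaddle : ∑ i, 1 / D i = n) (hs2n : (2 * s) ^ 2 * n = 4) :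
    ∑ i, (2 * s * 1 / D i) ^ 2 ≤ 4 / δ₀ := by
  have h1 : ∀ i, (2 * s * 1 / D i) ^ 2 ≤ (2 * s) ^ 2 / δ₀ * (1 / D i) := by
    intro i
    have hi := hDpos i
    have hge := hDge i
    rw [div_pow, mul_one, div_mul_div_comm, mul_one]
    refine div_le_div_of_nonneg_left (by positivity) (by positivity) ?_
    nlinarith
  calc ∑ i, (2 * s * 1 / D i) ^ 2 ≤ ∑ i, (2 * s) ^ 2 / δ₀ * (1 / D i) :=
        Finset.sum_le_sum fun i _ => h1 i
    _ = (2 * s) ^ 2 / δ₀ * n := by rw [← Finset.mul_sum, hsaddle]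
    _ = 4 / δ₀ := by
        rw [div_mul_eq_mul_div, hs2n]

private lemma abs_one_div_le (hDpos : ∀ i, 0 < D i) (hDge : ∀ i, δ₀ ≤ D i) (hδ₀ : 0 < δ₀)
    (hs0 : 0 < s) (hsδ : 2 * s / δ₀ ≤ 1 / 2) (i : Fin N) : |2 * s * 1 / D i| ≤ 1 / 2 := by
  rw [abs_of_pos (by have := hDpos i; positivity)]
  refine le_trans ?_ hsδ
  rw [mul_one]
  exact div_le_div_of_nonneg_left (by positivity) hδ₀ (hDge i)

/-- If the sums of squares are near `n` then the form at the direction is near one. -/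
private lemma cover_event {g : Fin N → ℝ} (hr0 : 0 < r) (hrn : r * r = n) (hK0 : 0 < K)
    (hrK : 8 * K ≤ r) {Ξ S : ℝ} (hΞ : qf (Matrix.diagonal D) g = Ξ) (hS : nsq g = S)
    (h1 : ¬ n + K * r ≤ Ξ) (h2 : ¬ -n + K * r ≤ -Ξ) (h3 : ¬ n + K * r ≤ S)
    (h4 : ¬ -n + K * r ≤ -S) :
    |qf (Matrix.diagonal D) (hatv g) - 1| ≤ 4 * K / r := by
  push Not at h1 h2 h3 h4
  have hKr : K * r ≤ r * r / 8 := by nlinarith
  have hSpos : r * r / 2 ≤ S := by
    rw [← hrn] at h4
    nlinarith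
  have hS0 : 0 < S := by
    have : 0 < r * r := by positivity
    linarith
  have hgne : g ≠ 0 := fun h => by
    rw [h] at hS
    simp only [nsq] at hS
    simp at hS
    linarith
  have hq : qf (Matrix.diagonal D) (hatv g) = Ξ / S := by
    have := qf_eq_nsq_mul (Matrix.diagonal D) g
    rw [hΞ, hS] at this
    rw [this]
    field_simp
  rw [hq]
  have e : Ξ / S - 1 = (Ξ - S) / S := by
    field_simp
  rw [e, abs_div, abs_of_pos hS0]
  have hdiff : |Ξ - S| ≤ 2 * (K * r) := by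
    rw [abs_le]
    constructor <;> linarith
  rw [div_le_div_iff₀ hS0 hr0]
  calc |Ξ - S| * r ≤ 2 * (K * r) * r := mul_le_mul_of_nonneg_right hdiff hr0.le
    _ = 4 * K * (r * r / 2) := by ring
    _ ≤ 4 * K * S := mul_le_mul_of_nonneg_left hSpos (by positivity)

lemma measurable_tail (c : Fin N → ℝ) (b : ℝ) :
    Measurable fun g : Fin N → ℝ => if b ≤ ∑ i, c i * g i ^ 2 then (1 : ℝ) else 0 := by
  refine Measurable.ite ?_ measurable_const measurable_const
  exact measurableSet_le measurable_const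
    (Finset.measurable_sum _ fun i _ => ((measurable_pi_apply i).pow_const 2).const_mul _)

lemma tail_zero_one (P : Prop) [Decidable P] : (if P then (1 : ℝ) else 0) = 0
    ∨ (if P then (1 : ℝ) else 0) = 1 := by
  split_ifs <;> simp

lemma not_of_ite_zero {P : Prop} [Decidable P] (h : (if P then (1 : ℝ) else 0) = 0) : ¬ P := by
  intro hP
  rw [if_pos hP] at h
  exact one_ne_zero h

/-- The tilted Gaussian measure of the event that the form is near one. -/
lemma event_lower (hN0 : N ≠ 0) (hDge : ∀ i, δ₀ ≤ D i) (hδ₀ : 0 < δ₀)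
    (hn : (N : ℝ) = n) (hsaddle : ∑ i, 1 / D i = n) (hs0 : 0 < s) (hsr : s * r = 1)
    (hs4 : 2 * s ≤ 1 / 2) (hsδ : 2 * s / δ₀ ≤ 1 / 2) (hs2n : (2 * s) ^ 2 * n = 4)
    (ha4 : 4 ≤ a) (ha2 : 4 / δ₀ ≤ a) (hKa : Real.exp (-K + a) ≤ 1 / 8)
    (hr0 : 0 < r) (hrn : r * r = n) (hK0 : 0 < K) (hrK : 8 * K ≤ r) :
    (1 / 2) * gdet (Matrix.diagonal D)
      ≤ ∫ g, (if |qf (Matrix.diagonal D) (hatv g) - 1| ≤ 4 * K / r then (1 : ℝ) else 0)
          * Real.exp ((nsq g - qf (Matrix.diagonal D) g) / 2) ∂(gam (Fin N)) := by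
  classical
  have hDpos : ∀ i, 0 < D i := fun i => hδ₀.trans_le (hDge i)
  have hunitδ : ∀ u, nsq u = 1 → δ₀ ≤ qf (Matrix.diagonal D) u := fun u hu => qf_diag_ge hDge hu
  have hg := (gdet_pos hδ₀ hunitδ).le
  have hW := integrable_gdet hδ₀ hunitδ
  have hself : ∀ i, |2 * s * D i / D i| ≤ 1 / 2 := by
    intro i
    have : 2 * s * D i / D i = 2 * s := by
      have := (hDpos i).ne'
      field_simp
    rw [this, abs_of_pos (by positivity)]
    exact hs4
  have hself' : ∀ i, |2 * s * (- D i) / D i| ≤ 1 / 2 := by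
    intro i
    have : 2 * s * (- D i) / D i = -(2 * s) := by
      have := (hDpos i).ne'
      field_simp
    rw [this, abs_neg, abs_of_pos (by positivity)]
    exact hs4
  have hone' : ∀ i, |2 * s * (-1) / D i| ≤ 1 / 2 := by
    intro i
    rw [show 2 * s * (-1) / D i = -(2 * s * 1 / D i) by ring, abs_neg]
    exact abs_one_div_le hDpos hDge hδ₀ hs0 hsδ i
  have hss := sum_sq_self hDpos hn hs2n
  have hso := sum_sq_one hDpos hDge hδ₀ hsaddle hs2n
  have hT1 := tail_const hN0 hDpos hs0 hsr hKa hg (c := D) hself (by linarith)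
  have hT2 := tail_const hN0 hDpos hs0 hsr hKa hg (c := fun i => - D i) hself' (by
    have : ∀ i, (2 * s * (- D i) / D i) ^ 2 = (2 * s * D i / D i) ^ 2 := fun i => by ring
    simp only [this]
    linarith)
  have hT3 := tail_const hN0 hDpos hs0 hsr hKa hg (c := fun _ => 1)
    (abs_one_div_le hDpos hDge hδ₀ hs0 hsδ) (by linarith)
  have hT4 := tail_const hN0 hDpos hs0 hsr hKa hg (c := fun _ => -1) hone' (by
    have : ∀ i, (2 * s * (-1) / D i) ^ 2 = (2 * s * 1 / D i) ^ 2 := fun i => by ring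
    simp only [this]
    linarith)
  have hL1 := sum_div_self hDpos hn
  have hL2 : ∑ i, (- D i) / D i = -n := by
    simp only [neg_div]
    rw [Finset.sum_neg_distrib, hL1]
  have hL4 : ∑ i, (-1 : ℝ) / D i = -n := by
    simp only [neg_div]
    rw [Finset.sum_neg_distrib, hsaddle]
  rw [hL1] at hT1
  rw [hL2] at hT2
  rw [hsaddle] at hT3
  rw [hL4] at hT4
  have hF01 : ∀ u : Fin N → ℝ, (if |qf (Matrix.diagonal D) u - 1| ≤ 4 * K / r then (1 : ℝ) else 0) = 0
      ∨ (if |qf (Matrix.diagonal D) u - 1| ≤ 4 * K / r then (1 : ℝ) else 0) = 1 :=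
    fun u => tail_zero_one _
  have hFm : Measurable fun g : Fin N → ℝ =>
      (if |qf (Matrix.diagonal D) (hatv g) - 1| ≤ 4 * K / r then (1 : ℝ) else 0) := by
    refine Measurable.ite ?_ measurable_const measurable_const
    exact measurableSet_le (((measurable_qf _).comp measurable_hatv).sub measurable_const).abs
      measurable_const
  have h4 := four_tails (μ := gam (Fin N)) hW (fun g => (Real.exp_pos _).le) hFm
    (fun g => by
      rcases hF01 (hatv g) with h | h <;> simp only [h] <;> norm_num)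
    (fun g => by
      rcases hF01 (hatv g) with h | h <;> simp only [h] <;> norm_num)
    (measurable_tail D (n + K * r)) (measurable_tail (fun i => - D i) (-n + K * r))
    (measurable_tail (fun _ => 1) (n + K * r)) (measurable_tail (fun _ => -1) (-n + K * r))
    (fun g => tail_zero_one _) (fun g => tail_zero_one _) (fun g => tail_zero_one _)
    (fun g => tail_zero_one _)
    (fun g h1 h2 h3 h4 => by
      have n1 : ¬ n + K * r ≤ ∑ i, D i * g i ^ 2 := not_of_ite_zero h1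
      have n2 : ¬ -n + K * r ≤ ∑ i, - D i * g i ^ 2 := not_of_ite_zero h2
      have n3 : ¬ n + K * r ≤ ∑ i : Fin N, 1 * g i ^ 2 := not_of_ite_zero h3
      have n4 : ¬ -n + K * r ≤ ∑ i : Fin N, -1 * g i ^ 2 := not_of_ite_zero h4
      have e2 : ∑ i, - D i * g i ^ 2 = - ∑ i, D i * g i ^ 2 := by
        rw [← Finset.sum_neg_distrib]
        exact Finset.sum_congr rfl fun i _ => by ring
      have e3 : ∑ i : Fin N, 1 * g i ^ 2 = nsq g := by
        unfold nsq
        exact Finset.sum_congr rfl fun i _ => by ring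
      have e4 : ∑ i : Fin N, -1 * g i ^ 2 = - nsq g := by
        unfold nsq
        rw [← Finset.sum_neg_distrib]
        exact Finset.sum_congr rfl fun i _ => by ring
      rw [e2] at n2
      rw [e3] at n3
      rw [e4] at n4
      have := cover_event (D := D) hr0 hrn hK0 hrK (g := g) (Ξ := ∑ i, D i * g i ^ 2) (S := nsq g)
        (qf_diagonal D g) rfl n1 n2 n3 n4
      exact if_pos this)
  refine le_trans ?_ h4
  have e : ∫ g, Real.exp ((nsq g - qf (Matrix.diagonal D) g) / 2) ∂(gam (Fin N))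
      = gdet (Matrix.diagonal D) := rfl
  rw [e]
  linarith

end tails

/-- The pointwise bound for the exponential on the event near one. -/
private lemma exp_lower_pt {lam : Fin N → ℝ} {β y K r n : ℝ} {u : Fin N → ℝ} (hu : nsq u = 1)
    (hn : (N : ℝ) = n) (hn0 : 0 < n) (hr0 : 0 < r) (hrn : r * r = n)
    (hκ : 4 * K / r ≤ 1 / 2) (hv : |qf (Dg lam β y) u - 1| ≤ 4 * K / r) :
    Real.exp (-(16 * K ^ 2)) * Real.exp ((n / 2) * (y - 1)) * rt (Dg lam β y) N u
      ≤ Real.exp ((β * n / 2) * qf (Matrix.diagonal lam) u) := by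
  obtain ⟨v, hvv⟩ : ∃ v, v = qf (Dg lam β y) u := ⟨_, rfl⟩
  rw [← hvv] at hv
  have h1 : β * qf (Matrix.diagonal lam) u = y - v := by
    rw [hvv, qf_Dg_unit lam β y hu]
    ring
  have hw : |v - 1| ≤ 1 / 2 := hv.trans hκ
  have hv0 : 0 < v := by
    have := (abs_le.1 hw).1
    linarith
  have hlog := log_one_add_ge hw
  rw [show 1 + (v - 1) = v by ring] at hlog
  have hrt : rt (Dg lam β y) N u = Real.exp (-(n / 2) * Real.log v) := by
    unfold rt
    rw [← hvv, Real.sqrt_eq_rpow, ← Real.rpow_natCast, ← Real.rpow_mul (by positivity),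
      Real.rpow_def_of_pos (by positivity), Real.log_div one_ne_zero hv0.ne', Real.log_one, hn]
    congr 1
    ring
  rw [hrt, ← Real.exp_add, ← Real.exp_add]
  apply Real.exp_le_exp.2
  have e : (β * n / 2) * qf (Matrix.diagonal lam) u = (n / 2) * (y - v) := by
    rw [← h1]
    ring
  rw [e]
  have hsq : (v - 1) ^ 2 ≤ (4 * K / r) ^ 2 := sq_le_sq' (by linarith [(abs_le.1 hv).1]) (abs_le.1 hv).2
  have hkey : n * (4 * K / r) ^ 2 = 16 * K ^ 2 := by
    rw [← hrn]
    field_simp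
    ring
  have h2 : n * (v - 1) ^ 2 ≤ 16 * K ^ 2 := by
    rw [← hkey]
    exact mul_le_mul_of_nonneg_left hsq hn0.le
  have h3 : (n / 2) * (v - 1 - 2 * (v - 1) ^ 2) ≤ (n / 2) * Real.log v :=
    mul_le_mul_of_nonneg_left hlog (by positivity)
  nlinarith

/-- The lower bound for the first moment at the saddle point. -/
theorem moment_lower {δ₀ : ℝ} (hδ₀ : 0 < δ₀) :
    ∃ c₀ > 0, ∃ N₀ : ℕ, ∀ N ≥ N₀, ∀ (lam : Fin N → ℝ) (β y : ℝ),
      (∀ i, δ₀ ≤ y - β * lam i) → (∑ i, 1 / (y - β * lam i) = N) → ∀ x : Fin N → ℝ, nsq x = N →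
      c₀ * Real.exp (N * psiN lam β y)
        ≤ ∫ U : OG N, Real.exp ((β / 2) * (x ⬝ᵥ (couplings lam U *ᵥ x))) ∂(haarO N) := by
  classical
  obtain ⟨a, ha⟩ : ∃ a, a = 4 + 4 / δ₀ + 0 := ⟨_, rfl⟩
  obtain ⟨K, hK⟩ : ∃ K, K = a + Real.log 8 := ⟨_, rfl⟩
  have hlog8 : 0 < Real.log 8 := Real.log_pos (by norm_num)
  have hd4 : 0 < 4 / δ₀ := by positivity
  have ha4 : 4 ≤ a := by
    rw [ha]
    linarith
  have ha2 : 4 / δ₀ ≤ a := by
    rw [ha]
    linarith
  have hK0 : 0 < K := by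
    rw [hK]
    linarith
  have hKa : Real.exp (-K + a) ≤ 1 / 8 := by
    have : -K + a = -Real.log 8 := by
      rw [hK]
      ring
    rw [this, Real.exp_neg, Real.exp_log (by norm_num)]
    norm_num
  obtain ⟨N₀, hN₀⟩ := exists_nat_ge (max (64 * K ^ 2) (max (16 / δ₀ ^ 2) 16))
  refine ⟨(1 / 2) * Real.exp (-(16 * K ^ 2)), by positivity, N₀ + 1, ?_⟩
  intro N hN lam β y hD hsaddle x hx
  have hNpos : 0 < N := by omega
  have hN0 : N ≠ 0 := hNpos.ne'
  obtain ⟨n, hn⟩ : ∃ n : ℝ, (N : ℝ) = n := ⟨_, rfl⟩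
  have hnN : max (64 * K ^ 2) (max (16 / δ₀ ^ 2) 16) ≤ n := by
    rw [← hn]
    refine hN₀.trans ?_
    have : (N₀ : ℝ) + 1 ≤ N := by exact_mod_cast hN
    linarith
  have hn64 : 64 * K ^ 2 ≤ n := (le_max_left _ _).trans hnN
  have hnδ : 16 / δ₀ ^ 2 ≤ n := ((le_max_left _ _).trans (le_max_right _ _)).trans hnN
  have hn16 : 16 ≤ n := ((le_max_right _ _).trans (le_max_right _ _)).trans hnN
  have hn0 : 0 < n := by linarith
  obtain ⟨r, hr⟩ : ∃ r, r = Real.sqrt n := ⟨_, rfl⟩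
  have hrn : r * r = n := by
    rw [hr]
    exact Real.mul_self_sqrt hn0.le
  have hr0 : 0 < r := by
    rw [hr]
    exact Real.sqrt_pos.2 hn0
  have hr4 : 4 ≤ r := by
    rw [hr]
    apply Real.le_sqrt_of_sq_le
    linarith
  have hrK : 8 * K ≤ r := by
    rw [hr]
    apply Real.le_sqrt_of_sq_le
    nlinarith
  have hrδ : 4 / δ₀ ≤ r := by
    rw [hr]
    apply Real.le_sqrt_of_sq_le
    rw [div_pow]
    have : (4 : ℝ) ^ 2 = 16 := by norm_num
    rw [this]
    exact hnδ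
  obtain ⟨D, hDdef⟩ : ∃ D : Fin N → ℝ, D = fun i => y - β * lam i := ⟨_, rfl⟩
  have hDge : ∀ i, δ₀ ≤ D i := by
    intro i
    rw [hDdef]
    exact hD i
  have hDg : Dg lam β y = Matrix.diagonal D := by
    rw [hDdef]
    rfl
  have hsaddle' : ∑ i, 1 / D i = n := by
    rw [← hn, hDdef]
    exact hsaddle
  obtain ⟨s, hs⟩ : ∃ s, s = 1 / r := ⟨_, rfl⟩
  have hs0 : 0 < s := by
    rw [hs]
    positivity
  have hsr : s * r = 1 := by
    rw [hs]
    field_simp
  have hs4 : 2 * s ≤ 1 / 2 := by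
    rw [hs]
    rw [show 2 * (1 / r) = 2 / r by ring, div_le_iff₀ hr0]
    linarith
  have hsδ : 2 * s / δ₀ ≤ 1 / 2 := by
    rw [div_le_iff₀ hδ₀]
    rw [div_le_iff₀ hδ₀] at hrδ
    have h1 : s * (r * δ₀) = δ₀ := by
      rw [← mul_assoc, hsr, one_mul]
    nlinarith
  have hs2n : (2 * s) ^ 2 * n = 4 := by
    have h1 : (s * r) ^ 2 = 1 := by rw [hsr]; norm_num
    rw [← hrn]
    nlinarith
  have hκ : 4 * K / r ≤ 1 / 2 := by
    rw [div_le_iff₀ hr0]
    linarith
  have hev := event_lower (D := D) hN0 hDge hδ₀ hn hsaddle' hs0 hsr hs4 hsδ hs2n ha4 ha2 hKa hr0 hrn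
    hK0 hrK
  -- pass to the Haar measure
  have hunitδ : ∀ u, nsq u = 1 → δ₀ ≤ qf (Dg lam β y) u := fun u hu => qf_Dg_ge hD hu
  obtain ⟨e, he⟩ : ∃ e, e = (Real.sqrt N)⁻¹ • x := ⟨_, rfl⟩
  have hunit : nsq e = 1 := by
    rw [he]
    exact nsq_scale hN0 hx
  have hunitU : ∀ U : OG N, nsq ((U : Matrix (Fin N) (Fin N) ℝ) *ᵥ e) = 1 := fun U => by
    rw [nsq_mulVec (OG_tr_mul U), hunit]
  obtain ⟨F, hF⟩ : ∃ F : (Fin N → ℝ) → ℝ,
      F = fun u => if |qf (Matrix.diagonal D) u - 1| ≤ 4 * K / r then (1 : ℝ) else 0 := ⟨_, rfl⟩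
  have hFm : Measurable F := by
    rw [hF]
    refine Measurable.ite ?_ measurable_const measurable_const
    exact measurableSet_le (((measurable_qf _).sub measurable_const).abs) measurable_const
  have hFb : ∀ u, |F u| ≤ 1 := by
    intro u
    rw [hF]
    simp only
    split_ifs <;> simp
  have hFnn : ∀ u, 0 ≤ F u := by
    intro u
    rw [hF]
    simp only
    split_ifs <;> norm_num
  have hkey := key_identity (Matrix.diagonal D) hδ₀ (by rw [← hDg]; exact hunitδ) hunit hFm hFb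
  have hevF : (1 / 2) * gdet (Matrix.diagonal D)
      ≤ ∫ g, F (hatv g) * Real.exp ((nsq g - qf (Matrix.diagonal D) g) / 2) ∂(gam (Fin N)) := by
    rw [hF]
    exact hev
  rw [hkey] at hevF
  have hrt : ∀ U : OG N, F ((U : Matrix (Fin N) (Fin N) ℝ) *ᵥ e)
      * Real.sqrt (1 / qf (Matrix.diagonal D) ((U : Matrix (Fin N) (Fin N) ℝ) *ᵥ e)) ^ N
      = F ((U : Matrix (Fin N) (Fin N) ℝ) *ᵥ e) * rt (Dg lam β y) N ((U : Matrix (Fin N) (Fin N) ℝ) *ᵥ e) := by
    intro U
    rw [hDg]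
    rfl
  simp only [hrt] at hevF
  have hpos : ∀ i, 0 < y - β * lam i := fun i => hδ₀.trans_le (hD i)
  have hP := exp_psiN hN0 lam hpos
  rw [hP, hDg, hn]
  have hI : Integrable (fun U : OG N => F ((U : Matrix (Fin N) (Fin N) ℝ) *ᵥ e)
      * rt (Dg lam β y) N ((U : Matrix (Fin N) (Fin N) ℝ) *ᵥ e)) (haarO N) := by
    refine Integrable.of_bound ((hFm.comp (measurable_mulVec_OG measurable_id measurable_const)).mul
      ((measurable_rt _ _).comp (measurable_mulVec_OG measurable_id measurable_const))).aestronglyMeasurable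
      (1 * Real.sqrt (1 / δ₀) ^ N) (Filter.Eventually.of_forall fun U => ?_)
    rw [Real.norm_eq_abs, abs_mul, abs_of_nonneg (rt_nonneg _ _ _)]
    exact mul_le_mul (hFb _) (rt_le hδ₀ hunitδ N (hunitU U)) (rt_nonneg _ _ _) zero_le_one
  have hE : Integrable (fun U : OG N => Real.exp ((β / 2) * (x ⬝ᵥ (couplings lam U *ᵥ x)))) (haarO N) := by
    refine integrable_OG ?_
    simp only [energy_eq]
    exact Real.continuous_exp.comp (continuous_const.mul (continuous_qf_mulVec _ x))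
  have hmain : ∫ U : OG N, (Real.exp (-(16 * K ^ 2)) * Real.exp ((n / 2) * (y - 1)))
        * (F ((U : Matrix (Fin N) (Fin N) ℝ) *ᵥ e) * rt (Dg lam β y) N ((U : Matrix (Fin N) (Fin N) ℝ) *ᵥ e))
        ∂(haarO N)
      ≤ ∫ U : OG N, Real.exp ((β / 2) * (x ⬝ᵥ (couplings lam U *ᵥ x))) ∂(haarO N) := by
    refine integral_mono (hI.const_mul _) hE fun U => ?_
    simp only
    have hprod : (β / 2) * (x ⬝ᵥ (couplings lam U *ᵥ x))
        = (β * n / 2) * qf (Matrix.diagonal lam) ((U : Matrix (Fin N) (Fin N) ℝ) *ᵥ e) := by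
      rw [energy_eq, qf_scale hN0, ← he, hn]
      ring
    rw [hprod]
    by_cases hc : |qf (Matrix.diagonal D) ((U : Matrix (Fin N) (Fin N) ℝ) *ᵥ e) - 1| ≤ 4 * K / r
    · have hF1 : F ((U : Matrix (Fin N) (Fin N) ℝ) *ᵥ e) = 1 := by
        rw [hF]
        simp [hc]
      rw [hF1, one_mul]
      exact exp_lower_pt (hunitU U) hn hn0 hr0 hrn hκ (by rw [hDg]; exact hc)
    · have hF0 : F ((U : Matrix (Fin N) (Fin N) ℝ) *ᵥ e) = 0 := by
        rw [hF]
        simp [hc]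
      rw [hF0, zero_mul, mul_zero]
      exact (Real.exp_pos _).le
  rw [integral_const_mul] at hmain
  refine le_trans ?_ hmain
  have hc := mul_le_mul_of_nonneg_left hevF
    (by positivity : 0 ≤ Real.exp (-(16 * K ^ 2)) * Real.exp ((n / 2) * (y - 1)))
  refine le_trans (le_of_eq ?_) hc
  ring

end Vale.Agent.Lib.P166
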