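import Vale.Agent.Lib.P166.Saddle

/-!
The bound for pairs with small overlap.
-/

open scoped BigOperators NNReal ENNReal Topology BoundedContinuousFunction
open MeasureTheory ProbabilityTheory Matrix Filter

namespace Vale.Agent.Lib.P166

variable {N : ℕ}

lemma N_psiN (hN : N ≠ 0) (lam : Fin N → ℝ) (t y : ℝ) :
    N * psiN lam t y = (N / 2) * (y - 1) - (1 / 2) * ∑ i, Real.log (y - t * lam i) := by
  have hN' : (N : ℝ) ≠ 0 := Nat.cast_ne_zero.2 hN
  unfold psiN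
  field_simp

lemma log_term {D x ε₁ : ℝ} (hD : 0 < D) (hε₁ : 0 < ε₁) (hx : x ^ 2 ≤ ε₁ / (1 + ε₁)) :
    2 * Real.log D - (1 + ε₁) * x ^ 2 ≤ Real.log (D * (1 - x)) + Real.log (D * (1 + x)) := by
  have h1e : 0 < 1 + ε₁ := by linarith
  have hlt1 : ε₁ / (1 + ε₁) < 1 := by
    rw [div_lt_one h1e]
    linarith
  have hx2 : x ^ 2 < 1 := hx.trans_lt hlt1
  have hx3 : |x| < 1 := by
    rw [← sq_lt_one_iff_abs_lt_one]
    exact hx2
  obtain ⟨h1, h2⟩ := abs_lt.1 hx3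
  have hp1 : 0 < 1 - x := by linarith
  have hp2 : 0 < 1 + x := by linarith
  have hu : 0 < 1 - x ^ 2 := by linarith
  rw [Real.log_mul hD.ne' hp1.ne', Real.log_mul hD.ne' hp2.ne']
  have e : Real.log (1 - x) + Real.log (1 + x) = Real.log (1 - x ^ 2) := by
    rw [← Real.log_mul hp1.ne' hp2.ne']
    congr 1
    ring
  have hlog : 1 - (1 - x ^ 2)⁻¹ ≤ Real.log (1 - x ^ 2) := Real.one_sub_inv_le_log_of_pos hu
  have h3 : (1 - x ^ 2)⁻¹ ≤ 1 + ε₁ := by
    rw [inv_le_iff_one_le_mul₀ hu]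
    rw [le_div_iff₀ h1e] at hx
    nlinarith
  have h4 : -( (1 + ε₁) * x ^ 2) ≤ Real.log (1 - x ^ 2) := by
    refine le_trans ?_ hlog
    have h5 : (1 - x ^ 2)⁻¹ * x ^ 2 ≤ (1 + ε₁) * x ^ 2 :=
      mul_le_mul_of_nonneg_right h3 (sq_nonneg x)
    have h6 : (1 - x ^ 2)⁻¹ * (1 - x ^ 2) = 1 := inv_mul_cancel₀ hu.ne'
    nlinarith
  linarith

/-- The exact computation for the choice `y ± κ β R`. -/
lemma near_pair_exp (hN : N ≠ 0) (lam : Fin N → ℝ) {β y κ R ε₁ : ℝ} (hε₁ : 0 < ε₁)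
    (hD : ∀ i, 0 < y - β * lam i)
    (hx : ∀ i, (β * R * (lam i - κ) / (y - β * lam i)) ^ 2 ≤ ε₁ / (1 + ε₁)) :
    N * psiN lam (β * (1 + R)) (y + κ * β * R) + N * psiN lam (β * (1 - R)) (y - κ * β * R)
      ≤ 2 * (N * psiN lam β y)
        + (1 / 2) * (1 + ε₁) * R ^ 2 * ∑ i, β ^ 2 * (lam i - κ) ^ 2 / (y - β * lam i) ^ 2 := by
  rw [N_psiN hN, N_psiN hN, N_psiN hN]
  have hterm : ∀ i, 2 * Real.log (y - β * lam i)
      - (1 + ε₁) * (R ^ 2 * (β ^ 2 * (lam i - κ) ^ 2 / (y - β * lam i) ^ 2))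
      ≤ Real.log (y + κ * β * R - β * (1 + R) * lam i)
        + Real.log (y - κ * β * R - β * (1 - R) * lam i) := by
    intro i
    obtain ⟨D, hDD⟩ : ∃ D, D = y - β * lam i := ⟨_, rfl⟩
    have hD0 : 0 < D := by
      rw [hDD]
      exact hD i
    have hxi := hx i
    rw [← hDD] at hxi
    obtain ⟨x, hxx⟩ : ∃ x, x = β * R * (lam i - κ) / D := ⟨_, rfl⟩
    rw [← hxx] at hxi
    have e1 : y + κ * β * R - β * (1 + R) * lam i = D * (1 - x) := by
      rw [hxx, hDD]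
      have := hD0.ne'
      rw [← hDD]
      field_simp
      rw [hDD]
      ring
    have e2 : y - κ * β * R - β * (1 - R) * lam i = D * (1 + x) := by
      rw [hxx, hDD]
      have := hD0.ne'
      rw [← hDD]
      field_simp
      rw [hDD]
      ring
    have e3 : R ^ 2 * (β ^ 2 * (lam i - κ) ^ 2 / D ^ 2) = x ^ 2 := by
      rw [hxx]
      field_simp
    rw [← hDD, e1, e2, e3]
    exact log_term hD0 hε₁ hxi
  have hsum := Finset.sum_le_sum fun i (_ : i ∈ Finset.univ) => hterm i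
  rw [Finset.sum_sub_distrib, Finset.sum_add_distrib, ← Finset.mul_sum, ← Finset.mul_sum,
    ← Finset.mul_sum] at hsum
  nlinarith

/-- The bound for a pair of vectors with small overlap. -/
theorem near_pair (hN : N ≠ 0) (lam : Fin N → ℝ) {β y κ R ε₁ m M : ℝ} (hε₁ : 0 < ε₁)
    (hm : 0 < m) (hR0 : 0 ≤ R) (hR1 : R ≤ 1)
    (hD : ∀ i, m ≤ y - β * lam i) (hD' : ∀ i, y - β * lam i ≤ M)
    (hx : ∀ i, (β * R * (lam i - κ) / (y - β * lam i)) ^ 2 ≤ ε₁ / (1 + ε₁))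
    (hx' : ∀ i, (β * R * (lam i - κ) / (y - β * lam i)) ^ 2 ≤ 1 / 4)
    {x z : Fin N → ℝ} (hxx : nsq x = N) (hzz : nsq z = N) (hxz : x ⬝ᵥ z = N * R) :
    ∫ U, Real.exp ((β / 2) * (x ⬝ᵥ (couplings lam U *ᵥ x) + z ⬝ᵥ (couplings lam U *ᵥ z)))
        ∂(haarO N)
      ≤ Real.sqrt (1 / (m / 2)) * Real.sqrt (2 * M)
        * Real.exp (2 * (N * psiN lam β y)
          + (1 / 2) * (1 + ε₁) * R ^ 2 * ∑ i, β ^ 2 * (lam i - κ) ^ 2 / (y - β * lam i) ^ 2) := by
  obtain ⟨n, rfl⟩ := Nat.exists_eq_succ_of_ne_zero hN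
  have hDpos : ∀ i, 0 < y - β * lam i := fun i => hm.trans_le (hD i)
  have hfac : ∀ i, ∃ u, |u| ≤ 1 / 2 ∧ y + κ * β * R - β * (1 + R) * lam i = (y - β * lam i) * (1 - u)
      ∧ y - κ * β * R - β * (1 - R) * lam i = (y - β * lam i) * (1 + u) := by
    intro i
    refine ⟨β * R * (lam i - κ) / (y - β * lam i), ?_, ?_, ?_⟩
    · have := hx' i
      refine abs_le_of_sq_le_sq ?_ (by norm_num)
      norm_num
      norm_num at this
      exact this
    · have := (hDpos i).ne'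
      field_simp
      ring
    · have := (hDpos i).ne'
      field_simp
      ring
  have hM0 : 0 < M := by
    have := hD 0
    have := hD' 0
    linarith
  have h1 : ∀ i, 0 < y + κ * β * R - β * (1 + R) * lam i := by
    intro i
    obtain ⟨u, hu, e, -⟩ := hfac i
    rw [e]
    have := (abs_le.1 hu).2
    exact mul_pos (hDpos i) (by linarith)
  have h2 : ∀ i, m / 2 ≤ y - κ * β * R - β * (1 - R) * lam i := by
    intro i
    obtain ⟨u, hu, -, e⟩ := hfac i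
    rw [e]
    have h3 := (abs_le.1 hu).1
    have h4 := hD i
    have h5 := hDpos i
    nlinarith
  have h3 : ∀ i, y - κ * β * R - β * (1 - R) * lam i ≤ 2 * M := by
    intro i
    obtain ⟨u, hu, -, e⟩ := hfac i
    rw [e]
    have h3 := (abs_le.1 hu).2
    have h4 := hD' i
    have h5 := hDpos i
    nlinarith
  have hpair := pair_moment lam hR0 hR1 h1 (by positivity) h2 h3 hxx hzz hxz
  refine hpair.trans ?_
  rw [mul_assoc]
  refine mul_le_mul_of_nonneg_left ?_ (by positivity)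
  rw [← Real.exp_add]
  apply Real.exp_le_exp.2
  exact near_pair_exp (Nat.succ_ne_zero n) lam hε₁ hDpos hx

end Vale.Agent.Lib.P166
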