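import Vale.Agent.Lib.P166.Compress

/-!
The integral over the Haar measure of a product of powers of two quadratic forms evaluated at an
orthonormal pair.
-/

open scoped BigOperators NNReal ENNReal
open MeasureTheory ProbabilityTheory Matrix

namespace Vale.Agent.Lib.P166

variable {m : ℕ}

/-- The power of the inverse form. -/
noncomputable def rt {k : ℕ} (B : Matrix (Fin k) (Fin k) ℝ) (n : ℕ) (u : Fin k → ℝ) : ℝ :=
  Real.sqrt (1 / qf B u) ^ n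

lemma rt_nonneg {k : ℕ} (B : Matrix (Fin k) (Fin k) ℝ) (n : ℕ) (u : Fin k → ℝ) : 0 ≤ rt B n u := by
  unfold rt
  positivity

lemma measurable_rt {k : ℕ} (B : Matrix (Fin k) (Fin k) ℝ) (n : ℕ) : Measurable (rt B n) := by
  unfold rt
  exact ((measurable_const.div (measurable_qf B)).sqrt).pow_const n

lemma rt_le {k : ℕ} {B : Matrix (Fin k) (Fin k) ℝ} {δ : ℝ} (hδ : 0 < δ)
    (hB : ∀ u, nsq u = 1 → δ ≤ qf B u) (n : ℕ) {u : Fin k → ℝ} (hu : nsq u = 1) :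
    rt B n u ≤ Real.sqrt (1 / δ) ^ n := by
  unfold rt
  refine pow_le_pow_left₀ (Real.sqrt_nonneg _) (Real.sqrt_le_sqrt ?_) _
  exact one_div_le_one_div_of_le hδ (hB u hu)

lemma rt_zero {k : ℕ} (B : Matrix (Fin k) (Fin k) ℝ) (n : ℕ) : rt B (n + 1) (0 : Fin k → ℝ) = 0 := by
  unfold rt
  simp [qf]

/-- The unit vector `(1, 0, …, 0)`. -/
def e0 : Fin (m + 1) → ℝ := Fin.cons 1 0

/-- The vector `(0, ĥ)`. -/
noncomputable def wv (h : Fin m → ℝ) : Fin (m + 1) → ℝ := Fin.cons 0 (hatv h)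

lemma nsq_e0 : nsq (e0 : Fin (m + 1) → ℝ) = 1 := by
  unfold e0
  rw [cons_unit]
  simp [nsq]

lemma nsq_wv {h : Fin m → ℝ} (hh : h ≠ 0) : nsq (wv h) = 1 := by
  unfold wv
  rw [cons_unit, nsq_hatv hh]
  simp

lemma e0_dot_wv (h : Fin m → ℝ) : e0 ⬝ᵥ wv h = 0 := by
  unfold e0 wv dotProduct
  rw [Fin.sum_univ_succ]
  simp

lemma wv_zero : wv (0 : Fin m → ℝ) = 0 := by
  unfold wv hatv
  ext i
  refine Fin.cases ?_ (fun j => ?_) i <;> simp

lemma measurable_wv : Measurable (wv : (Fin m → ℝ) → Fin (m + 1) → ℝ) := by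
  refine measurable_pi_iff.2 fun i => ?_
  refine Fin.cases ?_ (fun j => ?_) i
  · simp [wv]
  · simp only [wv, Fin.cons_succ]
    exact (measurable_pi_apply j).comp measurable_hatv

/-- The bound for the integral over the complement of a fixed unit vector. -/
lemma inner_bound {B : Matrix (Fin (m + 1)) (Fin (m + 1)) ℝ} (hBs : B.IsSymm) {δ Δ : ℝ}
    (hδ : 0 < δ) (hB : ∀ u, nsq u = 1 → δ ≤ qf B u) (hB2 : ∀ u, nsq u = 1 → qf B u ≤ Δ)
    {e : Fin m → ℝ} (he : nsq e = 1) (U : OG (m + 1)) :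
    ∫ h, rt B (m + 1) ((U : Matrix (Fin (m + 1)) (Fin (m + 1)) ℝ) *ᵥ wv h) ∂(gam (Fin m))
      ≤ Real.sqrt (1 / δ) * Real.sqrt Δ * gdet B := by
  obtain ⟨C, hC⟩ : ∃ C, C = (U : Matrix (Fin (m + 1)) (Fin (m + 1)) ℝ).transpose * B
      * (U : Matrix (Fin (m + 1)) (Fin (m + 1)) ℝ) := ⟨_, rfl⟩
  have hCs : C.IsSymm := by
    rw [hC]
    unfold Matrix.IsSymm
    rw [Matrix.transpose_mul, Matrix.transpose_mul, Matrix.transpose_transpose, hBs.eq,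
      Matrix.mul_assoc]
  have hq : ∀ v, qf C v = qf B ((U : Matrix (Fin (m + 1)) (Fin (m + 1)) ℝ) *ᵥ v) := by
    intro v
    rw [hC, qf_conj]
  have hCδ : ∀ u, nsq u = 1 → δ ≤ qf C u := by
    intro u hu
    rw [hq]
    exact hB _ (by rw [nsq_mulVec (OG_tr_mul U), hu])
  have hC0 : C 0 0 ≤ Δ := by
    have h1 := hB2 ((U : Matrix (Fin (m + 1)) (Fin (m + 1)) ℝ) *ᵥ e0)
      (by rw [nsq_mulVec (OG_tr_mul U), nsq_e0])
    rw [← hq, qf_succ hCs] at h1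
    simpa [e0, Fin.tail, cross, qf] using h1
  have hcompδ : ∀ u, nsq u = 1 → δ ≤ qf (comp C) u := by
    intro u hu
    rw [← qf_comp hCs]
    exact hCδ _ (by rw [cons_unit, hu]; simp)
  have hgdetC : gdet C = gdet B := by
    rw [hC]
    exact gdet_rot B (OG_tr_mul U)
  have hpt : ∀ h : Fin m → ℝ,
      rt B (m + 1) ((U : Matrix (Fin (m + 1)) (Fin (m + 1)) ℝ) *ᵥ wv h)
        ≤ Real.sqrt (1 / δ) * rootPow (comp C) δ m (hatv h) := by
    intro h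
    by_cases hh : h = 0
    · subst hh
      rw [wv_zero, Matrix.mulVec_zero, rt_zero]
      have : 0 ≤ rootPow (comp C) δ m (hatv (0 : Fin m → ℝ)) := by
        unfold rootPow
        positivity
      positivity
    · have hu := nsq_hatv hh
      have h1 := hcompδ _ hu
      have h2 : qf B ((U : Matrix (Fin (m + 1)) (Fin (m + 1)) ℝ) *ᵥ wv h) = qf (comp C) (hatv h) := by
        rw [← hq, wv, qf_comp hCs]
      unfold rt
      rw [h2, rootPow_eq h1, pow_succ, mul_comm]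
      refine mul_le_mul_of_nonneg_right (Real.sqrt_le_sqrt ?_) (by positivity)
      exact one_div_le_one_div_of_le hδ h1
  have hrt_int : Integrable (fun h : Fin m → ℝ => rootPow (comp C) δ m (hatv h)) (gam (Fin m)) := by
    refine Integrable.of_bound ((measurable_rootPow _ δ m).comp measurable_hatv).aestronglyMeasurable
      (Real.sqrt (1 / δ) ^ m) (Filter.Eventually.of_forall fun h => ?_)
    rw [Real.norm_eq_abs]
    exact rootPow_abs_le _ hδ m _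
  calc ∫ h, rt B (m + 1) ((U : Matrix (Fin (m + 1)) (Fin (m + 1)) ℝ) *ᵥ wv h) ∂(gam (Fin m))
      ≤ ∫ h, Real.sqrt (1 / δ) * rootPow (comp C) δ m (hatv h) ∂(gam (Fin m)) := by
        refine integral_mono_of_nonneg (Filter.Eventually.of_forall fun h => rt_nonneg _ _ _)
          (hrt_int.const_mul _) (Filter.Eventually.of_forall hpt)
    _ = Real.sqrt (1 / δ) * gdet (comp C) := by
        rw [integral_const_mul, gdet_eq_gauss (comp C) hδ hcompδ he]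
    _ ≤ Real.sqrt (1 / δ) * (Real.sqrt (C 0 0) * gdet C) :=
        mul_le_mul_of_nonneg_left (gdet_comp_le hCs hδ hCδ) (Real.sqrt_nonneg _)
    _ ≤ Real.sqrt (1 / δ) * (Real.sqrt Δ * gdet B) := by
        rw [hgdetC]
        refine mul_le_mul_of_nonneg_left ?_ (Real.sqrt_nonneg _)
        exact mul_le_mul_of_nonneg_right (Real.sqrt_le_sqrt hC0) (gdet_pos hδ hB).le
    _ = _ := by ring

/-- The bound for an orthonormal pair. -/
theorem pair_haar {B₁ B₂ : Matrix (Fin (m + 1)) (Fin (m + 1)) ℝ} (hB₂s : B₂.IsSymm) {δ₁ δ₂ Δ₂ : ℝ}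
    (hδ₁ : 0 < δ₁) (hδ₂ : 0 < δ₂) (hB₁ : ∀ u, nsq u = 1 → δ₁ ≤ qf B₁ u)
    (hB₂ : ∀ u, nsq u = 1 → δ₂ ≤ qf B₂ u) (hB₂' : ∀ u, nsq u = 1 → qf B₂ u ≤ Δ₂)
    {e₁ e₂ : Fin (m + 1) → ℝ} (he₁ : nsq e₁ = 1) (he₂ : nsq e₂ = 1) (he : e₁ ⬝ᵥ e₂ = 0) :
    ∫ U : OG (m + 1), rt B₁ (m + 1) ((U : Matrix (Fin (m + 1)) (Fin (m + 1)) ℝ) *ᵥ e₁)
        * rt B₂ (m + 1) ((U : Matrix (Fin (m + 1)) (Fin (m + 1)) ℝ) *ᵥ e₂) ∂(haarO (m + 1))
      ≤ Real.sqrt (1 / δ₂) * Real.sqrt Δ₂ * gdet B₁ * gdet B₂ := by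
  classical
  -- a unit vector in dimension `m`
  have hm : m ≠ 0 := by
    rintro rfl
    have h1 : nsq e₁ = e₁ 0 ^ 2 := by simp [nsq]
    have h2 : nsq e₂ = e₂ 0 ^ 2 := by simp [nsq]
    have h3 : e₁ ⬝ᵥ e₂ = e₁ 0 * e₂ 0 := by simp [dotProduct]
    rw [h3] at he
    rw [h1] at he₁
    rw [h2] at he₂
    have : e₁ 0 ^ 2 * e₂ 0 ^ 2 = 1 := by rw [he₁, he₂]; ring
    have h4 : (e₁ 0 * e₂ 0) ^ 2 = 1 := by rw [mul_pow]; exact this
    rw [he] at h4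
    norm_num at h4
  obtain ⟨i₀⟩ : Nonempty (Fin m) := ⟨⟨0, Nat.pos_of_ne_zero hm⟩⟩
  obtain ⟨e, he'⟩ : ∃ e : Fin m → ℝ, nsq e = 1 := by
    refine ⟨Pi.single i₀ 1, ?_⟩
    unfold nsq
    rw [Finset.sum_eq_single i₀]
    · simp
    · intro b _ hb
      simp [Pi.single_eq_of_ne hb]
    · simp
  obtain ⟨X, hX⟩ : ∃ X, X = ∫ U : OG (m + 1),
      rt B₁ (m + 1) ((U : Matrix (Fin (m + 1)) (Fin (m + 1)) ℝ) *ᵥ e₁)
        * rt B₂ (m + 1) ((U : Matrix (Fin (m + 1)) (Fin (m + 1)) ℝ) *ᵥ e₂) ∂(haarO (m + 1)) :=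
    ⟨_, rfl⟩
  rw [← hX]
  have hstep1 : ∀ᵐ h ∂(gam (Fin m)), X = ∫ U : OG (m + 1),
      rt B₁ (m + 1) ((U : Matrix (Fin (m + 1)) (Fin (m + 1)) ℝ) *ᵥ e0)
        * rt B₂ (m + 1) ((U : Matrix (Fin (m + 1)) (Fin (m + 1)) ℝ) *ᵥ wv h) ∂(haarO (m + 1)) := by
    have hnull : ∀ᵐ g ∂(gam (Fin m)), g ≠ 0 := by
      rw [ae_iff]
      simpa using gam_zero i₀
    filter_upwards [hnull] with h hh
    obtain ⟨Q, hQ1, hQ2⟩ := exists_orth_map₂ nsq_e0 (nsq_wv hh) (e0_dot_wv h) he₁ he₂ he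
    rw [← integral_mul_right_haar (fun U : OG (m + 1) =>
      rt B₁ (m + 1) ((U : Matrix (Fin (m + 1)) (Fin (m + 1)) ℝ) *ᵥ e0)
        * rt B₂ (m + 1) ((U : Matrix (Fin (m + 1)) (Fin (m + 1)) ℝ) *ᵥ wv h)) Q, hX]
    refine integral_congr_ae (Filter.Eventually.of_forall fun U => ?_)
    change _ = rt B₁ (m + 1) (((U : Matrix (Fin (m + 1)) (Fin (m + 1)) ℝ)
        * (Q : Matrix (Fin (m + 1)) (Fin (m + 1)) ℝ)) *ᵥ e0)
        * rt B₂ (m + 1) (((U : Matrix (Fin (m + 1)) (Fin (m + 1)) ℝ)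
        * (Q : Matrix (Fin (m + 1)) (Fin (m + 1)) ℝ)) *ᵥ wv h)
    rw [← Matrix.mulVec_mulVec, ← Matrix.mulVec_mulVec, hQ1, hQ2]
  have hbound : ∀ p : OG (m + 1) × (Fin m → ℝ),
      |rt B₁ (m + 1) (((p.1 : OG (m + 1)) : Matrix (Fin (m + 1)) (Fin (m + 1)) ℝ) *ᵥ e0)
        * rt B₂ (m + 1) (((p.1 : OG (m + 1)) : Matrix (Fin (m + 1)) (Fin (m + 1)) ℝ) *ᵥ wv p.2)|
      ≤ Real.sqrt (1 / δ₁) ^ (m + 1) * Real.sqrt (1 / δ₂) ^ (m + 1) := by
    rintro ⟨U, h⟩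
    rw [abs_of_nonneg (mul_nonneg (rt_nonneg _ _ _) (rt_nonneg _ _ _))]
    have h1 := rt_le hδ₁ hB₁ (m + 1) (u := (U : Matrix (Fin (m + 1)) (Fin (m + 1)) ℝ) *ᵥ e0)
      (by rw [nsq_mulVec (OG_tr_mul U), nsq_e0])
    refine mul_le_mul h1 ?_ (rt_nonneg _ _ _) (by positivity)
    by_cases hh : h = 0
    · subst hh
      simp only
      rw [wv_zero, Matrix.mulVec_zero, rt_zero]
      positivity
    · exact rt_le hδ₂ hB₂ (m + 1) (by rw [nsq_mulVec (OG_tr_mul U), nsq_wv hh])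
  have hmeas : Measurable fun p : OG (m + 1) × (Fin m → ℝ) =>
      rt B₁ (m + 1) (((p.1 : OG (m + 1)) : Matrix (Fin (m + 1)) (Fin (m + 1)) ℝ) *ᵥ e0)
        * rt B₂ (m + 1) (((p.1 : OG (m + 1)) : Matrix (Fin (m + 1)) (Fin (m + 1)) ℝ) *ᵥ wv p.2) := by
    refine ((measurable_rt B₁ _).comp (measurable_mulVec_OG measurable_fst measurable_const)).mul
      ((measurable_rt B₂ _).comp (measurable_mulVec_OG measurable_fst
        (measurable_wv.comp measurable_snd)))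
  have hI : Integrable (fun p : OG (m + 1) × (Fin m → ℝ) =>
      rt B₁ (m + 1) (((p.1 : OG (m + 1)) : Matrix (Fin (m + 1)) (Fin (m + 1)) ℝ) *ᵥ e0)
        * rt B₂ (m + 1) (((p.1 : OG (m + 1)) : Matrix (Fin (m + 1)) (Fin (m + 1)) ℝ) *ᵥ wv p.2))
      ((haarO (m + 1)).prod (gam (Fin m))) :=
    Integrable.of_bound hmeas.aestronglyMeasurable _ (Filter.Eventually.of_forall fun p => by
      rw [Real.norm_eq_abs]
      exact hbound p)
  have hrt1 : Integrable (fun U : OG (m + 1) =>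
      rt B₁ (m + 1) ((U : Matrix (Fin (m + 1)) (Fin (m + 1)) ℝ) *ᵥ e0)) (haarO (m + 1)) := by
    refine Integrable.of_bound
      ((measurable_rt B₁ _).comp (measurable_mulVec_OG measurable_id measurable_const)).aestronglyMeasurable
      (Real.sqrt (1 / δ₁) ^ (m + 1)) (Filter.Eventually.of_forall fun U => ?_)
    rw [Real.norm_eq_abs, abs_of_nonneg (rt_nonneg _ _ _)]
    exact rt_le hδ₁ hB₁ (m + 1) (by rw [nsq_mulVec (OG_tr_mul U), nsq_e0])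
  have hval1 : ∫ U : OG (m + 1), rt B₁ (m + 1) ((U : Matrix (Fin (m + 1)) (Fin (m + 1)) ℝ) *ᵥ e0)
      ∂(haarO (m + 1)) = gdet B₁ := (gdet_eq_haar B₁ hδ₁ hB₁ nsq_e0).symm
  calc X = ∫ _h : Fin m → ℝ, X ∂(gam (Fin m)) := by simp
    _ = ∫ h, (∫ U : OG (m + 1),
          rt B₁ (m + 1) ((U : Matrix (Fin (m + 1)) (Fin (m + 1)) ℝ) *ᵥ e0)
            * rt B₂ (m + 1) ((U : Matrix (Fin (m + 1)) (Fin (m + 1)) ℝ) *ᵥ wv h) ∂(haarO (m + 1)))
          ∂(gam (Fin m)) := integral_congr_ae hstep1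
    _ = ∫ U : OG (m + 1), (∫ h,
          rt B₁ (m + 1) ((U : Matrix (Fin (m + 1)) (Fin (m + 1)) ℝ) *ᵥ e0)
            * rt B₂ (m + 1) ((U : Matrix (Fin (m + 1)) (Fin (m + 1)) ℝ) *ᵥ wv h) ∂(gam (Fin m)))
          ∂(haarO (m + 1)) :=
        (integral_integral_swap (f := fun (U : OG (m + 1)) (h : Fin m → ℝ) =>
          rt B₁ (m + 1) ((U : Matrix (Fin (m + 1)) (Fin (m + 1)) ℝ) *ᵥ e0)
            * rt B₂ (m + 1) ((U : Matrix (Fin (m + 1)) (Fin (m + 1)) ℝ) *ᵥ wv h)) hI).symm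
    _ ≤ ∫ U : OG (m + 1), rt B₁ (m + 1) ((U : Matrix (Fin (m + 1)) (Fin (m + 1)) ℝ) *ᵥ e0)
          * (Real.sqrt (1 / δ₂) * Real.sqrt Δ₂ * gdet B₂) ∂(haarO (m + 1)) := by
        refine integral_mono_of_nonneg (Filter.Eventually.of_forall fun U =>
          integral_nonneg fun h => mul_nonneg (rt_nonneg _ _ _) (rt_nonneg _ _ _))
          (hrt1.mul_const _) (Filter.Eventually.of_forall fun U => ?_)
        simp only
        rw [integral_const_mul]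
        exact mul_le_mul_of_nonneg_left (inner_bound hB₂s hδ₂ hB₂ hB₂' he' U) (rt_nonneg _ _ _)
    _ = _ := by
        rw [integral_mul_const, hval1]
        ring

end Vale.Agent.Lib.P166
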