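import Vale.Agent.Lib.P166.FirstMoment

/-!
The exponential moment of the quadratic form at a pair of vectors with given overlap.
-/

open scoped BigOperators NNReal ENNReal
open MeasureTheory ProbabilityTheory Matrix

namespace Vale.Agent.Lib.P166

variable {N : ℕ}

lemma qf_parallelogram (B : Matrix (Fin N) (Fin N) ℝ) (u v : Fin N → ℝ) :
    qf B (u + v) + qf B (u - v) = 2 * qf B u + 2 * qf B v := by
  unfold qf
  simp only [Matrix.mulVec_add, Matrix.mulVec_sub, dotProduct_add, dotProduct_sub, add_dotProduct,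
    sub_dotProduct]
  ring

lemma nsq_add (u v : Fin N → ℝ) : nsq (u + v) = nsq u + nsq v + 2 * (u ⬝ᵥ v) := by
  simp only [nsq_eq_dot, dotProduct_add, add_dotProduct, dotProduct_comm v u]
  ring

lemma nsq_sub (u v : Fin N → ℝ) : nsq (u - v) = nsq u + nsq v - 2 * (u ⬝ᵥ v) := by
  simp only [nsq_eq_dot, dotProduct_sub, sub_dotProduct, dotProduct_comm v u]
  ring

/-- Existence of a positive lower bound for finitely many positive numbers. -/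
lemma exists_lower {lam : Fin N → ℝ} (hN : N ≠ 0) {t y : ℝ} (h : ∀ i, 0 < y - t * lam i) :
    ∃ δ > 0, ∀ i, δ ≤ y - t * lam i := by
  have hN' : Nonempty (Fin N) := ⟨⟨0, Nat.pos_of_ne_zero hN⟩⟩
  obtain ⟨i₀, -, hi⟩ := Finset.exists_min_image Finset.univ (fun i => y - t * lam i)
    Finset.univ_nonempty
  exact ⟨_, h i₀, fun i => hi i (Finset.mem_univ i)⟩

/-- The bound for a pair of vectors with overlap in `[0,1)`. -/
theorem pair_moment_lt {m : ℕ} (lam : Fin (m + 1) → ℝ) {β R y₁ y₂ δ Δ : ℝ}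
    (hR0 : 0 ≤ R) (hR1 : R < 1)
    (h₁ : ∀ i, 0 < y₁ - (β * (1 + R)) * lam i)
    (hδ : 0 < δ) (h₂ : ∀ i, δ ≤ y₂ - (β * (1 - R)) * lam i)
    (h₃ : ∀ i, y₂ - (β * (1 - R)) * lam i ≤ Δ)
    {x z : Fin (m + 1) → ℝ} (hx : nsq x = ((m + 1 : ℕ) : ℝ)) (hz : nsq z = ((m + 1 : ℕ) : ℝ))
    (hxz : x ⬝ᵥ z = ((m + 1 : ℕ) : ℝ) * R) :
    ∫ U : OG (m + 1), Real.exp ((β / 2) * (x ⬝ᵥ (couplings lam U *ᵥ x)
        + z ⬝ᵥ (couplings lam U *ᵥ z))) ∂(haarO (m + 1))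
      ≤ Real.sqrt (1 / δ) * Real.sqrt Δ
        * Real.exp (((m + 1 : ℕ) : ℝ) * psiN lam (β * (1 + R)) y₁)
        * Real.exp (((m + 1 : ℕ) : ℝ) * psiN lam (β * (1 - R)) y₂) := by
  classical
  obtain ⟨n, hn⟩ : ∃ n : ℝ, n = ((m + 1 : ℕ) : ℝ) := ⟨_, rfl⟩
  have hn0 : 0 < n := by
    rw [hn]
    positivity
  rw [← hn] at hx hz hxz ⊢
  obtain ⟨a, ha⟩ : ∃ a, a = x + z := ⟨_, rfl⟩
  obtain ⟨b, hb⟩ : ∃ b, b = x - z := ⟨_, rfl⟩
  have hna : nsq a = 2 * n * (1 + R) := by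
    rw [ha, nsq_add, hx, hz, hxz]
    ring
  have hnb : nsq b = 2 * n * (1 - R) := by
    rw [hb, nsq_sub, hx, hz, hxz]
    ring
  have hnap : 0 < nsq a := by
    rw [hna]
    have : 0 < 1 + R := by linarith
    positivity
  have hnbp : 0 < nsq b := by
    rw [hnb]
    have : 0 < 1 - R := by linarith
    positivity
  have ha0 : a ≠ 0 := fun h => by
    rw [h] at hnap
    simp [nsq] at hnap
  have hb0 : b ≠ 0 := fun h => by
    rw [h] at hnbp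
    simp [nsq] at hnbp
  have hab : hatv a ⬝ᵥ hatv b = 0 := by
    unfold hatv
    rw [smul_dotProduct, dotProduct_smul]
    have : a ⬝ᵥ b = 0 := by
      rw [ha, hb, dotProduct_sub, add_dotProduct, add_dotProduct, dotProduct_comm z x]
      have h1 := nsq_eq_dot x
      have h2 := nsq_eq_dot z
      rw [hx] at h1
      rw [hz] at h2
      linarith
    rw [this]
    simp
  have hua := nsq_hatv ha0
  have hub := nsq_hatv hb0
  obtain ⟨δ₁, hδ₁, hδ₁'⟩ := exists_lower (Nat.succ_ne_zero m) h₁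
  have hpos₁ : ∀ u, nsq u = 1 → δ₁ ≤ qf (Dg lam (β * (1 + R)) y₁) u := fun u hu => qf_Dg_ge hδ₁' hu
  have hpos₂ : ∀ u, nsq u = 1 → δ ≤ qf (Dg lam (β * (1 - R)) y₂) u := fun u hu => qf_Dg_ge h₂ hu
  have hup₂ : ∀ u, nsq u = 1 → qf (Dg lam (β * (1 - R)) y₂) u ≤ Δ := fun u hu => qf_Dg_le h₃ hu
  have hpair := pair_haar (Dg_symm lam (β * (1 - R)) y₂) hδ₁ hδ hpos₁ hpos₂ hup₂ hua hub hab
  have hP1 := exp_psiN (Nat.succ_ne_zero m) lam h₁
  have hP2 := exp_psiN (Nat.succ_ne_zero m) lam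
    (fun i => hδ.trans_le (h₂ i) : ∀ i, 0 < y₂ - (β * (1 - R)) * lam i)
  rw [← hn] at hP1 hP2
  rw [hP1, hP2]
  -- the pointwise bound
  have hunit1 : ∀ U : OG (m + 1), nsq ((U : Matrix (Fin (m + 1)) (Fin (m + 1)) ℝ) *ᵥ hatv a) = 1 :=
    fun U => by rw [nsq_mulVec (OG_tr_mul U), hua]
  have hunit2 : ∀ U : OG (m + 1), nsq ((U : Matrix (Fin (m + 1)) (Fin (m + 1)) ℝ) *ᵥ hatv b) = 1 :=
    fun U => by rw [nsq_mulVec (OG_tr_mul U), hub]
  have hpt : ∀ U : OG (m + 1),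
      Real.exp ((β / 2) * (x ⬝ᵥ (couplings lam U *ᵥ x) + z ⬝ᵥ (couplings lam U *ᵥ z)))
        ≤ (Real.exp ((n / 2) * (y₁ - 1)) * Real.exp ((n / 2) * (y₂ - 1)))
          * (rt (Dg lam (β * (1 + R)) y₁) (m + 1) ((U : Matrix (Fin (m + 1)) (Fin (m + 1)) ℝ) *ᵥ hatv a)
            * rt (Dg lam (β * (1 - R)) y₂) (m + 1) ((U : Matrix (Fin (m + 1)) (Fin (m + 1)) ℝ) *ᵥ hatv b)) := by
    intro U
    have e1 := exp_le_rt lam (β * (1 + R)) y₁ (hunit1 U) (hδ₁.trans_le (hpos₁ _ (hunit1 U)))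
    have e2 := exp_le_rt lam (β * (1 - R)) y₂ (hunit2 U) (hδ.trans_le (hpos₂ _ (hunit2 U)))
    rw [← hn] at e1 e2
    have hsum : x ⬝ᵥ (couplings lam U *ᵥ x) + z ⬝ᵥ (couplings lam U *ᵥ z)
        = n * (1 + R) * qf (Matrix.diagonal lam) ((U : Matrix (Fin (m + 1)) (Fin (m + 1)) ℝ) *ᵥ hatv a)
          + n * (1 - R) * qf (Matrix.diagonal lam) ((U : Matrix (Fin (m + 1)) (Fin (m + 1)) ℝ) *ᵥ hatv b) := by
      rw [energy_eq, energy_eq]
      have hp := qf_parallelogram (Matrix.diagonal lam)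
        ((U : Matrix (Fin (m + 1)) (Fin (m + 1)) ℝ) *ᵥ x)
        ((U : Matrix (Fin (m + 1)) (Fin (m + 1)) ℝ) *ᵥ z)
      rw [← Matrix.mulVec_add, ← Matrix.mulVec_sub, ← ha, ← hb] at hp
      have h1 : qf (Matrix.diagonal lam) ((U : Matrix (Fin (m + 1)) (Fin (m + 1)) ℝ) *ᵥ a)
          = nsq a * qf (Matrix.diagonal lam) ((U : Matrix (Fin (m + 1)) (Fin (m + 1)) ℝ) *ᵥ hatv a) := by
        rw [qf_eq_nsq_mul, nsq_mulVec (OG_tr_mul U), hatv_mulVec (OG_tr_mul U)]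
      have h2 : qf (Matrix.diagonal lam) ((U : Matrix (Fin (m + 1)) (Fin (m + 1)) ℝ) *ᵥ b)
          = nsq b * qf (Matrix.diagonal lam) ((U : Matrix (Fin (m + 1)) (Fin (m + 1)) ℝ) *ᵥ hatv b) := by
        rw [qf_eq_nsq_mul, nsq_mulVec (OG_tr_mul U), hatv_mulVec (OG_tr_mul U)]
      rw [h1, h2, hna, hnb] at hp
      linarith
    rw [hsum]
    have e3 : (β / 2) * (n * (1 + R) * qf (Matrix.diagonal lam) ((U : Matrix (Fin (m + 1)) (Fin (m + 1)) ℝ) *ᵥ hatv a)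
          + n * (1 - R) * qf (Matrix.diagonal lam) ((U : Matrix (Fin (m + 1)) (Fin (m + 1)) ℝ) *ᵥ hatv b))
        = (β * (1 + R) * n / 2) * qf (Matrix.diagonal lam) ((U : Matrix (Fin (m + 1)) (Fin (m + 1)) ℝ) *ᵥ hatv a)
          + (β * (1 - R) * n / 2) * qf (Matrix.diagonal lam) ((U : Matrix (Fin (m + 1)) (Fin (m + 1)) ℝ) *ᵥ hatv b) := by
      ring
    rw [e3, Real.exp_add]
    have e1' := e1
    have e2' := e2
    have hm1 : ((m + 1 : ℕ) : ℝ) = n := hn.symm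
    calc _ ≤ (Real.exp ((n / 2) * (y₁ - 1)) * rt (Dg lam (β * (1 + R)) y₁) (m + 1)
              ((U : Matrix (Fin (m + 1)) (Fin (m + 1)) ℝ) *ᵥ hatv a))
            * (Real.exp ((n / 2) * (y₂ - 1)) * rt (Dg lam (β * (1 - R)) y₂) (m + 1)
              ((U : Matrix (Fin (m + 1)) (Fin (m + 1)) ℝ) *ᵥ hatv b)) :=
          mul_le_mul e1' e2' (Real.exp_pos _).le
            (mul_nonneg (Real.exp_pos _).le (rt_nonneg _ _ _))
      _ = _ := by ring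
  have hbd1 : ∀ U : OG (m + 1), rt (Dg lam (β * (1 + R)) y₁) (m + 1)
      ((U : Matrix (Fin (m + 1)) (Fin (m + 1)) ℝ) *ᵥ hatv a) ≤ Real.sqrt (1 / δ₁) ^ (m + 1) :=
    fun U => rt_le hδ₁ hpos₁ _ (hunit1 U)
  have hbd2 : ∀ U : OG (m + 1), rt (Dg lam (β * (1 - R)) y₂) (m + 1)
      ((U : Matrix (Fin (m + 1)) (Fin (m + 1)) ℝ) *ᵥ hatv b) ≤ Real.sqrt (1 / δ) ^ (m + 1) :=
    fun U => rt_le hδ hpos₂ _ (hunit2 U)
  have hmeas : Measurable fun U : OG (m + 1) =>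
      rt (Dg lam (β * (1 + R)) y₁) (m + 1) ((U : Matrix (Fin (m + 1)) (Fin (m + 1)) ℝ) *ᵥ hatv a)
        * rt (Dg lam (β * (1 - R)) y₂) (m + 1) ((U : Matrix (Fin (m + 1)) (Fin (m + 1)) ℝ) *ᵥ hatv b) :=
    ((measurable_rt _ _).comp (measurable_mulVec_OG measurable_id measurable_const)).mul
      ((measurable_rt _ _).comp (measurable_mulVec_OG measurable_id measurable_const))
  have hI : Integrable (fun U : OG (m + 1) =>
      rt (Dg lam (β * (1 + R)) y₁) (m + 1) ((U : Matrix (Fin (m + 1)) (Fin (m + 1)) ℝ) *ᵥ hatv a)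
        * rt (Dg lam (β * (1 - R)) y₂) (m + 1) ((U : Matrix (Fin (m + 1)) (Fin (m + 1)) ℝ) *ᵥ hatv b))
      (haarO (m + 1)) := by
    refine Integrable.of_bound hmeas.aestronglyMeasurable
      (Real.sqrt (1 / δ₁) ^ (m + 1) * Real.sqrt (1 / δ) ^ (m + 1))
      (Filter.Eventually.of_forall fun U => ?_)
    rw [Real.norm_eq_abs, abs_of_nonneg (mul_nonneg (rt_nonneg _ _ _) (rt_nonneg _ _ _))]
    exact mul_le_mul (hbd1 U) (hbd2 U) (rt_nonneg _ _ _) (by positivity)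
  calc _ ≤ ∫ U : OG (m + 1), (Real.exp ((n / 2) * (y₁ - 1)) * Real.exp ((n / 2) * (y₂ - 1)))
          * (rt (Dg lam (β * (1 + R)) y₁) (m + 1) ((U : Matrix (Fin (m + 1)) (Fin (m + 1)) ℝ) *ᵥ hatv a)
            * rt (Dg lam (β * (1 - R)) y₂) (m + 1) ((U : Matrix (Fin (m + 1)) (Fin (m + 1)) ℝ) *ᵥ hatv b))
          ∂(haarO (m + 1)) :=
        integral_mono_of_nonneg (Filter.Eventually.of_forall fun U => (Real.exp_pos _).le)
          (hI.const_mul _) (Filter.Eventually.of_forall hpt)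
    _ = (Real.exp ((n / 2) * (y₁ - 1)) * Real.exp ((n / 2) * (y₂ - 1)))
          * ∫ U : OG (m + 1), (rt (Dg lam (β * (1 + R)) y₁) (m + 1) ((U : Matrix (Fin (m + 1)) (Fin (m + 1)) ℝ) *ᵥ hatv a)
            * rt (Dg lam (β * (1 - R)) y₂) (m + 1) ((U : Matrix (Fin (m + 1)) (Fin (m + 1)) ℝ) *ᵥ hatv b))
          ∂(haarO (m + 1)) := integral_const_mul _ _
    _ ≤ (Real.exp ((n / 2) * (y₁ - 1)) * Real.exp ((n / 2) * (y₂ - 1)))
          * (Real.sqrt (1 / δ) * Real.sqrt Δ * gdet (Dg lam (β * (1 + R)) y₁)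
            * gdet (Dg lam (β * (1 - R)) y₂)) :=
        mul_le_mul_of_nonneg_left hpair (by positivity)
    _ = _ := by ring

/-- The bound for a pair of vectors with overlap in `[0,1]`. -/
theorem pair_moment {m : ℕ} (lam : Fin (m + 1) → ℝ) {β R y₁ y₂ δ Δ : ℝ}
    (hR0 : 0 ≤ R) (hR1 : R ≤ 1)
    (h₁ : ∀ i, 0 < y₁ - (β * (1 + R)) * lam i)
    (hδ : 0 < δ) (h₂ : ∀ i, δ ≤ y₂ - (β * (1 - R)) * lam i)
    (h₃ : ∀ i, y₂ - (β * (1 - R)) * lam i ≤ Δ)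
    {x z : Fin (m + 1) → ℝ} (hx : nsq x = ((m + 1 : ℕ) : ℝ)) (hz : nsq z = ((m + 1 : ℕ) : ℝ))
    (hxz : x ⬝ᵥ z = ((m + 1 : ℕ) : ℝ) * R) :
    ∫ U : OG (m + 1), Real.exp ((β / 2) * (x ⬝ᵥ (couplings lam U *ᵥ x)
        + z ⬝ᵥ (couplings lam U *ᵥ z))) ∂(haarO (m + 1))
      ≤ Real.sqrt (1 / δ) * Real.sqrt Δ
        * Real.exp (((m + 1 : ℕ) : ℝ) * psiN lam (β * (1 + R)) y₁)
        * Real.exp (((m + 1 : ℕ) : ℝ) * psiN lam (β * (1 - R)) y₂) := by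
  rcases hR1.lt_or_eq with hlt | rfl
  · exact pair_moment_lt lam hR0 hlt h₁ hδ h₂ h₃ hx hz hxz
  · -- the two vectors coincide
    have hzx : z = x := by
      have : nsq (x - z) = 0 := by
        rw [nsq_sub, hx, hz, hxz]
        ring
      have h0 := nsq_eq_zero.1 this
      exact (sub_eq_zero.1 h0).symm
    subst hzx
    have hm := moment_upper (Nat.succ_ne_zero m) lam (t := β * (1 + 1)) h₁ hx
    have e : ∀ U : OG (m + 1), (β / 2) * (z ⬝ᵥ (couplings lam U *ᵥ z) + z ⬝ᵥ (couplings lam U *ᵥ z))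
        = (β * (1 + 1) / 2) * (z ⬝ᵥ (couplings lam U *ᵥ z)) := fun U => by ring
    simp only [e]
    refine hm.trans ?_
    -- the remaining factors are at least one
    have hi : Nonempty (Fin (m + 1)) := ⟨0⟩
    have h2y : ∀ i : Fin (m + 1), y₂ - β * (1 - 1) * lam i = y₂ := fun i => by ring
    simp only [h2y] at h₂ h₃
    have hy₂1 : δ ≤ y₂ := h₂ 0
    have hy₂2 : y₂ ≤ Δ := h₃ 0
    have hy₂ : 0 < y₂ := hδ.trans_le hy₂1
    have hk : 1 ≤ Real.sqrt (1 / δ) * Real.sqrt Δ := by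
      rw [← Real.sqrt_mul (by positivity)]
      apply Real.one_le_sqrt.2
      rw [one_div, inv_mul_eq_div, one_le_div hδ]
      exact hy₂1.trans hy₂2
    have hexp : 1 ≤ Real.exp (((m + 1 : ℕ) : ℝ) * psiN lam (β * (1 - 1)) y₂) := by
      apply Real.one_le_exp
      apply mul_nonneg (Nat.cast_nonneg _)
      unfold psiN
      have e2 : ∀ i : Fin (m + 1), Real.log (y₂ - β * (1 - 1) * lam i) = Real.log y₂ := fun i => by
        rw [h2y]
      simp only [e2, Finset.sum_const, Finset.card_univ, Fintype.card_fin, nsmul_eq_mul]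
      have hn : ((m + 1 : ℕ) : ℝ) ≠ 0 := Nat.cast_ne_zero.2 (Nat.succ_ne_zero m)
      have e3 : 1 / ((m + 1 : ℕ) : ℝ) * (((m + 1 : ℕ) : ℝ) * Real.log y₂) = Real.log y₂ := by
        field_simp
      rw [e3]
      have := Real.log_le_sub_one_of_pos hy₂
      linarith
    have hE := Real.exp_pos (((m + 1 : ℕ) : ℝ) * psiN lam (β * (1 + 1)) y₁)
    calc Real.exp (((m + 1 : ℕ) : ℝ) * psiN lam (β * (1 + 1)) y₁)
        = 1 * Real.exp (((m + 1 : ℕ) : ℝ) * psiN lam (β * (1 + 1)) y₁) * 1 := by ring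
      _ ≤ _ := mul_le_mul (mul_le_mul_of_nonneg_right hk hE.le) hexp zero_le_one (by positivity)

end Vale.Agent.Lib.P166
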