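import Vale.Agent.Lib.P166.Gradient

/-!
The increment of the pressure under left multiplication, bounded in the mean through the gradient.
-/

open scoped BigOperators
open MeasureTheory Matrix

namespace Vale.Agent.Lib.P166

variable {N : ℕ}

lemma sq_interval_le {g : ℝ → ℝ} (hg : Continuous g) :
    (∫ θ in (0:ℝ)..1, g θ) ^ 2 ≤ ∫ θ in (0:ℝ)..1, g θ ^ 2 := by
  obtain ⟨m, hm⟩ : ∃ m, m = ∫ θ in (0:ℝ)..1, g θ := ⟨_, rfl⟩
  have h1 : 0 ≤ ∫ θ in (0:ℝ)..1, (g θ - m) ^ 2 :=
    intervalIntegral.integral_nonneg zero_le_one fun _ _ => sq_nonneg _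
  have h2 : ∫ θ in (0:ℝ)..1, (g θ - m) ^ 2 = (∫ θ in (0:ℝ)..1, g θ ^ 2) - 2 * m * m + m ^ 2 := by
    have e : ∀ θ, (g θ - m) ^ 2 = g θ ^ 2 - 2 * m * g θ + m ^ 2 := fun θ => by ring
    simp only [e]
    rw [intervalIntegral.integral_add, intervalIntegral.integral_sub, intervalIntegral.integral_const_mul,
      ← hm]
    · simp
    · exact (hg.pow 2).intervalIntegrable _ _
    · exact (continuous_const.mul hg).intervalIntegrable _ _
    · exact ((hg.pow 2).sub (continuous_const.mul hg)).intervalIntegrable _ _
    · exact continuous_const.intervalIntegrable _ _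
  rw [← hm]
  nlinarith

lemma IsPath.continuous {W : OG N} {V : ℝ → OG N} {A : Matrix (Fin N) (Fin N) ℝ} (h : IsPath W V A) :
    Continuous V := by
  refine continuous_induced_rng.2 ?_
  refine continuous_matrix fun i j => ?_
  exact continuous_iff_continuousAt.2 fun θ => (h.deriv θ i j).continuousAt

/-- The linear form in the gradient. -/
noncomputable def gradForm (β : ℝ) (lam : Fin N → ℝ) (A : Matrix (Fin N) (Fin N) ℝ) (U : OG N) : ℝ :=
  ∑ i, ∑ j, A i j * mm β lam U i j

lemma continuous_gradForm (β : ℝ) (lam : Fin N → ℝ) (A : Matrix (Fin N) (Fin N) ℝ) :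
    Continuous (gradForm β lam A) :=
  continuous_finsetSum _ fun i _ => continuous_finsetSum _ fun j _ =>
    continuous_const.mul (continuous_mm β lam i j)

lemma continuous_pressure (β : ℝ) (lam : Fin N → ℝ) : Continuous (pressure β lam (N := N)) := by
  unfold pressure
  exact continuous_const.mul ((continuous_partitionFn β lam).log fun U => (partitionFn_pos β lam U).ne')

/-- The path bound. -/
theorem path_bound {W : OG N} {V : ℝ → OG N} {A : Matrix (Fin N) (Fin N) ℝ} (h : IsPath W V A)
    (β : ℝ) (lam : Fin N → ℝ) :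
    ∫ U, (pressure β lam (W * U) - pressure β lam U) ^ 2 ∂(haarO N)
      ≤ ∫ U, gradForm β lam A U ^ 2 ∂(haarO N) := by
  have hG := continuous_gradForm β lam A
  have hV := h.continuous
  have hg : ∀ U : OG N, Continuous fun θ => gradForm β lam A (V θ * U) := fun U =>
    hG.comp (hV.mul continuous_const)
  have hftc : ∀ U : OG N, pressure β lam (W * U) - pressure β lam U
      = ∫ θ in (0:ℝ)..1, gradForm β lam A (V θ * U) := by
    intro U
    have := intervalIntegral.integral_eq_sub_of_hasDerivAt (a := 0) (b := 1)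
      (f := fun t => pressure β lam (V t * U)) (f' := fun θ => gradForm β lam A (V θ * U))
      (fun θ _ => pressure_deriv h β lam U θ) ((hg U).intervalIntegrable _ _)
    simp only [h.one, h.zero, one_mul] at this
    exact this.symm
  have hpt : ∀ U : OG N, (pressure β lam (W * U) - pressure β lam U) ^ 2
      ≤ ∫ θ in (0:ℝ)..1, gradForm β lam A (V θ * U) ^ 2 := fun U => by
    rw [hftc]
    exact sq_interval_le (hg U)
  have hjoint : Continuous fun p : OG N × ℝ => gradForm β lam A (V p.2 * p.1) ^ 2 :=
    (hG.comp ((hV.comp continuous_snd).mul continuous_fst)).pow 2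
  have hcont2 : Continuous fun U : OG N => ∫ θ in (0:ℝ)..1, gradForm β lam A (V θ * U) ^ 2 :=
    intervalIntegral.continuous_parametric_intervalIntegral_of_continuous' (μ := volume)
      (f := fun U θ => gradForm β lam A (V θ * U) ^ 2) hjoint 0 1
  have hle := integral_mono (integrable_OG (((continuous_pressure β lam).comp
      (continuous_const.mul continuous_id)).sub (continuous_pressure β lam) |>.pow 2))
    (integrable_OG hcont2) hpt
  refine hle.trans (le_of_eq ?_)
  simp only [intervalIntegral.integral_of_le (zero_le_one' ℝ)]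
  have hbound : ∃ M, ∀ U : OG N, ‖gradForm β lam A U ^ 2‖ ≤ M :=
    isCompact_univ.exists_bound_of_continuousOn (hG.pow 2).continuousOn |>.imp fun M hM U =>
      hM U (Set.mem_univ U)
  obtain ⟨M, hM⟩ := hbound
  have hint : Integrable (Function.uncurry fun (U : OG N) (θ : ℝ) => gradForm β lam A (V θ * U) ^ 2)
      ((haarO N).prod (volume.restrict (Set.Ioc (0:ℝ) 1))) := by
    refine Integrable.of_bound hjoint.aestronglyMeasurable M ?_
    exact Filter.Eventually.of_forall fun p => hM _
  rw [integral_integral_swap hint]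
  have h3 : ∀ θ : ℝ, ∫ U, gradForm β lam A (V θ * U) ^ 2 ∂(haarO N) = ∫ U, gradForm β lam A U ^ 2 ∂(haarO N) :=
    fun θ => integral_mul_left_haar (fun U => gradForm β lam A U ^ 2) (V θ)
  simp only [h3]
  simp

end Vale.Agent.Lib.P166
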