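import Vale.Agent.Lib.P166.Universal

/-!
The random orthogonal model: the spectral law `(δ₁ + δ₋₁) / 2`.
-/

open scoped BigOperators Topology ENNReal
open MeasureTheory Filter

namespace Vale.Agent.Lib.P166

/-- The limiting spectral law of the random orthogonal model. -/
noncomputable def romLaw : Measure ℝ := (2⁻¹ : ℝ≥0∞) • Measure.dirac 1 + (2⁻¹ : ℝ≥0∞) • Measure.dirac (-1)

lemma rom_integral (f : ℝ → ℝ) : ∫ x, f x ∂romLaw = (f 1 + f (-1)) / 2 := by
  unfold romLaw
  have i1 : Integrable f (Measure.dirac (1:ℝ)) := integrable_dirac (by simp)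
  have i2 : Integrable f (Measure.dirac (-1:ℝ)) := integrable_dirac (by simp)
  have i3 : Integrable f ((2⁻¹ : ℝ≥0∞) • Measure.dirac (1:ℝ)) := i1.smul_measure (by simp)
  have i4 : Integrable f ((2⁻¹ : ℝ≥0∞) • Measure.dirac (-1:ℝ)) := i2.smul_measure (by simp)
  rw [integral_add_measure i3 i4, integral_smul_measure, integral_smul_measure, integral_dirac, integral_dirac]
  simp
  ring

instance instRomProb : IsProbabilityMeasure romLaw := by
  constructor
  unfold romLaw
  simp only [Measure.add_apply, Measure.smul_apply, measure_univ, smul_eq_mul, mul_one]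
  exact ENNReal.inv_two_add_inv_two

lemma rom_supp : ∀ᵐ x ∂romLaw, x ∈ Set.Icc (-1:ℝ) 1 := by
  unfold romLaw
  rw [ae_add_measure_iff]
  constructor
  · refine Measure.ae_smul_measure ?_ _
    rw [ae_dirac_eq]
    simp
  · refine Measure.ae_smul_measure ?_ _
    rw [ae_dirac_eq]
    simp

lemma psi_rom (t y : ℝ) :
    psi romLaw t y = (1 / 2) * (y - 1 - (1 / 2) * (Real.log (y - t) + Real.log (y + t))) := by
  unfold psi
  rw [rom_integral]
  have e1 : y - t * 1 = y - t := by ring
  have e2 : y - t * (-1) = y + t := by ring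
  rw [e1, e2]
  ring

lemma rom_mean : ∫ x, x ∂romLaw = 0 := by
  rw [rom_integral]
  ring

/-- The saddle point of the random orthogonal model. -/
noncomputable def yt (t : ℝ) : ℝ := (1 + Real.sqrt (1 + 4 * t ^ 2)) / 2

lemma yt_sqrt_sq (t : ℝ) : Real.sqrt (1 + 4 * t ^ 2) ^ 2 = 1 + 4 * t ^ 2 :=
  Real.sq_sqrt (by positivity)

lemma yt_sq (t : ℝ) : yt t ^ 2 - t ^ 2 = yt t := by
  unfold yt
  have := yt_sqrt_sq t
  nlinarith

lemma yt_ge_one (t : ℝ) : 1 ≤ yt t := by
  unfold yt
  have h : 1 ≤ Real.sqrt (1 + 4 * t ^ 2) := by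
    rw [Real.one_le_sqrt]
    nlinarith [sq_nonneg t]
  linarith

lemma yt_pos (t : ℝ) : 0 < yt t := lt_of_lt_of_le one_pos (yt_ge_one t)

lemma yt_gt (t : ℝ) : |t| < yt t := by
  have h := yt_sq t
  have h1 := yt_ge_one t
  have h2 : t ^ 2 < yt t ^ 2 := by nlinarith
  exact abs_lt_of_sq_lt_sq h2 (yt_pos t).le

lemma yt_sub_pos (t : ℝ) : 0 < yt t - t := by
  have := (abs_lt.1 (yt_gt t)).2
  linarith

lemma yt_add_pos (t : ℝ) : 0 < yt t + t := by
  have := (abs_lt.1 (yt_gt t)).1
  linarith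

lemma yt_mul (t : ℝ) : (yt t - t) * (yt t + t) = yt t := by
  have := yt_sq t
  nlinarith

/-- The annealed pressure of the random orthogonal model. -/
noncomputable def romA (t : ℝ) : ℝ := (1 / 2) * (yt t - 1 - (1 / 2) * Real.log (yt t))

lemma psi_rom_yt (t : ℝ) : psi romLaw t (yt t) = romA t := by
  rw [psi_rom, ← Real.log_mul (yt_sub_pos t).ne' (yt_add_pos t).ne', yt_mul]
  rfl

lemma rom_saddle (t : ℝ) : ∫ x, 1 / (yt t - t * x) ∂romLaw = 1 := by
  rw [rom_integral]
  have e1 : yt t - t * 1 = yt t - t := by ring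
  have e2 : yt t - t * (-1) = yt t + t := by ring
  rw [e1, e2]
  have h1 := (yt_sub_pos t).ne'
  have h2 := (yt_add_pos t).ne'
  have h3 := yt_mul t
  have h4 := (yt_pos t).ne'
  field_simp
  rw [mul_comm] at h3
  nlinarith

lemma rom_energy (t : ℝ) (ht : t ≠ 0) : ∫ x, x / (yt t - t * x) ∂romLaw = (yt t - 1) / t := by
  rw [rom_integral]
  have e1 : yt t - t * 1 = yt t - t := by ring
  have e2 : yt t - t * (-1) = yt t + t := by ring
  rw [e1, e2]
  have h1 := (yt_sub_pos t).ne'
  have h2 := (yt_add_pos t).ne'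
  have h3 := yt_mul t
  have h4 := (yt_pos t).ne'
  have h5 := yt_sq t
  have e3 : 1 / (yt t - t) + (-1) / (yt t + t) = 2 * t / yt t := by
    have e4 : yt t = (yt t - t) * (yt t + t) := h3.symm
    rw [div_add_div _ _ h1 h2, div_eq_div_iff (mul_ne_zero h1 h2) h4, h3]
    ring
  have e5 : (yt t - 1) / t = t / yt t := by
    rw [div_eq_div_iff ht h4]
    nlinarith
  rw [e5]
  have e6 : (1 / (yt t - t) + (-1) / (yt t + t)) / 2 = t / yt t := by
    rw [e3]
    ring
  exact e6

/-- The minimality of the saddle value. -/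
lemma romA_le_psi {t y : ℝ} (ht : |t| < y) : romA t ≤ psi romLaw t y := by
  have h1 : 0 < y - t := by
    have := (abs_lt.1 ht).2
    linarith
  have h2 : 0 < y + t := by
    have := (abs_lt.1 ht).1
    linarith
  have h3 := yt_sub_pos t
  have h4 := yt_add_pos t
  have hl1 : Real.log (y - t) - Real.log (yt t - t) ≤ (y - t) / (yt t - t) - 1 := by
    rw [← Real.log_div h1.ne' h3.ne']
    exact Real.log_le_sub_one_of_pos (div_pos h1 h3)
  have hl2 : Real.log (y + t) - Real.log (yt t + t) ≤ (y + t) / (yt t + t) - 1 := by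
    rw [← Real.log_div h2.ne' h4.ne']
    exact Real.log_le_sub_one_of_pos (div_pos h2 h4)
  have e : Real.log (yt t) = Real.log (yt t - t) + Real.log (yt t + t) := by
    rw [← Real.log_mul h3.ne' h4.ne', yt_mul]
  have e2 : (y - t) / (yt t - t) - 1 + ((y + t) / (yt t + t) - 1) = 2 * (y - yt t) := by
    have h5 := yt_mul t
    have e3 : (y - t) / (yt t - t) - 1 = (y - yt t) / (yt t - t) := by
      field_simp
      ring
    have e4 : (y + t) / (yt t + t) - 1 = (y - yt t) / (yt t + t) := by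
      field_simp
      ring
    rw [e3, e4]
    have e6 : (y - yt t) / (yt t - t) + (y - yt t) / (yt t + t)
        = (y - yt t) * (2 * yt t) / ((yt t - t) * (yt t + t)) := by
      field_simp
      ring
    rw [e6, h5]
    have := (yt_pos t).ne'
    field_simp
  rw [psi_rom]
  unfold romA
  rw [e]
  nlinarith

end Vale.Agent.Lib.P166
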