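import Vale.Agent.Lib.P166.Rom

/-!
Certified bounds for logarithms, and the inequality on a cell of overlaps.
-/

open scoped BigOperators Topology ENNReal
open MeasureTheory Filter

namespace Vale.Agent.Lib.P166

/-- The odd Taylor polynomial of `log ((1 + u) / (1 - u))`. -/
noncomputable def logPoly (u : ℝ) : ℝ := 2 * (u + u ^ 3 / 3 + u ^ 5 / 5 + u ^ 7 / 7 + u ^ 9 / 9)

lemma log_series {u : ℝ} (hu : |u| ≤ 3 / 16) :
    |Real.log (1 + u) - Real.log (1 - u) - logPoly u| ≤ 2 / 10 ^ 7 := by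
  have h0 : |u| < 1 := by linarith
  have h1 := Real.abs_log_sub_add_sum_range_le h0 9
  have h2 := Real.abs_log_sub_add_sum_range_le (x := -u) (by rwa [abs_neg]) 9
  rw [abs_neg] at h2
  have e : (1:ℝ) - -u = 1 + u := by ring
  rw [e] at h2
  have h3 : |u| ^ (9 + 1) / (1 - |u|) ≤ 1 / 10 ^ 7 := by
    have h4 : 0 ≤ |u| := abs_nonneg u
    have h5 : |u| ^ (9 + 1) ≤ (3 / 16 : ℝ) ^ (9 + 1) := pow_le_pow_left₀ h4 hu _
    rw [div_le_iff₀ (by linarith)]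
    have h6 : (13 / 16 : ℝ) ≤ 1 - |u| := by linarith
    have h7 : (3 / 16 : ℝ) ^ (9 + 1) ≤ 1 / 10 ^ 7 * (13 / 16) := by norm_num
    have h8 : 1 / 10 ^ 7 * (13 / 16 : ℝ) ≤ 1 / 10 ^ 7 * (1 - |u|) :=
      mul_le_mul_of_nonneg_left h6 (by norm_num)
    linarith
  have e1 : ∑ i ∈ Finset.range 9, u ^ (i + 1) / ((i:ℝ) + 1) - ∑ i ∈ Finset.range 9, (-u) ^ (i + 1) / ((i:ℝ) + 1)
      = logPoly u := by
    unfold logPoly
    norm_num [Finset.sum_range_succ]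
    have e2 : (-u) ^ 3 = - u ^ 3 := by ring
    have e3 : (-u) ^ 5 = - u ^ 5 := by ring
    have e4 : (-u) ^ 7 = - u ^ 7 := by ring
    have e5 : (-u) ^ 9 = - u ^ 9 := by ring
    have e6 : (-u) ^ 2 = u ^ 2 := by ring
    have e7 : (-u) ^ 4 = u ^ 4 := by ring
    have e8 : (-u) ^ 6 = u ^ 6 := by ring
    have e9 : (-u) ^ 8 = u ^ 8 := by ring
    simp only [e2, e3, e4, e5, e6, e7, e8, e9]
    ring
  obtain ⟨h4, h5⟩ := abs_le.1 (h1.trans h3)
  obtain ⟨h6, h7⟩ := abs_le.1 (h2.trans h3)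
  rw [← e1, abs_le]
  norm_num at h4 h5 h6 h7 ⊢
  constructor <;> linarith

lemma log_two_bounds : (6931471803 / 10 ^ 10 : ℝ) ≤ Real.log 2 ∧ Real.log 2 ≤ 6931471808 / 10 ^ 10 := by
  have h1 := Real.log_two_gt_d9
  have h2 := Real.log_two_lt_d9
  constructor <;> norm_num at * <;> linarith

lemma u_frac_pos {u : ℝ} (hu : |u| ≤ 3 / 16) : 0 < 1 + u ∧ 0 < 1 - u := by
  obtain ⟨h1, h2⟩ := abs_le.1 hu
  constructor <;> linarith

lemma le_log_cert_pos {x L u : ℝ} (k : ℕ) (hu : |u| ≤ 3 / 16) (hx : 2 ^ k * ((1 + u) / (1 - u)) ≤ x)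
    (hL : L ≤ k * (6931471803 / 10 ^ 10) + logPoly u - 2 / 10 ^ 7) : L ≤ Real.log x := by
  obtain ⟨h1, h2⟩ := u_frac_pos hu
  have h3 : 0 < 2 ^ k * ((1 + u) / (1 - u)) := by positivity
  have h4 := Real.log_le_log h3 hx
  rw [Real.log_mul (by positivity) (by positivity), Real.log_pow, Real.log_div h1.ne' h2.ne'] at h4
  have h5 := (abs_le.1 (log_series hu)).1
  have h6 := log_two_bounds.1
  have h7 : (k:ℝ) * (6931471803 / 10 ^ 10) ≤ k * Real.log 2 :=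
    mul_le_mul_of_nonneg_left h6 (by positivity)
  linarith

lemma le_log_cert_neg {x L u : ℝ} (k : ℕ) (hu : |u| ≤ 3 / 16) (hx : ((1 + u) / (1 - u)) / 2 ^ k ≤ x)
    (hL : L ≤ - (k * (6931471808 / 10 ^ 10)) + logPoly u - 2 / 10 ^ 7) : L ≤ Real.log x := by
  obtain ⟨h1, h2⟩ := u_frac_pos hu
  have h3 : 0 < ((1 + u) / (1 - u)) / 2 ^ k := by positivity
  have h4 := Real.log_le_log h3 hx
  rw [Real.log_div (by positivity) (by positivity), Real.log_pow, Real.log_div h1.ne' h2.ne'] at h4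
  have h5 := (abs_le.1 (log_series hu)).1
  have h6 := log_two_bounds.2
  have h7 : (k:ℝ) * Real.log 2 ≤ k * (6931471808 / 10 ^ 10) :=
    mul_le_mul_of_nonneg_left h6 (by positivity)
  linarith

lemma log_le_cert_pos {x U u : ℝ} (k : ℕ) (hx0 : 0 < x) (hu : |u| ≤ 3 / 16)
    (hx : x ≤ 2 ^ k * ((1 + u) / (1 - u)))
    (hU : k * (6931471808 / 10 ^ 10) + logPoly u + 2 / 10 ^ 7 ≤ U) : Real.log x ≤ U := by
  obtain ⟨h1, h2⟩ := u_frac_pos hu
  have h4 := Real.log_le_log hx0 hx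
  rw [Real.log_mul (by positivity) (by positivity), Real.log_pow, Real.log_div h1.ne' h2.ne'] at h4
  have h5 := (abs_le.1 (log_series hu)).2
  have h6 := log_two_bounds.2
  have h7 : (k:ℝ) * Real.log 2 ≤ k * (6931471808 / 10 ^ 10) :=
    mul_le_mul_of_nonneg_left h6 (by positivity)
  linarith

lemma log_le_cert_neg {x U u : ℝ} (k : ℕ) (hx0 : 0 < x) (hu : |u| ≤ 3 / 16)
    (hx : x ≤ ((1 + u) / (1 - u)) / 2 ^ k)
    (hU : - (k * (6931471803 / 10 ^ 10)) + logPoly u + 2 / 10 ^ 7 ≤ U) : Real.log x ≤ U := by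
  obtain ⟨h1, h2⟩ := u_frac_pos hu
  have h4 := Real.log_le_log hx0 hx
  rw [Real.log_div (by positivity) (by positivity), Real.log_pow, Real.log_div h1.ne' h2.ne'] at h4
  have h5 := (abs_le.1 (log_series hu)).2
  have h6 := log_two_bounds.1
  have h7 : (k:ℝ) * (6931471803 / 10 ^ 10) ≤ k * Real.log 2 :=
    mul_le_mul_of_nonneg_left h6 (by positivity)
  linarith

/-- The inverse temperature at which the exact limit is established in this file. -/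
noncomputable def romB : ℝ := 23864 / 1545

/-- The saddle point at `romB`. -/
noncomputable def romY : ℝ := 24649 / 1545

lemma yt_romB : yt romB = romY := by
  unfold yt romB romY
  have h : Real.sqrt (1 + 4 * (23864 / 1545 : ℝ) ^ 2) = 47753 / 1545 := by
    rw [Real.sqrt_eq_iff_mul_self_eq (by positivity) (by positivity)]
    norm_num
  rw [h]
  norm_num

/-- The tangent inequality for the entropy term. -/
lemma xlogx_tangent {x x₀ : ℝ} (hx : 0 ≤ x) (hx₀ : 0 < x₀) :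
    x * Real.log x₀ + x - x₀ ≤ x * Real.log x := by
  rcases hx.eq_or_lt with rfl | hpos
  · simp
    exact hx₀.le
  have h1 := Real.one_sub_inv_le_log_of_pos (div_pos hpos hx₀)
  rw [Real.log_div hpos.ne' hx₀.ne', inv_div] at h1
  have h2 := mul_le_mul_of_nonneg_left h1 hpos.le
  have e : x * (1 - x₀ / x) = x - x₀ := by
    field_simp
  rw [e] at h2
  nlinarith

lemma Ifun_tangent {R Ra : ℝ} (h0 : -1 < R) (h1 : R ≤ 1) (ha0 : -1 < Ra) (ha1 : Ra < 1) :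
    (1 / 2) * ((1 + R) * Real.log (1 + Ra) + (1 - R) * Real.log (1 - Ra)) ≤ Ifun R := by
  unfold Ifun
  have h2 := xlogx_tangent (x := 1 + R) (x₀ := 1 + Ra) (by linarith) (by linarith)
  have h3 := xlogx_tangent (x := 1 - R) (x₀ := 1 - Ra) (by linarith) (by linarith)
  linarith

/-- The inequality on a cell of overlaps, from lower bounds on the logarithms. -/
theorem rom_cell {τ c₁ c₂ Ra Rb R L1 L2 L3 L4 L5 L6 L7 L8 Cup : ℝ}
    (hτ : 0 ≤ τ) (h1 : τ < c₁) (h2 : τ < c₂) (hab : Ra < Rb) (hRb : Rb ≤ 1) (hRa : 0 ≤ Ra)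
    (hR1 : Ra ≤ R) (hR2 : R ≤ Rb)
    (hCup : - (2 * psi romLaw romB romY) ≤ Cup)
    (hL1 : L1 ≤ Real.log (c₁ - τ)) (hL2 : L2 ≤ Real.log (c₂ - τ))
    (hL3 : L3 ≤ Real.log (c₁ + τ + 2 * τ * Ra)) (hL4 : L4 ≤ Real.log (c₂ + τ - 2 * τ * Ra))
    (hL5 : L5 ≤ Real.log (c₁ + τ + 2 * τ * Rb)) (hL6 : L6 ≤ Real.log (c₂ + τ - 2 * τ * Rb))
    (hL7 : L7 ≤ Real.log (1 + Ra)) (hL8 : L8 ≤ Real.log (1 - Ra))
    (hE1 : (c₁ + c₂ - 2) / 2 - (L1 + L2) / 4 - (τ - romB) * (152 / 157) + Cup - (L3 + L4) / 4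
      - ((1 + Ra) * L7 + (1 - Ra) * L8) / 2 < 0)
    (hE2 : (c₁ + c₂ - 2) / 2 - (L1 + L2) / 4 - (τ - romB) * (152 / 157) + Cup - (L5 + L6) / 4
      - ((1 + Rb) * L7 + (1 - Rb) * L8) / 2 < 0) :
    psi romLaw (τ * (1 + R)) (c₁ + τ * R) + psi romLaw (τ * (1 - R)) (c₂ - τ * R)
      - (τ - romB) * (152 / 157) - 2 * psi romLaw romB romY < Ifun R := by
  have hRa1 : Ra < 1 := by linarith
  have hd : 0 < Rb - Ra := by linarith
  obtain ⟨θ, hθ⟩ : ∃ θ, θ = (R - Ra) / (Rb - Ra) := ⟨_, rfl⟩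
  have hθ0 : 0 ≤ θ := by
    rw [hθ]
    exact div_nonneg (by linarith) hd.le
  have hθ1 : θ ≤ 1 := by
    rw [hθ, div_le_one hd]
    linarith
  have hRθ : R = (1 - θ) * Ra + θ * Rb := by
    rw [hθ]
    field_simp
    ring
  have hτR : ∀ r, 0 ≤ r → r ≤ 1 → 0 ≤ τ * r ∧ τ * r ≤ τ := fun r h3 h4 =>
    ⟨by positivity, by nlinarith⟩
  have hR0 : 0 ≤ R := by linarith
  have hR1' : R ≤ 1 := by linarith
  have conc : ∀ A B : ℝ, 0 < A → 0 < B →
      (1 - θ) * Real.log A + θ * Real.log B ≤ Real.log ((1 - θ) * A + θ * B) := by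
    intro A B hA hB
    have := strictConcaveOn_log_Ioi.concaveOn.2 (Set.mem_Ioi.2 hA) (Set.mem_Ioi.2 hB)
      (by linarith : 0 ≤ 1 - θ) hθ0 (by ring)
    simpa [smul_eq_mul] using this
  have pos3 : 0 < c₁ + τ + 2 * τ * Ra := by nlinarith [(hτR Ra hRa hRa1.le).1]
  have pos5 : 0 < c₁ + τ + 2 * τ * Rb := by nlinarith [(hτR Rb (by linarith) hRb).1]
  have pos4 : 0 < c₂ + τ - 2 * τ * Ra := by nlinarith [(hτR Ra hRa hRa1.le).2]
  have pos6 : 0 < c₂ + τ - 2 * τ * Rb := by nlinarith [(hτR Rb (by linarith) hRb).2]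
  have hc1 := conc _ _ pos3 pos5
  have hc2 := conc _ _ pos4 pos6
  have e1 : (1 - θ) * (c₁ + τ + 2 * τ * Ra) + θ * (c₁ + τ + 2 * τ * Rb) = c₁ + τ + 2 * τ * R := by
    rw [hRθ]
    ring
  have e2 : (1 - θ) * (c₂ + τ - 2 * τ * Ra) + θ * (c₂ + τ - 2 * τ * Rb) = c₂ + τ - 2 * τ * R := by
    rw [hRθ]
    ring
  rw [e1] at hc1
  rw [e2] at hc2
  have hI := Ifun_tangent (R := R) (Ra := Ra) (by linarith) hR1' (by linarith) hRa1
  rw [psi_rom, psi_rom]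
  have e3 : c₁ + τ * R - τ * (1 + R) = c₁ - τ := by ring
  have e4 : c₁ + τ * R + τ * (1 + R) = c₁ + τ + 2 * τ * R := by ring
  have e5 : c₂ - τ * R - τ * (1 - R) = c₂ - τ := by ring
  have e6 : c₂ - τ * R + τ * (1 - R) = c₂ + τ - 2 * τ * R := by ring
  rw [e3, e4, e5, e6]
  -- lower bounds in `θ`
  have b3 := mul_le_mul_of_nonneg_left hL3 (by linarith : 0 ≤ 1 - θ)
  have b4 := mul_le_mul_of_nonneg_left hL4 (by linarith : 0 ≤ 1 - θ)
  have b5 := mul_le_mul_of_nonneg_left hL5 hθ0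
  have b6 := mul_le_mul_of_nonneg_left hL6 hθ0
  have b7 := mul_le_mul_of_nonneg_left hL7 (by linarith : 0 ≤ 1 + R)
  have b8 := mul_le_mul_of_nonneg_left hL8 (by linarith : 0 ≤ 1 - R)
  -- the convex combination of the two numerical inequalities
  obtain ⟨M, hM⟩ : ∃ M, M = (c₁ + c₂ - 2) / 2 - (L1 + L2) / 4 - (τ - romB) * (152 / 157) + Cup := ⟨_, rfl⟩
  rw [← hM] at hE1 hE2
  have hcomb : (1 - θ) * (M - (L3 + L4) / 4 - ((1 + Ra) * L7 + (1 - Ra) * L8) / 2)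
      + θ * (M - (L5 + L6) / 4 - ((1 + Rb) * L7 + (1 - Rb) * L8) / 2) < 0 := by
    rcases hθ0.eq_or_lt with h0 | hpos
    · rw [← h0]
      simpa using hE1
    · have h3 := mul_neg_of_pos_of_neg hpos hE2
      have h4 := mul_nonpos_of_nonneg_of_nonpos (by linarith : 0 ≤ 1 - θ) hE1.le
      linarith
  have e7 : (1 - θ) * (M - (L3 + L4) / 4 - ((1 + Ra) * L7 + (1 - Ra) * L8) / 2)
      + θ * (M - (L5 + L6) / 4 - ((1 + Rb) * L7 + (1 - Rb) * L8) / 2)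
      = M - ((1 - θ) * L3 + (1 - θ) * L4 + θ * L5 + θ * L6) / 4 - ((1 + R) * L7 + (1 - R) * L8) / 2 := by
    rw [hRθ]
    ring
  rw [e7] at hcomb
  rw [hM] at hcomb
  linarith

end Vale.Agent.Lib.P166
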