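import Vale.Agent.Lib.P166.RomCell

/-!
The certificate for the truncated pair inequality at the inverse temperature `romB`.
-/

open scoped BigOperators Topology ENNReal
open MeasureTheory Filter

namespace Vale.Agent.Lib.P166

lemma rom_log1 : Real.log (157 / 309 : ℝ) ≤ (-677095269/1000000000:ℝ) := log_le_cert_neg 1 (by norm_num) (u := (8025683/1000000000:ℝ)) (abs_le.2 ⟨by norm_num, by norm_num⟩) (by norm_num) (by unfold logPoly; norm_num)

lemma rom_log2 : Real.log (157 / 5 : ℝ) ≤ (689361619/200000000:ℝ) := log_le_cert_pos 5 (by norm_num) (u := (-4731861/500000000:ℝ)) (abs_le.2 ⟨by norm_num, by norm_num⟩) (by norm_num) (by unfold logPoly; norm_num)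

/-- The numerical bound on the constant. -/
lemma rom_cup : - (2 * psi romLaw romB romY) ≤ (-4192879368383/309000000000:ℝ) := by
  rw [psi_rom]
  have e1 : romY - romB = 157 / 309 := by
    unfold romY romB
    norm_num
  have e2 : romY + romB = 157 / 5 := by
    unfold romY romB
    norm_num
  rw [e1, e2]
  have h1 := rom_log1
  have h2 := rom_log2
  have e3 : romY = 24649 / 1545 := rfl
  rw [e3]
  norm_num at h1 h2 ⊢
  linarith

theorem rom_cell_0 {R : ℝ} (h1 : (9/10:ℝ) ≤ R) (h2 : R ≤ (97/100:ℝ)) :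
    psi romLaw ((13553/1000:ℝ) * (1 + R)) ((70287/5000:ℝ) + (13553/1000:ℝ) * R) + psi romLaw ((13553/1000:ℝ) * (1 - R)) ((141847/10000:ℝ) - (13553/1000:ℝ) * R)
      - ((13553/1000:ℝ) - romB) * (152 / 157) - 2 * psi romLaw romB romY < Ifun R := by
  have hL1 : (-684385877/1000000000:ℝ) ≤ Real.log ((70287/5000:ℝ) - (13553/1000:ℝ)) := le_log_cert_neg 1 (u := (1095181/250000000:ℝ)) (abs_le.2 ⟨by norm_num, by norm_num⟩) (by norm_num) (by unfold logPoly; norm_num)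
  have hL2 : (-229670441/500000000:ℝ) ≤ Real.log ((141847/10000:ℝ) - (13553/1000:ℝ)) := le_log_cert_neg 1 (u := (116373597/1000000000:ℝ)) (abs_le.2 ⟨by norm_num, by norm_num⟩) (by norm_num) (by unfold logPoly; norm_num)
  have hL3 : (3951355047/1000000000:ℝ) ≤ Real.log ((70287/5000:ℝ) + (13553/1000:ℝ) + 2 * (13553/1000:ℝ) * (9/10:ℝ)) := le_log_cert_pos 6 (u := (-103393107/1000000000:ℝ)) (abs_le.2 ⟨by norm_num, by norm_num⟩) (by norm_num) (by unfold logPoly; norm_num)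
  have hL4 : (1206658991/1000000000:ℝ) ≤ Real.log ((141847/10000:ℝ) + (13553/1000:ℝ) - 2 * (13553/1000:ℝ) * (9/10:ℝ)) := le_log_cert_pos 2 (u := (-22394209/250000000:ℝ)) (abs_le.2 ⟨by norm_num, by norm_num⟩) (by norm_num) (by unfold logPoly; norm_num)
  have hL5 : (3987190013/1000000000:ℝ) ≤ Real.log ((70287/5000:ℝ) + (13553/1000:ℝ) + 2 * (13553/1000:ℝ) * (97/100:ℝ)) := le_log_cert_pos 6 (u := (-85636169/1000000000:ℝ)) (abs_le.2 ⟨by norm_num, by norm_num⟩) (by norm_num) (by unfold logPoly; norm_num)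
  have hL6 : (368026071/1000000000:ℝ) ≤ Real.log ((141847/10000:ℝ) + (13553/1000:ℝ) - 2 * (13553/1000:ℝ) * (97/100:ℝ)) := le_log_cert_pos 1 (u := (-32228699/200000000:ℝ)) (abs_le.2 ⟨by norm_num, by norm_num⟩) (by norm_num) (by unfold logPoly; norm_num)
  have hL7 : (128370737/200000000:ℝ) ≤ Real.log (1 + (9/10:ℝ)) := le_log_cert_pos 1 (u := (-12820513/500000000:ℝ)) (abs_le.2 ⟨by norm_num, by norm_num⟩) (by norm_num) (by unfold logPoly; norm_num)
  have hL8 : (-143911581/62500000:ℝ) ≤ Real.log (1 - (9/10:ℝ)) := le_log_cert_neg 3 (u := (-13888889/125000000:ℝ)) (abs_le.2 ⟨by norm_num, by norm_num⟩) (by norm_num) (by unfold logPoly; norm_num)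
  exact rom_cell (by norm_num) (by norm_num) (by norm_num) (by norm_num) (by norm_num) (by norm_num) h1 h2 rom_cup
    hL1 hL2 hL3 hL4 hL5 hL6 hL7 hL8 (by unfold romB; norm_num) (by unfold romB; norm_num)

theorem rom_cell_1 {R : ℝ} (h1 : (97/100:ℝ) ≤ R) (h2 : R ≤ (991/1000:ℝ)) :
    psi romLaw ((9181/1000:ℝ) * (1 + R)) ((1211/125:ℝ) + (9181/1000:ℝ) * R) + psi romLaw ((9181/1000:ℝ) * (1 - R)) ((20179/2000:ℝ) - (9181/1000:ℝ) * R)
      - ((9181/1000:ℝ) - romB) * (152 / 157) - 2 * psi romLaw romB romY < Ifun R := by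
  have hL1 : (-679244477/1000000000:ℝ) ≤ Real.log ((1211/125:ℝ) - (9181/1000:ℝ)) := le_log_cert_neg 1 (u := (347567/50000000:ℝ)) (abs_le.2 ⟨by norm_num, by norm_num⟩) (by norm_num) (by unfold logPoly; norm_num)
  have hL2 : (-47980297/500000000:ℝ) ≤ Real.log ((20179/2000:ℝ) - (9181/1000:ℝ)) := le_log_cert_pos 0 (u := (-11985853/250000000:ℝ)) (abs_le.2 ⟨by norm_num, by norm_num⟩) (by norm_num) (by unfold logPoly; norm_num)
  have hL3 : (3602235261/1000000000:ℝ) ≤ Real.log ((1211/125:ℝ) + (9181/1000:ℝ) + 2 * (9181/1000:ℝ) * (97/100:ℝ)) := le_log_cert_pos 5 (u := (68144007/1000000000:ℝ)) (abs_le.2 ⟨by norm_num, by norm_num⟩) (by norm_num) (by unfold logPoly; norm_num)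
  have hL4 : (377997781/1000000000:ℝ) ≤ Real.log ((20179/2000:ℝ) + (9181/1000:ℝ) - 2 * (9181/1000:ℝ) * (97/100:ℝ)) := le_log_cert_pos 1 (u := (-39070811/250000000:ℝ)) (abs_le.2 ⟨by norm_num, by norm_num⟩) (by norm_num) (by unfold logPoly; norm_num)
  have hL5 : (225793309/62500000:ℝ) ≤ Real.log ((1211/125:ℝ) + (9181/1000:ℝ) + 2 * (9181/1000:ℝ) * (991/1000:ℝ)) := le_log_cert_pos 5 (u := (73346667/1000000000:ℝ)) (abs_le.2 ⟨by norm_num, by norm_num⟩) (by norm_num) (by unfold logPoly; norm_num)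
  have hL6 : (17791111/250000000:ℝ) ≤ Real.log ((20179/2000:ℝ) + (9181/1000:ℝ) - 2 * (9181/1000:ℝ) * (991/1000:ℝ)) := le_log_cert_pos 0 (u := (35567313/1000000000:ℝ)) (abs_le.2 ⟨by norm_num, by norm_num⟩) (by norm_num) (by unfold logPoly; norm_num)
  have hL7 : (33901667/50000000:ℝ) ≤ Real.log (1 + (97/100:ℝ)) := le_log_cert_pos 1 (u := (-1889169/250000000:ℝ)) (abs_le.2 ⟨by norm_num, by norm_num⟩) (by norm_num) (by unfold logPoly; norm_num)
  have hL8 : (-35065581/10000000:ℝ) ≤ Real.log (1 - (97/100:ℝ)) := le_log_cert_neg 5 (u := (-5102041/250000000:ℝ)) (abs_le.2 ⟨by norm_num, by norm_num⟩) (by norm_num) (by unfold logPoly; norm_num)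
  exact rom_cell (by norm_num) (by norm_num) (by norm_num) (by norm_num) (by norm_num) (by norm_num) h1 h2 rom_cup
    hL1 hL2 hL3 hL4 hL5 hL6 hL7 hL8 (by unfold romB; norm_num) (by unfold romB; norm_num)

theorem rom_cell_2 {R : ℝ} (h1 : (991/1000:ℝ) ≤ R) (h2 : R ≤ (2491/2500:ℝ)) :
    psi romLaw ((8249/1000:ℝ) * (1 + R)) ((87563/10000:ℝ) + (8249/1000:ℝ) * R) + psi romLaw ((8249/1000:ℝ) * (1 - R)) ((92157/10000:ℝ) - (8249/1000:ℝ) * R)
      - ((8249/1000:ℝ) - romB) * (152 / 157) - 2 * psi romLaw romB romY < Ifun R := by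
  have hL1 : (-84831617/125000000:ℝ) ≤ Real.log ((87563/10000:ℝ) - (8249/1000:ℝ)) := le_log_cert_neg 1 (u := (905887/125000000:ℝ)) (abs_le.2 ⟨by norm_num, by norm_num⟩) (by norm_num) (by unfold logPoly; norm_num)
  have hL2 : (-33867271/1000000000:ℝ) ≤ Real.log ((92157/10000:ℝ) - (8249/1000:ℝ)) := le_log_cert_pos 0 (u := (-16931917/1000000000:ℝ)) (abs_le.2 ⟨by norm_num, by norm_num⟩) (by norm_num) (by unfold logPoly; norm_num)
  have hL3 : (876800507/250000000:ℝ) ≤ Real.log ((87563/10000:ℝ) + (8249/1000:ℝ) + 2 * (8249/1000:ℝ) * (991/1000:ℝ)) := le_log_cert_pos 5 (u := (20730193/1000000000:ℝ)) (abs_le.2 ⟨by norm_num, by norm_num⟩) (by norm_num) (by unfold logPoly; norm_num)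
  have hL4 : (109017419/1000000000:ℝ) ≤ Real.log ((92157/10000:ℝ) + (8249/1000:ℝ) - 2 * (8249/1000:ℝ) * (991/1000:ℝ)) := le_log_cert_pos 0 (u := (6806861/125000000:ℝ)) (abs_le.2 ⟨by norm_num, by norm_num⟩) (by norm_num) (by unfold logPoly; norm_num)
  have hL5 : (3509869421/1000000000:ℝ) ≤ Real.log ((87563/10000:ℝ) + (8249/1000:ℝ) + 2 * (8249/1000:ℝ) * (2491/2500:ℝ)) := le_log_cert_pos 5 (u := (22063279/1000000000:ℝ)) (abs_le.2 ⟨by norm_num, by norm_num⟩) (by norm_num) (by unfold logPoly; norm_num)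
  have hL6 : (2575799/100000000:ℝ) ≤ Real.log ((92157/10000:ℝ) + (8249/1000:ℝ) - 2 * (8249/1000:ℝ) * (2491/2500:ℝ)) := le_log_cert_pos 0 (u := (12878383/1000000000:ℝ)) (abs_le.2 ⟨by norm_num, by norm_num⟩) (by norm_num) (by unfold logPoly; norm_num)
  have hL7 : (86079603/125000000:ℝ) ≤ Real.log (1 + (991/1000:ℝ)) := le_log_cert_pos 1 (u := (-1127537/500000000:ℝ)) (abs_le.2 ⟨by norm_num, by norm_num⟩) (by norm_num) (by unfold logPoly; norm_num)
  have hL8 : (-588816363/125000000:ℝ) ≤ Real.log (1 - (991/1000:ℝ)) := le_log_cert_neg 7 (u := (7063197/100000000:ℝ)) (abs_le.2 ⟨by norm_num, by norm_num⟩) (by norm_num) (by unfold logPoly; norm_num)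
  exact rom_cell (by norm_num) (by norm_num) (by norm_num) (by norm_num) (by norm_num) (by norm_num) h1 h2 rom_cup
    hL1 hL2 hL3 hL4 hL5 hL6 hL7 hL8 (by unfold romB; norm_num) (by unfold romB; norm_num)

theorem rom_cell_3 {R : ℝ} (h1 : (2491/2500:ℝ) ≤ R) (h2 : R ≤ (12473/12500:ℝ)) :
    psi romLaw ((4043/500:ℝ) * (1 + R)) ((85933/10000:ℝ) + (4043/500:ℝ) * R) + psi romLaw ((4043/500:ℝ) * (1 - R)) ((22657/2500:ℝ) - (4043/500:ℝ) * R)
      - ((4043/500:ℝ) - romB) * (152 / 157) - 2 * psi romLaw romB romY < Ifun R := by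
  have hL1 : (-84831617/125000000:ℝ) ≤ Real.log ((85933/10000:ℝ) - (4043/500:ℝ)) := le_log_cert_neg 1 (u := (905887/125000000:ℝ)) (abs_le.2 ⟨by norm_num, by norm_num⟩) (by norm_num) (by unfold logPoly; norm_num)
  have hL2 : (-11736779/500000000:ℝ) ≤ Real.log ((22657/2500:ℝ) - (4043/500:ℝ)) := le_log_cert_pos 0 (u := (-586807/50000000:ℝ)) (abs_le.2 ⟨by norm_num, by norm_num⟩) (by norm_num) (by unfold logPoly; norm_num)
  have hL3 : (174510867/50000000:ℝ) ≤ Real.log ((85933/10000:ℝ) + (4043/500:ℝ) + 2 * (4043/500:ℝ) * (2491/2500:ℝ)) := le_log_cert_pos 5 (u := (765013/62500000:ℝ)) (abs_le.2 ⟨by norm_num, by norm_num⟩) (by norm_num) (by unfold logPoly; norm_num)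
  have hL4 : (1376791/40000000:ℝ) ≤ Real.log ((22657/2500:ℝ) + (4043/500:ℝ) - 2 * (4043/500:ℝ) * (2491/2500:ℝ)) := le_log_cert_pos 0 (u := (17208289/1000000000:ℝ)) (abs_le.2 ⟨by norm_num, by norm_num⟩) (by norm_num) (by unfold logPoly; norm_num)
  have hL5 : (3490927227/1000000000:ℝ) ≤ Real.log ((85933/10000:ℝ) + (4043/500:ℝ) + 2 * (4043/500:ℝ) * (12473/12500:ℝ)) := le_log_cert_pos 5 (u := (12595097/1000000000:ℝ)) (abs_le.2 ⟨by norm_num, by norm_num⟩) (by norm_num) (by unfold logPoly; norm_num)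
  have hL6 : (5831519/500000000:ℝ) ≤ Real.log ((22657/2500:ℝ) + (4043/500:ℝ) - 2 * (4043/500:ℝ) * (12473/12500:ℝ)) := le_log_cert_pos 0 (u := (5831553/1000000000:ℝ)) (abs_le.2 ⟨by norm_num, by norm_num⟩) (by norm_num) (by unfold logPoly; norm_num)
  have hL7 : (691345357/1000000000:ℝ) ≤ Real.log (1 + (2491/2500:ℝ)) := le_log_cert_pos 1 (u := (-900811/1000000000:ℝ)) (abs_le.2 ⟨by norm_num, by norm_num⟩) (by norm_num) (by unfold logPoly; norm_num)
  have hL8 : (-1406705409/250000000:ℝ) ≤ Real.log (1 - (2491/2500:ℝ)) := le_log_cert_neg 8 (u := (-20399667/500000000:ℝ)) (abs_le.2 ⟨by norm_num, by norm_num⟩) (by norm_num) (by unfold logPoly; norm_num)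
  exact rom_cell (by norm_num) (by norm_num) (by norm_num) (by norm_num) (by norm_num) (by norm_num) h1 h2 rom_cup
    hL1 hL2 hL3 hL4 hL5 hL6 hL7 hL8 (by unfold romB; norm_num) (by unfold romB; norm_num)

theorem rom_cell_4 {R : ℝ} (h1 : (12473/12500:ℝ) ≤ R) (h2 : R ≤ (62419/62500:ℝ)) :
    psi romLaw ((7939/1000:ℝ) * (1 + R)) ((42233/5000:ℝ) + (7939/1000:ℝ) * R) + psi romLaw ((7939/1000:ℝ) * (1 - R)) ((22313/2500:ℝ) - (7939/1000:ℝ) * R)
      - ((7939/1000:ℝ) - romB) * (152 / 157) - 2 * psi romLaw romB romY < Ifun R := by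
  have hL1 : (-135612349/200000000:ℝ) ≤ Real.log ((42233/5000:ℝ) - (7939/1000:ℝ)) := le_log_cert_neg 1 (u := (301707/40000000:ℝ)) (abs_le.2 ⟨by norm_num, by norm_num⟩) (by norm_num) (by unfold logPoly; norm_num)
  have hL2 : (-6948153/500000000:ℝ) ≤ Real.log ((22313/2500:ℝ) - (7939/1000:ℝ)) := le_log_cert_pos 0 (u := (-6947941/1000000000:ℝ)) (abs_le.2 ⟨by norm_num, by norm_num⟩) (by norm_num) (by unfold logPoly; norm_num)
  have hL3 : (3472875883/1000000000:ℝ) ≤ Real.log ((42233/5000:ℝ) + (7939/1000:ℝ) + 2 * (7939/1000:ℝ) * (12473/12500:ℝ)) := le_log_cert_pos 5 (u := (892519/250000000:ℝ)) (abs_le.2 ⟨by norm_num, by norm_num⟩) (by norm_num) (by unfold logPoly; norm_num)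
  have hL4 : (20289051/1000000000:ℝ) ≤ Real.log ((22313/2500:ℝ) + (7939/1000:ℝ) - 2 * (7939/1000:ℝ) * (12473/12500:ℝ)) := le_log_cert_pos 0 (u := (5072139/500000000:ℝ)) (abs_le.2 ⟨by norm_num, by norm_num⟩) (by norm_num) (by unfold logPoly; norm_num)
  have hL5 : (3473301449/1000000000:ℝ) ≤ Real.log ((42233/5000:ℝ) + (7939/1000:ℝ) + 2 * (7939/1000:ℝ) * (62419/62500:ℝ)) := le_log_cert_pos 5 (u := (472857/125000000:ℝ)) (abs_le.2 ⟨by norm_num, by norm_num⟩) (by norm_num) (by unfold logPoly; norm_num)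
  have hL6 : (6754819/1000000000:ℝ) ≤ Real.log ((22313/2500:ℝ) + (7939/1000:ℝ) - 2 * (7939/1000:ℝ) * (62419/62500:ℝ)) := le_log_cert_pos 0 (u := (3377497/1000000000:ℝ)) (abs_le.2 ⟨by norm_num, by norm_num⟩) (by norm_num) (by unfold logPoly; norm_num)
  have hL7 : (173016599/250000000:ℝ) ≤ Real.log (1 + (12473/12500:ℝ)) := le_log_cert_pos 1 (u := (-135073/250000000:ℝ)) (abs_le.2 ⟨by norm_num, by norm_num⟩) (by norm_num) (by unfold logPoly; norm_num)
  have hL8 : (-6137647261/1000000000:ℝ) ≤ Real.log (1 - (12473/12500:ℝ)) := le_log_cert_neg 9 (u := (50296307/1000000000:ℝ)) (abs_le.2 ⟨by norm_num, by norm_num⟩) (by norm_num) (by unfold logPoly; norm_num)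
  exact rom_cell (by norm_num) (by norm_num) (by norm_num) (by norm_num) (by norm_num) (by norm_num) h1 h2 rom_cup
    hL1 hL2 hL3 hL4 hL5 hL6 hL7 hL8 (by unfold romB; norm_num) (by unfold romB; norm_num)

theorem rom_cell_5 {R : ℝ} (h1 : (62419/62500:ℝ) ≤ R) (h2 : R ≤ (1:ℝ)) :
    psi romLaw ((7771/1000:ℝ) * (1 + R)) ((82791/10000:ℝ) + (7771/1000:ℝ) * R) + psi romLaw ((7771/1000:ℝ) * (1 - R)) ((1096/125:ℝ) - (7771/1000:ℝ) * R)
      - ((7771/1000:ℝ) - romB) * (152 / 157) - 2 * psi romLaw romB romY < Ifun R := by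
  have hL1 : (-677077201/1000000000:ℝ) ≤ Real.log ((82791/10000:ℝ) - (7771/1000:ℝ)) := le_log_cert_neg 1 (u := (8034917/1000000000:ℝ)) (abs_le.2 ⟨by norm_num, by norm_num⟩) (by norm_num) (by unfold logPoly; norm_num)
  have hL2 : (-3004711/1000000000:ℝ) ≤ Real.log ((1096/125:ℝ) - (7771/1000:ℝ)) := le_log_cert_pos 0 (u := (-751127/500000000:ℝ)) (abs_le.2 ⟨by norm_num, by norm_num⟩) (by norm_num) (by unfold logPoly; norm_num)
  have hL3 : (690453821/200000000:ℝ) ≤ Real.log ((82791/10000:ℝ) + (7771/1000:ℝ) + 2 * (7771/1000:ℝ) * (62419/62500:ℝ)) := le_log_cert_pos 5 (u := (-1683299/250000000:ℝ)) (abs_le.2 ⟨by norm_num, by norm_num⟩) (by norm_num) (by unfold logPoly; norm_num)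
  have hL4 : (16996957/1000000000:ℝ) ≤ Real.log ((1096/125:ℝ) + (7771/1000:ℝ) - 2 * (7771/1000:ℝ) * (62419/62500:ℝ)) := le_log_cert_pos 0 (u := (4249187/500000000:ℝ)) (abs_le.2 ⟨by norm_num, by norm_num⟩) (by norm_num) (by unfold logPoly; norm_num)
  have hL5 : (3452906887/1000000000:ℝ) ≤ Real.log ((82791/10000:ℝ) + (7771/1000:ℝ) + 2 * (7771/1000:ℝ) * (1:ℝ)) := le_log_cert_pos 5 (u := (-6414319/1000000000:ℝ)) (abs_le.2 ⟨by norm_num, by norm_num⟩) (by norm_num) (by unfold logPoly; norm_num)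
  have hL6 : (-3004711/1000000000:ℝ) ≤ Real.log ((1096/125:ℝ) + (7771/1000:ℝ) - 2 * (7771/1000:ℝ) * (1:ℝ)) := le_log_cert_pos 0 (u := (-751127/500000000:ℝ)) (abs_le.2 ⟨by norm_num, by norm_num⟩) (by norm_num) (by unfold logPoly; norm_num)
  have hL7 : (43281173/62500000:ℝ) ≤ Real.log (1 + (62419/62500:ℝ)) := le_log_cert_pos 1 (u := (-162053/500000000:ℝ)) (abs_le.2 ⟨by norm_num, by norm_num⟩) (by norm_num) (by unfold logPoly; norm_num)
  have hL8 : (-3324236443/500000000:ℝ) ≤ Real.log (1 - (62419/62500:ℝ)) := le_log_cert_neg 10 (u := (14056269/100000000:ℝ)) (abs_le.2 ⟨by norm_num, by norm_num⟩) (by norm_num) (by unfold logPoly; norm_num)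
  exact rom_cell (by norm_num) (by norm_num) (by norm_num) (by norm_num) (by norm_num) (by norm_num) h1 h2 rom_cup
    hL1 hL2 hL3 hL4 hL5 hL6 hL7 hL8 (by unfold romB; norm_num) (by unfold romB; norm_num)

/-- The truncated pair inequality at `romB`, above the overlap `9 / 10`. -/
theorem rom_high {R : ℝ} (h0 : (9 / 10 : ℝ) ≤ R) (h1 : R ≤ 1) :
    ∃ τ c₁ c₂ : ℝ, 0 ≤ τ ∧ τ ≤ romB ∧ τ < c₁ ∧ τ < c₂ ∧
      psi romLaw (τ * (1 + R)) (c₁ + τ * R) + psi romLaw (τ * (1 - R)) (c₂ - τ * R)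
        - (τ - romB) * (152 / 157) - 2 * psi romLaw romB romY < Ifun R := by
  rcases le_or_gt R (97/100:ℝ) with h0 | h0
  · exact ⟨(13553/1000:ℝ), (70287/5000:ℝ), (141847/10000:ℝ), by norm_num, by unfold romB; norm_num, by norm_num, by norm_num, rom_cell_0 (by linarith) h0⟩
  rcases le_or_gt R (991/1000:ℝ) with h1 | h1
  · exact ⟨(9181/1000:ℝ), (1211/125:ℝ), (20179/2000:ℝ), by norm_num, by unfold romB; norm_num, by norm_num, by norm_num, rom_cell_1 (by linarith) h1⟩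
  rcases le_or_gt R (2491/2500:ℝ) with h2 | h2
  · exact ⟨(8249/1000:ℝ), (87563/10000:ℝ), (92157/10000:ℝ), by norm_num, by unfold romB; norm_num, by norm_num, by norm_num, rom_cell_2 (by linarith) h2⟩
  rcases le_or_gt R (12473/12500:ℝ) with h3 | h3
  · exact ⟨(4043/500:ℝ), (85933/10000:ℝ), (22657/2500:ℝ), by norm_num, by unfold romB; norm_num, by norm_num, by norm_num, rom_cell_3 (by linarith) h3⟩
  rcases le_or_gt R (62419/62500:ℝ) with h4 | h4
  · exact ⟨(7939/1000:ℝ), (42233/5000:ℝ), (22313/2500:ℝ), by norm_num, by unfold romB; norm_num, by norm_num, by norm_num, rom_cell_4 (by linarith) h4⟩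
  exact ⟨(7771/1000:ℝ), (82791/10000:ℝ), (1096/125:ℝ), by norm_num, by unfold romB; norm_num, by norm_num, by norm_num, rom_cell_5 (by linarith) (by linarith)⟩

end Vale.Agent.Lib.P166
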