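import Vale.Agent.Lib.P166.RomCert

/-!
The random orthogonal model: the exact limit up to `romB`, the failure of the annealed formula above
`4 √15`, and the ground state energy.
-/

open scoped BigOperators Topology ENNReal
open MeasureTheory Filter Matrix

namespace Vale.Agent.Lib.P166

variable {lam : ∀ N, Fin N → ℝ}

/-- The plain pair inequality at `romB` below the overlap `9 / 10`. -/
theorem rom_low {R : ℝ} (h0 : 0 < R) (h1 : R ≤ 9 / 10) :
    psi romLaw (romB * (1 + R)) (romY + romB * R) + psi romLaw (romB * (1 - R)) (romY - romB * R)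
      - (romB - romB) * (152 / 157) - 2 * psi romLaw romB romY < Ifun R := by
  have hb : romB = 23864 / 1545 := rfl
  have hy : romY = 24649 / 1545 := rfl
  rw [psi_rom, psi_rom, psi_rom]
  have e1 : romY + romB * R - romB * (1 + R) = 157 / 309 := by
    rw [hb, hy]
    ring
  have e2 : romY - romB * R - romB * (1 - R) = 157 / 309 := by
    rw [hb, hy]
    ring
  have e3 : romY - romB = 157 / 309 := by
    rw [hb, hy]
    norm_num
  have e4 : romY + romB = 157 / 5 := by
    rw [hb, hy]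
    norm_num
  obtain ⟨u, hu⟩ : ∃ u, u = R ^ 2 * (100 / 81) := ⟨_, rfl⟩
  have hR2 : R ^ 2 ≤ 81 / 100 := by nlinarith
  have hu0 : 0 < u := by
    rw [hu]
    positivity
  have hu1 : u ≤ 1 := by
    rw [hu]
    nlinarith
  have e5 : romY + romB * R + romB * (1 + R) = (157 / 5) * (1 + (304 / 309) * R) := by
    rw [hb, hy]
    ring
  have e6 : romY - romB * R + romB * (1 - R) = (157 / 5) * (1 - (304 / 309) * R) := by
    rw [hb, hy]
    ring
  rw [e1, e2, e3, e4, e5, e6]
  have hp1 : 0 < 1 + (304 / 309 : ℝ) * R := by positivity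
  have hp2 : 0 < 1 - (304 / 309 : ℝ) * R := by
    have : (304 / 309 : ℝ) * R ≤ 304 / 309 * (9 / 10) := mul_le_mul_of_nonneg_left h1 (by norm_num)
    norm_num at this ⊢
    linarith
  rw [Real.log_mul (by norm_num) hp1.ne', Real.log_mul (by norm_num) hp2.ne']
  have hprod : Real.log (1 + (304 / 309 : ℝ) * R) + Real.log (1 - (304 / 309 : ℝ) * R)
      = Real.log (1 - (304 / 309) ^ 2 * R ^ 2) := by
    rw [← Real.log_mul hp1.ne' hp2.ne']
    congr 1
    ring
  -- the chord
  obtain ⟨B, hB⟩ : ∃ B : ℝ, B = 1 - (304 / 309) ^ 2 * (81 / 100) := ⟨_, rfl⟩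
  have hB0 : 0 < B := by
    rw [hB]
    norm_num
  have hconc := strictConcaveOn_log_Ioi.concaveOn.2 (Set.mem_Ioi.2 (one_pos : (0:ℝ) < 1)) (Set.mem_Ioi.2 hB0)
    (by linarith : 0 ≤ 1 - u) hu0.le (by ring)
  simp only [smul_eq_mul, Real.log_one, mul_zero, zero_add, mul_one] at hconc
  have e7 : 1 - u + u * B = 1 - (304 / 309) ^ 2 * R ^ 2 := by
    rw [hB, hu]
    ring
  rw [e7] at hconc
  have hBlog : (-8 / 5 : ℝ) ≤ Real.log B := by
    have h2 : (-8 / 5 : ℝ) ≤ Real.log (216 / 1000) :=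
      le_log_cert_neg 2 (u := (-73 / 1000 : ℝ))
        (abs_le.2 ⟨by norm_num, by norm_num⟩) (by norm_num) (by unfold logPoly; norm_num)
    refine h2.trans (Real.log_le_log (by norm_num) ?_)
    rw [hB]
    norm_num
  have hfin : -(Real.log (1 - (304 / 309) ^ 2 * R ^ 2)) / 4 ≤ (40 / 81) * R ^ 2 := by
    have h2 : u * (-8 / 5) ≤ u * Real.log B := mul_le_mul_of_nonneg_left hBlog hu0.le
    rw [hu] at h2
    have h3 : u * Real.log B ≤ Real.log (1 - (304 / 309) ^ 2 * R ^ 2) := hconc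
    rw [hu] at h3
    nlinarith
  have hI := Ifun_ge h0.le (by linarith : R ≤ 1)
  have hR3 : 0 < R ^ 2 := by positivity
  have e8 : Real.log (157 / 309) + (Real.log (157 / 5) + Real.log (1 + 304 / 309 * R))
      + (Real.log (157 / 309) + (Real.log (157 / 5) + Real.log (1 - 304 / 309 * R)))
      = 2 * Real.log (157 / 309) + 2 * Real.log (157 / 5) + Real.log (1 - (304 / 309) ^ 2 * R ^ 2) := by
    rw [← hprod]
    ring
  rw [hy, hb] at *
  nlinarith

/-- The truncated pair inequality at `romB`, for all overlaps. -/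
theorem rom_pair {R : ℝ} (h0 : 0 < R) (h1 : R ≤ 1) :
    ∃ τ c₁ c₂ : ℝ, 0 ≤ τ ∧ τ ≤ romB ∧ τ < c₁ ∧ τ < c₂ ∧
      psi romLaw (τ * (1 + R)) (c₁ + τ * R) + psi romLaw (τ * (1 - R)) (c₂ - τ * R)
        - (τ - romB) * (152 / 157) - 2 * psi romLaw romB romY < Ifun R := by
  rcases le_total R (9 / 10) with h2 | h2
  · refine ⟨romB, romY, romY, ?_, le_refl _, ?_, ?_, rom_low h0 h2⟩
    · unfold romB
      norm_num
    · unfold romB romY
      norm_num
    · unfold romB romY
      norm_num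
  · exact rom_high h2 h1

/-- Convexity of the saddle point in the inverse temperature. -/
lemma yt_convex (a b : ℝ) : 2 * yt ((a + b) / 2) ≤ yt a + yt b := by
  unfold yt
  obtain ⟨wa, hwa⟩ : ∃ w, w = Real.sqrt (1 + 4 * a ^ 2) := ⟨_, rfl⟩
  obtain ⟨wb, hwb⟩ : ∃ w, w = Real.sqrt (1 + 4 * b ^ 2) := ⟨_, rfl⟩
  obtain ⟨w, hw⟩ : ∃ w, w = Real.sqrt (1 + 4 * ((a + b) / 2) ^ 2) := ⟨_, rfl⟩
  have ha := yt_sqrt_sq a
  have hb := yt_sqrt_sq b
  have hc := yt_sqrt_sq ((a + b) / 2)
  rw [← hwa] at ha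
  rw [← hwb] at hb
  rw [← hw] at hc
  rw [← hwa, ← hwb, ← hw]
  have ha0 : 0 ≤ wa := by
    rw [hwa]
    exact Real.sqrt_nonneg _
  have hb0 : 0 ≤ wb := by
    rw [hwb]
    exact Real.sqrt_nonneg _
  have hw0 : 0 ≤ w := by
    rw [hw]
    exact Real.sqrt_nonneg _
  have h1 : 1 + 4 * (a * b) ≤ wa * wb := by
    have : (1 + 4 * (a * b)) ^ 2 ≤ (wa * wb) ^ 2 := by
      rw [mul_pow, ha, hb]
      nlinarith [sq_nonneg (a - b)]
    exact (abs_le_of_sq_le_sq' this (by positivity)).2
  have h2 : (2 * w) ^ 2 ≤ (wa + wb) ^ 2 := by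
    have e : (wa + wb) ^ 2 = wa ^ 2 + wb ^ 2 + 2 * (wa * wb) := by ring
    rw [e, ha, hb, mul_pow, hc]
    nlinarith
  have h3 := (abs_le_of_sq_le_sq' h2 (by positivity)).2
  linarith

lemma hasDerivAt_yt (t : ℝ) : HasDerivAt yt (2 * t / Real.sqrt (1 + 4 * t ^ 2)) t := by
  have h0 : (1 + 4 * t ^ 2 : ℝ) ≠ 0 := by positivity
  have h1 : HasDerivAt (fun s : ℝ => 1 + 4 * s ^ 2) (4 * (2 * t)) t := by
    have := ((hasDerivAt_id t).pow 2).const_mul 4
    simpa using this.const_add 1
  have h2 := h1.sqrt h0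
  have h3 := (h2.const_add 1).div_const 2
  refine h3.congr_deriv ?_
  have h4 : Real.sqrt (1 + 4 * t ^ 2) ≠ 0 := by positivity
  field_simp
  ring

lemma yt_eq (t : ℝ) : Real.sqrt (1 + 4 * t ^ 2) = 2 * yt t - 1 := by
  unfold yt
  ring

lemma hasDerivAt_romA (t : ℝ) : HasDerivAt romA (t / (2 * yt t)) t := by
  have h1 := hasDerivAt_yt t
  have hy := (yt_pos t).ne'
  have h2 := h1.log hy
  have h3 := ((h1.sub_const 1).sub (h2.const_mul (1 / 2))).const_mul (1 / 2)
  refine h3.congr_deriv ?_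
  rw [yt_eq]
  have hw : 2 * yt t - 1 ≠ 0 := by
    have := yt_ge_one t
    linarith
  field_simp

/-- The function `D` is nondecreasing in the inverse temperature. -/
theorem romD_mono {R β τ : ℝ} (hβ : 0 < β) (hτ : β ≤ τ) :
    romA (β * (1 + R)) + romA (β * (1 - R)) - 2 * romA β
      ≤ romA (τ * (1 + R)) + romA (τ * (1 - R)) - 2 * romA τ := by
  obtain ⟨f, hf⟩ : ∃ f : ℝ → ℝ, f = fun s => romA (s * (1 + R)) + romA (s * (1 - R)) - 2 * romA s := ⟨_, rfl⟩
  have hd : ∀ s, HasDerivAt f ((1 + R) * ((s * (1 + R)) / (2 * yt (s * (1 + R))))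
      + (1 - R) * ((s * (1 - R)) / (2 * yt (s * (1 - R)))) - 2 * (s / (2 * yt s))) s := by
    intro s
    have h1 : HasDerivAt (fun s : ℝ => s * (1 + R)) (1 + R) s := by
      simpa using (hasDerivAt_id s).mul_const (1 + R)
    have h2 : HasDerivAt (fun s : ℝ => s * (1 - R)) (1 - R) s := by
      simpa using (hasDerivAt_id s).mul_const (1 - R)
    have h3 := (hasDerivAt_romA (s * (1 + R))).comp s h1
    have h4 := (hasDerivAt_romA (s * (1 - R))).comp s h2
    have h5 := (h3.add h4).sub ((hasDerivAt_romA s).const_mul 2)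
    rw [hf]
    refine h5.congr_deriv ?_
    ring
  have hmono : MonotoneOn f (Set.Icc β τ) := by
    refine monotoneOn_of_deriv_nonneg (convex_Icc β τ)
      (fun s _ => (hd s).continuousAt.continuousWithinAt)
      (fun s _ => (hd s).differentiableAt.differentiableWithinAt) ?_
    intro s hs
    rw [interior_Icc] at hs
    have hs0 : 0 < s := hβ.trans hs.1
    rw [(hd s).deriv]
    have key : ∀ r : ℝ, r * ((s * r) / (2 * yt (s * r))) = (yt (s * r) - 1) / (2 * s) := by
      intro r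
      have h1 := yt_sq (s * r)
      have h2 := (yt_pos (s * r)).ne'
      rw [mul_div_assoc', div_eq_div_iff (by positivity) (by positivity)]
      have e : yt (s * r) ^ 2 - yt (s * r) = (s * r) ^ 2 := by linarith
      nlinarith
    have e1 := key (1 + R)
    have e2 := key (1 - R)
    have e3 : 2 * (s / (2 * yt s)) = 2 * ((yt s - 1) / (2 * s)) := by
      have := key 1
      rw [mul_one, one_mul] at this
      rw [this]
    rw [e1, e2, e3]
    have hconv := yt_convex (s * (1 + R)) (s * (1 - R))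
    have e4 : (s * (1 + R) + s * (1 - R)) / 2 = s := by ring
    rw [e4] at hconv
    have e5 : (yt (s * (1 + R)) - 1) / (2 * s) + (yt (s * (1 - R)) - 1) / (2 * s) - 2 * ((yt s - 1) / (2 * s))
        = (yt (s * (1 + R)) + yt (s * (1 - R)) - 2 * yt s) / (2 * s) := by
      field_simp
      ring
    rw [e5]
    exact div_nonneg (by linarith) (by positivity)
  have := hmono (Set.left_mem_Icc.2 hτ) (Set.right_mem_Icc.2 hτ) hτ
  rw [hf] at this
  exact this

/-- The tangent inequality for the annealed function of the model. -/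
lemma romA_tangent (h : Spec romLaw 1 (-1) lam) {t s : ℝ} (ht : 0 < t) (hs : 0 ≤ s) :
    romA t + (1 / 2) * ((yt t - 1) / t) * (s - t) ≤ romA s := by
  have hy1 : t * 1 < yt t := by
    have := (abs_lt.1 (yt_gt t)).2
    linarith
  have hy2 : s * 1 < yt s := by
    have := (abs_lt.1 (yt_gt s)).2
    linarith
  have := psi_tangent h ht hs hy1 (rom_saddle t) hy2
  rwa [psi_rom_yt, psi_rom_yt] at this

lemma rom_slope_B : (yt romB - 1) / romB = 152 / 157 := by
  rw [yt_romB]
  unfold romB romY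
  norm_num

lemma romB_pos : 0 < romB := by
  unfold romB
  norm_num

/-- The pair inequality at every inverse temperature up to `romB`. -/
theorem rom_conditions (h : Spec romLaw 1 (-1) lam) {β : ℝ} (hβ : 0 < β) (hβB : β ≤ romB) {R : ℝ}
    (hR : R ∈ Set.Ioc (0:ℝ) 1) :
    ∃ τ y₁ y₂, 0 ≤ τ ∧ τ * (1 + R) * 1 < y₁ ∧ τ * (1 - R) * 1 < y₂ ∧
      psi romLaw (τ * (1 + R)) y₁ + psi romLaw (τ * (1 - R)) y₂
        - (τ - β) * (∫ x, x / (yt β - β * x) ∂romLaw) - 2 * psi romLaw β (yt β) < Ifun R := by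
  obtain ⟨hR0, hR1⟩ := hR
  obtain ⟨τ, c₁, c₂, hτ0, hτB, hc1, hc2, hbr⟩ := rom_pair hR0 hR1
  rw [rom_energy β hβ.ne', psi_rom_yt]
  have hB := romB_pos
  have hBβ := romA_tangent h hB hβ.le
  rw [rom_slope_B] at hBβ
  have hβB' := romA_tangent h hβ hB.le
  have hBval : psi romLaw romB romY = romA romB := by
    rw [← yt_romB, psi_rom_yt]
  rw [hBval] at hbr
  rcases le_total τ β with hτβ | hβτ
  · refine ⟨τ, c₁ + τ * R, c₂ - τ * R, hτ0, by nlinarith, by nlinarith, ?_⟩
    -- the slopes are ordered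
    have hslope : (yt β - 1) / β ≤ 152 / 157 := by
      by_contra hcon
      push Not at hcon
      have h1 : 0 < romB - β ∨ romB - β = 0 := by
        rcases hβB.lt_or_eq with h2 | h2
        · left
          linarith
        · right
          linarith
      rcases h1 with h1 | h1
      · have h2 := mul_lt_mul_of_pos_right hcon h1
        nlinarith
      · have e : β = romB := by linarith
        rw [e, rom_slope_B] at hcon
        exact lt_irrefl _ hcon
    have h2 : (τ - β) * (152 / 157) ≤ (τ - β) * ((yt β - 1) / β) ∨ True := Or.inr trivial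
    have h3 := mul_le_mul_of_nonneg_left hslope (by linarith : 0 ≤ β - τ)
    nlinarith
  · refine ⟨β, yt (β * (1 + R)), yt (β * (1 - R)), hβ.le, ?_, ?_, ?_⟩
    · have := (abs_lt.1 (yt_gt (β * (1 + R)))).2
      linarith
    · have := (abs_lt.1 (yt_gt (β * (1 - R)))).2
      linarith
    · rw [psi_rom_yt, psi_rom_yt]
      have hD := romD_mono (R := R) hβ hβτ
      have hle1 : romA (τ * (1 + R)) ≤ psi romLaw (τ * (1 + R)) (c₁ + τ * R) := by
        refine romA_le_psi ?_
        rw [abs_of_nonneg (by positivity)]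
        nlinarith
      have hle2 : romA (τ * (1 - R)) ≤ psi romLaw (τ * (1 - R)) (c₂ - τ * R) := by
        have hp : 0 ≤ 1 - R := by linarith
        refine romA_le_psi ?_
        rw [abs_of_nonneg (by positivity)]
        nlinarith
      have hτtan := romA_tangent h hB hτ0
      rw [rom_slope_B] at hτtan
      simp only [sub_self, zero_mul, sub_zero]
      nlinarith

/-- The exact limit of the mean pressure up to `romB`. -/
theorem rom_mean_limit (h : Spec romLaw 1 (-1) lam) {β : ℝ} (hβ : 0 < β) (hβB : β ≤ romB) :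
    Tendsto (fun N : ℕ => ∫ U, pressure β (lam N) U ∂(haarO N)) atTop (𝓝 (romA β)) := by
  have hy : β * 1 < yt β := by
    have := (abs_lt.1 (yt_gt β)).2
    linarith
  have := mean_pressure_limit' h hβ hy (rom_saddle β) (fun R hR => rom_conditions h hβ hβB hR)
  rwa [psi_rom_yt] at this

/-- The value of the model's function at the entropy crisis. -/
lemma psi_crisis : psi romLaw (4 * Real.sqrt 15) 16 = 15 / 2 - Real.log 2 := by
  rw [psi_rom]
  have hs : Real.sqrt 15 ^ 2 = 15 := Real.sq_sqrt (by norm_num)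
  have hs0 : 0 ≤ Real.sqrt 15 := Real.sqrt_nonneg _
  have hs1 : Real.sqrt 15 < 4 := by nlinarith
  have h1 : (0:ℝ) < 16 - 4 * Real.sqrt 15 := by linarith
  have h2 : (0:ℝ) < 16 + 4 * Real.sqrt 15 := by linarith
  rw [← Real.log_mul h1.ne' h2.ne']
  have e : (16 - 4 * Real.sqrt 15) * (16 + 4 * Real.sqrt 15) = 2 ^ 4 := by nlinarith
  rw [e, Real.log_pow]
  push_cast
  ring

/-- The upper bound for the mean pressure above the entropy crisis. -/
theorem rom_frozen (h : Spec romLaw 1 (-1) lam) {β ε : ℝ} (hβ : 4 * Real.sqrt 15 ≤ β) (hε : 0 < ε) :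
    ∀ᶠ N : ℕ in atTop, ∫ U, pressure β (lam N) U ∂(haarO N) ≤ (Real.sqrt 15 / 8) * β - Real.log 2 + ε := by
  have hs : Real.sqrt 15 ^ 2 = 15 := Real.sq_sqrt (by norm_num)
  have hs0 : 0 < Real.sqrt 15 := Real.sqrt_pos.2 (by norm_num)
  have hs1 : Real.sqrt 15 < 4 := by nlinarith
  have hy : 4 * Real.sqrt 15 * 1 < 16 := by linarith
  have := mean_frozen h (β' := 4 * Real.sqrt 15) (by positivity) hβ hy hε
  rw [psi_crisis] at this
  have e : β / (4 * Real.sqrt 15) * (15 / 2 - Real.log 2 + Real.log 2) = (Real.sqrt 15 / 8) * β := by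
    have e1 : (15:ℝ) / 2 = Real.sqrt 15 ^ 2 / 2 := by rw [hs]
    rw [sub_add_cancel, e1]
    field_simp
    ring
  rwa [e] at this

/-- The slope of the model is strictly increasing. -/
lemma rom_slope_lt {t t' : ℝ} (ht : 0 < t) (htt : t < t') : (yt t - 1) / t < (yt t' - 1) / t' := by
  have ht' : 0 < t' := ht.trans htt
  have e : ∀ s : ℝ, 0 < s → (yt s - 1) / s = s / yt s := by
    intro s hs
    have h1 := yt_sq s
    have h2 := (yt_pos s).ne'
    rw [div_eq_div_iff hs.ne' h2]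
    nlinarith
  rw [e t ht, e t' ht']
  by_contra hcon
  push Not at hcon
  have hy := yt_pos t
  have hy' := yt_pos t'
  have hr : 0 < t' / yt t' := by positivity
  have h1 := yt_sq t
  have h2 := yt_sq t'
  -- `y (1 - r ^ 2) = 1`
  have e1 : yt t * (1 - (t / yt t) ^ 2) = 1 := by
    field_simp
    nlinarith
  have e2 : yt t' * (1 - (t' / yt t') ^ 2) = 1 := by
    field_simp
    nlinarith
  have h3 : (t' / yt t') ^ 2 ≤ (t / yt t) ^ 2 := pow_le_pow_left₀ hr.le hcon 2
  have h4 : 0 < 1 - (t / yt t) ^ 2 := by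
    by_contra h5
    push Not at h5
    nlinarith
  have h5 : yt t' ≤ yt t := by
    by_contra h6
    push Not at h6
    nlinarith
  have e3 : t' = (t' / yt t') * yt t' := by
    field_simp
  have e4 : t = (t / yt t) * yt t := by
    field_simp
  have h6 : (t' / yt t') * yt t' ≤ (t / yt t) * yt t :=
    mul_le_mul hcon h5 hy'.le (by positivity)
  rw [← e3, ← e4] at h6
  linarith

lemma rom_slope_crisis : (yt (4 * Real.sqrt 15) - 1) / (4 * Real.sqrt 15) = Real.sqrt 15 / 4 := by
  have hs : Real.sqrt 15 ^ 2 = 15 := Real.sq_sqrt (by norm_num)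
  have hs0 : 0 < Real.sqrt 15 := Real.sqrt_pos.2 (by norm_num)
  have hy : yt (4 * Real.sqrt 15) = 16 := by
    unfold yt
    have e : Real.sqrt (1 + 4 * (4 * Real.sqrt 15) ^ 2) = 31 := by
      rw [Real.sqrt_eq_iff_mul_self_eq (by positivity) (by norm_num)]
      nlinarith
    rw [e]
    norm_num
  rw [hy]
  field_simp
  nlinarith

lemma romA_crisis : romA (4 * Real.sqrt 15) = 15 / 2 - Real.log 2 := by
  have hs : Real.sqrt 15 ^ 2 = 15 := Real.sq_sqrt (by norm_num)
  have hs0 : 0 < Real.sqrt 15 := Real.sqrt_pos.2 (by norm_num)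
  have hy : yt (4 * Real.sqrt 15) = 16 := by
    unfold yt
    have e : Real.sqrt (1 + 4 * (4 * Real.sqrt 15) ^ 2) = 31 := by
      rw [Real.sqrt_eq_iff_mul_self_eq (by positivity) (by norm_num)]
      nlinarith
    rw [e]
    norm_num
  rw [← psi_rom_yt, hy, psi_crisis]

/-- Above the entropy crisis the annealed value is strictly above the frozen line. -/
theorem rom_gap (h : Spec romLaw 1 (-1) lam) {β : ℝ} (hβ : 4 * Real.sqrt 15 < β) :
    (Real.sqrt 15 / 8) * β - Real.log 2 < romA β := by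
  have hs : Real.sqrt 15 ^ 2 = 15 := Real.sq_sqrt (by norm_num)
  have hs0 : 0 < Real.sqrt 15 := Real.sqrt_pos.2 (by norm_num)
  obtain ⟨c, hc⟩ : ∃ c, c = 4 * Real.sqrt 15 := ⟨_, rfl⟩
  rw [← hc] at hβ
  have hc0 : 0 < c := by
    rw [hc]
    positivity
  obtain ⟨γ, hγ⟩ : ∃ γ, γ = (c + β) / 2 := ⟨_, rfl⟩
  have h1 : c < γ := by
    rw [hγ]
    linarith
  have h2 : γ < β := by
    rw [hγ]
    linarith
  have t1 := romA_tangent h hc0 (s := γ) (by linarith)
  have t2 := romA_tangent h (hc0.trans h1) (s := β) (by linarith)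
  have hsl := rom_slope_lt hc0 h1
  have e0 := rom_slope_crisis
  have e1 := romA_crisis
  rw [← hc] at e0 e1
  rw [e0] at t1 hsl
  rw [e1] at t1
  have h3 : (1 / 2) * (Real.sqrt 15 / 4) * (β - γ) < (1 / 2) * ((yt γ - 1) / γ) * (β - γ) := by
    have h4 : 0 < β - γ := by linarith
    nlinarith
  have e2 : (Real.sqrt 15 / 8) * β - Real.log 2
      = 15 / 2 - Real.log 2 + (1 / 2) * (Real.sqrt 15 / 4) * (γ - c) + (1 / 2) * (Real.sqrt 15 / 4) * (β - γ) := by
    rw [hc]
    nlinarith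
  rw [e2]
  linarith

/-- A configuration bounds the pressure from below. -/
lemma energy_le_pressure {N : ℕ} (hN : N ≠ 0) {β : ℝ} (l : Fin N → ℝ) (U : OG N) (σ : Fin N → Bool) :
    (β / 2) * ((1 / (N : ℝ)) * (spin σ ⬝ᵥ (couplings l U *ᵥ spin σ))) - Real.log 2 ≤ pressure β l U := by
  have hN' : (0:ℝ) < N := Nat.cast_pos.2 (Nat.pos_of_ne_zero hN)
  rw [pressure_eq_bzs hN]
  have h1 : bz β l U σ ≤ bzs β l U :=
    Finset.single_le_sum (f := fun σ => bz β l U σ) (fun σ _ => (bz_pos β l U σ).le) (Finset.mem_univ σ)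
  have h2 := Real.log_le_log (bz_pos β l U σ) h1
  unfold bz at h2
  rw [Real.log_exp] at h2
  have e : (β / 2) * ((1 / (N : ℝ)) * (spin σ ⬝ᵥ (couplings l U *ᵥ spin σ))) - Real.log 2
      = (1 / (N : ℝ)) * ((β / 2) * (spin σ ⬝ᵥ (couplings l U *ᵥ spin σ)) - N * Real.log 2) := by
    field_simp
  rw [e]
  refine mul_le_mul_of_nonneg_left ?_ (by positivity)
  linarith

/-- A bound on all configurations bounds the pressure from above. -/
lemma pressure_le_of_energy {N : ℕ} (hN : N ≠ 0) {β c : ℝ} (hβ : 0 ≤ β) (l : Fin N → ℝ) (U : OG N)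
    (hc : ∀ σ : Fin N → Bool, (1 / (N : ℝ)) * (spin σ ⬝ᵥ (couplings l U *ᵥ spin σ)) ≤ c) :
    pressure β l U ≤ (β / 2) * c := by
  have hN' : (0:ℝ) < N := Nat.cast_pos.2 (Nat.pos_of_ne_zero hN)
  rw [pressure_eq_bzs hN]
  have h1 : ∀ σ, bz β l U σ ≤ Real.exp ((β / 2) * (N * c)) := by
    intro σ
    unfold bz
    apply Real.exp_le_exp.2
    have h2 := hc σ
    rw [div_mul_eq_mul_div, one_mul, div_le_iff₀ hN'] at h2
    refine mul_le_mul_of_nonneg_left ?_ (by positivity)
    linarith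
  have h2 : bzs β l U ≤ 2 ^ N * Real.exp ((β / 2) * (N * c)) := by
    unfold bzs
    have h3 := Finset.sum_le_sum fun σ (_ : σ ∈ (Finset.univ : Finset (Fin N → Bool))) => h1 σ
    refine h3.trans (le_of_eq ?_)
    simp [Finset.card_univ]
  have h3 := Real.log_le_log (bzs_pos β l U) h2
  rw [Real.log_mul (by positivity) (Real.exp_pos _).ne', Real.log_exp, Real.log_pow] at h3
  have e : (β / 2) * c = (1 / (N : ℝ)) * ((β / 2) * (N * c)) := by
    field_simp
  rw [e]
  refine mul_le_mul_of_nonneg_left ?_ (by positivity)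
  linarith

/-- The ground state energy is at most `√15 / 4` with high probability. -/
theorem rom_ground_upper (h : Spec romLaw 1 (-1) lam) {ε : ℝ} (hε : 0 < ε) :
    Tendsto (fun N : ℕ => (haarO N).real {U | ∃ σ : Fin N → Bool,
      Real.sqrt 15 / 4 + ε ≤ (1 / (N : ℝ)) * (spin σ ⬝ᵥ (couplings (lam N) U *ᵥ spin σ))}) atTop (𝓝 0) := by
  have hs : Real.sqrt 15 ^ 2 = 15 := Real.sq_sqrt (by norm_num)
  have hs0 : 0 < Real.sqrt 15 := Real.sqrt_pos.2 (by norm_num)
  obtain ⟨β, hβ⟩ : ∃ β, β = 4 * Real.sqrt 15 := ⟨_, rfl⟩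
  have hβ0 : 0 < β := by
    rw [hβ]
    positivity
  have hup := prob_upper h (β := β) (A := (Real.sqrt 15 / 8) * β - Real.log 2)
    (fun ε' hε' => rom_frozen h (by rw [hβ]) hε') (ε := (β / 2) * ε) (by positivity)
  refine squeeze_zero' (Eventually.of_forall fun N => measureReal_nonneg) ?_ hup
  filter_upwards [eventually_gt_atTop 0] with N hN
  refine measureReal_mono ?_ (measure_ne_top _ _)
  intro U hU
  obtain ⟨σ, hσ⟩ := hU
  have h1 := energy_le_pressure (β := β) hN.ne' (lam N) U σ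
  have h2 := mul_le_mul_of_nonneg_left hσ (by positivity : 0 ≤ β / 2)
  change (Real.sqrt 15 / 8) * β - Real.log 2 + (β / 2) * ε ≤ pressure β (lam N) U
  have e : (β / 2) * (Real.sqrt 15 / 4 + ε) = (Real.sqrt 15 / 8) * β + (β / 2) * ε := by ring
  rw [e] at h2
  linarith

/-- The tangent line at `romB`. -/
theorem rom_tangent (h : Spec romLaw 1 (-1) lam) (β : ℝ) {ε : ℝ} (hε : 0 < ε) :
    Tendsto (fun N : ℕ => (haarO N).real
      {U | pressure β (lam N) U ≤ romA romB + (β - romB) * (76 / 157) - ε}) atTop (𝓝 0) := by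
  have hB := romB_pos
  have hlim := rom_mean_limit h hB (le_refl _)
  have hy : romB * 1 < yt romB := by
    have := (abs_lt.1 (yt_gt romB)).2
    linarith
  have hsl : (1 / 2) * ∫ x, x / (yt romB - romB * x) ∂romLaw = 76 / 157 := by
    rw [rom_energy romB hB.ne', rom_slope_B]
    norm_num
  have key : ∀ ε' > 0, ∀ᶠ N : ℕ in atTop,
      romA romB + (β - romB) * (76 / 157) - ε' ≤ ∫ U, pressure β (lam N) U ∂(haarO N) := by
    intro ε' hε'
    have hl : Tendsto (fun N : ℕ => ∫ U, pressure romB (lam N) U ∂(haarO N)) atTop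
        (𝓝 (psi romLaw romB (yt romB))) := by
      rwa [psi_rom_yt]
    have := mean_tangent h hB hy hl β hε'
    rwa [hsl, psi_rom_yt] at this
  exact prob_lower h key hε

/-- The ground state energy is at least `152 / 157` with high probability. -/
theorem rom_ground_lower (h : Spec romLaw 1 (-1) lam) {ε : ℝ} (hε : 0 < ε) :
    Tendsto (fun N : ℕ => (haarO N).real {U | ∀ σ : Fin N → Bool,
      (1 / (N : ℝ)) * (spin σ ⬝ᵥ (couplings (lam N) U *ᵥ spin σ)) ≤ 152 / 157 - ε}) atTop (𝓝 0) := by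
  obtain ⟨K, hK⟩ : ∃ K, K = |romA romB - romB * (76 / 157)| + 1 := ⟨_, rfl⟩
  have hK0 : 0 < K := by
    rw [hK]
    positivity
  obtain ⟨β, hβ⟩ : ∃ β, β = 2 * K / ε := ⟨_, rfl⟩
  have hβ0 : 0 < β := by
    rw [hβ]
    positivity
  have hdown := rom_tangent h β (ε := 1) one_pos
  refine squeeze_zero' (Eventually.of_forall fun N => measureReal_nonneg) ?_ hdown
  filter_upwards [eventually_gt_atTop 0] with N hN
  refine measureReal_mono ?_ (measure_ne_top _ _)
  intro U hU
  have h1 := pressure_le_of_energy (β := β) hN.ne' hβ0.le (lam N) U hU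
  change pressure β (lam N) U ≤ romA romB + (β - romB) * (76 / 157) - 1
  refine h1.trans ?_
  have e : (β / 2) * (152 / 157 - ε) = β * (76 / 157) - (β * ε) / 2 := by ring
  have e2 : β * ε = 2 * K := by
    rw [hβ]
    field_simp
  rw [e, e2]
  have h3 := neg_abs_le (romA romB - romB * (76 / 157))
  have h4 := le_abs_self (romA romB - romB * (76 / 157))
  rw [hK]
  nlinarith

end Vale.Agent.Lib.P166
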