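import Vale.Agent.Lib.P166.RomFinal
import Vale.Agent.Lib.P166.Fails

/-!
Collected consequences for the random orthogonal model, with the numerical constant unfolded.
-/

open scoped BigOperators Topology ENNReal
open MeasureTheory Filter Matrix

namespace Vale.Agent.Lib.P166

variable {lam : ∀ N, Fin N → ℝ}

lemma romB_eq : romB = 23864 / 1545 := rfl

/-- The exact limit up to `romB`, in probability. -/
theorem rom_limit (h : Spec romLaw 1 (-1) lam) {β ε : ℝ} (hβ : 0 < β) (hβB : β ≤ 23864 / 1545) (hε : 0 < ε) :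
    Tendsto (fun N : ℕ => (haarO N).real {U | ε ≤ |pressure β (lam N) U - romA β|}) atTop (𝓝 0) :=
  prob_limit h (rom_mean_limit h hβ hβB) hε

/-- The frozen upper bound above the entropy crisis, in probability. -/
theorem rom_upper (h : Spec romLaw 1 (-1) lam) {β ε : ℝ} (hβ : 4 * Real.sqrt 15 ≤ β) (hε : 0 < ε) :
    Tendsto (fun N : ℕ => (haarO N).real
      {U | (Real.sqrt 15 / 8) * β - Real.log 2 + ε ≤ pressure β (lam N) U}) atTop (𝓝 0) :=
  prob_upper h (fun _ hε' => rom_frozen h hβ hε') hε

end Vale.Agent.Lib.P166
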