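import Vale.Agent.Lib.P166.Limit

/-!
The limiting function `Ψ`, convergence to it, and existence of approximate saddle points.
-/

open scoped BigOperators NNReal ENNReal Topology BoundedContinuousFunction
open MeasureTheory ProbabilityTheory Matrix Filter

namespace Vale.Agent.Lib.P166

variable {μ : Measure ℝ} {a b : ℝ} {lam : ∀ N, Fin N → ℝ}

/-- The limiting function `Ψ(t,y) = ½ (y - 1 - ∫ log (y - t x) dμ(x))`. -/
noncomputable def psi (μ : Measure ℝ) (t y : ℝ) : ℝ :=
  (1 / 2) * (y - 1 - ∫ x, Real.log (y - t * x) ∂μ)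

/-- Convergence to the limiting function, uniformly near a point. -/
theorem psi_conv (h : Spec μ a b lam) {t₀ y₀ : ℝ} (ht₀ : 0 ≤ t₀) (hy₀ : t₀ * a < y₀) {ε : ℝ}
    (hε : 0 < ε) :
    ∃ η > 0, ∀ᶠ N : ℕ in atTop, ∀ t y : ℝ, |t - t₀| < η → |y - y₀| < η →
      |psiN (lam N) t y - psi μ t₀ y₀| < ε := by
  have hΦ : ContinuousOn (fun p : ℝ × ℝ => Real.log p.1) {p | 0 < p.1} :=
    Real.continuousOn_log.comp continuous_fst.continuousOn fun p hp => (ne_of_gt hp : p.1 ≠ 0)
  obtain ⟨η, hη, hev⟩ := avg_conv h (Φ := fun x _ => Real.log x) hΦ ht₀ hy₀ hε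
  refine ⟨min η ε, lt_min hη hε, ?_⟩
  filter_upwards [hev] with N hN t y ht hy
  have h1 := hN t y (ht.trans_le (min_le_left _ _)) (hy.trans_le (min_le_left _ _))
  have h2 := hy.trans_le (min_le_right _ _)
  obtain ⟨h3, h4⟩ := abs_lt.1 h1
  obtain ⟨h5, h6⟩ := abs_lt.1 h2
  unfold psiN psi
  rw [abs_lt]
  constructor <;> linarith

/-- Functions bounded on `[b, a]` are integrable. -/
lemma integrable_supp (h : Spec μ a b lam) {f : ℝ → ℝ} (hf : Measurable f) {C : ℝ}
    (hC : ∀ x ∈ Set.Icc b a, |f x| ≤ C) : Integrable f μ := by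
  have := h.prob
  refine Integrable.of_bound hf.aestronglyMeasurable C ?_
  filter_upwards [h.supp] with x hx
  rw [Real.norm_eq_abs]
  exact hC x hx

lemma integrable_one_div (h : Spec μ a b lam) {β y : ℝ} (hβ : 0 ≤ β) (hy : β * a < y) :
    Integrable (fun x => 1 / (y - β * x)) μ := by
  refine integrable_supp h (C := 1 / (y - β * a)) ?_ ?_
  · fun_prop
  · intro x hx
    have h1 : β * x ≤ β * a := mul_le_mul_of_nonneg_left hx.2 hβ
    have h2 : 0 < y - β * a := by linarith
    have h3 : 0 < y - β * x := by linarith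
    rw [abs_of_pos (by positivity)]
    exact one_div_le_one_div_of_le h2 (by linarith)

/-- Existence of saddle points near the limiting saddle point. -/
theorem saddle_near (h : Spec μ a b lam) {β y₀ : ℝ} (hβ : 0 ≤ β) (hy₀ : β * a < y₀)
    (hsad : ∫ x, 1 / (y₀ - β * x) ∂μ = 1) {e : ℝ} (he : 0 < e) :
    ∀ᶠ N : ℕ in atTop, ∃ y, |y - y₀| < e ∧ ∑ i, 1 / (y - β * lam N i) = N := by
  classical
  have hprob := h.prob
  obtain ⟨g, hg⟩ : ∃ g, g = y₀ - β * a := ⟨_, rfl⟩
  have hg0 : 0 < g := by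
    rw [hg]
    linarith
  obtain ⟨e', he'⟩ : ∃ e', e' = min (e / 2) (g / 2) := ⟨_, rfl⟩
  have he'0 : 0 < e' := by
    rw [he']
    exact lt_min (by positivity) (by positivity)
  have he'1 : e' ≤ e / 2 := by
    rw [he']
    exact min_le_left _ _
  have he'2 : e' ≤ g / 2 := by
    rw [he']
    exact min_le_right _ _
  have hym : β * a < y₀ - e' := by
    rw [hg] at he'2
    linarith
  have hyp : β * a < y₀ + e' := by linarith
  have hab := h.le
  obtain ⟨M, hM⟩ : ∃ M, M = y₀ - β * b + 1 := ⟨_, rfl⟩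
  have hbd : ∀ x ∈ Set.Icc b a, g ≤ y₀ - β * x ∧ y₀ - β * x + 1 ≤ M := by
    intro x hx
    have h1 : β * x ≤ β * a := mul_le_mul_of_nonneg_left hx.2 hβ
    have h2 : β * b ≤ β * x := mul_le_mul_of_nonneg_left hx.1 hβ
    constructor
    · rw [hg]
      linarith
    · rw [hM]
      linarith
  obtain ⟨c, hc⟩ : ∃ c, c = e' / (M * (M + e')) := ⟨_, rfl⟩
  have hM0 : 0 < M := by
    have := (hbd a ⟨hab, le_refl a⟩)
    linarith [this.1, this.2]
  have hc0 : 0 < c := by
    rw [hc]
    positivity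
  have hlow : 1 + c ≤ ∫ x, 1 / (y₀ - e' - β * x) ∂μ := by
    have hI0 := integrable_one_div h hβ hy₀
    have hI1 := integrable_one_div h hβ hym
    have : ∫ x, (1 / (y₀ - β * x) + c) ∂μ ≤ ∫ x, 1 / (y₀ - e' - β * x) ∂μ := by
      refine integral_mono_ae (hI0.add (integrable_const c)) hI1 ?_
      filter_upwards [h.supp] with x hx
      obtain ⟨h1, h2⟩ := hbd x hx
      obtain ⟨D, hD⟩ : ∃ D, D = y₀ - β * x := ⟨_, rfl⟩
      rw [← hD] at h1 h2
      have e1 : y₀ - e' - β * x = D - e' := by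
        rw [hD]
        ring
      rw [e1, ← hD]
      have hDe : 0 < D - e' := by linarith
      have hD0 : 0 < D := by linarith
      have e2 : 1 / (D - e') - 1 / D = e' / (D * (D - e')) := by
        field_simp
        ring
      have e3 : c ≤ e' / (D * (D - e')) := by
        rw [hc]
        refine div_le_div_of_nonneg_left he'0.le (by positivity) ?_
        have h5 : D ≤ M := by linarith
        have h6 : D - e' ≤ M + e' := by linarith
        exact mul_le_mul h5 h6 hDe.le hM0.le
      linarith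
    rw [integral_add hI0 (integrable_const c), hsad, integral_const] at this
    simpa using this
  have hup : ∫ x, 1 / (y₀ + e' - β * x) ∂μ ≤ 1 - c := by
    have hI0 := integrable_one_div h hβ hy₀
    have hI1 := integrable_one_div h hβ hyp
    have : ∫ x, 1 / (y₀ + e' - β * x) ∂μ ≤ ∫ x, (1 / (y₀ - β * x) - c) ∂μ := by
      refine integral_mono_ae hI1 (hI0.sub (integrable_const c)) ?_
      filter_upwards [h.supp] with x hx
      obtain ⟨h1, h2⟩ := hbd x hx
      obtain ⟨D, hD⟩ : ∃ D, D = y₀ - β * x := ⟨_, rfl⟩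
      rw [← hD] at h1 h2
      have e1 : y₀ + e' - β * x = D + e' := by
        rw [hD]
        ring
      rw [e1, ← hD]
      have hD0 : 0 < D := by linarith
      have e2 : 1 / D - 1 / (D + e') = e' / (D * (D + e')) := by
        field_simp
        ring
      have e3 : c ≤ e' / (D * (D + e')) := by
        rw [hc]
        refine div_le_div_of_nonneg_left he'0.le (by positivity) ?_
        have h5 : D ≤ M := by linarith
        have h6 : D + e' ≤ M + e' := by linarith
        exact mul_le_mul h5 h6 (by positivity) hM0.le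
      linarith
    rw [integral_sub hI0 (integrable_const c), hsad, integral_const] at this
    simpa using this
  have hΦ : ContinuousOn (fun p : ℝ × ℝ => 1 / p.1) {p | 0 < p.1} := by
    refine continuousOn_const.div continuous_fst.continuousOn fun p hp => (ne_of_gt hp : p.1 ≠ 0)
  obtain ⟨η₁, hη₁, hev₁⟩ := avg_conv h (Φ := fun x _ => 1 / x) hΦ hβ hym (ε := c / 2) (by positivity)
  obtain ⟨η₂, hη₂, hev₂⟩ := avg_conv h (Φ := fun x _ => 1 / x) hΦ hβ hyp (ε := c / 2) (by positivity)
  obtain ⟨e₃, he₃, m, hm, M', hev₃⟩ := margin h hβ hym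
  filter_upwards [hev₁, hev₂, hev₃, eventually_gt_atTop 0] with N h1 h2 h3 hNpos
  have hN0 : (0 : ℝ) < N := Nat.cast_pos.2 hNpos
  have h1' := h1 β (y₀ - e') (by simpa using hη₁) (by simpa using hη₁)
  have h2' := h2 β (y₀ + e') (by simpa using hη₂) (by simpa using hη₂)
  have hpos : ∀ i, 0 < y₀ - e' - β * lam N i := fun i =>
    hm.trans_le (h3 β (y₀ - e') (by simpa using he₃.le) (by simpa using he₃.le) i).1
  obtain ⟨f, hf⟩ : ∃ f : ℝ → ℝ, f = fun y => (1 / (N : ℝ)) * ∑ i, 1 / (y - β * lam N i) := ⟨_, rfl⟩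
  have hfc : ContinuousOn f (Set.Icc (y₀ - e') (y₀ + e')) := by
    rw [hf]
    refine continuousOn_const.mul (continuousOn_finsetSum _ fun i _ => ?_)
    refine continuousOn_const.div (by fun_prop) fun y hy => ?_
    have := hpos i
    have h5 := hy.1
    linarith
  have hfm : 1 ≤ f (y₀ - e') := by
    rw [hf]
    have := (abs_lt.1 h1').1
    linarith
  have hfp : f (y₀ + e') ≤ 1 := by
    rw [hf]
    have := (abs_lt.1 h2').2
    linarith
  obtain ⟨y, hy, hfy⟩ := intermediate_value_Icc' (by linarith) hfc ⟨hfp, hfm⟩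
  refine ⟨y, ?_, ?_⟩
  · rw [abs_lt]
    constructor <;> linarith [hy.1, hy.2]
  · rw [hf] at hfy
    simp only at hfy
    field_simp at hfy
    exact hfy

end Vale.Agent.Lib.P166
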