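import Vale.Agent.Lib.P166.Sharp

/-!
The mean pressure is a Schur convex function of the spectrum.
-/

open scoped BigOperators Topology
open MeasureTheory Matrix Filter

namespace Vale.Agent.Lib.P166

variable {N : ℕ}

lemma bz_eq (β : ℝ) (l : Fin N → ℝ) (U : OG N) (σ : Fin N → Bool) :
    bz β l U σ = Real.exp ((β / 2) * ∑ i, l i * coord U σ i ^ 2) := by
  unfold bz
  rw [energy_coord]

lemma pressure_eq_bzs (hN : N ≠ 0) (β : ℝ) (l : Fin N → ℝ) (U : OG N) :
    pressure β l U = (1 / (N : ℝ)) * (Real.log (bzs β l U) - N * Real.log 2) := by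
  unfold pressure
  rw [partitionFn_eq, Real.log_mul (by positivity) (bzs_pos β l U).ne']
  have e2 : Real.log (1 / 2 ^ N) = - (N * Real.log 2) := by
    rw [one_div, Real.log_inv, Real.log_pow]
  rw [e2]
  ring

/-- The pressure is Lipschitz in the spectrum for the supremum norm. -/
theorem pressure_lipschitz (hN : N ≠ 0) (β : ℝ) {l l' : Fin N → ℝ} {δ : ℝ} (hδ : ∀ i, |l i - l' i| ≤ δ)
    (U : OG N) : pressure β l U ≤ pressure β l' U + |β| * δ / 2 := by
  have hN' : (0:ℝ) < N := Nat.cast_pos.2 (Nat.pos_of_ne_zero hN)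
  have h1 : ∀ σ, bz β l U σ ≤ bz β l' U σ * Real.exp (|β| * δ * N / 2) := by
    intro σ
    rw [bz_eq, bz_eq, ← Real.exp_add]
    apply Real.exp_le_exp.2
    have h2 : ∑ i, (l i - l' i) * coord U σ i ^ 2 ≤ δ * N := by
      rw [← nsq_coord U σ, Finset.mul_sum]
      refine Finset.sum_le_sum fun i _ => ?_
      exact mul_le_mul_of_nonneg_right ((le_abs_self _).trans (hδ i)) (sq_nonneg _)
    have h3 : - (δ * N) ≤ ∑ i, (l i - l' i) * coord U σ i ^ 2 := by
      rw [← nsq_coord U σ, Finset.mul_sum, ← Finset.sum_neg_distrib]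
      refine Finset.sum_le_sum fun i _ => ?_
      have := neg_le_of_abs_le (hδ i)
      nlinarith [sq_nonneg (coord U σ i)]
    have e : ∑ i, l i * coord U σ i ^ 2 = ∑ i, l' i * coord U σ i ^ 2 + ∑ i, (l i - l' i) * coord U σ i ^ 2 := by
      rw [← Finset.sum_add_distrib]
      refine Finset.sum_congr rfl fun i _ => ?_
      ring
    rw [e, mul_add]
    have h4 : (β / 2) * ∑ i, (l i - l' i) * coord U σ i ^ 2 ≤ |β| * δ * N / 2 := by
      have h5 := abs_le.2 ⟨h3, h2⟩
      have h6 : |(β / 2) * ∑ i, (l i - l' i) * coord U σ i ^ 2| ≤ |β| / 2 * (δ * N) := by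
        rw [abs_mul, abs_div, abs_of_pos (by norm_num : (0:ℝ) < 2)]
        exact mul_le_mul_of_nonneg_left h5 (by positivity)
      have := le_abs_self ((β / 2) * ∑ i, (l i - l' i) * coord U σ i ^ 2)
      nlinarith
    linarith
  have h2 : bzs β l U ≤ bzs β l' U * Real.exp (|β| * δ * N / 2) := by
    unfold bzs
    rw [Finset.sum_mul]
    exact Finset.sum_le_sum fun σ _ => h1 σ
  have h3 := Real.log_le_log (bzs_pos β l U) h2
  rw [Real.log_mul (bzs_pos β l' U).ne' (Real.exp_pos _).ne', Real.log_exp] at h3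
  rw [pressure_eq_bzs hN, pressure_eq_bzs hN]
  have e : |β| * δ / 2 = (1 / (N:ℝ)) * (|β| * δ * N / 2) := by
    field_simp
  rw [e, ← mul_add]
  refine mul_le_mul_of_nonneg_left ?_ (by positivity)
  linarith

section tangent
variable {ι : Type*} [Fintype ι] [Nonempty ι]

/-- The tangent inequality for the logarithm of a sum of exponentials, in all directions. -/
lemma log_sum_exp_tangent' (x x' : ι → ℝ) :
    Real.log (∑ σ, Real.exp (x σ)) + (∑ σ, Real.exp (x σ) * (x' σ - x σ)) / (∑ σ, Real.exp (x σ))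
      ≤ Real.log (∑ σ, Real.exp (x' σ)) := by
  obtain ⟨W, hW⟩ : ∃ W, W = ∑ σ, Real.exp (x σ) := ⟨_, rfl⟩
  have hW0 : 0 < W := by
    rw [hW]
    exact Finset.sum_pos (fun σ _ => Real.exp_pos _) Finset.univ_nonempty
  rw [← hW]
  obtain ⟨m, hm⟩ : ∃ m, m = (∑ σ, Real.exp (x σ) * (x' σ - x σ)) / W := ⟨_, rfl⟩
  rw [← hm]
  have h1 : ∀ σ, Real.exp (m) * (Real.exp (x σ) * (1 + (x' σ - x σ - m))) ≤ Real.exp (x' σ) := by
    intro σ
    have h2 : 1 + (x' σ - x σ - m) ≤ Real.exp (x' σ - x σ - m) := by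
      have := Real.add_one_le_exp (x' σ - x σ - m)
      linarith
    have h3 := mul_le_mul_of_nonneg_left h2 (by positivity : 0 ≤ Real.exp m * Real.exp (x σ))
    rw [← mul_assoc]
    refine h3.trans (le_of_eq ?_)
    rw [← Real.exp_add, ← Real.exp_add]
    congr 1
    ring
  have h2 : Real.exp m * W ≤ ∑ σ, Real.exp (x' σ) := by
    have h3 := Finset.sum_le_sum fun σ (_ : σ ∈ Finset.univ) => h1 σ
    refine le_trans (le_of_eq ?_) h3
    rw [← Finset.mul_sum]
    congr 1
    have e : ∀ σ, Real.exp (x σ) * (1 + (x' σ - x σ - m))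
        = Real.exp (x σ) + (Real.exp (x σ) * (x' σ - x σ) - m * Real.exp (x σ)) := by
      intro σ
      ring
    simp only [e]
    rw [Finset.sum_add_distrib, Finset.sum_sub_distrib, ← Finset.mul_sum, ← hW]
    have e2 : ∑ σ, Real.exp (x σ) * (x' σ - x σ) = m * W := by
      rw [hm]
      field_simp
    rw [e2]
    ring
  have h3 : 0 < Real.exp m * W := by positivity
  have h4 := Real.log_le_log h3 h2
  rw [Real.log_mul (Real.exp_pos _).ne' hW0.ne', Real.log_exp] at h4
  linarith

end tangent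

/-- The subgradient of the pressure with respect to the spectrum. -/
noncomputable def sgrad (β : ℝ) (l : Fin N → ℝ) (U : OG N) (i : Fin N) : ℝ :=
  (β / 2) * (1 / (N : ℝ)) * ((∑ σ, bz β l U σ * coord U σ i ^ 2) / bzs β l U)

lemma continuous_sgrad (β : ℝ) (l : Fin N → ℝ) (i : Fin N) : Continuous fun U : OG N => sgrad β l U i := by
  unfold sgrad
  refine continuous_const.mul (Continuous.div ?_ (continuous_bzs β l) fun X => (bzs_pos β l X).ne')
  exact continuous_finsetSum _ fun σ _ => (continuous_bz β l σ).mul ((continuous_coord σ i).pow 2)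

/-- The tangent inequality for the pressure in the spectrum. -/
theorem pressure_tangent (hN : N ≠ 0) (β : ℝ) (l l' : Fin N → ℝ) (U : OG N) :
    pressure β l U + ∑ i, sgrad β l U i * (l' i - l i) ≤ pressure β l' U := by
  have hN' : (0:ℝ) < N := Nat.cast_pos.2 (Nat.pos_of_ne_zero hN)
  have h := log_sum_exp_tangent' (fun σ : Fin N → Bool => (β / 2) * ∑ i, l i * coord U σ i ^ 2)
    (fun σ => (β / 2) * ∑ i, l' i * coord U σ i ^ 2)
  have e1 : ∀ l₁ : Fin N → ℝ, ∑ σ : Fin N → Bool, Real.exp ((β / 2) * ∑ i, l₁ i * coord U σ i ^ 2) = bzs β l₁ U := by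
    intro l₁
    unfold bzs
    exact Finset.sum_congr rfl fun σ _ => (bz_eq β l₁ U σ).symm
  rw [e1, e1] at h
  have e2 : ∑ σ : Fin N → Bool, Real.exp ((β / 2) * ∑ i, l i * coord U σ i ^ 2)
      * ((β / 2) * ∑ i, l' i * coord U σ i ^ 2 - (β / 2) * ∑ i, l i * coord U σ i ^ 2)
      = (β / 2) * ∑ i, (l' i - l i) * ∑ σ, bz β l U σ * coord U σ i ^ 2 := by
    have e3 : ∀ σ : Fin N → Bool, Real.exp ((β / 2) * ∑ i, l i * coord U σ i ^ 2)
        * ((β / 2) * ∑ i, l' i * coord U σ i ^ 2 - (β / 2) * ∑ i, l i * coord U σ i ^ 2)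
        = (β / 2) * ∑ i, (l' i - l i) * (bz β l U σ * coord U σ i ^ 2) := by
      intro σ
      rw [← bz_eq, ← mul_sub, ← Finset.sum_sub_distrib, mul_left_comm, Finset.mul_sum]
      congr 1
      refine Finset.sum_congr rfl fun i _ => ?_
      ring
    simp only [e3]
    rw [← Finset.mul_sum, Finset.sum_comm]
    congr 1
    refine Finset.sum_congr rfl fun i _ => ?_
    rw [Finset.mul_sum]
  rw [e2] at h
  rw [pressure_eq_bzs hN, pressure_eq_bzs hN]
  have e4 : ∑ i, sgrad β l U i * (l' i - l i)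
      = (1 / (N:ℝ)) * (((β / 2) * ∑ i, (l' i - l i) * ∑ σ, bz β l U σ * coord U σ i ^ 2) / bzs β l U) := by
    unfold sgrad
    have hb := (bzs_pos β l U).ne'
    rw [Finset.mul_sum, Finset.sum_div, Finset.mul_sum]
    refine Finset.sum_congr rfl fun i _ => ?_
    field_simp
  rw [e4, ← mul_add]
  refine mul_le_mul_of_nonneg_left ?_ (by positivity)
  linarith

/-- The tangent inequality for the mean pressure. -/
theorem mean_tangent_spectrum (hN : N ≠ 0) (β : ℝ) (l : Fin N → ℝ) :
    ∃ q : Fin N → ℝ, ∀ l' : Fin N → ℝ, (∫ U, pressure β l U ∂(haarO N)) + ∑ i, q i * (l' i - l i)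
      ≤ ∫ U, pressure β l' U ∂(haarO N) := by
  refine ⟨fun i => ∫ U, sgrad β l U i ∂(haarO N), fun l' => ?_⟩
  have i1 := integrable_OG (continuous_pressure β l)
  have i2 := integrable_OG (continuous_pressure β l')
  have i3 : ∀ i, Integrable (fun U : OG N => sgrad β l U i * (l' i - l i)) (haarO N) := fun i =>
    integrable_OG ((continuous_sgrad β l i).mul continuous_const)
  have i4 : Integrable (fun U : OG N => ∑ i, sgrad β l U i * (l' i - l i)) (haarO N) :=
    integrable_finsetSum _ fun i _ => i3 i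
  have h := integral_mono (i1.add i4) i2 (fun U => pressure_tangent hN β l l' U)
  have e : ∫ U, (pressure β l U + ∑ i, sgrad β l U i * (l' i - l i)) ∂(haarO N)
      = (∫ U, pressure β l U ∂(haarO N)) + ∑ i, (∫ U, sgrad β l U i ∂(haarO N)) * (l' i - l i) := by
    rw [integral_add i1 i4, integral_finsetSum _ fun i _ => i3 i]
    congr 1
    refine Finset.sum_congr rfl fun i _ => ?_
    rw [integral_mul_const]
  rw [← e]
  exact h

/-- The coordinates after a permutation of the eigenvectors. -/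
lemma coord_perm (π : Equiv.Perm (Fin N)) (U : OG N) (σ : Fin N → Bool) (i : Fin N) :
    coord (sp (fun _ => true) π * U) σ i = coord U σ (π i) := by
  unfold coord
  have e : ((sp (fun _ => true) π * U : OG N) : Matrix (Fin N) (Fin N) ℝ)
      = spMat (fun _ => true) π * (U : Matrix (Fin N) (Fin N) ℝ) := rfl
  rw [e, ← Matrix.mulVec_mulVec]
  simp only [Matrix.mulVec, dotProduct, spMat, Matrix.of_apply, spin]
  simp

/-- The mean pressure does not depend on the order of the spectrum. -/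
theorem mean_perm (hN : N ≠ 0) (β : ℝ) (l : Fin N → ℝ) (π : Equiv.Perm (Fin N)) :
    ∫ U, pressure β (fun i => l (π i)) U ∂(haarO N) = ∫ U, pressure β l U ∂(haarO N) := by
  have key : ∀ U : OG N, pressure β (fun i => l (π i)) U = pressure β l (sp (fun _ => true) π⁻¹ * U) := by
    intro U
    rw [pressure_eq_bzs hN, pressure_eq_bzs hN]
    congr 3
    unfold bzs
    refine Finset.sum_congr rfl fun σ _ => ?_
    rw [bz_eq, bz_eq]
    congr 2
    simp only [coord_perm]
    rw [← Equiv.sum_comp π (fun i => l i * coord U σ (π⁻¹ i) ^ 2)]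
    simp
  simp only [key]
  exact integral_mul_left_haar (fun U => pressure β l U) (sp (fun _ => true) π⁻¹)

/-- Abel summation on the natural numbers. -/
lemma abel_nat (c d : ℕ → ℝ) (m : ℕ) (hc : ∀ i < m, c i ≤ c (i + 1))
    (hT : ∀ k ≤ m + 1, 0 ≤ ∑ i ∈ Finset.range k, d i) :
    ∑ i ∈ Finset.range (m + 1), c i * d i ≤ c m * ∑ i ∈ Finset.range (m + 1), d i := by
  induction m with
  | zero => simp
  | succ m ih =>
    have h1 := ih (fun i hi => hc i (by omega)) (fun k hk => hT k (by omega))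
    rw [Finset.sum_range_succ, Finset.sum_range_succ _ (m + 1), mul_add]
    have h2 := hc m (by omega)
    have h3 := hT (m + 1) (by omega)
    have h4 := mul_le_mul_of_nonneg_right h2 h3
    linarith

/-- Abel summation on `Fin N`. -/
lemma abel_fin (c d : Fin N → ℝ) (hc : Monotone c)
    (hT : ∀ k ≤ N, 0 ≤ ∑ i : Fin N, if i.val < k then d i else 0) (h0 : ∑ i, d i = 0) :
    ∑ i, c i * d i ≤ 0 := by
  rcases N with _ | m
  · simp
  obtain ⟨c', hc'⟩ : ∃ c' : ℕ → ℝ, c' = fun i => if h : i < m + 1 then c ⟨i, h⟩ else 0 := ⟨_, rfl⟩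
  obtain ⟨d', hd'⟩ : ∃ d' : ℕ → ℝ, d' = fun i => if h : i < m + 1 then d ⟨i, h⟩ else 0 := ⟨_, rfl⟩
  have ec : ∀ i : Fin (m + 1), c' i = c i := by
    intro i
    rw [hc']
    simp only
    rw [dif_pos i.isLt]
  have ed : ∀ i : Fin (m + 1), d' i = d i := by
    intro i
    rw [hd']
    simp only
    rw [dif_pos i.isLt]
  have e1 : ∑ i, c i * d i = ∑ i ∈ Finset.range (m + 1), c' i * d' i := by
    rw [← Fin.sum_univ_eq_sum_range (fun i => c' i * d' i)]
    refine Finset.sum_congr rfl fun i _ => ?_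
    rw [ec, ed]
  have e2 : ∑ i, d i = ∑ i ∈ Finset.range (m + 1), d' i := by
    rw [← Fin.sum_univ_eq_sum_range d']
    refine Finset.sum_congr rfl fun i _ => ?_
    rw [ed]
  have hT' : ∀ k ≤ m + 1, 0 ≤ ∑ i ∈ Finset.range k, d' i := by
    intro k hk
    have h1 := hT k hk
    have e3 : ∑ i : Fin (m + 1), (if i.val < k then d i else 0) = ∑ i ∈ Finset.range k, d' i := by
      have e4 : ∑ i : Fin (m + 1), (if i.val < k then d i else 0)
          = ∑ i ∈ Finset.range (m + 1), (if i < k then d' i else 0) := by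
        rw [← Fin.sum_univ_eq_sum_range (fun i => if i < k then d' i else 0)]
        refine Finset.sum_congr rfl fun i _ => ?_
        rw [ed]
      rw [e4, ← Finset.sum_filter]
      congr 1
      ext i
      simp only [Finset.mem_filter, Finset.mem_range]
      omega
    rwa [e3] at h1
  have hcm : ∀ i < m, c' i ≤ c' (i + 1) := by
    intro i hi
    rw [hc']
    simp only
    rw [dif_pos (by omega), dif_pos (by omega)]
    apply hc
    simp [Fin.le_def]
  have h := abel_nat c' d' m hcm hT'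
  rw [← e2, h0, mul_zero] at h
  rw [e1]
  exact h

/-- The bottom sums of a sorted vector are the smallest, under the domination of truncated means. -/
lemma bottom_sum {l v : Fin N → ℝ} (hv : Monotone v)
    (H : ∀ t, ∑ i, max (t - l i) 0 ≤ ∑ i, max (t - v i) 0) (k : ℕ) (hk : k ≤ N) :
    0 ≤ ∑ i : Fin N, if i.val < k then l i - v i else 0 := by
  rcases k with _ | k
  · simp
  have hk' : k < N := by omega
  obtain ⟨t, ht⟩ : ∃ t, t = v ⟨k, hk'⟩ := ⟨_, rfl⟩
  have h1 : ∀ i : Fin N, max (t - v i) 0 = if i.val < k + 1 then t - v i else 0 := by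
    intro i
    split_ifs with hi
    · apply max_eq_left
      rw [ht]
      have : v i ≤ v ⟨k, hk'⟩ := hv (by simp [Fin.le_def]; omega)
      linarith
    · apply max_eq_right
      rw [ht]
      have : v ⟨k, hk'⟩ ≤ v i := hv (by simp [Fin.le_def]; omega)
      linarith
  have h2 : ∀ i : Fin N, (if i.val < k + 1 then t - l i else 0) ≤ max (t - l i) 0 := by
    intro i
    split_ifs
    · exact le_max_left _ _
    · exact le_max_right _ _
  have h3 := H t
  simp only [h1] at h3
  have h4 := Finset.sum_le_sum fun i (_ : i ∈ Finset.univ) => h2 i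
  have h5 := h4.trans h3
  have e : ∑ i : Fin N, (if i.val < k + 1 then l i - v i else 0)
      = ∑ i : Fin N, (if i.val < k + 1 then t - v i else 0) - ∑ i : Fin N, (if i.val < k + 1 then t - l i else 0) := by
    rw [← Finset.sum_sub_distrib]
    refine Finset.sum_congr rfl fun i _ => ?_
    split_ifs
    · ring
    · ring
  rw [e]
  linarith

/-- The linear form at `l` is dominated by a permutation of `w`. -/
theorem exists_perm_ge (q l w : Fin N → ℝ) (hsum : ∑ i, l i = ∑ i, w i)
    (H : ∀ t, ∑ i, max (t - l i) 0 ≤ ∑ i, max (t - w i) 0) :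
    ∃ π : Equiv.Perm (Fin N), ∑ i, q i * l i ≤ ∑ i, q i * w (π i) := by
  obtain ⟨τ, hτ⟩ : ∃ τ, τ = Tuple.sort q := ⟨_, rfl⟩
  obtain ⟨ρ, hρ⟩ : ∃ ρ, ρ = Tuple.sort w := ⟨_, rfl⟩
  have hq : Monotone (q ∘ τ) := by
    rw [hτ]
    exact Tuple.monotone_sort q
  have hw : Monotone (w ∘ ρ) := by
    rw [hρ]
    exact Tuple.monotone_sort w
  refine ⟨τ⁻¹.trans ρ, ?_⟩
  have H' : ∀ t, ∑ i, max (t - l (τ i)) 0 ≤ ∑ i, max (t - (w ∘ ρ) i) 0 := by
    intro t
    have e1 := Equiv.sum_comp τ (fun i => max (t - l i) 0)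
    have e2 := Equiv.sum_comp ρ (fun i => max (t - w i) 0)
    simp only [Function.comp]
    rw [e1, e2]
    exact H t
  have hb := bottom_sum (l := fun i => l (τ i)) hw H'
  have hzero : ∑ i, (l (τ i) - (w ∘ ρ) i) = 0 := by
    rw [Finset.sum_sub_distrib, Equiv.sum_comp τ l]
    simp only [Function.comp]
    rw [Equiv.sum_comp ρ w, hsum]
    ring
  have hA := abel_fin (q ∘ τ) (fun i => l (τ i) - (w ∘ ρ) i) hq (fun k hk => hb k hk) hzero
  have e1 : ∑ i, q i * l i = ∑ i, (q ∘ τ) i * l (τ i) := by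
    rw [← Equiv.sum_comp τ (fun i => q i * l i)]
    rfl
  have e2 : ∑ i, q i * w ((τ⁻¹.trans ρ) i) = ∑ i, (q ∘ τ) i * (w ∘ ρ) i := by
    rw [← Equiv.sum_comp τ (fun i => q i * w ((τ⁻¹.trans ρ) i))]
    refine Finset.sum_congr rfl fun i _ => ?_
    simp
  rw [e1, e2]
  have e3 : ∑ i, (q ∘ τ) i * (l (τ i) - (w ∘ ρ) i) = ∑ i, (q ∘ τ) i * l (τ i) - ∑ i, (q ∘ τ) i * (w ∘ ρ) i := by
    rw [← Finset.sum_sub_distrib]
    refine Finset.sum_congr rfl fun i _ => ?_
    ring
  rw [e3] at hA
  linarith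

/-- Schur convexity of the mean pressure. -/
theorem mean_schur (hN : N ≠ 0) (β : ℝ) {l w : Fin N → ℝ} (hsum : ∑ i, l i = ∑ i, w i)
    (H : ∀ t, ∑ i, max (t - l i) 0 ≤ ∑ i, max (t - w i) 0) :
    ∫ U, pressure β l U ∂(haarO N) ≤ ∫ U, pressure β w U ∂(haarO N) := by
  obtain ⟨q, hq⟩ := mean_tangent_spectrum hN β l
  obtain ⟨π, hπ⟩ := exists_perm_ge q l w hsum H
  have h1 := hq (fun i => w (π i))
  rw [mean_perm hN β w π] at h1
  have e : ∑ i, q i * (w (π i) - l i) = ∑ i, q i * w (π i) - ∑ i, q i * l i := by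
    rw [← Finset.sum_sub_distrib]
    refine Finset.sum_congr rfl fun i _ => ?_
    ring
  rw [e] at h1
  linarith

end Vale.Agent.Lib.P166
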