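import Vale.Agent.Lib.P166.HighT

/-!
The universal high temperature range `β (a - mean) < 1`.
-/

open scoped BigOperators Topology BoundedContinuousFunction
open MeasureTheory Matrix Filter

namespace Vale.Agent.Lib.P166

variable {μ : Measure ℝ} {a b : ℝ} {lam : ∀ N, Fin N → ℝ}

/-- A function whose increments are quadratically small cannot increase. -/
lemma le_of_quad_incr {f : ℝ → ℝ} {p q C : ℝ} (hpq : p ≤ q) (hC : 0 ≤ C)
    (hf : ∀ t t', p ≤ t → t < t' → t' ≤ q → f t' - f t ≤ C * (t' - t) ^ 2) : f q ≤ f p := by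
  rcases hpq.eq_or_lt with rfl | hlt
  · exact le_refl _
  obtain ⟨L, hL⟩ : ∃ L, L = q - p := ⟨_, rfl⟩
  have hL0 : 0 < L := by
    rw [hL]
    linarith
  have key : ∀ n : ℕ, 0 < n → f q - f p ≤ C * L ^ 2 / n := by
    intro n hn
    have hn' : (0:ℝ) < n := Nat.cast_pos.2 hn
    obtain ⟨g, hg⟩ : ∃ g : ℕ → ℝ, g = fun k : ℕ => f (p + (k:ℝ) * (L / n)) := ⟨_, rfl⟩
    have hsum : ∑ k ∈ Finset.range n, (g (k + 1) - g k) = g n - g 0 := Finset.sum_range_sub g n
    have h0 : g 0 = f p := by
      rw [hg]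
      simp
    have h1 : g n = f q := by
      rw [hg]
      simp only
      have : p + (n:ℝ) * (L / n) = q := by
        rw [hL]
        field_simp
        ring
      rw [this]
    have hstep : ∀ k ∈ Finset.range n, g (k + 1) - g k ≤ C * (L / n) ^ 2 := by
      intro k hk
      have hk' : (k:ℝ) + 1 ≤ n := by
        have := Finset.mem_range.1 hk
        exact_mod_cast this
      have hd : 0 < L / n := by positivity
      have e1 : p + ((k + 1 : ℕ):ℝ) * (L / n) = (p + (k:ℝ) * (L / n)) + L / n := by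
        push_cast
        ring
      have h2 := hf (p + (k:ℝ) * (L / n)) (p + ((k + 1 : ℕ):ℝ) * (L / n)) ?_ ?_ ?_
      · rw [hg]
        simp only
        refine h2.trans (le_of_eq ?_)
        rw [e1]
        ring
      · have : 0 ≤ (k:ℝ) * (L / n) := by positivity
        linarith
      · rw [e1]
        linarith
      · have : ((k + 1 : ℕ):ℝ) * (L / n) ≤ n * (L / n) := by
          refine mul_le_mul_of_nonneg_right ?_ hd.le
          push_cast
          exact hk'
        have e2 : (n:ℝ) * (L / n) = L := by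
          field_simp
        rw [e2] at this
        linarith
    have h3 := Finset.sum_le_sum hstep
    rw [hsum, h0, h1, Finset.sum_const, Finset.card_range, nsmul_eq_mul] at h3
    refine h3.trans (le_of_eq ?_)
    field_simp
  by_contra hcon
  push Not at hcon
  have hpos : 0 < f q - f p := by linarith
  obtain ⟨n, hn⟩ := exists_nat_gt (C * L ^ 2 / (f q - f p))
  have hn0 : (0:ℝ) < n := lt_of_le_of_lt (by positivity) hn
  have hn1 : 0 < n := by exact_mod_cast hn0
  have h1 := key n hn1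
  rw [div_lt_iff₀ hpos] at hn
  rw [le_div_iff₀ hn0] at h1
  nlinarith

lemma Spec.integrable_id (h : Spec μ a b lam) : Integrable (fun x : ℝ => x) μ := by
  refine integrable_supp h (C := |a| + |b|) measurable_id ?_
  intro x hx
  rw [abs_le]
  have := neg_abs_le b
  have := le_abs_self a
  have := abs_nonneg a
  have := abs_nonneg b
  constructor <;> linarith [hx.1, hx.2]

lemma Spec.mean_le (h : Spec μ a b lam) : ∫ x, x ∂μ ≤ a := by
  have hprob := h.prob
  have h1 : ∫ x, x ∂μ ≤ ∫ _x, a ∂μ := by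
    refine integral_mono_ae h.integrable_id (integrable_const _) ?_
    filter_upwards [h.supp] with x hx using hx.2
  simpa using h1

/-- Existence of the saddle point at high temperature. -/
theorem saddle_exists (h : Spec μ a b lam) {t : ℝ} (ht : 0 < t) (hs : t * (a - ∫ x, x ∂μ) < 1) :
    ∃ y, t * a < y ∧ (∫ x, 1 / (y - t * x) ∂μ = 1) ∧ y ≤ 1 + t * a := by
  have hprob := h.prob
  obtain ⟨m, hm⟩ : ∃ m, m = ∫ x, x ∂μ := ⟨_, rfl⟩
  rw [← hm] at hs
  have hma : m ≤ a := by
    rw [hm]
    exact h.mean_le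
  obtain ⟨g, hg⟩ : ∃ g, g = 1 - t * (a - m) := ⟨_, rfl⟩
  have hg0 : 0 < g := by
    rw [hg]
    linarith
  obtain ⟨yL, hyL⟩ : ∃ yL, yL = 1 + t * m := ⟨_, rfl⟩
  obtain ⟨yU, hyU⟩ : ∃ yU, yU = 1 + t * a := ⟨_, rfl⟩
  have hLU : yL ≤ yU := by
    rw [hyL, hyU]
    nlinarith
  have hden : ∀ y ∈ Set.Icc yL yU, ∀ x ∈ Set.Icc b a, g ≤ y - t * x := by
    intro y hy x hx
    have h1 : t * x ≤ t * a := mul_le_mul_of_nonneg_left hx.2 ht.le
    have h2 := hy.1
    rw [hyL] at h2
    rw [hg]
    nlinarith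
  have hcont : ContinuousOn (fun y => ∫ x, 1 / (y - t * x) ∂μ) (Set.Icc yL yU) := by
    refine continuousOn_of_dominated (bound := fun _ => 1 / g) ?_ ?_ (integrable_const _) ?_
    · intro y _
      exact Measurable.aestronglyMeasurable (by fun_prop)
    · intro y hy
      filter_upwards [h.supp] with x hx
      have h1 := hden y hy x hx
      have h2 : 0 < y - t * x := by linarith
      rw [Real.norm_eq_abs, abs_of_pos (by positivity)]
      exact one_div_le_one_div_of_le hg0 h1
    · filter_upwards [h.supp] with x hx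
      refine ContinuousOn.div continuousOn_const (by fun_prop) ?_
      intro y hy
      have h1 := hden y hy x hx
      linarith
  have hintg : ∀ y ∈ Set.Icc yL yU, Integrable (fun x => 1 / (y - t * x)) μ := by
    intro y hy
    refine integrable_supp h (C := 1 / g) (by fun_prop) ?_
    intro x hx
    have h1 := hden y hy x hx
    have h2 : 0 < y - t * x := by linarith
    rw [abs_of_pos (by positivity)]
    exact one_div_le_one_div_of_le hg0 h1
  have hgL : 1 ≤ ∫ x, 1 / (yL - t * x) ∂μ := by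
    have h1 : ∫ x, (2 - (yL - t * x)) ∂μ ≤ ∫ x, 1 / (yL - t * x) ∂μ := by
      refine integral_mono_ae ((integrable_const _).sub ((integrable_const _).sub (h.integrable_id.const_mul t)))
        (hintg yL (Set.left_mem_Icc.2 hLU)) ?_
      filter_upwards [h.supp] with x hx
      have h2 := hden yL (Set.left_mem_Icc.2 hLU) x hx
      have h3 : 0 < yL - t * x := by linarith
      change 2 - (yL - t * x) ≤ 1 / (yL - t * x)
      rw [le_div_iff₀ h3]
      nlinarith [sq_nonneg (yL - t * x - 1)]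
    have h4 : ∫ x, (2 - (yL - t * x)) ∂μ = 1 := by
      have e : ∀ x, 2 - (yL - t * x) = (2 - yL) + t * x := fun x => by ring
      simp only [e]
      rw [integral_add (integrable_const _) (h.integrable_id.const_mul t), integral_const_mul, ← hm, hyL]
      simp
      ring
    linarith
  have hgU : ∫ x, 1 / (yU - t * x) ∂μ ≤ 1 := by
    have h1 : ∫ x, 1 / (yU - t * x) ∂μ ≤ ∫ _x, (1:ℝ) ∂μ := by
      refine integral_mono_ae (hintg yU (Set.right_mem_Icc.2 hLU)) (integrable_const _) ?_
      filter_upwards [h.supp] with x hx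
      have h2 : t * x ≤ t * a := mul_le_mul_of_nonneg_left hx.2 ht.le
      have h3 : 1 ≤ yU - t * x := by
        rw [hyU]
        linarith
      change 1 / (yU - t * x) ≤ 1
      rw [div_le_iff₀ (by linarith)]
      linarith
    simpa using h1
  obtain ⟨y, hy, hsad⟩ := intermediate_value_Icc' hLU hcont ⟨hgU, hgL⟩
  refine ⟨y, ?_, hsad, ?_⟩
  · have := hy.1
    rw [hyL] at this
    rw [hg] at hg0
    nlinarith
  · rw [← hyU]
    exact hy.2

/-- The key one step bound for the slope of the annealed function. -/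
theorem slope_step (h : Spec μ a b lam) {t t' y y' α : ℝ} (ht : 0 < t) (htt : t < t')
    (hα : a - ∫ x, x ∂μ ≤ α) (hy : t * a < y) (hsad : ∫ x, 1 / (y - t * x) ∂μ = 1)
    (hy' : t' * a < y') (hsad' : ∫ x, 1 / (y' - t' * x) ∂μ = 1) :
    (y' - 1) / t' - (y - 1) / t ≤ α * (t' - t) / t := by
  have hprob := h.prob
  have ht' : 0 < t' := ht.trans htt
  obtain ⟨z, hz⟩ : ∃ z, z = y / t := ⟨_, rfl⟩
  obtain ⟨z', hz'⟩ : ∃ z', z' = y' / t' := ⟨_, rfl⟩
  have hya : y = t * z := by
    rw [hz]
    field_simp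
  have hya' : y' = t' * z' := by
    rw [hz']
    field_simp
  have hza : a < z := by
    rw [hz, lt_div_iff₀ ht]
    linarith
  have hza' : a < z' := by
    rw [hz', lt_div_iff₀ ht']
    linarith
  have hbd : ∀ (c : ℝ), a < c → ∀ x ∈ Set.Icc b a, 0 < c - x ∧ 1 / (c - x) ≤ 1 / (c - a) := by
    intro c hc x hx
    have h1 : 0 < c - x := by linarith [hx.2]
    refine ⟨h1, one_div_le_one_div_of_le (by linarith) (by linarith [hx.2])⟩
  have hint : ∀ (c : ℝ), a < c → Integrable (fun x => 1 / (c - x)) μ := by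
    intro c hc
    refine integrable_supp h (C := 1 / (c - a)) (by fun_prop) ?_
    intro x hx
    obtain ⟨h1, h2⟩ := hbd c hc x hx
    rw [abs_of_pos (by positivity)]
    exact h2
  have hGt : ∫ x, 1 / (z - x) ∂μ = t := by
    have e : ∀ x, 1 / (z - x) = t * (1 / (y - t * x)) := by
      intro x
      rw [hya]
      by_cases hx : z - x = 0
      · have : t * z - t * x = t * (z - x) := by ring
        rw [this, hx]
        simp
      · have : t * z - t * x = t * (z - x) := by ring
        rw [this]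
        field_simp
    simp only [e]
    rw [integral_const_mul, hsad, mul_one]
  have hGt' : ∫ x, 1 / (z' - x) ∂μ = t' := by
    have e : ∀ x, 1 / (z' - x) = t' * (1 / (y' - t' * x)) := by
      intro x
      rw [hya']
      by_cases hx : z' - x = 0
      · have : t' * z' - t' * x = t' * (z' - x) := by ring
        rw [this, hx]
        simp
      · have : t' * z' - t' * x = t' * (z' - x) := by ring
        rw [this]
        field_simp
    simp only [e]
    rw [integral_const_mul, hsad', mul_one]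
  -- monotonicity
  have hzz : z' < z := by
    by_contra hcon
    push Not at hcon
    have h1 : ∫ x, 1 / (z' - x) ∂μ ≤ ∫ x, 1 / (z - x) ∂μ := by
      refine integral_mono_ae (hint z' hza') (hint z hza) ?_
      filter_upwards [h.supp] with x hx
      obtain ⟨h2, _⟩ := hbd z hza x hx
      exact one_div_le_one_div_of_le h2 (by linarith)
    rw [hGt, hGt'] at h1
    linarith
  -- difference of the resolvents
  have hdiff : t' - t ≤ (z - z') / (z' - a) * t := by
    have h1 : ∫ x, 1 / (z' - x) ∂μ ≤ ∫ x, (1 / (z - x) + (z - z') / (z' - a) * (1 / (z - x))) ∂μ := by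
      refine integral_mono_ae (hint z' hza') ((hint z hza).add ((hint z hza).const_mul _)) ?_
      filter_upwards [h.supp] with x hx
      obtain ⟨h2, _⟩ := hbd z hza x hx
      obtain ⟨h3, _⟩ := hbd z' hza' x hx
      have h4 : 0 < z' - a := by linarith
      have e1 : 1 / (z' - x) - 1 / (z - x) = (z - z') / ((z' - x) * (z - x)) := by
        field_simp
        ring
      have e2 : (z - z') / ((z' - x) * (z - x)) ≤ (z - z') / (z' - a) * (1 / (z - x)) := by
        rw [div_mul_div_comm, mul_one]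
        refine div_le_div_of_nonneg_left (by linarith) (by positivity) ?_
        exact mul_le_mul_of_nonneg_right (by linarith [hx.2]) h2.le
      change 1 / (z' - x) ≤ 1 / (z - x) + (z - z') / (z' - a) * (1 / (z - x))
      linarith
    rw [integral_add (hint z hza) ((hint z hza).const_mul _), integral_const_mul, hGt, hGt'] at h1
    linarith
  -- Jensen
  obtain ⟨m, hm⟩ : ∃ m, m = ∫ x, x ∂μ := ⟨_, rfl⟩
  rw [← hm] at hα
  have hma : m ≤ a := by
    rw [hm]
    exact h.mean_le
  obtain ⟨c, hc⟩ : ∃ c, c = z' - m := ⟨_, rfl⟩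
  have hc0 : 0 < c := by
    rw [hc]
    linarith
  have hjen : 1 / c ≤ t' := by
    have h1 : ∫ x, (2 / c - (z' - x) / c ^ 2) ∂μ ≤ ∫ x, 1 / (z' - x) ∂μ := by
      have hi : Integrable (fun x : ℝ => (z' - x) / c ^ 2) μ :=
        ((integrable_const _).sub h.integrable_id).div_const _
      refine integral_mono_ae ((integrable_const _).sub hi) (hint z' hza') ?_
      filter_upwards [h.supp] with x hx
      obtain ⟨h2, _⟩ := hbd z' hza' x hx
      change 2 / c - (z' - x) / c ^ 2 ≤ 1 / (z' - x)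
      have e : 1 / (z' - x) - (2 / c - (z' - x) / c ^ 2) = (z' - x - c) ^ 2 / ((z' - x) * c ^ 2) := by
        field_simp
        ring
      have : 0 ≤ (z' - x - c) ^ 2 / ((z' - x) * c ^ 2) := by positivity
      linarith
    have hi : Integrable (fun x : ℝ => (z' - x) / c ^ 2) μ :=
      ((integrable_const _).sub h.integrable_id).div_const _
    have e0 : ∫ x, (z' - x) / c ^ 2 ∂μ = c / c ^ 2 := by
      rw [integral_div, integral_sub (integrable_const _) h.integrable_id, ← hm]
      simp only [integral_const, probReal_univ, smul_eq_mul, one_mul]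
      rw [hc]
    rw [integral_sub (integrable_const _) hi, e0, hGt'] at h1
    simp only [integral_const, probReal_univ, smul_eq_mul, one_mul] at h1
    refine le_trans (le_of_eq ?_) h1
    field_simp
    ring
  have hza2 : 1 / t' - α ≤ z' - a := by
    have h1 : 1 / t' ≤ c := by
      rw [div_le_iff₀ ht']
      rw [div_le_iff₀ hc0] at hjen
      linarith
    rw [hc] at h1
    linarith
  -- algebra
  have hdt : 0 < t' - t := by linarith
  have h4 : (t' - t) * (z' - a) ≤ (z - z') * t := by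
    have h5 : 0 < z' - a := by linarith
    rw [div_mul_eq_mul_div, le_div_iff₀ h5] at hdiff
    linarith
  have h5 : (t' - t) * (1 / t' - α) ≤ (z - z') * t :=
    (mul_le_mul_of_nonneg_left hza2 hdt.le).trans h4
  have e1 : (y' - 1) / t' = z' - 1 / t' := by
    rw [hya']
    field_simp
  have e2 : (y - 1) / t = z - 1 / t := by
    rw [hya]
    field_simp
  rw [e1, e2, le_div_iff₀ ht]
  have e3 : (z' - 1 / t' - (z - 1 / t)) * t = (z' - z) * t - t * (1 / t') + 1 := by
    field_simp
    ring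
  have e4 : (t' - t) * (1 / t' - α) = 1 - t * (1 / t') - α * (t' - t) := by
    field_simp
  rw [e3]
  rw [e4] at h5
  linarith

/-- The slope grows at most logarithmically. -/
theorem slope_log (h : Spec μ a b lam) {Y : ℝ → ℝ} {t₀ t₁ α : ℝ} (ht₀ : 0 < t₀) (h01 : t₀ ≤ t₁)
    (hα : a - ∫ x, x ∂μ ≤ α)
    (hY : ∀ t ∈ Set.Icc t₀ t₁, t * a < Y t ∧ ∫ x, 1 / (Y t - t * x) ∂μ = 1) :
    (Y t₁ - 1) / t₁ - (Y t₀ - 1) / t₀ ≤ α * Real.log (t₁ / t₀) := by
  have hα0 : 0 ≤ α := by
    have := h.mean_le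
    linarith
  have key := le_of_quad_incr (f := fun u => (Y u - 1) / u - α * Real.log u) (p := t₀) (q := t₁)
    (C := α / t₀ ^ 2) h01 (by positivity) ?_
  · rw [Real.log_div (by linarith) (by linarith)]
    nlinarith
  intro u u' h1 h2 h3
  have hu : 0 < u := by linarith
  have hu' : 0 < u' := by linarith
  obtain ⟨h4, h5⟩ := hY u ⟨h1, by linarith⟩
  obtain ⟨h6, h7⟩ := hY u' ⟨by linarith, h3⟩
  have hs := slope_step h hu h2 hα h4 h5 h6 h7
  have hlog : Real.log u' - Real.log u = Real.log (u' / u) := (Real.log_div hu'.ne' hu.ne').symm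
  have hl1 : 1 - u / u' ≤ Real.log (u' / u) := by
    have := Real.one_sub_inv_le_log_of_pos (div_pos hu' hu)
    rwa [inv_div] at this
  have e1 : α * (u' - u) / u - α * Real.log (u' / u) ≤ α * ((u' - u) ^ 2 / (u * u')) := by
    have e2 : (u' - u) / u - (1 - u / u') = (u' - u) ^ 2 / (u * u') := by
      field_simp
    have e3 : α * (u' - u) / u = α * ((u' - u) / u) := by ring
    rw [e3, ← e2]
    have := mul_le_mul_of_nonneg_left hl1 hα0
    nlinarith
  have e4 : α * ((u' - u) ^ 2 / (u * u')) ≤ α / t₀ ^ 2 * (u' - u) ^ 2 := by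
    have : (u' - u) ^ 2 / (u * u') ≤ (u' - u) ^ 2 / t₀ ^ 2 := by
      refine div_le_div_of_nonneg_left (sq_nonneg _) (by positivity) ?_
      rw [sq]
      exact mul_le_mul h1 (by linarith) ht₀.le hu.le
    have h8 := mul_le_mul_of_nonneg_left this hα0
    refine h8.trans (le_of_eq ?_)
    ring
  have e5 : (Y u' - 1) / u' - α * Real.log u' - ((Y u - 1) / u - α * Real.log u)
      = ((Y u' - 1) / u' - (Y u - 1) / u) - α * (Real.log u' - Real.log u) := by ring
  rw [e5, hlog]
  linarith

/-- The convexity inequality for the function `psi` at a saddle point. -/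
theorem psi_tangent (h : Spec μ a b lam) {t t' y y' : ℝ} (ht : 0 < t) (ht' : 0 ≤ t') (hy : t * a < y)
    (hsad : ∫ x, 1 / (y - t * x) ∂μ = 1) (hy' : t' * a < y') :
    psi μ t y + (1 / 2) * ((y - 1) / t) * (t' - t) ≤ psi μ t' y' := by
  have hprob := h.prob
  have hbd : ∀ x ∈ Set.Icc b a, y - t * a ≤ y - t * x ∧ y' - t' * a ≤ y' - t' * x := by
    intro x hx
    have h1 : t * x ≤ t * a := mul_le_mul_of_nonneg_left hx.2 ht.le
    have h2 : t' * x ≤ t' * a := mul_le_mul_of_nonneg_left hx.2 ht'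
    constructor <;> linarith
  have hg : 0 < y - t * a := by linarith
  have hg' : 0 < y' - t' * a := by linarith
  have i1 := integrable_log_affine h (t := t) (y := y) hg (fun x hx => (hbd x hx).1)
  have i2 := integrable_log_affine h (t := t') (y := y') hg' (fun x hx => (hbd x hx).2)
  have i3 := integrable_one_div h ht.le hy
  obtain ⟨r, hr⟩ : ∃ r, r = t' / t := ⟨_, rfl⟩
  have i4 : Integrable (fun x => r + (y' - y * r) * (1 / (y - t * x)) - 1) μ :=
    ((integrable_const _).add (i3.const_mul _)).sub (integrable_const _)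
  have e4 : ∫ x, (r + (y' - y * r) * (1 / (y - t * x)) - 1) ∂μ = r + (y' - y * r) - 1 := by
    have i5 : Integrable (fun x => r + (y' - y * r) * (1 / (y - t * x))) μ :=
      (integrable_const _).add (i3.const_mul _)
    have i6 : Integrable (fun x => (y' - y * r) * (1 / (y - t * x))) μ := i3.const_mul _
    rw [integral_sub i5 (integrable_const _), integral_add (integrable_const _) i6, integral_const_mul, hsad]
    simp
  have hkey : ∫ x, Real.log (y' - t' * x) ∂μ
      ≤ ∫ x, (Real.log (y - t * x) + (r + (y' - y * r) * (1 / (y - t * x)) - 1)) ∂μ := by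
    refine integral_mono_ae i2 (i1.add i4) ?_
    filter_upwards [h.supp] with x hx
    obtain ⟨h1, h2⟩ := hbd x hx
    have hw : 0 < y - t * x := by linarith
    have hw' : 0 < y' - t' * x := by linarith
    have e1 : Real.log (y' - t' * x) - Real.log (y - t * x) = Real.log ((y' - t' * x) / (y - t * x)) :=
      (Real.log_div hw'.ne' hw.ne').symm
    have e2 := Real.log_le_sub_one_of_pos (div_pos hw' hw)
    have hw0 : y - t * x ≠ 0 := hw.ne'
    have ht0 : t ≠ 0 := ht.ne'
    have e3 : (y' - t' * x) / (y - t * x) = r + (y' - y * r) * (1 / (y - t * x)) := by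
      have ht2 : t' = r * t := by
        rw [hr]
        field_simp
      have e5 : y' - t' * x = r * (y - t * x) + (y' - y * r) := by
        rw [ht2]
        ring
      rw [e5, add_div, mul_div_assoc, div_self hw0, mul_one, mul_one_div]
    change Real.log (y' - t' * x) ≤ Real.log (y - t * x) + (r + (y' - y * r) * (1 / (y - t * x)) - 1)
    rw [e3] at e2
    rw [e3] at e1
    linarith
  rw [integral_add i1 i4, e4] at hkey
  unfold psi
  have e : (1 / 2) * ((y - 1) / t) * (t' - t) = (1 / 2) * ((y - 1) * r - (y - 1)) := by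
    rw [hr]
    field_simp
  rw [e]
  nlinarith

/-- The one-sided Taylor bound below the base point. -/
theorem taylor_below (h : Spec μ a b lam) {Y : ℝ → ℝ} {β t α : ℝ} (ht : 0 < t) (htβ : t ≤ β)
    (hα : a - ∫ x, x ∂μ ≤ α)
    (hY : ∀ u ∈ Set.Icc t β, u * a < Y u ∧ ∫ x, 1 / (Y u - u * x) ∂μ = 1) :
    psi μ t (Y t) ≤ psi μ β (Y β) - (1 / 2) * ((Y β - 1) / β) * (β - t)
      + (α / 2) * (t * Real.log (t / β) - t + β) := by
  have hα0 : 0 ≤ α := by
    have := h.mean_le
    linarith
  have hβ : 0 < β := by linarith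
  obtain ⟨s, hs⟩ : ∃ s, s = (Y β - 1) / β := ⟨_, rfl⟩
  obtain ⟨ω, hω⟩ : ∃ ω : ℝ → ℝ, ω = fun u => - (psi μ u (Y u)
      - (s / 2 * (u - β) + (α / 2) * (u * Real.log (u / β) - u + β))) := ⟨_, rfl⟩
  have key := le_of_quad_incr (f := ω) (p := t) (q := β) (C := α / (2 * t)) htβ (by positivity) ?_
  · rw [hω] at key
    simp only at key
    have e : Real.log (β / β) = 0 := by
      rw [div_self hβ.ne', Real.log_one]
    rw [e] at key
    simp only [sub_self, mul_zero, zero_add, add_zero] at key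
    have e3 : (1 / 2) * s * (β - t) = - (s / 2 * (t - β)) := by ring
    rw [← hs, e3]
    have e2 : (α / 2) * (0 - β + β) = 0 := by ring
    rw [e2] at key
    linarith
  intro u u' h1 h2 h3
  have hu : 0 < u := by linarith
  have hu' : 0 < u' := by linarith
  obtain ⟨h4, h5⟩ := hY u ⟨h1, by linarith⟩
  obtain ⟨h6, h7⟩ := hY u' ⟨by linarith, h3⟩
  have htan := psi_tangent h hu hu'.le h4 h5 h6
  -- the slope at `u` compared with the slope at `β`
  have hsl := slope_log h (Y := Y) (t₀ := u) (t₁ := β) (α := α) hu (by linarith) hα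
    (fun v hv => hY v ⟨by linarith [hv.1], hv.2⟩)
  rw [← hs] at hsl
  have hdt : 0 < u' - u := by linarith
  obtain ⟨r, hr⟩ : ∃ r, r = (Y u - 1) / u := ⟨_, rfl⟩
  rw [← hr] at htan hsl
  have el1 : Real.log (β / u) = Real.log β - Real.log u := Real.log_div hβ.ne' hu.ne'
  have el2 : Real.log (u' / β) = Real.log u' - Real.log β := Real.log_div hu'.ne' hβ.ne'
  have el3 : Real.log (u / β) = Real.log u - Real.log β := Real.log_div hu.ne' hβ.ne'
  have hl : Real.log u' - Real.log u ≤ (u' - u) / u := by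
    have e := Real.log_le_sub_one_of_pos (div_pos hu' hu)
    rw [Real.log_div hu'.ne' hu.ne'] at e
    have e2 : u' / u - 1 = (u' - u) / u := by
      field_simp
    linarith
  have hφ : (u' * Real.log (u' / β) - u') - (u * Real.log (u / β) - u)
      ≤ (u' - u) * Real.log (u' / β) := by
    rw [el2, el3]
    have : u * (Real.log u' - Real.log u) ≤ u * ((u' - u) / u) := mul_le_mul_of_nonneg_left hl hu.le
    have e : u * ((u' - u) / u) = u' - u := by
      field_simp
    nlinarith
  rw [hω]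
  simp only
  -- final bound
  have hfin : (u' - u) * ((α / 2) * (Real.log u' - Real.log u)) ≤ α / (2 * u) * (u' - u) ^ 2 := by
    have h8 := mul_le_mul_of_nonneg_left hl (by positivity : 0 ≤ (u' - u) * (α / 2))
    have e0 : (u' - u) * ((α / 2) * (Real.log u' - Real.log u))
        = (u' - u) * (α / 2) * (Real.log u' - Real.log u) := by ring
    rw [e0]
    refine h8.trans (le_of_eq ?_)
    field_simp
  have hC : α / (2 * u) * (u' - u) ^ 2 ≤ α / (2 * t) * (u' - u) ^ 2 := by
    refine mul_le_mul_of_nonneg_right ?_ (sq_nonneg _)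
    exact div_le_div_of_nonneg_left hα0 (by positivity) (by linarith)
  have hsl2 : (u' - u) * (s - r) ≤ (u' - u) * (α * (Real.log β - Real.log u)) := by
    refine mul_le_mul_of_nonneg_left ?_ hdt.le
    rw [el1] at hsl
    exact hsl
  have hφ2 := mul_le_mul_of_nonneg_left hφ (by positivity : 0 ≤ α / 2)
  rw [el2, el3] at hφ2
  rw [el2, el3]
  linarith

lemma psi_scale (h : Spec μ a b lam) {β y₀ c : ℝ} (hβ : 0 ≤ β) (hc : 0 < c) (hy : β * a < y₀) :
    psi μ (β * c) (c * y₀) = (1 / 2) * (c * y₀ - 1 - Real.log c - ∫ x, Real.log (y₀ - β * x) ∂μ) := by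
  have hprob := h.prob
  have hbd : ∀ x ∈ Set.Icc b a, y₀ - β * a ≤ y₀ - β * x := by
    intro x hx
    have h1 : β * x ≤ β * a := mul_le_mul_of_nonneg_left hx.2 hβ
    linarith
  have i1 := integrable_log_affine h (t := β) (y := y₀) (by linarith) hbd
  have e : ∫ x, Real.log (c * y₀ - β * c * x) ∂μ = ∫ x, (Real.log c + Real.log (y₀ - β * x)) ∂μ := by
    refine integral_congr_ae ?_
    filter_upwards [h.supp] with x hx
    have h1 := hbd x hx
    have h2 : 0 < y₀ - β * x := by linarith
    have e2 : c * y₀ - β * c * x = c * (y₀ - β * x) := by ring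
    rw [e2, Real.log_mul hc.ne' h2.ne']
  unfold psi
  rw [e, integral_add (integrable_const _) i1]
  simp only [integral_const, probReal_univ, smul_eq_mul, one_mul]
  ring

/-- The logarithmic inequality behind the universal range. -/
lemma log_gap {R : ℝ} (hR : 0 < R) : 2 * R < (2 + R) * Real.log (1 + R) := by
  have h1 := Real.lt_log_one_add_of_pos hR
  rw [div_lt_iff₀ (by linarith)] at h1
  linarith

/-- The bracket in the universal range, below `R = 1`. -/
theorem sharp_bracket (h : Spec μ a b lam) {β : ℝ} {Y : ℝ → ℝ} (hβ : 0 < β)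
    (hs : β * (a - ∫ x, x ∂μ) ≤ 1)
    (hY : ∀ u ∈ Set.Ioc 0 β, u * a < Y u ∧ ∫ x, 1 / (Y u - u * x) ∂μ = 1) {R : ℝ} (hR0 : 0 < R)
    (hR1 : R < 1) :
    psi μ (β * (1 + R)) ((1 + R) * Y β) + psi μ (β * (1 - R)) (Y (β * (1 - R))) - 2 * psi μ β (Y β)
      < Ifun R := by
  have hy0 := (hY β ⟨hβ, le_refl β⟩).1
  have hp : 0 < 1 - R := by linarith
  have hp2 : 0 < 1 + R := by linarith
  have ht : 0 < β * (1 - R) := by positivity
  have hα : a - ∫ x, x ∂μ ≤ 1 / β := by
    rw [le_div_iff₀ hβ]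
    linarith
  have hT := taylor_below h (Y := Y) (β := β) (t := β * (1 - R)) (α := 1 / β) ht (by nlinarith) hα
    (fun u hu => hY u ⟨by linarith [hu.1], hu.2⟩)
  have hS := psi_scale h hβ.le hp2 hy0
  have e1 : β * (1 - R) / β = 1 - R := by
    field_simp
  rw [e1] at hT
  have e2 : (1 / β / 2) * (β * (1 - R) * Real.log (1 - R) - β * (1 - R) + β)
      = (1 / 2) * ((1 - R) * Real.log (1 - R) + R) := by
    field_simp
    ring
  have e3 : (1 / 2) * ((Y β - 1) / β) * (β - β * (1 - R)) = (1 / 2) * ((Y β - 1) * R) := by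
    field_simp
    ring
  rw [e2, e3] at hT
  have e4 : psi μ β (Y β) = (1 / 2) * (Y β - 1 - ∫ x, Real.log (Y β - β * x) ∂μ) := rfl
  have hgap := log_gap hR0
  have e5 : Ifun R = (1 / 2) * ((1 + R) * Real.log (1 + R) + (1 - R) * Real.log (1 - R)) := rfl
  rw [e5]
  rw [hS]
  rw [e4] at hT ⊢
  nlinarith

/-- The bracket in the universal range, at `R = 1`. -/
theorem sharp_bracket_one (h : Spec μ a b lam) {β y₀ : ℝ} (hβ : 0 < β)
    (hs : β * (a - ∫ x, x ∂μ) ≤ 1) (hy : β * a < y₀) (hy2 : y₀ ≤ 1 + β * a) :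
    psi μ (β * (1 + 1)) ((1 + 1) * y₀) + psi μ (β * (1 - 1)) 1 - 2 * psi μ β y₀ < Ifun 1 := by
  have hprob := h.prob
  have hS := psi_scale h hβ.le (by norm_num : (0:ℝ) < 1 + 1) hy
  have h0 : psi μ (β * (1 - 1)) 1 = 0 := by
    unfold psi
    simp
  have hbd : ∀ x ∈ Set.Icc b a, y₀ - β * a ≤ y₀ - β * x := by
    intro x hx
    have h1 : β * x ≤ β * a := mul_le_mul_of_nonneg_left hx.2 hβ.le
    linarith
  have i1 := integrable_log_affine h (t := β) (y := y₀) (by linarith) hbd
  have hL : ∫ x, Real.log (y₀ - β * x) ∂μ ≤ 1 := by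
    have i2 : Integrable (fun x : ℝ => y₀ - β * x - 1) μ :=
      ((integrable_const _).sub (h.integrable_id.const_mul β)).sub (integrable_const _)
    have h1 : ∫ x, Real.log (y₀ - β * x) ∂μ ≤ ∫ x, (y₀ - β * x - 1) ∂μ := by
      refine integral_mono_ae i1 i2 ?_
      filter_upwards [h.supp] with x hx
      have h2 := hbd x hx
      exact Real.log_le_sub_one_of_pos (by linarith)
    have i3 : Integrable (fun x : ℝ => y₀ - β * x) μ :=
      (integrable_const _).sub (h.integrable_id.const_mul β)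
    rw [integral_sub i3 (integrable_const _), integral_sub (integrable_const _) (h.integrable_id.const_mul β),
      integral_const_mul] at h1
    simp only [integral_const, probReal_univ, smul_eq_mul, one_mul] at h1
    nlinarith
  have hI : Ifun 1 = Real.log 2 := by
    simp [Ifun]
    norm_num
    ring
  have e4 : psi μ β y₀ = (1 / 2) * (y₀ - 1 - ∫ x, Real.log (y₀ - β * x) ∂μ) := rfl
  rw [hI, h0, hS, e4]
  have e5 : Real.log (1 + 1) = Real.log 2 := by norm_num
  rw [e5]
  have := Real.log_two_gt_d9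
  norm_num at this
  linarith

/-- The local condition always holds at a saddle point, for a suitable centre. -/
theorem local_auto (h : Spec μ a b lam) {β y₀ : ℝ} (hβ : 0 < β) (hy : β * a < y₀)
    (hsad : ∫ x, 1 / (y₀ - β * x) ∂μ = 1) :
    ∃ κ, β ^ 2 * ∫ x, (x - κ) ^ 2 / (y₀ - β * x) ^ 2 ∂μ < 1 := by
  have hprob := h.prob
  have hbd : ∀ x ∈ Set.Icc b a, y₀ - β * a ≤ y₀ - β * x := by
    intro x hx
    have h1 : β * x ≤ β * a := mul_le_mul_of_nonneg_left hx.2 hβ.le
    linarith
  have hg : 0 < y₀ - β * a := by linarith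
  have i1 := integrable_one_div h hβ.le hy
  have i2 : Integrable (fun x => 1 / (y₀ - β * x) ^ 2) μ := by
    refine integrable_supp h (C := 1 / (y₀ - β * a) ^ 2) (by fun_prop) ?_
    intro x hx
    have h1 := hbd x hx
    have h2 : 0 < y₀ - β * x := by linarith
    rw [abs_of_pos (by positivity)]
    exact one_div_le_one_div_of_le (by positivity) (pow_le_pow_left₀ hg.le h1 2)
  obtain ⟨S, hS⟩ : ∃ S, S = ∫ x, 1 / (y₀ - β * x) ^ 2 ∂μ := ⟨_, rfl⟩
  have hS1 : 1 ≤ S := by
    have h1 : ∫ x, (2 * (1 / (y₀ - β * x)) - 1) ∂μ ≤ ∫ x, 1 / (y₀ - β * x) ^ 2 ∂μ := by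
      refine integral_mono_ae ((i1.const_mul 2).sub (integrable_const _)) i2 ?_
      filter_upwards [h.supp] with x hx
      have h2 := hbd x hx
      have h3 : 0 < y₀ - β * x := by linarith
      change 2 * (1 / (y₀ - β * x)) - 1 ≤ 1 / (y₀ - β * x) ^ 2
      have e : 1 / (y₀ - β * x) ^ 2 - (2 * (1 / (y₀ - β * x)) - 1) = (1 / (y₀ - β * x) - 1) ^ 2 := by
        field_simp
        ring
      nlinarith [sq_nonneg (1 / (y₀ - β * x) - 1)]
    rw [integral_sub (i1.const_mul 2) (integrable_const _), integral_const_mul, hsad, ← hS] at h1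
    simp only [integral_const, probReal_univ, smul_eq_mul, one_mul] at h1
    linarith
  have hS0 : 0 < S := by linarith
  refine ⟨(y₀ - 1 / S) / β, ?_⟩
  have e : ∀ x ∈ Set.Icc b a, β ^ 2 * ((x - (y₀ - 1 / S) / β) ^ 2 / (y₀ - β * x) ^ 2)
      = (1 / S) ^ 2 * (1 / (y₀ - β * x) ^ 2) - 2 * (1 / S) * (1 / (y₀ - β * x)) + 1 := by
    intro x hx
    have h1 := hbd x hx
    have h2 : y₀ - β * x ≠ 0 := by linarith
    have e1 : β * (x - (y₀ - 1 / S) / β) = 1 / S - (y₀ - β * x) := by
      field_simp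
      ring
    have e2 : β ^ 2 * ((x - (y₀ - 1 / S) / β) ^ 2 / (y₀ - β * x) ^ 2)
        = (β * (x - (y₀ - 1 / S) / β)) ^ 2 / (y₀ - β * x) ^ 2 := by
      rw [mul_pow]
      ring
    rw [e2, e1]
    field_simp
    ring
  rw [← integral_const_mul]
  have e6 : ∫ x, β ^ 2 * ((x - (y₀ - 1 / S) / β) ^ 2 / (y₀ - β * x) ^ 2) ∂μ
      = ∫ x, ((1 / S) ^ 2 * (1 / (y₀ - β * x) ^ 2) - 2 * (1 / S) * (1 / (y₀ - β * x)) + 1) ∂μ := by
    refine integral_congr_ae ?_
    filter_upwards [h.supp] with x hx using e x hx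
  have i3 : Integrable (fun x => (1 / S) ^ 2 * (1 / (y₀ - β * x) ^ 2)) μ := i2.const_mul _
  have i4 : Integrable (fun x => 2 * (1 / S) * (1 / (y₀ - β * x))) μ := i1.const_mul _
  have i5 : Integrable (fun x => (1 / S) ^ 2 * (1 / (y₀ - β * x) ^ 2) - 2 * (1 / S) * (1 / (y₀ - β * x))) μ :=
    i3.sub i4
  rw [e6, integral_add i5 (integrable_const _), integral_sub i3 i4, integral_const_mul,
    integral_const_mul, hsad, ← hS]
  simp only [integral_const, probReal_univ, smul_eq_mul, one_mul]
  have e7 : (1 / S) ^ 2 * S = 1 / S := by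
    field_simp
  rw [e7]
  have : 0 < 1 / S := by positivity
  linarith

/-- The limit theorem with the local condition removed. -/
theorem mean_pressure_limit' (h : Spec μ a b lam) {β y₀ : ℝ} (hβ : 0 < β) (hy₀ : β * a < y₀)
    (hsad : ∫ x, 1 / (y₀ - β * x) ∂μ = 1)
    (HT : ∀ R ∈ Set.Ioc (0 : ℝ) 1, ∃ τ y₁ y₂, 0 ≤ τ ∧ τ * (1 + R) * a < y₁ ∧ τ * (1 - R) * a < y₂ ∧
      psi μ (τ * (1 + R)) y₁ + psi μ (τ * (1 - R)) y₂ - (τ - β) * (∫ x, x / (y₀ - β * x) ∂μ)
        - 2 * psi μ β y₀ < Ifun R) :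
    Tendsto (fun N : ℕ => ∫ U, pressure β (lam N) U ∂(haarO N)) atTop (𝓝 (psi μ β y₀)) := by
  obtain ⟨κ, hκ⟩ := local_auto h hβ hy₀ hsad
  exact mean_pressure_limit h hβ hy₀ hsad hκ HT

/-- The exact limit of the mean pressure in the universal range `β (a - mean) < 1`. -/
theorem universal_limit (h : Spec μ a b lam) {β : ℝ} (hβ : 0 < β) (hs : β * (a - ∫ x, x ∂μ) < 1) :
    ∃ y₀, β * a < y₀ ∧ (∫ x, 1 / (y₀ - β * x) ∂μ = 1) ∧
      Tendsto (fun N : ℕ => ∫ U, pressure β (lam N) U ∂(haarO N)) atTop (𝓝 (psi μ β y₀)) := by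
  have hma := h.mean_le
  have hex : ∀ u : ℝ, ∃ y, u ∈ Set.Ioc 0 β → (u * a < y ∧ (∫ x, 1 / (y - u * x) ∂μ = 1) ∧ y ≤ 1 + u * a) := by
    intro u
    by_cases hu : u ∈ Set.Ioc 0 β
    · have h1 : u * (a - ∫ x, x ∂μ) < 1 :=
        lt_of_le_of_lt (mul_le_mul_of_nonneg_right hu.2 (by linarith)) hs
      obtain ⟨y, hy⟩ := saddle_exists h hu.1 h1
      exact ⟨y, fun _ => hy⟩
    · exact ⟨0, fun h' => absurd h' hu⟩
  choose Y hY using hex
  have hβmem : β ∈ Set.Ioc 0 β := ⟨hβ, le_refl β⟩
  obtain ⟨h1, h2, h3⟩ := hY β hβmem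
  refine ⟨Y β, h1, h2, ?_⟩
  refine mean_pressure_limit' h hβ h1 h2 ?_
  intro R hR
  obtain ⟨hR0, hR1⟩ := hR
  have hp2 : 0 < 1 + R := by linarith
  have hup : β * (1 + R) * a < (1 + R) * Y β := by nlinarith
  rcases hR1.lt_or_eq with hlt | rfl
  · have hp : 0 < 1 - R := by linarith
    have ht : β * (1 - R) ∈ Set.Ioc 0 β := ⟨by positivity, by nlinarith⟩
    refine ⟨β, (1 + R) * Y β, Y (β * (1 - R)), hβ.le, hup, (hY _ ht).1, ?_⟩
    have hb := sharp_bracket h (Y := Y) hβ hs.le (fun u hu => ⟨(hY u hu).1, (hY u hu).2.1⟩) hR0 hlt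
    simp only [sub_self, zero_mul, sub_zero]
    exact hb
  · refine ⟨β, (1 + 1) * Y β, 1, hβ.le, hup, ?_, ?_⟩
    · norm_num
    · have hb := sharp_bracket_one h hβ hs.le h1 h3
      have e : (β - β) * (∫ x, x / (Y β - β * x) ∂μ) = 0 := by
        rw [sub_self, zero_mul]
      rw [e, sub_zero]
      exact hb

end Vale.Agent.Lib.P166
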