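import Vale.Agent.Lib.P166.PathBound

/-!
Averaging a skew generator over the signed permutation matrices.
-/

open scoped BigOperators Nat
open MeasureTheory Matrix

namespace Vale.Agent.Lib.P166

variable {N : ℕ}

/-- Flipping one coordinate of a configuration. -/
def flipAt (a : Fin N) (s : Fin N → Bool) : Fin N → Bool := Function.update s a (!s a)

lemma flipAt_invol (a : Fin N) : Function.Involutive (flipAt a) := by
  intro s
  ext x
  by_cases h : x = a
  · subst h
    simp [flipAt]
  · simp [flipAt, h]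

lemma spin_flipAt_same (a : Fin N) (s : Fin N → Bool) : spin (flipAt a s) a = - spin s a := by
  unfold spin flipAt
  cases s a <;> simp

lemma spin_flipAt_ne {a x : Fin N} (h : x ≠ a) (s : Fin N → Bool) : spin (flipAt a s) x = spin s x := by
  simp [spin, flipAt, h]

lemma sum_flip_zero (a : Fin N) {f : (Fin N → Bool) → ℝ} (hf : ∀ s, f (flipAt a s) = - f s) :
    ∑ s, f s = 0 := by
  have h1 := Equiv.sum_comp (Function.Involutive.toPerm _ (flipAt_invol a)) f
  have h2 : ∑ s, f ((Function.Involutive.toPerm _ (flipAt_invol a)) s) = - ∑ s, f s := by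
    rw [← Finset.sum_neg_distrib]
    exact Finset.sum_congr rfl fun s _ => hf s
  linarith

lemma spin_mul_self (s : Fin N → Bool) (i : Fin N) : spin s i * spin s i = 1 := by
  have := spin_sq s i
  nlinarith

/-- The fourth moment of the coordinates on the cube. -/
lemma cube_four {i j k l : Fin N} (hij : i ≠ j) (hkl : k ≠ l) :
    ∑ s : Fin N → Bool, spin s i * spin s j * (spin s k * spin s l)
      = if (i = k ∧ j = l) ∨ (i = l ∧ j = k) then 2 ^ N else 0 := by
  by_cases hc : (i = k ∧ j = l) ∨ (i = l ∧ j = k)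
  · rw [if_pos hc]
    have : ∀ s : Fin N → Bool, spin s i * spin s j * (spin s k * spin s l) = 1 := by
      intro s
      rcases hc with ⟨rfl, rfl⟩ | ⟨rfl, rfl⟩
      · have h1 := spin_mul_self s i
        have h2 := spin_mul_self s j
        calc _ = (spin s i * spin s i) * (spin s j * spin s j) := by ring
          _ = 1 := by rw [h1, h2, one_mul]
      · have h1 := spin_mul_self s i
        have h2 := spin_mul_self s j
        calc _ = (spin s i * spin s i) * (spin s j * spin s j) := by ring
          _ = 1 := by rw [h1, h2, one_mul]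
    simp only [this]
    simp
  · rw [if_neg hc]
    by_cases h1 : i ≠ k ∧ i ≠ l
    · refine sum_flip_zero i fun s => ?_
      rw [spin_flipAt_same, spin_flipAt_ne hij.symm, spin_flipAt_ne h1.1.symm, spin_flipAt_ne h1.2.symm]
      ring
    · by_cases h2 : j ≠ k ∧ j ≠ l
      · refine sum_flip_zero j fun s => ?_
        rw [spin_flipAt_same, spin_flipAt_ne hij, spin_flipAt_ne h2.1.symm, spin_flipAt_ne h2.2.symm]
        ring
      · exfalso
        have h3 : i = k ∨ i = l := by
          by_contra h
          exact h1 (not_or.1 h)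
        have h4 : j = k ∨ j = l := by
          by_contra h
          exact h2 (not_or.1 h)
        rcases h3 with h3 | h3 <;> rcases h4 with h4 | h4
        · exact hij (h3.trans h4.symm)
        · exact hc (Or.inl ⟨h3, h4⟩)
        · exact hc (Or.inr ⟨h3, h4⟩)
        · exact hij (h3.trans h4.symm)

/-- The Rademacher chaos of order two. -/
theorem sign_avg (B : Fin N → Fin N → ℝ) (hB : ∀ i, B i i = 0) :
    ∑ s : Fin N → Bool, (∑ i, ∑ j, spin s i * spin s j * B i j) ^ 2
      ≤ 2 ^ N * (2 * ∑ i, ∑ j, B i j ^ 2) := by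
  have hexp : ∀ s : Fin N → Bool, (∑ i, ∑ j, spin s i * spin s j * B i j) ^ 2
      = ∑ i, ∑ j, ∑ k, ∑ l, B i j * B k l * (spin s i * spin s j * (spin s k * spin s l)) := by
    intro s
    rw [pow_two, Finset.sum_mul_sum]
    refine Finset.sum_congr rfl fun i _ => ?_
    simp only [Finset.sum_mul_sum]
    rw [Finset.sum_comm]
    refine Finset.sum_congr rfl fun j _ => Finset.sum_congr rfl fun k _ => Finset.sum_congr rfl fun l _ => ?_
    ring
  simp only [hexp]
  have hswap : ∑ s : Fin N → Bool, ∑ i, ∑ j, ∑ k, ∑ l,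
      B i j * B k l * (spin s i * spin s j * (spin s k * spin s l))
      = ∑ i, ∑ j, ∑ k, ∑ l, B i j * B k l *
        ∑ s : Fin N → Bool, (spin s i * spin s j * (spin s k * spin s l)) := by
    rw [Finset.sum_comm]
    refine Finset.sum_congr rfl fun i _ => ?_
    rw [Finset.sum_comm]
    refine Finset.sum_congr rfl fun j _ => ?_
    rw [Finset.sum_comm]
    refine Finset.sum_congr rfl fun k _ => ?_
    rw [Finset.sum_comm]
    refine Finset.sum_congr rfl fun l _ => ?_
    rw [Finset.mul_sum]
  rw [hswap]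
  have hinner : ∀ i j, ∑ k, ∑ l, B i j * B k l *
      ∑ s : Fin N → Bool, (spin s i * spin s j * (spin s k * spin s l))
      = 2 ^ N * (B i j * (B i j + B j i)) := by
    intro i j
    by_cases hij : i = j
    · subst hij
      simp [hB]
    have h1 : ∀ k l, B i j * B k l * ∑ s : Fin N → Bool, (spin s i * spin s j * (spin s k * spin s l))
        = 2 ^ N * (B i j * ((if k = i then (if l = j then B k l else 0) else 0)
          + (if k = j then (if l = i then B k l else 0) else 0))) := by
      intro k l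
      by_cases hkl : k = l
      · subst hkl
        simp [hB]
      · rw [cube_four hij hkl]
        by_cases h1 : k = i
        · subst h1
          by_cases h2 : l = j
          · subst h2
            simp [hij, Ne.symm hij]
            ring
          · have h3 : ¬ k = j := hij
            have h4 : ¬ (j = l) := fun e => h2 e.symm
            have h5 : ¬ (k = l) := hkl
            simp [h2, h3, h4, h5]
        · by_cases h2 : k = j
          · subst h2
            have h3 : ¬ (i = k) := hij
            by_cases h4 : l = i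
            · subst h4
              simp [h1]
              ring
            · have h5 : ¬ (i = l) := fun e => h4 e.symm
              simp [h1, h3, h4, h5]
          · have h3 : ¬ (i = k) := fun e => h1 e.symm
            have h4 : ¬ (j = k) := fun e => h2 e.symm
            simp [h1, h2, h3, h4]
    simp only [h1]
    simp only [← Finset.mul_sum, Finset.sum_add_distrib]
    simp
  simp only [hinner]
  simp only [← Finset.mul_sum]
  refine mul_le_mul_of_nonneg_left ?_ (by positivity)
  have h2 : ∑ i, ∑ j, B i j * B j i ≤ ∑ i, ∑ j, B i j ^ 2 := by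
    have h3 : ∑ i, ∑ j, B i j * B j i ≤ ∑ i, ∑ j, (B i j ^ 2 + B j i ^ 2) / 2 :=
      Finset.sum_le_sum fun i _ => Finset.sum_le_sum fun j _ => by nlinarith [sq_nonneg (B i j - B j i)]
    have h4 : ∑ i, ∑ j, (B i j ^ 2 + B j i ^ 2) / 2 = ∑ i, ∑ j, B i j ^ 2 := by
      have h5 : ∑ i, ∑ j, B j i ^ 2 = ∑ i, ∑ j, B i j ^ 2 := Finset.sum_comm
      simp only [add_div, Finset.sum_add_distrib]
      simp only [← Finset.sum_div]
      rw [h5]
      ring
    linarith
  have h6 : ∑ i, ∑ j, B i j * (B i j + B j i) = ∑ i, ∑ j, B i j ^ 2 + ∑ i, ∑ j, B i j * B j i := by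
    simp only [mul_add, Finset.sum_add_distrib, pow_two]
  rw [h6]
  linarith

/-- Two-transitivity of the symmetric group. -/
lemma exists_perm_pair {i j k l : Fin N} (hij : i ≠ j) (hkl : k ≠ l) :
    ∃ τ : Equiv.Perm (Fin N), τ k = i ∧ τ l = j := by
  refine ⟨Equiv.swap (Equiv.swap k i l) j * Equiv.swap k i, ?_, ?_⟩
  · have h1 : i ≠ Equiv.swap k i l := by
      intro e
      have h2 : Equiv.swap k i k = Equiv.swap k i l := by rw [Equiv.swap_apply_left]; exact e
      exact hkl ((Equiv.swap k i).injective h2)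
    simp only [Equiv.Perm.mul_apply, Equiv.swap_apply_left]
    exact Equiv.swap_apply_of_ne_of_ne h1 hij
  · simp

/-- The permutation average of a function of a pair. -/
theorem perm_avg (h : Fin N → Fin N → ℝ) {i j : Fin N} (hij : i ≠ j) :
    ((N : ℝ) * (N - 1)) * ∑ π : Equiv.Perm (Fin N), h (π i) (π j)
      = (N ! : ℝ) * ∑ a, ∑ b, if a ≠ b then h a b else 0 := by
  have hv : ∀ k l, k ≠ l → ∑ π : Equiv.Perm (Fin N), h (π k) (π l) = ∑ π : Equiv.Perm (Fin N), h (π i) (π j) := by
    intro k l hkl
    obtain ⟨τ, h1, h2⟩ := exists_perm_pair hkl hij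
    have := Equiv.sum_comp (Equiv.mulRight τ) (fun π : Equiv.Perm (Fin N) => h (π i) (π j))
    rw [← this]
    refine Finset.sum_congr rfl fun π _ => ?_
    simp [h1, h2]
  have hsum : ∑ k, ∑ l, (if k ≠ l then ∑ π : Equiv.Perm (Fin N), h (π k) (π l) else 0)
      = (N ! : ℝ) * ∑ a, ∑ b, if a ≠ b then h a b else 0 := by
    have e1 : ∀ π : Equiv.Perm (Fin N), ∑ k, ∑ l, (if k ≠ l then h (π k) (π l) else 0)
        = ∑ a, ∑ b, if a ≠ b then h a b else 0 := by
      intro π
      rw [← Equiv.sum_comp π (fun a => ∑ b, if a ≠ b then h a b else 0)]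
      refine Finset.sum_congr rfl fun k _ => ?_
      rw [← Equiv.sum_comp π (fun b => if π k ≠ b then h (π k) b else 0)]
      refine Finset.sum_congr rfl fun l _ => ?_
      simp
    have e2 : ∑ k, ∑ l, (if k ≠ l then ∑ π : Equiv.Perm (Fin N), h (π k) (π l) else 0)
        = ∑ π : Equiv.Perm (Fin N), ∑ k, ∑ l, (if k ≠ l then h (π k) (π l) else 0) := by
      symm
      rw [Finset.sum_comm]
      refine Finset.sum_congr rfl fun k _ => ?_
      rw [Finset.sum_comm]
      refine Finset.sum_congr rfl fun l _ => ?_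
      by_cases hkl : k ≠ l
      · simp [hkl]
      · simp [hkl]
    rw [e2]
    simp only [e1]
    simp [Fintype.card_perm]
  rw [← hsum]
  have hcount : ∑ k : Fin N, ∑ l : Fin N, (if k ≠ l then (1:ℝ) else 0) = (N : ℝ) * (N - 1) := by
    have : ∀ k : Fin N, ∑ l : Fin N, (if k ≠ l then (1:ℝ) else 0) = (N : ℝ) - 1 := by
      intro k
      have e : ∀ l : Fin N, (if k ≠ l then (1:ℝ) else 0) = 1 - (if k = l then 1 else 0) := fun l => by
        by_cases hkl : k = l <;> simp [hkl]
      simp only [e, Finset.sum_sub_distrib]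
      simp
    simp only [this]
    simp
    ring
  rw [← hcount, Finset.sum_mul]
  refine Finset.sum_congr rfl fun k _ => ?_
  rw [Finset.sum_mul]
  refine Finset.sum_congr rfl fun l _ => ?_
  by_cases hkl : k ≠ l
  · simp [hkl, hv k l hkl]
  · simp [hkl]

/-- The signed permutation matrix. -/
noncomputable def spMat (s : Fin N → Bool) (π : Equiv.Perm (Fin N)) : Matrix (Fin N) (Fin N) ℝ :=
  Matrix.of fun i j => spin s i * if π i = j then 1 else 0

lemma spMat_orth (s : Fin N → Bool) (π : Equiv.Perm (Fin N)) :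
    spMat s π * (spMat s π).transpose = 1 := by
  ext i j
  rw [Matrix.mul_apply, Matrix.one_apply]
  simp only [Matrix.transpose_apply, spMat, Matrix.of_apply]
  have e : ∀ k, spin s i * (if π i = k then (1:ℝ) else 0) * (spin s j * if π j = k then 1 else 0)
      = if π i = k then spin s i * (spin s j * if π j = k then 1 else 0) else 0 := by
    intro k
    split_ifs <;> simp
  simp only [e]
  rw [Finset.sum_ite_eq]
  simp only [Finset.mem_univ, if_true]
  by_cases hij : i = j
  · subst hij
    simp [spin_mul_self]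
  · have : ¬ π j = π i := fun h => hij (π.injective h).symm
    simp [hij, this]

/-- The signed permutation matrix as an element of the orthogonal group. -/
noncomputable def sp (s : Fin N → Bool) (π : Equiv.Perm (Fin N)) : OG N :=
  ⟨spMat s π, (Matrix.mem_orthogonalGroup_iff (Fin N) ℝ).2 (spMat_orth s π)⟩

lemma sp_conj_apply (s : Fin N → Bool) (π : Equiv.Perm (Fin N)) (A : Matrix (Fin N) (Fin N) ℝ) (i j : Fin N) :
    ((sp s π : Matrix (Fin N) (Fin N) ℝ) * A * (sp s π : Matrix (Fin N) (Fin N) ℝ).transpose) i j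
      = spin s i * spin s j * A (π i) (π j) := by
  change (spMat s π * A * (spMat s π).transpose) i j = _
  rw [Matrix.mul_apply]
  have e1 : ∀ l, (spMat s π * A) i l = spin s i * A (π i) l := by
    intro l
    rw [Matrix.mul_apply]
    simp only [spMat, Matrix.of_apply]
    have e : ∀ k, spin s i * (if π i = k then (1:ℝ) else 0) * A k l
        = if π i = k then spin s i * A k l else 0 := by
      intro k
      split_ifs <;> simp
    simp only [e]
    rw [Finset.sum_ite_eq]
    simp
  have e2 : ∀ l, (spMat s π * A) i l * (spMat s π).transpose l j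
      = if π j = l then spin s i * A (π i) l * spin s j else 0 := by
    intro l
    rw [e1, Matrix.transpose_apply]
    change spin s i * A (π i) l * (spin s j * if π j = l then (1:ℝ) else 0) = _
    split_ifs <;> simp
  rw [Finset.sum_congr rfl fun l _ => e2 l, Finset.sum_ite_eq]
  simp only [Finset.mem_univ, if_true]
  ring

/-- The average of the square of a linear form over the signed conjugates of a skew matrix. -/
theorem conj_avg {A : Matrix (Fin N) (Fin N) ℝ} (hA : ∀ i j, A j i = - A i j) (m : Fin N → Fin N → ℝ)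
    (hN : 2 ≤ N) :
    ∑ s : Fin N → Bool, ∑ π : Equiv.Perm (Fin N), (∑ i, ∑ j,
        ((sp s π : Matrix (Fin N) (Fin N) ℝ) * A * (sp s π : Matrix (Fin N) (Fin N) ℝ).transpose) i j * m i j) ^ 2
      ≤ 2 ^ N * (N ! : ℝ) * (2 * (hs A / ((N : ℝ) * (N - 1))) * ∑ i, ∑ j, m i j ^ 2) := by
  have hN1 : (1:ℝ) < N := by exact_mod_cast hN
  have hNN : (0:ℝ) < (N : ℝ) * (N - 1) := mul_pos (by linarith) (by linarith)
  have hA0 : ∀ i, A i i = 0 := fun i => by
    have := hA i i
    linarith
  simp only [sp_conj_apply]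
  rw [Finset.sum_comm]
  have h1 : ∀ π : Equiv.Perm (Fin N), ∑ s : Fin N → Bool, (∑ i, ∑ j, spin s i * spin s j * A (π i) (π j) * m i j) ^ 2
      ≤ 2 ^ N * (2 * ∑ i, ∑ j, (A (π i) (π j) * m i j) ^ 2) := by
    intro π
    have := sign_avg (fun i j => A (π i) (π j) * m i j) (fun i => by simp [hA0])
    simpa only [mul_assoc] using this
  refine (Finset.sum_le_sum fun π _ => h1 π).trans ?_
  rw [← Finset.mul_sum, ← Finset.mul_sum]
  have h2 : ∑ π : Equiv.Perm (Fin N), ∑ i, ∑ j, (A (π i) (π j) * m i j) ^ 2
      = ∑ i, ∑ j, m i j ^ 2 * ∑ π : Equiv.Perm (Fin N), A (π i) (π j) ^ 2 := by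
    rw [Finset.sum_comm]
    refine Finset.sum_congr rfl fun i _ => ?_
    rw [Finset.sum_comm]
    refine Finset.sum_congr rfl fun j _ => ?_
    rw [Finset.mul_sum]
    refine Finset.sum_congr rfl fun π _ => ?_
    ring
  have hT : ∑ a, ∑ b, (if a ≠ b then A a b ^ 2 else 0) = hs A := by
    unfold hs
    refine Finset.sum_congr rfl fun a _ => Finset.sum_congr rfl fun b _ => ?_
    by_cases hab : a = b
    · subst hab
      simp [hA0]
    · simp [hab]
  have h3 : ∀ i j, ∑ π : Equiv.Perm (Fin N), A (π i) (π j) ^ 2 ≤ (N ! : ℝ) * (hs A / ((N : ℝ) * (N - 1))) := by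
    intro i j
    by_cases hij : i = j
    · subst hij
      simp only [hA0]
      have : (0:ℝ) ≤ (N ! : ℝ) * (hs A / ((N : ℝ) * (N - 1))) :=
        mul_nonneg (by positivity) (div_nonneg (hs_nonneg A) hNN.le)
      simpa using this
    · have : ((N : ℝ) * (N - 1)) * ∑ π : Equiv.Perm (Fin N), A (π i) (π j) ^ 2
          = (N ! : ℝ) * ∑ a, ∑ b, if a ≠ b then A a b ^ 2 else 0 :=
        perm_avg (fun a b => A a b ^ 2) hij
      rw [hT] at this
      rw [mul_div_assoc', le_div_iff₀ hNN, ← this]
      exact le_of_eq (by ring)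
  have h4 : ∑ i, ∑ j, m i j ^ 2 * ∑ π : Equiv.Perm (Fin N), A (π i) (π j) ^ 2
      ≤ ∑ i, ∑ j, m i j ^ 2 * ((N ! : ℝ) * (hs A / ((N : ℝ) * (N - 1)))) :=
    Finset.sum_le_sum fun i _ => Finset.sum_le_sum fun j _ =>
      mul_le_mul_of_nonneg_left (h3 i j) (sq_nonneg _)
  simp only [← Finset.sum_mul] at h4
  rw [h2]
  have h5 : (0:ℝ) ≤ 2 ^ N := by positivity
  calc (2:ℝ) ^ N * (2 * ∑ i, ∑ j, m i j ^ 2 * ∑ π : Equiv.Perm (Fin N), A (π i) (π j) ^ 2)
      ≤ 2 ^ N * (2 * ((∑ i, ∑ j, m i j ^ 2) * ((N ! : ℝ) * (hs A / ((N : ℝ) * (N - 1)))))) := by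
        refine mul_le_mul_of_nonneg_left ?_ h5
        linarith
    _ = _ := by ring

end Vale.Agent.Lib.P166
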