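import Vale.Agent.Lib.P166.Gauss1

/-!
Reflections, and the identity relating Gaussian integrals and integrals over the Haar measure.
-/

open scoped BigOperators NNReal ENNReal
open MeasureTheory ProbabilityTheory Matrix

namespace Vale.Agent.Lib.P166

variable {I : Type*} [Fintype I]

/-- The sum of squares. -/
def nsq (v : I → ℝ) : ℝ := ∑ i, v i ^ 2

/-- The unit vector in the direction of `g`. -/
noncomputable def hatv (g : I → ℝ) : I → ℝ := (Real.sqrt (nsq g))⁻¹ • g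

/-- The quadratic form of `B`. -/
def qf (B : Matrix I I ℝ) (v : I → ℝ) : ℝ := v ⬝ᵥ (B *ᵥ v)

lemma nsq_nonneg (v : I → ℝ) : 0 ≤ nsq v := Finset.sum_nonneg fun _ _ => sq_nonneg _

lemma nsq_eq_dot (v : I → ℝ) : nsq v = v ⬝ᵥ v := by
  simp [nsq, dotProduct, pow_two]

lemma nsq_eq_zero {v : I → ℝ} : nsq v = 0 ↔ v = 0 := by
  unfold nsq
  rw [Finset.sum_eq_zero_iff_of_nonneg fun _ _ => sq_nonneg _]
  constructor
  · intro h
    ext i
    simpa using h i (Finset.mem_univ i)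
  · rintro rfl i _
    simp

lemma nsq_pos {v : I → ℝ} (hv : v ≠ 0) : 0 < nsq v :=
  lt_of_le_of_ne (nsq_nonneg v) fun h => hv (nsq_eq_zero.1 h.symm)

lemma nsq_smul (c : ℝ) (v : I → ℝ) : nsq (c • v) = c ^ 2 * nsq v := by
  unfold nsq
  rw [Finset.mul_sum]
  refine Finset.sum_congr rfl fun i _ => ?_
  simp only [Pi.smul_apply, smul_eq_mul]
  ring

lemma nsq_hatv {g : I → ℝ} (hg : g ≠ 0) : nsq (hatv g) = 1 := by
  unfold hatv
  rw [nsq_smul, inv_pow, Real.sq_sqrt (nsq_nonneg g)]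
  exact inv_mul_cancel₀ (nsq_pos hg).ne'

lemma sqrt_smul_hatv {g : I → ℝ} (hg : g ≠ 0) : Real.sqrt (nsq g) • hatv g = g := by
  unfold hatv
  rw [smul_smul, mul_inv_cancel₀ (Real.sqrt_pos.2 (nsq_pos hg)).ne', one_smul]

variable [DecidableEq I]

omit [DecidableEq I] in
lemma qf_smul (B : Matrix I I ℝ) (c : ℝ) (v : I → ℝ) : qf B (c • v) = c ^ 2 * qf B v := by
  unfold qf
  rw [Matrix.mulVec_smul, smul_dotProduct, dotProduct_smul, smul_eq_mul, smul_eq_mul]
  ring

omit [DecidableEq I] in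
lemma qf_eq_nsq_mul (B : Matrix I I ℝ) (g : I → ℝ) : qf B g = nsq g * qf B (hatv g) := by
  by_cases hg : g = 0
  · subst hg
    simp [qf, nsq]
  · conv_lhs => rw [← sqrt_smul_hatv hg]
    rw [qf_smul, Real.sq_sqrt (nsq_nonneg g)]

lemma qf_one (v : I → ℝ) : qf (1 : Matrix I I ℝ) v = nsq v := by
  simp [qf, nsq_eq_dot]

lemma nsq_mulVec {Q : Matrix I I ℝ} (hQ : Q.transpose * Q = 1) (v : I → ℝ) :
    nsq (Q *ᵥ v) = nsq v := sum_sq_mulVec hQ v

lemma hatv_mulVec {Q : Matrix I I ℝ} (hQ : Q.transpose * Q = 1) (g : I → ℝ) :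
    hatv (Q *ᵥ g) = Q *ᵥ hatv g := by
  unfold hatv
  rw [nsq_mulVec hQ, Matrix.mulVec_smul]

/-- Elements of the orthogonal group satisfy the orthogonality relation. -/
lemma OG_tr_mul {N : ℕ} (U : OG N) :
    (U : Matrix (Fin N) (Fin N) ℝ).transpose * (U : Matrix (Fin N) (Fin N) ℝ) = 1 :=
  (Matrix.mem_orthogonalGroup_iff' (Fin N) ℝ).1 U.2

lemma OG_mul_tr {N : ℕ} (U : OG N) :
    (U : Matrix (Fin N) (Fin N) ℝ) * (U : Matrix (Fin N) (Fin N) ℝ).transpose = 1 :=
  (Matrix.mem_orthogonalGroup_iff (Fin N) ℝ).1 U.2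

section reflection

variable {N : ℕ}

/-- A matrix is determined by its action on vectors. -/
lemma mat_ext {A B : Matrix (Fin N) (Fin N) ℝ} (h : ∀ x, A *ᵥ x = B *ᵥ x) : A = B := by
  ext i j
  have := congrFun (h (Pi.single j 1)) i
  simpa using this

/-- The reflection along `w`, where `c = 2 / nsq w`. -/
noncomputable def refl (c : ℝ) (w : Fin N → ℝ) : Matrix (Fin N) (Fin N) ℝ :=
  1 - c • Matrix.vecMulVec w w

lemma refl_mulVec (c : ℝ) (w x : Fin N → ℝ) : refl c w *ᵥ x = x - (c * (w ⬝ᵥ x)) • w := by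
  unfold refl
  rw [Matrix.sub_mulVec, Matrix.one_mulVec, Matrix.smul_mulVec, Matrix.vecMulVec_mulVec]
  ext i
  simp [mul_comm, mul_left_comm, smul_eq_mul]

lemma refl_transpose (c : ℝ) (w : Fin N → ℝ) : (refl c w).transpose = refl c w := by
  unfold refl
  rw [Matrix.transpose_sub, Matrix.transpose_one, Matrix.transpose_smul, Matrix.transpose_vecMulVec]

lemma refl_sq {c : ℝ} {w : Fin N → ℝ} (hc : c * nsq w = 2) : refl c w * refl c w = 1 := by
  refine mat_ext fun x => ?_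
  rw [← Matrix.mulVec_mulVec, refl_mulVec, refl_mulVec, Matrix.one_mulVec]
  have h1 : w ⬝ᵥ (x - (c * (w ⬝ᵥ x)) • w) = - (w ⬝ᵥ x) := by
    rw [dotProduct_sub, dotProduct_smul, smul_eq_mul, ← nsq_eq_dot]
    linear_combination (-(w ⬝ᵥ x)) * hc
  rw [h1]
  ext i
  simp only [Pi.sub_apply, Pi.smul_apply, smul_eq_mul]
  ring

/-- Given unit vectors `p`, `q` there is an orthogonal map taking `p` to `q` which fixes every
vector having the same dot product with `p` and `q`. -/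
lemma exists_orth_map {p q : Fin N → ℝ} (hp : nsq p = 1) (hq : nsq q = 1) :
    ∃ Q : OG N, (Q : Matrix (Fin N) (Fin N) ℝ) *ᵥ p = q ∧
      ∀ x, x ⬝ᵥ p = x ⬝ᵥ q → (Q : Matrix (Fin N) (Fin N) ℝ) *ᵥ x = x := by
  by_cases hpq : p = q
  · refine ⟨1, ?_, ?_⟩
    · simp [hpq]
    · intro x _
      simp
  · obtain ⟨w, hw⟩ : ∃ w, w = p - q := ⟨_, rfl⟩
    have hw0 : w ≠ 0 := by
      rw [hw]
      exact sub_ne_zero.2 hpq
    obtain ⟨c, hc⟩ : ∃ c, c = 2 / nsq w := ⟨_, rfl⟩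
    have hcw : c * nsq w = 2 := by
      rw [hc]
      exact div_mul_cancel₀ _ (nsq_pos hw0).ne'
    have hmem : refl c w ∈ Matrix.orthogonalGroup (Fin N) ℝ := by
      rw [Matrix.mem_orthogonalGroup_iff, refl_transpose, refl_sq hcw]
    refine ⟨⟨refl c w, hmem⟩, ?_, ?_⟩
    · change refl c w *ᵥ p = q
      rw [refl_mulVec]
      have h1 : w ⬝ᵥ p * 2 = nsq w := by
        rw [nsq_eq_dot] at hp hq ⊢
        rw [hw] at *
        simp only [sub_dotProduct, dotProduct_sub] at *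
        rw [dotProduct_comm q p]
        linarith
      have h2 : c * (w ⬝ᵥ p) = 1 := by
        have : c * (w ⬝ᵥ p) * 2 = 2 := by
          calc c * (w ⬝ᵥ p) * 2 = c * (w ⬝ᵥ p * 2) := by ring
            _ = c * nsq w := by rw [h1]
            _ = 2 := hcw
        linarith
      rw [h2, one_smul, hw]
      abel
    · intro x hx
      change refl c w *ᵥ x = x
      rw [refl_mulVec]
      have h1 : w ⬝ᵥ x = 0 := by
        rw [hw, sub_dotProduct, dotProduct_comm p x, dotProduct_comm q x, hx, sub_self]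
      rw [h1]
      simp

/-- Orthonormal pairs can be mapped to each other. -/
lemma exists_orth_map₂ {e₁ e₂ f₁ f₂ : Fin N → ℝ} (he₁ : nsq e₁ = 1) (he₂ : nsq e₂ = 1)
    (he : e₁ ⬝ᵥ e₂ = 0) (hf₁ : nsq f₁ = 1) (hf₂ : nsq f₂ = 1) (hf : f₁ ⬝ᵥ f₂ = 0) :
    ∃ Q : OG N, (Q : Matrix (Fin N) (Fin N) ℝ) *ᵥ e₁ = f₁ ∧
      (Q : Matrix (Fin N) (Fin N) ℝ) *ᵥ e₂ = f₂ := by
  obtain ⟨Q₁, h1, -⟩ := exists_orth_map he₁ hf₁
  have hp : nsq ((Q₁ : Matrix (Fin N) (Fin N) ℝ) *ᵥ e₂) = 1 := by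
    rw [nsq_mulVec (OG_tr_mul Q₁), he₂]
  obtain ⟨Q₂, h2, h3⟩ := exists_orth_map hp hf₂
  refine ⟨Q₂ * Q₁, ?_, ?_⟩
  · change ((Q₂ : Matrix (Fin N) (Fin N) ℝ) * (Q₁ : Matrix (Fin N) (Fin N) ℝ)) *ᵥ e₁ = f₁
    rw [← Matrix.mulVec_mulVec, h1]
    refine h3 f₁ ?_
    rw [hf, ← h1, dot_mulVec_mulVec (OG_tr_mul Q₁), he]
  · change ((Q₂ : Matrix (Fin N) (Fin N) ℝ) * (Q₁ : Matrix (Fin N) (Fin N) ℝ)) *ᵥ e₂ = f₂
    rw [← Matrix.mulVec_mulVec, h2]

end reflection

section key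

variable {m : ℕ}

lemma measurable_nsq : Measurable (nsq : (Fin m → ℝ) → ℝ) := by
  unfold nsq
  fun_prop

omit [Fintype I] [DecidableEq I] in
lemma measurable_OG_entry (i j : Fin m) :
    Measurable fun U : OG m => (U : Matrix (Fin m) (Fin m) ℝ) i j := by
  have : Continuous fun U : OG m => (U : Matrix (Fin m) (Fin m) ℝ) i j :=
    (continuous_id.matrix_elem i j).comp continuous_subtype_val
  exact this.measurable

lemma measurable_hatv : Measurable (hatv : (Fin m → ℝ) → Fin m → ℝ) := by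
  unfold hatv
  exact ((measurable_nsq.sqrt).inv).smul measurable_id

omit [Fintype I] [DecidableEq I] in
/-- Joint measurability of the action of the orthogonal group on vectors. -/
lemma measurable_mulVec_OG {α : Type*} [MeasurableSpace α] {f : α → OG m} {v : α → Fin m → ℝ}
    (hf : Measurable f) (hv : Measurable v) :
    Measurable fun a => ((f a : OG m) : Matrix (Fin m) (Fin m) ℝ) *ᵥ v a := by
  refine measurable_pi_iff.2 fun i => ?_
  simp only [Matrix.mulVec, dotProduct]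
  refine Finset.measurable_sum _ fun j _ => ?_
  exact ((measurable_OG_entry i j).comp hf).mul ((measurable_pi_apply j).comp hv)

lemma measurable_qf (B : Matrix (Fin m) (Fin m) ℝ) : Measurable (qf B) := by
  unfold qf
  have : Continuous fun v : Fin m → ℝ => v ⬝ᵥ (B *ᵥ v) := by fun_prop
  exact this.measurable

/-- The integrand of the main identity. -/
private noncomputable def keyH (B : Matrix (Fin m) (Fin m) ℝ) (F : (Fin m → ℝ) → ℝ)
    (u g : Fin m → ℝ) : ℝ :=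
  F u * Real.exp (nsq g * (1 - qf B u) / 2)

private lemma keyH_bound (B : Matrix (Fin m) (Fin m) ℝ) {F : (Fin m → ℝ) → ℝ} {δ C : ℝ}
    (hB : ∀ u, nsq u = 1 → δ ≤ qf B u) (hC : ∀ u, |F u| ≤ C) {u g : Fin m → ℝ}
    (hu : g = 0 ∨ nsq u = 1) :
    |keyH B F u g| ≤ C * Real.exp (((1 - δ) / 2) * nsq g) := by
  unfold keyH
  rw [abs_mul, abs_of_pos (Real.exp_pos _)]
  have hC0 : 0 ≤ C := (abs_nonneg _).trans (hC 0)
  refine mul_le_mul (hC u) ?_ (Real.exp_pos _).le hC0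
  apply Real.exp_le_exp.2
  rcases hu with rfl | hu
  · simp [nsq]
  · have h1 := hB u hu
    have h2 := nsq_nonneg g
    nlinarith

/-- The main identity relating Gaussian and Haar integrals. -/
theorem key_identity (B : Matrix (Fin m) (Fin m) ℝ) {δ : ℝ} (hδ : 0 < δ)
    (hB : ∀ u, nsq u = 1 → δ ≤ qf B u) {e : Fin m → ℝ} (he : nsq e = 1)
    {F : (Fin m → ℝ) → ℝ} (hFm : Measurable F) {C : ℝ} (hC : ∀ u, |F u| ≤ C) :
    ∫ g, F (hatv g) * Real.exp ((nsq g - qf B g) / 2) ∂(gam (Fin m))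
      = ∫ U : OG m, F ((U : Matrix (Fin m) (Fin m) ℝ) *ᵥ e)
          * Real.sqrt (1 / qf B ((U : Matrix (Fin m) (Fin m) ℝ) *ᵥ e)) ^ m ∂(haarO m) := by
  classical
  have hC0 : 0 ≤ C := (abs_nonneg _).trans (hC 0)
  have hi0 : m ≠ 0 := by
    rintro rfl
    simp [nsq] at he
  obtain ⟨i₀⟩ : Nonempty (Fin m) := ⟨⟨0, Nat.pos_of_ne_zero hi0⟩⟩
  have hθ : (1 - δ) / 2 < 1 / 2 := by linarith
  obtain ⟨hint, -⟩ := chi_mgf (Fin m) hθ
  have hdom : Integrable (fun p : OG m × (Fin m → ℝ) =>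
      C * Real.exp (((1 - δ) / 2) * nsq p.2)) ((haarO m).prod (gam (Fin m))) := by
    have : Integrable (fun g : Fin m → ℝ => C * Real.exp (((1 - δ) / 2) * nsq g)) (gam (Fin m)) :=
      hint.const_mul C
    exact this.comp_snd (haarO m)
  -- rotating the Gaussian variable
  have hA : ∀ U : OG m, ∫ g, keyH B F ((U : Matrix (Fin m) (Fin m) ℝ) *ᵥ hatv g) g ∂(gam (Fin m))
      = ∫ g, F (hatv g) * Real.exp ((nsq g - qf B g) / 2) ∂(gam (Fin m)) := by
    intro U
    rw [← integral_mulVec_gam (OG_tr_mul U)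
      (fun g => F (hatv g) * Real.exp ((nsq g - qf B g) / 2))]
    refine integral_congr_ae (Filter.Eventually.of_forall fun g => ?_)
    simp only [keyH]
    rw [hatv_mulVec (OG_tr_mul U), qf_eq_nsq_mul B ((U : Matrix (Fin m) (Fin m) ℝ) *ᵥ g),
      nsq_mulVec (OG_tr_mul U), hatv_mulVec (OG_tr_mul U)]
    congr 2
    ring
  -- Fubini for the first integrand
  have hI1 : Integrable (fun p : OG m × (Fin m → ℝ) =>
      keyH B F (((p.1 : OG m) : Matrix (Fin m) (Fin m) ℝ) *ᵥ hatv p.2) p.2)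
      ((haarO m).prod (gam (Fin m))) := by
    refine hdom.mono' ?_ (Filter.Eventually.of_forall fun p => ?_)
    · refine Measurable.aestronglyMeasurable ?_
      unfold keyH
      have hv : Measurable fun p : OG m × (Fin m → ℝ) =>
          ((p.1 : OG m) : Matrix (Fin m) (Fin m) ℝ) *ᵥ hatv p.2 :=
        measurable_mulVec_OG measurable_fst (measurable_hatv.comp measurable_snd)
      refine (hFm.comp hv).mul (Real.measurable_exp.comp ?_)
      exact ((measurable_nsq.comp measurable_snd).mul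
        (measurable_const.sub ((measurable_qf B).comp hv))).div_const 2
    · rw [Real.norm_eq_abs]
      refine keyH_bound B hB hC ?_
      by_cases hg : p.2 = 0
      · exact Or.inl hg
      · refine Or.inr ?_
        rw [nsq_mulVec (OG_tr_mul p.1), nsq_hatv hg]
  have hI2 : Integrable (fun p : OG m × (Fin m → ℝ) =>
      keyH B F (((p.1 : OG m) : Matrix (Fin m) (Fin m) ℝ) *ᵥ e) p.2)
      ((haarO m).prod (gam (Fin m))) := by
    refine hdom.mono' ?_ (Filter.Eventually.of_forall fun p => ?_)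
    · refine Measurable.aestronglyMeasurable ?_
      unfold keyH
      have hv : Measurable fun p : OG m × (Fin m → ℝ) =>
          ((p.1 : OG m) : Matrix (Fin m) (Fin m) ℝ) *ᵥ e :=
        measurable_mulVec_OG measurable_fst measurable_const
      refine (hFm.comp hv).mul (Real.measurable_exp.comp ?_)
      exact ((measurable_nsq.comp measurable_snd).mul
        (measurable_const.sub ((measurable_qf B).comp hv))).div_const 2
    · rw [Real.norm_eq_abs]
      refine keyH_bound B hB hC (Or.inr ?_)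
      rw [nsq_mulVec (OG_tr_mul p.1), he]
  -- the chain of equalities
  have hC1 : ∀ᵐ g ∂(gam (Fin m)),
      ∫ U : OG m, keyH B F ((U : Matrix (Fin m) (Fin m) ℝ) *ᵥ hatv g) g ∂(haarO m)
        = ∫ U : OG m, keyH B F ((U : Matrix (Fin m) (Fin m) ℝ) *ᵥ e) g ∂(haarO m) := by
    have hnull : ∀ᵐ g ∂(gam (Fin m)), g ≠ 0 := by
      rw [ae_iff]
      simpa using gam_zero i₀
    filter_upwards [hnull] with g hg
    obtain ⟨Q, hQ, -⟩ := exists_orth_map he (nsq_hatv hg)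
    rw [← integral_mul_right_haar
      (fun U : OG m => keyH B F ((U : Matrix (Fin m) (Fin m) ℝ) *ᵥ e) g) Q]
    refine integral_congr_ae (Filter.Eventually.of_forall fun U => ?_)
    change keyH B F ((U : Matrix (Fin m) (Fin m) ℝ) *ᵥ hatv g) g
      = keyH B F (((U : Matrix (Fin m) (Fin m) ℝ) * (Q : Matrix (Fin m) (Fin m) ℝ)) *ᵥ e) g
    rw [← Matrix.mulVec_mulVec, hQ]
  have hinner : ∀ U : OG m, ∫ g, keyH B F ((U : Matrix (Fin m) (Fin m) ℝ) *ᵥ e) g ∂(gam (Fin m))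
      = F ((U : Matrix (Fin m) (Fin m) ℝ) *ᵥ e)
          * Real.sqrt (1 / qf B ((U : Matrix (Fin m) (Fin m) ℝ) *ᵥ e)) ^ m := by
    intro U
    have hv : nsq ((U : Matrix (Fin m) (Fin m) ℝ) *ᵥ e) = 1 := by
      rw [nsq_mulVec (OG_tr_mul U), he]
    have hvδ := hB _ hv
    obtain ⟨v, hvv⟩ : ∃ v, v = qf B ((U : Matrix (Fin m) (Fin m) ℝ) *ᵥ e) := ⟨_, rfl⟩
    rw [← hvv] at hvδ ⊢
    have hθ' : (1 - v) / 2 < 1 / 2 := by linarith
    obtain ⟨-, hval⟩ := chi_mgf (Fin m) hθ'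
    simp only [keyH]
    rw [← hvv, integral_const_mul]
    congr 1
    have e1 : ∀ g : Fin m → ℝ, Real.exp (nsq g * (1 - v) / 2) = Real.exp ((1 - v) / 2 * ∑ i, g i ^ 2) := by
      intro g
      congr 1
      unfold nsq
      ring
    simp only [e1]
    rw [hval, Fintype.card_fin]
    congr 3
    ring
  calc ∫ g, F (hatv g) * Real.exp ((nsq g - qf B g) / 2) ∂(gam (Fin m))
      = ∫ U : OG m, (∫ g, keyH B F ((U : Matrix (Fin m) (Fin m) ℝ) *ᵥ hatv g) g ∂(gam (Fin m)))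
          ∂(haarO m) := by
        simp only [hA]
        simp
    _ = ∫ g, (∫ U : OG m, keyH B F ((U : Matrix (Fin m) (Fin m) ℝ) *ᵥ hatv g) g ∂(haarO m))
          ∂(gam (Fin m)) := integral_integral_swap (f := fun (U : OG m) (g : Fin m → ℝ) =>
            keyH B F ((U : Matrix (Fin m) (Fin m) ℝ) *ᵥ hatv g) g) hI1
    _ = ∫ g, (∫ U : OG m, keyH B F ((U : Matrix (Fin m) (Fin m) ℝ) *ᵥ e) g ∂(haarO m))
          ∂(gam (Fin m)) := integral_congr_ae hC1
    _ = ∫ U : OG m, (∫ g, keyH B F ((U : Matrix (Fin m) (Fin m) ℝ) *ᵥ e) g ∂(gam (Fin m)))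
          ∂(haarO m) := (integral_integral_swap (f := fun (U : OG m) (g : Fin m → ℝ) =>
            keyH B F ((U : Matrix (Fin m) (Fin m) ℝ) *ᵥ e) g) hI2).symm
    _ = _ := by simp only [hinner]

end key

end Vale.Agent.Lib.P166
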