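import Vale.Agent.Lib.P166.Assembly

/-!
The truncated partition function: only configurations with energy close to the typical energy.
-/

open scoped BigOperators Topology
open MeasureTheory Matrix Filter

namespace Vale.Agent.Lib.P166

variable {N : ℕ}

/-- The indicator of the energy window. -/
noncomputable def win (e w x : ℝ) : ℝ := if |x - e| ≤ w then 1 else 0

lemma win_nonneg (e w x : ℝ) : 0 ≤ win e w x := by
  unfold win
  split_ifs <;> norm_num

lemma win_le_one (e w x : ℝ) : win e w x ≤ 1 := by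
  unfold win
  split_ifs <;> norm_num

lemma measurable_win (e w : ℝ) : Measurable (win e w) := by
  unfold win
  refine Measurable.ite ?_ measurable_const measurable_const
  exact measurableSet_le (by fun_prop) measurable_const

/-- The truncated partition function. -/
noncomputable def Ztr (β : ℝ) (lam : Fin N → ℝ) (e w : ℝ) (U : OG N) : ℝ :=
  (1 / 2 ^ N) * ∑ σ : Fin N → Bool, Real.exp ((β / 2) * (spin σ ⬝ᵥ (couplings lam U *ᵥ spin σ)))
    * win e w ((spin σ ⬝ᵥ (couplings lam U *ᵥ spin σ)) / N)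

lemma Ztr_nonneg (β : ℝ) (lam : Fin N → ℝ) (e w : ℝ) (U : OG N) : 0 ≤ Ztr β lam e w U := by
  unfold Ztr
  refine mul_nonneg (by positivity) (Finset.sum_nonneg fun σ _ => mul_nonneg (Real.exp_pos _).le (win_nonneg _ _ _))

lemma Ztr_le (β : ℝ) (lam : Fin N → ℝ) (e w : ℝ) (U : OG N) : Ztr β lam e w U ≤ partitionFn β lam U := by
  unfold Ztr partitionFn
  refine mul_le_mul_of_nonneg_left (Finset.sum_le_sum fun σ _ => ?_) (by positivity)
  exact mul_le_of_le_one_right (Real.exp_pos _).le (win_le_one _ _ _)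

lemma measurable_term (β : ℝ) (lam : Fin N → ℝ) (e w : ℝ) (x : Fin N → ℝ) :
    Measurable fun U : OG N => Real.exp ((β / 2) * (x ⬝ᵥ (couplings lam U *ᵥ x)))
      * win e w ((x ⬝ᵥ (couplings lam U *ᵥ x)) / N) := by
  have h1 : Continuous fun U : OG N => x ⬝ᵥ (couplings lam U *ᵥ x) := continuous_energy lam x
  refine (Real.continuous_exp.comp (continuous_const.mul h1)).measurable.mul ?_
  exact (measurable_win e w).comp (h1.div_const _).measurable

lemma measurable_Ztr (β : ℝ) (lam : Fin N → ℝ) (e w : ℝ) : Measurable (Ztr β lam e w) := by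
  unfold Ztr
  refine Measurable.const_mul ?_ _
  exact Finset.measurable_fun_sum _ fun σ _ => measurable_term β lam e w _

lemma integrable_Ztr (β : ℝ) (lam : Fin N → ℝ) (e w : ℝ) : Integrable (Ztr β lam e w) (haarO N) := by
  refine Integrable.mono' (integrable_OG (continuous_partitionFn β lam))
    (measurable_Ztr β lam e w).aestronglyMeasurable (Filter.Eventually.of_forall fun U => ?_)
  rw [Real.norm_eq_abs, abs_of_nonneg (Ztr_nonneg _ _ _ _ _)]
  exact Ztr_le _ _ _ _ _

lemma integrable_Ztr_sq (β : ℝ) (lam : Fin N → ℝ) (e w : ℝ) :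
    Integrable (fun U => Ztr β lam e w U ^ 2) (haarO N) := by
  refine Integrable.mono' (integrable_OG ((continuous_partitionFn β lam).pow 2))
    ((measurable_Ztr β lam e w).pow_const 2).aestronglyMeasurable (Filter.Eventually.of_forall fun U => ?_)
  rw [Real.norm_eq_abs, abs_of_nonneg (sq_nonneg _)]
  exact pow_le_pow_left₀ (Ztr_nonneg _ _ _ _ _) (Ztr_le _ _ _ _ _) 2

/-- The pair integrand. -/
noncomputable def pairInt (β : ℝ) (lam : Fin N → ℝ) (e w : ℝ) (x z : Fin N → ℝ) (U : OG N) : ℝ :=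
  Real.exp ((β / 2) * (x ⬝ᵥ (couplings lam U *ᵥ x) + z ⬝ᵥ (couplings lam U *ᵥ z)))
    * (win e w ((x ⬝ᵥ (couplings lam U *ᵥ x)) / N) * win e w ((z ⬝ᵥ (couplings lam U *ᵥ z)) / N))

lemma pairInt_nonneg (β : ℝ) (lam : Fin N → ℝ) (e w : ℝ) (x z : Fin N → ℝ) (U : OG N) :
    0 ≤ pairInt β lam e w x z U :=
  mul_nonneg (Real.exp_pos _).le (mul_nonneg (win_nonneg _ _ _) (win_nonneg _ _ _))

lemma pairInt_le (β : ℝ) (lam : Fin N → ℝ) (e w : ℝ) (x z : Fin N → ℝ) (U : OG N) :
    pairInt β lam e w x z U ≤ Real.exp ((β / 2) * (x ⬝ᵥ (couplings lam U *ᵥ x) + z ⬝ᵥ (couplings lam U *ᵥ z))) := by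
  refine mul_le_of_le_one_right (Real.exp_pos _).le ?_
  exact mul_le_one₀ (win_le_one _ _ _) (win_nonneg _ _ _) (win_le_one _ _ _)

lemma continuous_pairExp (β : ℝ) (lam : Fin N → ℝ) (x z : Fin N → ℝ) :
    Continuous fun U : OG N => Real.exp ((β / 2) * (x ⬝ᵥ (couplings lam U *ᵥ x) + z ⬝ᵥ (couplings lam U *ᵥ z))) :=
  Real.continuous_exp.comp (continuous_const.mul ((continuous_energy lam _).add (continuous_energy lam _)))

lemma measurable_pairInt (β : ℝ) (lam : Fin N → ℝ) (e w : ℝ) (x z : Fin N → ℝ) :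
    Measurable (pairInt β lam e w x z) := by
  unfold pairInt
  refine (continuous_pairExp β lam x z).measurable.mul (Measurable.mul ?_ ?_)
  · exact (measurable_win e w).comp ((continuous_energy lam x).div_const _).measurable
  · exact (measurable_win e w).comp ((continuous_energy lam z).div_const _).measurable

lemma integrable_pairInt (β : ℝ) (lam : Fin N → ℝ) (e w : ℝ) (x z : Fin N → ℝ) :
    Integrable (pairInt β lam e w x z) (haarO N) := by
  refine Integrable.mono' (integrable_OG (continuous_pairExp β lam x z))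
    (measurable_pairInt β lam e w x z).aestronglyMeasurable (Filter.Eventually.of_forall fun U => ?_)
  rw [Real.norm_eq_abs, abs_of_nonneg (pairInt_nonneg _ _ _ _ _ _ _)]
  exact pairInt_le _ _ _ _ _ _ _

/-- The second moment of the truncated partition function in terms of the overlap. -/
theorem second_Ztr_le (hN : N ≠ 0) (β : ℝ) (lam : Fin N → ℝ) (e w : ℝ) {H : ℝ → ℝ}
    (hH : ∀ R, 0 ≤ R → R ≤ 1 → ∀ x z : Fin N → ℝ, nsq x = N → nsq z = N → x ⬝ᵥ z = N * R →
      ∫ U, pairInt β lam e w x z U ∂(haarO N) ≤ H R) :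
    ∫ U, Ztr β lam e w U ^ 2 ∂(haarO N)
      ≤ (1 / 2 ^ N) * ∑ ε : Fin N → Bool, H (|sumS ε| / N) := by
  have hN0 : (0 : ℝ) < N := Nat.cast_pos.2 (Nat.pos_of_ne_zero hN)
  have hsq : ∀ U : OG N, Ztr β lam e w U ^ 2
      = (1 / 2 ^ N) * ∑ σ : Fin N → Bool, ((1 / 2 ^ N) * ∑ τ : Fin N → Bool,
        pairInt β lam e w (spin σ) (spin τ) U) := by
    intro U
    unfold Ztr pairInt
    rw [pow_two, mul_assoc, Finset.sum_mul]
    congr 1
    refine Finset.sum_congr rfl fun σ _ => ?_
    rw [mul_left_comm, Finset.mul_sum]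
    congr 1
    refine Finset.sum_congr rfl fun τ _ => ?_
    have : (β / 2) * (spin σ ⬝ᵥ (couplings lam U *ᵥ spin σ) + spin τ ⬝ᵥ (couplings lam U *ᵥ spin τ))
        = (β / 2) * (spin σ ⬝ᵥ (couplings lam U *ᵥ spin σ)) + (β / 2) * (spin τ ⬝ᵥ (couplings lam U *ᵥ spin τ)) := by
      ring
    rw [this, Real.exp_add]
    ring
  simp only [hsq]
  rw [integral_const_mul]
  rw [integral_finsetSum _ fun σ _ => by
    refine Integrable.const_mul ?_ _
    exact integrable_finsetSum _ fun τ _ => integrable_pairInt β lam e w _ _]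
  have hfix : ∀ σ : Fin N → Bool, ∫ U : OG N, (1 / 2 ^ N) * ∑ τ : Fin N → Bool,
      pairInt β lam e w (spin σ) (spin τ) U ∂(haarO N)
      ≤ (1 / 2 ^ N) * ∑ ε : Fin N → Bool, H (|sumS ε| / N) := by
    intro σ
    rw [integral_const_mul, integral_finsetSum _ fun τ _ => integrable_pairInt β lam e w _ _]
    refine mul_le_mul_of_nonneg_left ?_ (by positivity)
    rw [← Equiv.sum_comp (xorEquiv σ) (fun ε : Fin N → Bool => H (|sumS ε| / N))]
    refine Finset.sum_le_sum fun τ _ => ?_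
    change _ ≤ H (|sumS (xorB σ τ)| / N)
    rw [← dot_spin]
    obtain ⟨S, hS⟩ : ∃ S, S = spin σ ⬝ᵥ spin τ := ⟨_, rfl⟩
    rw [← hS]
    have hS1 : |S| ≤ N := by
      rw [hS, dot_spin]
      exact abs_sumS_le _
    have hR0 : 0 ≤ |S| / N := by positivity
    have hR1 : |S| / N ≤ 1 := (div_le_one hN0).2 hS1
    by_cases h0 : 0 ≤ S
    · refine hH _ hR0 hR1 _ _ (nsq_spin σ) (nsq_spin τ) ?_
      rw [← hS, abs_of_nonneg h0]
      field_simp
    · push Not at h0
      have := hH _ hR0 hR1 (spin σ) (-spin τ) (nsq_spin σ) (by rw [nsq_neg]; exact nsq_spin τ) (by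
        rw [dotProduct_neg, ← hS, abs_of_neg h0]
        field_simp)
      have e2 : pairInt β lam e w (spin σ) (-spin τ) = pairInt β lam e w (spin σ) (spin τ) := by
        ext U
        unfold pairInt
        rw [energy_neg]
      rw [e2] at this
      exact this
  calc _ ≤ (1 / 2 ^ N) * ∑ _σ : Fin N → Bool, (1 / 2 ^ N) * ∑ ε : Fin N → Bool, H (|sumS ε| / N) :=
        mul_le_mul_of_nonneg_left (Finset.sum_le_sum fun σ _ => hfix σ) (by positivity)
    _ = _ := by
        simp

/-- The tilting bound for the pair integrand. -/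
lemma pairInt_tilt (hN : N ≠ 0) (β τ : ℝ) (lam : Fin N → ℝ) (e : ℝ) {w : ℝ} (hw : 0 ≤ w) (x z : Fin N → ℝ) (U : OG N) :
    pairInt β lam e w x z U
      ≤ Real.exp (N * (|τ - β| * w - (τ - β) * e))
        * Real.exp ((τ / 2) * (x ⬝ᵥ (couplings lam U *ᵥ x) + z ⬝ᵥ (couplings lam U *ᵥ z))) := by
  have hN0 : (0 : ℝ) < N := Nat.cast_pos.2 (Nat.pos_of_ne_zero hN)
  obtain ⟨A, hA⟩ : ∃ A, A = x ⬝ᵥ (couplings lam U *ᵥ x) := ⟨_, rfl⟩
  obtain ⟨B, hB⟩ : ∃ B, B = z ⬝ᵥ (couplings lam U *ᵥ z) := ⟨_, rfl⟩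
  unfold pairInt
  rw [← hA, ← hB]
  by_cases h1 : |A / N - e| ≤ w ∧ |B / N - e| ≤ w
  · have h2 : win e w (A / N) = 1 := if_pos h1.1
    have h3 : win e w (B / N) = 1 := if_pos h1.2
    rw [h2, h3, mul_one, mul_one, ← Real.exp_add]
    apply Real.exp_le_exp.2
    obtain ⟨a1, a2⟩ := abs_le.1 h1.1
    obtain ⟨b1, b2⟩ := abs_le.1 h1.2
    have eA : A = N * (A / N) := by field_simp
    have eB : B = N * (B / N) := by field_simp
    obtain ⟨a, ha⟩ : ∃ a, a = A / N := ⟨_, rfl⟩
    obtain ⟨b, hb⟩ : ∃ b, b = B / N := ⟨_, rfl⟩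
    rw [← ha] at a1 a2 eA
    rw [← hb] at b1 b2 eB
    rw [eA, eB]
    have key : (τ - β) * (a + b - 2 * e) ≥ - (2 * (|τ - β| * w)) := by
      have h4 : |a + b - 2 * e| ≤ 2 * w := by
        rw [abs_le]
        constructor <;> linarith
      have h5 : |(τ - β) * (a + b - 2 * e)| ≤ |τ - β| * (2 * w) := by
        rw [abs_mul]
        exact mul_le_mul_of_nonneg_left h4 (abs_nonneg _)
      have h6 := (abs_le.1 h5).1
      linarith
    have h7 := mul_le_mul_of_nonneg_left key (by positivity : (0:ℝ) ≤ (N:ℝ) / 2)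
    nlinarith [h7]
  · have h2 : win e w (A / N) * win e w (B / N) = 0 := by
      by_cases h3 : |A / N - e| ≤ w
      · have h4 : ¬ |B / N - e| ≤ w := fun h => h1 ⟨h3, h⟩
        have : win e w (B / N) = 0 := if_neg h4
        rw [this, mul_zero]
      · have : win e w (A / N) = 0 := if_neg h3
        rw [this, zero_mul]
    rw [h2, mul_zero]
    positivity

/-- The pointwise tail bound outside the energy window. -/
lemma tail_bound (hN : N ≠ 0) (β : ℝ) (e : ℝ) {w s : ℝ} (hs : 0 ≤ s) (A : ℝ) :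
    Real.exp ((β / 2) * A) * (1 - win e w (A / N))
      ≤ Real.exp (((β + s) / 2) * A) * Real.exp (- (N * ((s / 2) * (e + w))))
        + Real.exp (((β - s) / 2) * A) * Real.exp (N * ((s / 2) * (e - w))) := by
  have hN0 : (0 : ℝ) < N := Nat.cast_pos.2 (Nat.pos_of_ne_zero hN)
  have hp1 : 0 ≤ Real.exp (((β + s) / 2) * A) * Real.exp (- (N * ((s / 2) * (e + w)))) := by positivity
  have hp2 : 0 ≤ Real.exp (((β - s) / 2) * A) * Real.exp (N * ((s / 2) * (e - w))) := by positivity
  by_cases h1 : |A / N - e| ≤ w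
  · have : win e w (A / N) = 1 := if_pos h1
    rw [this, sub_self, mul_zero]
    linarith
  · have h2 : win e w (A / N) = 0 := if_neg h1
    rw [h2, sub_zero, mul_one]
    push Not at h1
    have eA : A = N * (A / N) := by field_simp
    obtain ⟨a, ha⟩ : ∃ a, a = A / N := ⟨_, rfl⟩
    rw [← ha] at h1 eA
    rcases lt_abs.1 h1 with h3 | h3
    · have h4 : Real.exp ((β / 2) * A) ≤ Real.exp (((β + s) / 2) * A) * Real.exp (- (N * ((s / 2) * (e + w)))) := by
        rw [← Real.exp_add]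
        apply Real.exp_le_exp.2
        have h5 : (s / 2) * (a - (e + w)) ≥ 0 := mul_nonneg (by positivity) (by linarith)
        have h6 := mul_nonneg hN0.le h5
        rw [eA]
        nlinarith
      linarith
    · have h4 : Real.exp ((β / 2) * A) ≤ Real.exp (((β - s) / 2) * A) * Real.exp (N * ((s / 2) * (e - w))) := by
        rw [← Real.exp_add]
        apply Real.exp_le_exp.2
        have h5 : (s / 2) * ((e - w) - a) ≥ 0 := mul_nonneg (by positivity) (by linarith)
        have h6 := mul_nonneg hN0.le h5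
        rw [eA]
        nlinarith
      linarith

end Vale.Agent.Lib.P166
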