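import Vale.Agent.Lib.P166.Trunc

/-!
The second moment of the truncated partition function.
-/

open scoped BigOperators Topology BoundedContinuousFunction
open MeasureTheory Matrix Filter

namespace Vale.Agent.Lib.P166

variable {μ : Measure ℝ} {a b : ℝ} {lam : ∀ N, Fin N → ℝ}

/-- On a set of overlaps there are good tilts and good parameters. -/
def FarOnT (lam : ∀ N, Fin N → ℝ) (β y₀ e : ℝ) (T : Set ℝ) : Prop :=
  ∃ η > 0, ∃ c₂ > 0, ∃ K₂ : ℝ, ∃ S : ℝ, ∀ᶠ N : ℕ in atTop, ∀ R ∈ T, ∀ y, |y - y₀| < η →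
    ∃ τ y₁ y₂ δ Δ : ℝ, |τ - β| ≤ S ∧ (∀ i, 0 < y₁ - τ * (1 + R) * lam N i) ∧ 0 < δ ∧
      (∀ i, δ ≤ y₂ - τ * (1 - R) * lam N i) ∧ (∀ i, y₂ - τ * (1 - R) * lam N i ≤ Δ) ∧
      Real.sqrt (1 / δ) * Real.sqrt Δ ≤ K₂ ∧
      psiN (lam N) (τ * (1 + R)) y₁ + psiN (lam N) (τ * (1 - R)) y₂ - (τ - β) * e
        ≤ 2 * psiN (lam N) β y + Ifun R - c₂

lemma FarOnT.mono {β y₀ e : ℝ} {S T : Set ℝ} (hT : FarOnT lam β y₀ e T) (hST : S ⊆ T) :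
    FarOnT lam β y₀ e S := by
  obtain ⟨η, hη, c₂, hc₂, K₂, S', hev⟩ := hT
  refine ⟨η, hη, c₂, hc₂, K₂, S', ?_⟩
  filter_upwards [hev] with N hN R hR y hy
  exact hN R (hST hR) y hy

lemma FarOnT.union {β y₀ e : ℝ} {S T : Set ℝ} (hS : FarOnT lam β y₀ e S) (hT : FarOnT lam β y₀ e T) :
    FarOnT lam β y₀ e (S ∪ T) := by
  obtain ⟨η, hη, c₂, hc₂, K₂, S₁, hev⟩ := hS
  obtain ⟨η', hη', c₂', hc₂', K₂', S₂, hev'⟩ := hT
  refine ⟨min η η', lt_min hη hη', min c₂ c₂', lt_min hc₂ hc₂', max K₂ K₂', max S₁ S₂, ?_⟩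
  filter_upwards [hev, hev'] with N hN hN' R hR y hy
  rcases hR with hR | hR
  · obtain ⟨τ, y₁, y₂, δ, Δ, h0, h1, h2, h3, h4, h5, h6⟩ := hN R hR y (hy.trans_le (min_le_left _ _))
    refine ⟨τ, y₁, y₂, δ, Δ, h0.trans (le_max_left _ _), h1, h2, h3, h4, h5.trans (le_max_left _ _), ?_⟩
    have := min_le_left c₂ c₂'
    linarith
  · obtain ⟨τ, y₁, y₂, δ, Δ, h0, h1, h2, h3, h4, h5, h6⟩ := hN' R hR y (hy.trans_le (min_le_right _ _))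
    refine ⟨τ, y₁, y₂, δ, Δ, h0.trans (le_max_right _ _), h1, h2, h3, h4, h5.trans (le_max_right _ _), ?_⟩
    have := min_le_right c₂ c₂'
    linarith

lemma farOnT_empty (β y₀ e : ℝ) : FarOnT lam β y₀ e ∅ :=
  ⟨1, one_pos, 1, one_pos, 0, 0, Eventually.of_forall fun _ R hR => absurd hR (Set.notMem_empty R)⟩

/-- The local statement near a point. -/
lemma farOnT_local (h : Spec μ a b lam) {β y₀ e R₀ τ y₁ y₂ : ℝ} (hβ : 0 < β) (hy₀ : β * a < y₀)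
    (hR₀ : 0 ≤ R₀) (hR₁ : R₀ ≤ 1) (hτ : 0 ≤ τ) (hy₁ : τ * (1 + R₀) * a < y₁) (hy₂ : τ * (1 - R₀) * a < y₂)
    (hgap : psi μ (τ * (1 + R₀)) y₁ + psi μ (τ * (1 - R₀)) y₂ - (τ - β) * e - 2 * psi μ β y₀ < Ifun R₀) :
    ∃ W ∈ 𝓝 R₀, FarOnT lam β y₀ e W := by
  obtain ⟨g, hg⟩ : ∃ g, g = Ifun R₀ - (psi μ (τ * (1 + R₀)) y₁ + psi μ (τ * (1 - R₀)) y₂ - (τ - β) * e
      - 2 * psi μ β y₀) := ⟨_, rfl⟩
  have hg0 : 0 < g := by
    rw [hg]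
    linarith
  have ht₁ : 0 ≤ τ * (1 + R₀) := by positivity
  have ht₂ : 0 ≤ τ * (1 - R₀) := mul_nonneg hτ (by linarith)
  have hε : 0 < g / 8 := by positivity
  obtain ⟨η₁, hη₁, hev₁⟩ := psi_conv h ht₁ hy₁ hε
  obtain ⟨η₂, hη₂, hev₂⟩ := psi_conv h ht₂ hy₂ hε
  obtain ⟨η₃, hη₃, hev₃⟩ := psi_conv h hβ.le hy₀ hε
  obtain ⟨e₁, he₁, m₁, hm₁, M₁, hevm₁⟩ := margin h ht₁ hy₁
  obtain ⟨e₂, he₂, m₂, hm₂, M₂, hevm₂⟩ := margin h ht₂ hy₂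
  have hI := (Metric.continuous_iff.1 continuous_Ifun) R₀ (g / 8) hε
  obtain ⟨ρ₄, hρ₄, hI⟩ := hI
  obtain ⟨ν, hν⟩ : ∃ ν, ν = min (min η₁ η₂) (min e₁ e₂) := ⟨_, rfl⟩
  have hν0 : 0 < ν := by
    rw [hν]
    exact lt_min (lt_min hη₁ hη₂) (lt_min he₁ he₂)
  obtain ⟨ρ, hρ⟩ : ∃ ρ, ρ = min ρ₄ (ν / (τ + 1)) := ⟨_, rfl⟩
  have hρ0 : 0 < ρ := by
    rw [hρ]
    exact lt_min hρ₄ (by positivity)
  refine ⟨Metric.ball R₀ ρ, Metric.ball_mem_nhds _ hρ0, η₃, hη₃, 3 * g / 8, by positivity,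
    Real.sqrt (1 / m₂) * Real.sqrt M₂, |τ - β|, ?_⟩
  filter_upwards [hev₁, hev₂, hev₃, hevm₁, hevm₂] with N h1 h2 h3 h4 h5 R hR y hy
  rw [Metric.mem_ball, Real.dist_eq] at hR
  have hRρ₄ : dist R R₀ < ρ₄ := by
    rw [Real.dist_eq]
    exact hR.trans_le (by rw [hρ]; exact min_le_left _ _)
  have hβR : τ * |R - R₀| < ν := by
    have h6 : |R - R₀| < ν / (τ + 1) := hR.trans_le (by rw [hρ]; exact min_le_right _ _)
    rw [lt_div_iff₀ (by positivity)] at h6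
    nlinarith [abs_nonneg (R - R₀)]
  have ePlus : |τ * (1 + R) - τ * (1 + R₀)| = τ * |R - R₀| := by
    rw [show τ * (1 + R) - τ * (1 + R₀) = τ * (R - R₀) by ring, abs_mul, abs_of_nonneg hτ]
  have eMinus : |τ * (1 - R) - τ * (1 - R₀)| = τ * |R - R₀| := by
    rw [show τ * (1 - R) - τ * (1 - R₀) = τ * (-(R - R₀)) by ring, abs_mul, abs_of_nonneg hτ, abs_neg]
  have hν1 : ν ≤ η₁ := by
    rw [hν]
    exact (min_le_left _ _).trans (min_le_left _ _)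
  have hν2 : ν ≤ η₂ := by
    rw [hν]
    exact (min_le_left _ _).trans (min_le_right _ _)
  have hν3 : ν ≤ e₁ := by
    rw [hν]
    exact (min_le_right _ _).trans (min_le_left _ _)
  have hν4 : ν ≤ e₂ := by
    rw [hν]
    exact (min_le_right _ _).trans (min_le_right _ _)
  have a1 := h1 (τ * (1 + R)) y₁ (by rw [ePlus]; linarith) (by simpa using hη₁)
  have a2 := h2 (τ * (1 - R)) y₂ (by rw [eMinus]; linarith) (by simpa using hη₂)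
  have a3 := h3 β y (by simpa using hη₃) hy
  have a4 := hI R hRρ₄
  rw [Real.dist_eq] at a4
  refine ⟨τ, y₁, y₂, m₂, M₂, le_refl _, ?_, hm₂, ?_, ?_, le_refl _, ?_⟩
  · intro i
    exact hm₁.trans_le (h4 (τ * (1 + R)) y₁ (by rw [ePlus]; linarith) (by simpa using he₁.le) i).1
  · intro i
    exact (h5 (τ * (1 - R)) y₂ (by rw [eMinus]; linarith) (by simpa using he₂.le) i).1
  · intro i
    exact (h5 (τ * (1 - R)) y₂ (by rw [eMinus]; linarith) (by simpa using he₂.le) i).2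
  · obtain ⟨b1, b2⟩ := abs_lt.1 a1
    obtain ⟨b3, b4⟩ := abs_lt.1 a2
    obtain ⟨b5, b6⟩ := abs_lt.1 a3
    obtain ⟨b7, b8⟩ := abs_lt.1 a4
    linarith

/-- The uniform statement on a compact interval of overlaps. -/
theorem farT_uniform (h : Spec μ a b lam) {β y₀ e r₀ : ℝ} (hβ : 0 < β) (hy₀ : β * a < y₀)
    (hr₀ : 0 < r₀)
    (HT : ∀ R ∈ Set.Ioc (0 : ℝ) 1, ∃ τ y₁ y₂, 0 ≤ τ ∧ τ * (1 + R) * a < y₁ ∧ τ * (1 - R) * a < y₂ ∧
      psi μ (τ * (1 + R)) y₁ + psi μ (τ * (1 - R)) y₂ - (τ - β) * e - 2 * psi μ β y₀ < Ifun R) :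
    FarOnT lam β y₀ e (Set.Icc r₀ 1) := by
  refine isCompact_Icc.induction_on (farOnT_empty β y₀ e) (fun _ _ hst hT => hT.mono hst)
    (fun _ _ h1 h2 => h1.union h2) ?_
  intro R hR
  have hR0 : 0 < R := hr₀.trans_le hR.1
  obtain ⟨τ, y₁, y₂, h0, h1, h2, h3⟩ := HT R ⟨hR0, hR.2⟩
  obtain ⟨W, hW, hF⟩ := farOnT_local h hβ hy₀ hR0.le hR.2 h0 h1 h2 h3
  exact ⟨W, mem_nhdsWithin_of_mem_nhds hW, hF⟩

/-- The finite `N` estimate combining the two regimes for the truncated partition function. -/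
theorem second_finite_T {N : ℕ} (hN : N ≠ 0) (lam : Fin N → ℝ) {β y κ m M ε₁ c c₂ γ' r₀ K₂ S e w : ℝ}
    (hm : 0 < m) (hε₁ : 0 < ε₁) (hc0 : 0 ≤ c) (hc : c < 1 / 2)
    (hcdef : c = (1 / 2) * (1 + ε₁) * γ') (hr₀1 : r₀ ≤ 1) (hw0 : 0 ≤ w) (hSw : S * w ≤ c₂ / 2)
    (hD : ∀ i, m ≤ y - β * lam i) (hD' : ∀ i, y - β * lam i ≤ M)
    (hsum : ∑ i, β ^ 2 * (lam i - κ) ^ 2 / (y - β * lam i) ^ 2 ≤ N * γ')
    (hx : ∀ R, 0 ≤ R → R ≤ r₀ → ∀ i, (β * R * (lam i - κ) / (y - β * lam i)) ^ 2 ≤ ε₁ / (1 + ε₁))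
    (hx' : ∀ R, 0 ≤ R → R ≤ r₀ → ∀ i, (β * R * (lam i - κ) / (y - β * lam i)) ^ 2 ≤ 1 / 4)
    (hfar : ∀ R ∈ Set.Icc r₀ 1, ∃ τ y₁ y₂ δ Δ : ℝ, |τ - β| ≤ S ∧ (∀ i, 0 < y₁ - τ * (1 + R) * lam i) ∧ 0 < δ ∧
      (∀ i, δ ≤ y₂ - τ * (1 - R) * lam i) ∧ (∀ i, y₂ - τ * (1 - R) * lam i ≤ Δ) ∧
      Real.sqrt (1 / δ) * Real.sqrt Δ ≤ K₂ ∧
      psiN lam (τ * (1 + R)) y₁ + psiN lam (τ * (1 - R)) y₂ - (τ - β) * e
        ≤ 2 * psiN lam β y + Ifun R - c₂)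
    (hlin : ((N : ℝ) + 1) * Real.exp (-((c₂ / 2) * N)) ≤ 1) (hK₂0 : 0 ≤ K₂) :
    ∫ U, Ztr β lam e w U ^ 2 ∂(haarO N)
      ≤ (Real.sqrt (1 / (m / 2)) * Real.sqrt (2 * M) * Real.sqrt (1 / (1 - 2 * c)) + K₂)
        * Real.exp (N * psiN lam β y) ^ 2 := by
  have hN0 : (0 : ℝ) < N := Nat.cast_pos.2 (Nat.pos_of_ne_zero hN)
  obtain ⟨X, hX⟩ : ∃ X, X = Real.exp (N * psiN lam β y) := ⟨_, rfl⟩
  obtain ⟨K₁, hK₁⟩ : ∃ K₁, K₁ = Real.sqrt (1 / (m / 2)) * Real.sqrt (2 * M) := ⟨_, rfl⟩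
  have hK₁0 : 0 ≤ K₁ := by
    rw [hK₁]
    positivity
  rw [← hX, ← hK₁]
  have hX2 : X ^ 2 = Real.exp (2 * (N * psiN lam β y)) := by
    rw [hX, ← Real.exp_nat_mul]
    norm_num
  have hH : ∀ R, 0 ≤ R → R ≤ 1 → ∀ x z : Fin N → ℝ, nsq x = N → nsq z = N → x ⬝ᵥ z = N * R →
      ∫ U, pairInt β lam e w x z U ∂(haarO N) ≤ X ^ 2 * (K₁ * Real.exp (c * N * R ^ 2)
          + K₂ * (Real.exp (-((c₂ / 2) * N)) * Real.exp (N * Ifun R))) := by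
    intro R hR0 hR1 x z hxx hzz hxz
    have hnn1 : 0 ≤ K₁ * Real.exp (c * N * R ^ 2) := by positivity
    have hnn2 : 0 ≤ K₂ * (Real.exp (-((c₂ / 2) * N)) * Real.exp (N * Ifun R)) := by positivity
    by_cases hRr : R ≤ r₀
    · have hn := near_pair hN lam (κ := κ) hε₁ hm hR0 hR1 hD hD' (hx R hR0 hRr) (hx' R hR0 hRr)
        hxx hzz hxz
      have hn' : ∫ U, pairInt β lam e w x z U ∂(haarO N)
          ≤ ∫ U, Real.exp ((β / 2) * (x ⬝ᵥ (couplings lam U *ᵥ x) + z ⬝ᵥ (couplings lam U *ᵥ z))) ∂(haarO N) :=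
        integral_mono (integrable_pairInt _ _ _ _ _ _) (integrable_OG (continuous_pairExp _ _ _ _))
          (fun U => pairInt_le _ _ _ _ _ _ U)
      refine hn'.trans (hn.trans ?_)
      rw [← hK₁]
      have hexp : 2 * (N * psiN lam β y) + (1 / 2) * (1 + ε₁) * R ^ 2
          * ∑ i, β ^ 2 * (lam i - κ) ^ 2 / (y - β * lam i) ^ 2
          ≤ 2 * (N * psiN lam β y) + c * N * R ^ 2 := by
        have h1 : (1 / 2) * (1 + ε₁) * R ^ 2 * ∑ i, β ^ 2 * (lam i - κ) ^ 2 / (y - β * lam i) ^ 2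
            ≤ (1 / 2) * (1 + ε₁) * R ^ 2 * (N * γ') :=
          mul_le_mul_of_nonneg_left hsum (by positivity)
        rw [hcdef]
        nlinarith
      have h2 : Real.exp (2 * (N * psiN lam β y) + (1 / 2) * (1 + ε₁) * R ^ 2
          * ∑ i, β ^ 2 * (lam i - κ) ^ 2 / (y - β * lam i) ^ 2) ≤ X ^ 2 * Real.exp (c * N * R ^ 2) := by
        rw [hX2, ← Real.exp_add]
        exact Real.exp_le_exp.2 hexp
      calc K₁ * Real.exp _ ≤ K₁ * (X ^ 2 * Real.exp (c * N * R ^ 2)) :=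
            mul_le_mul_of_nonneg_left h2 hK₁0
        _ = X ^ 2 * (K₁ * Real.exp (c * N * R ^ 2)) := by ring
        _ ≤ _ := mul_le_mul_of_nonneg_left (by linarith) (sq_nonneg X)
    · push Not at hRr
      obtain ⟨τ, y₁, y₂, δ, Δ, h0, h1, h2, h3, h4, h5, h6⟩ := hfar R ⟨hRr.le, hR1⟩
      have hp := pair_moment' hN lam hR0 hR1 h1 h2 h3 h4 hxx hzz hxz
      have hp' : ∫ U, pairInt β lam e w x z U ∂(haarO N)
          ≤ Real.exp (N * (|τ - β| * w - (τ - β) * e))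
            * ∫ U, Real.exp ((τ / 2) * (x ⬝ᵥ (couplings lam U *ᵥ x) + z ⬝ᵥ (couplings lam U *ᵥ z))) ∂(haarO N) := by
        rw [← integral_const_mul]
        exact integral_mono (integrable_pairInt _ _ _ _ _ _)
          ((integrable_OG (continuous_pairExp _ _ _ _)).const_mul _)
          (fun U => pairInt_tilt hN β τ lam e hw0 x z U)
      have hp2 := hp'.trans (mul_le_mul_of_nonneg_left hp (Real.exp_pos _).le)
      refine hp2.trans ?_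
      have hexp : Real.exp (N * (|τ - β| * w - (τ - β) * e)) * (Real.exp (N * psiN lam (τ * (1 + R)) y₁)
            * Real.exp (N * psiN lam (τ * (1 - R)) y₂))
          ≤ X ^ 2 * (Real.exp (-((c₂ / 2) * N)) * Real.exp (N * Ifun R)) := by
        rw [hX2, ← Real.exp_add, ← Real.exp_add, ← Real.exp_add, ← Real.exp_add]
        apply Real.exp_le_exp.2
        have h7 := mul_le_mul_of_nonneg_left h6 hN0.le
        have h8 : |τ - β| * w ≤ S * w := mul_le_mul_of_nonneg_right h0 hw0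
        have h9 : N * (|τ - β| * w) ≤ N * (c₂ / 2) :=
          mul_le_mul_of_nonneg_left (h8.trans hSw) hN0.le
        nlinarith
      calc _ = Real.sqrt (1 / δ) * Real.sqrt Δ * (Real.exp (N * (|τ - β| * w - (τ - β) * e))
            * (Real.exp (N * psiN lam (τ * (1 + R)) y₁)
            * Real.exp (N * psiN lam (τ * (1 - R)) y₂))) := by ring
        _ ≤ K₂ * (X ^ 2 * (Real.exp (-((c₂ / 2) * N)) * Real.exp (N * Ifun R))) :=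
            mul_le_mul h5 hexp (by positivity) hK₂0
        _ = X ^ 2 * (K₂ * (Real.exp (-((c₂ / 2) * N)) * Real.exp (N * Ifun R))) := by ring
        _ ≤ _ := mul_le_mul_of_nonneg_left (by linarith) (sq_nonneg X)
  have h1 := second_Ztr_le hN β lam e w hH
  refine h1.trans ((H_sum_bound hN hK₁0 hK₂0 hc0 hc).trans ?_)
  rw [mul_comm]
  refine mul_le_mul_of_nonneg_right ?_ (sq_nonneg X)
  have h9 : K₂ * ((N + 1) * Real.exp (-((c₂ / 2) * N))) ≤ K₂ := by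
    calc K₂ * ((N + 1) * Real.exp (-((c₂ / 2) * N))) ≤ K₂ * 1 := mul_le_mul_of_nonneg_left hlin hK₂0
      _ = K₂ := mul_one _
  linarith

end Vale.Agent.Lib.P166
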