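import Vale.Agent.Lib.P166.Trunc2

/-!
The moments of the truncated partition function under the hypotheses on the spectrum.
-/

open scoped BigOperators Topology BoundedContinuousFunction
open MeasureTheory Matrix Filter

namespace Vale.Agent.Lib.P166

variable {μ : Measure ℝ} {a b : ℝ} {lam : ∀ N, Fin N → ℝ}

/-- The bound for the second moment of the truncated partition function. -/
theorem second_moment_T (h : Spec μ a b lam) {β y₀ κ e : ℝ} (hβ : 0 < β) (hy₀ : β * a < y₀)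
    (H2 : β ^ 2 * ∫ x, (x - κ) ^ 2 / (y₀ - β * x) ^ 2 ∂μ < 1)
    (HT : ∀ R ∈ Set.Ioc (0 : ℝ) 1, ∃ τ y₁ y₂, 0 ≤ τ ∧ τ * (1 + R) * a < y₁ ∧ τ * (1 - R) * a < y₂ ∧
      psi μ (τ * (1 + R)) y₁ + psi μ (τ * (1 - R)) y₂ - (τ - β) * e - 2 * psi μ β y₀ < Ifun R) :
    ∃ e₁ > 0, ∃ K > 0, ∃ w₀ > 0, ∀ w, 0 < w → w ≤ w₀ → ∀ᶠ N : ℕ in atTop, ∀ y, |y - y₀| < e₁ →
      ∫ U, Ztr β (lam N) e w U ^ 2 ∂(haarO N) ≤ K * Real.exp (N * psiN (lam N) β y) ^ 2 := by
  have hprob := h.prob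
  obtain ⟨γ, hγ⟩ : ∃ γ, γ = ∫ x, (x - κ) ^ 2 / (y₀ - β * x) ^ 2 ∂μ := ⟨_, rfl⟩
  rw [← hγ] at H2
  have hγ0 : 0 ≤ γ := by
    rw [hγ]
    exact integral_nonneg fun x => by positivity
  obtain ⟨g, hg⟩ : ∃ g, g = β ^ 2 * γ := ⟨_, rfl⟩
  rw [← hg] at H2
  have hg0 : 0 ≤ g := by
    rw [hg]
    positivity
  obtain ⟨γ', ε₁, c, hgγ', hγ'0, hε₁, hc0, hc, hcdef⟩ := near_constants hg0 H2
  obtain ⟨e₀, he₀, m, hm, M, hevm⟩ := margin h hβ.le hy₀
  have hΦ : ContinuousOn (fun p : ℝ × ℝ => (p.2 - κ) ^ 2 / p.1 ^ 2) {p | 0 < p.1} := by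
    refine ContinuousOn.div (by fun_prop) (by fun_prop) fun p hp => ?_
    have : 0 < p.1 := hp
    positivity
  obtain ⟨η_c, hη_c, hevc⟩ := avg_conv h (Φ := fun x l => (l - κ) ^ 2 / x ^ 2) hΦ hβ.le hy₀
    (ε := (γ' - g) / β ^ 2) (by
      have : 0 < γ' - g := by linarith
      positivity)
  obtain ⟨Λ, hΛ⟩ : ∃ Λ, Λ = |a| + |b| + 1 + |κ| := ⟨_, rfl⟩
  obtain ⟨A₀, hA₀⟩ : ∃ A₀, A₀ = (β * Λ / m) ^ 2 := ⟨_, rfl⟩
  have hA₀0 : 0 ≤ A₀ := by
    rw [hA₀]
    positivity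
  obtain ⟨u, hu⟩ : ∃ u, u = min (1 / 4) (ε₁ / (1 + ε₁)) := ⟨_, rfl⟩
  have hu0 : 0 < u := by
    rw [hu]
    exact lt_min (by norm_num) (by positivity)
  obtain ⟨r₀, hr₀, hr₀1, hr₀2⟩ := small_overlap hA₀0 hu0
  obtain ⟨η_f, hη_f, c₂, hc₂, K₂, S, hevf⟩ := farT_uniform h hβ hy₀ hr₀ HT
  have hden : 0 < 1 - 2 * c := by linarith
  refine ⟨min e₀ (min η_c η_f), lt_min he₀ (lt_min hη_c hη_f),
    Real.sqrt (1 / (m / 2)) * Real.sqrt (2 * max M 0) * Real.sqrt (1 / (1 - 2 * c)) + |K₂| + 1,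
    by positivity, c₂ / (2 * (|S| + 1)), by positivity, ?_⟩
  intro w hw0 hww
  have hSw : S * w ≤ c₂ / 2 := by
    have h1 : S ≤ |S| + 1 := by linarith [le_abs_self S]
    have h2 : (|S| + 1) * w ≤ c₂ / 2 := by
      rw [le_div_iff₀ (by positivity)] at hww
      linarith
    calc S * w ≤ (|S| + 1) * w := mul_le_mul_of_nonneg_right h1 hw0.le
      _ ≤ _ := h2
  filter_upwards [hevm, hevc, hevf, h.edge 1 one_pos, eventually_gt_atTop 0,
    eventually_linear_exp (half_pos hc₂)] with N h1 h2 h3 h4 hNpos hlin y hy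
  have hN0 : (0 : ℝ) < N := Nat.cast_pos.2 hNpos
  have hy1 : |y - y₀| ≤ e₀ := (hy.trans_le (min_le_left _ _)).le
  have hy2 : |y - y₀| < η_c := (hy.trans_le (min_le_right _ _)).trans_le (min_le_left _ _)
  have hy3 : |y - y₀| < η_f := (hy.trans_le (min_le_right _ _)).trans_le (min_le_right _ _)
  have hβ0 : |β - β| ≤ e₀ := by simpa using he₀.le
  have hD : ∀ i, m ≤ y - β * lam N i := fun i => (h1 β y hβ0 hy1 i).1
  have hD' : ∀ i, y - β * lam N i ≤ max M 0 := fun i =>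
    (h1 β y hβ0 hy1 i).2.trans (le_max_left _ _)
  have hl : ∀ i, |lam N i - κ| ≤ Λ := by
    intro i
    obtain ⟨h5, h6⟩ := h4 i
    have h7 : |lam N i| ≤ |a| + |b| + 1 := by
      rw [abs_le]
      have := neg_abs_le b
      have := le_abs_self a
      have := abs_nonneg a
      have := abs_nonneg b
      constructor <;> linarith
    rw [hΛ]
    calc |lam N i - κ| ≤ |lam N i| + |κ| := abs_sub _ _
      _ ≤ _ := by linarith
  have hsum : ∑ i, β ^ 2 * (lam N i - κ) ^ 2 / (y - β * lam N i) ^ 2 ≤ N * γ' := by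
    have h5 := h2 β y (by simpa using hη_c) hy2
    rw [← hγ] at h5
    have h6 := (abs_lt.1 h5).2
    have hβ2 : 0 < β ^ 2 := by positivity
    have e : ∑ i, β ^ 2 * (lam N i - κ) ^ 2 / (y - β * lam N i) ^ 2
        = β ^ 2 * N * ((1 / (N : ℝ)) * ∑ i, (lam N i - κ) ^ 2 / (y - β * lam N i) ^ 2) := by
      rw [Finset.mul_sum, Finset.mul_sum]
      refine Finset.sum_congr rfl fun i _ => ?_
      field_simp
    rw [e]
    have h7 : (1 / (N : ℝ)) * ∑ i, (lam N i - κ) ^ 2 / (y - β * lam N i) ^ 2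
        ≤ γ + (γ' - g) / β ^ 2 := by linarith
    calc _ ≤ β ^ 2 * N * (γ + (γ' - g) / β ^ 2) :=
          mul_le_mul_of_nonneg_left h7 (by positivity)
      _ = N * γ' := by
          rw [hg]
          field_simp
          ring
  have hx : ∀ R, 0 ≤ R → R ≤ r₀ → ∀ i,
      (β * R * (lam N i - κ) / (y - β * lam N i)) ^ 2 ≤ ε₁ / (1 + ε₁) := by
    intro R hR0 hR i
    refine (x_bound hβ hR0 hR hA₀ hr₀2 (hl i) hm (hD i)).trans ?_
    rw [hu]
    exact min_le_right _ _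
  have hx' : ∀ R, 0 ≤ R → R ≤ r₀ → ∀ i,
      (β * R * (lam N i - κ) / (y - β * lam N i)) ^ 2 ≤ 1 / 4 := by
    intro R hR0 hR i
    refine (x_bound hβ hR0 hR hA₀ hr₀2 (hl i) hm (hD i)).trans ?_
    rw [hu]
    exact min_le_left _ _
  have hfar : ∀ R ∈ Set.Icc r₀ 1, ∃ τ y₁ y₂ δ Δ : ℝ, |τ - β| ≤ S ∧ (∀ i, 0 < y₁ - τ * (1 + R) * lam N i) ∧ 0 < δ ∧
      (∀ i, δ ≤ y₂ - τ * (1 - R) * lam N i) ∧ (∀ i, y₂ - τ * (1 - R) * lam N i ≤ Δ) ∧
      Real.sqrt (1 / δ) * Real.sqrt Δ ≤ |K₂| ∧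
      psiN (lam N) (τ * (1 + R)) y₁ + psiN (lam N) (τ * (1 - R)) y₂ - (τ - β) * e
        ≤ 2 * psiN (lam N) β y + Ifun R - c₂ := by
    intro R hR
    obtain ⟨τ, y₁, y₂, δ, Δ, h0, h5, h6, h7, h8, h9, h10⟩ := h3 R hR y hy3
    exact ⟨τ, y₁, y₂, δ, Δ, h0, h5, h6, h7, h8, h9.trans (le_abs_self _), h10⟩
  have hfin := second_finite_T hNpos.ne' (lam N) hm hε₁ hc0 hc hcdef hr₀1 hw0.le hSw hD hD' hsum hx hx' hfar
    hlin (abs_nonneg _)
  refine hfin.trans ?_
  refine mul_le_mul_of_nonneg_right ?_ (sq_nonneg _)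
  linarith

/-- The quadratic bound for the function `Ψ` under a small change of the inverse temperature. -/
theorem psi_tilt (h : Spec μ a b lam) {β y₀ : ℝ} (hβ : 0 ≤ β) (hy₀ : β * a < y₀) :
    ∃ Q ≥ 0, ∃ s₀ > 0, ∀ s, |s| ≤ s₀ →
      psi μ (β + s) y₀ ≤ psi μ β y₀ + (s / 2) * (∫ x, x / (y₀ - β * x) ∂μ) + s ^ 2 * Q := by
  have hprob := h.prob
  obtain ⟨g, hg⟩ : ∃ g, g = y₀ - β * a := ⟨_, rfl⟩
  have hg0 : 0 < g := by
    rw [hg]
    linarith
  obtain ⟨Λ, hΛ⟩ : ∃ Λ, Λ = |a| + |b| + 1 := ⟨_, rfl⟩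
  have hΛ0 : 0 < Λ := by
    rw [hΛ]
    positivity
  have hxΛ : ∀ x ∈ Set.Icc b a, |x| ≤ Λ := by
    intro x hx
    rw [abs_le, hΛ]
    have := neg_abs_le b
    have := le_abs_self a
    have := abs_nonneg a
    have := abs_nonneg b
    constructor <;> linarith [hx.1, hx.2]
  have hD : ∀ x ∈ Set.Icc b a, g ≤ y₀ - β * x := by
    intro x hx
    have : β * x ≤ β * a := mul_le_mul_of_nonneg_left hx.2 hβ
    rw [hg]
    linarith
  obtain ⟨Dm, hDm⟩ : ∃ Dm, Dm = y₀ + β * Λ := ⟨_, rfl⟩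
  refine ⟨∫ x, (x / (y₀ - β * x)) ^ 2 ∂μ, integral_nonneg fun x => sq_nonneg _, g / (2 * Λ), by positivity, ?_⟩
  intro s hs
  have hint1 : Integrable (fun x => x / (y₀ - β * x)) μ := by
    refine integrable_supp h (C := Λ / g) ?_ ?_
    · fun_prop
    · intro x hx
      have h1 := hD x hx
      have h2 : 0 < y₀ - β * x := hg0.trans_le h1
      rw [abs_div, abs_of_pos h2]
      exact div_le_div₀ hΛ0.le (hxΛ x hx) hg0 h1
  have hint2 : Integrable (fun x => (x / (y₀ - β * x)) ^ 2) μ := by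
    refine integrable_supp h (C := (Λ / g) ^ 2) ?_ ?_
    · fun_prop
    · intro x hx
      have h1 := hD x hx
      have h2 : 0 < y₀ - β * x := hg0.trans_le h1
      rw [abs_of_nonneg (sq_nonneg _), ← sq_abs, abs_div, abs_of_pos h2]
      exact pow_le_pow_left₀ (by positivity) (div_le_div₀ hΛ0.le (hxΛ x hx) hg0 h1) 2
  have hu : ∀ x ∈ Set.Icc b a, |s * (x / (y₀ - β * x))| ≤ 1 / 2 := by
    intro x hx
    have h1 := hD x hx
    have h2 : 0 < y₀ - β * x := hg0.trans_le h1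
    rw [abs_mul, abs_div, abs_of_pos h2]
    have h3 : |x| / (y₀ - β * x) ≤ Λ / g := div_le_div₀ hΛ0.le (hxΛ x hx) hg0 h1
    calc |s| * (|x| / (y₀ - β * x)) ≤ (g / (2 * Λ)) * (Λ / g) :=
          mul_le_mul hs h3 (by positivity) (by positivity)
      _ = 1 / 2 := by field_simp
  have hlogbd : ∀ x ∈ Set.Icc b a, Real.log (y₀ - β * x) - s * (x / (y₀ - β * x))
      - 2 * s ^ 2 * (x / (y₀ - β * x)) ^ 2 ≤ Real.log (y₀ - (β + s) * x) := by
    intro x hx
    have h1 := hD x hx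
    have h2 : 0 < y₀ - β * x := hg0.trans_le h1
    obtain ⟨u, huu⟩ : ∃ u, u = s * (x / (y₀ - β * x)) := ⟨_, rfl⟩
    have h3 := hu x hx
    rw [← huu] at h3
    obtain ⟨h4, h5⟩ := abs_le.1 h3
    have e1 : y₀ - (β + s) * x = (y₀ - β * x) * (1 - u) := by
      rw [huu]
      field_simp
      ring
    have h6 : 0 < 1 - u := by linarith
    rw [e1, Real.log_mul h2.ne' h6.ne']
    have h7 := Real.one_sub_inv_le_log_of_pos h6
    have h8 : (1 - u)⁻¹ ≤ 1 + u + 2 * u ^ 2 := by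
      rw [inv_le_iff_one_le_mul₀ h6]
      nlinarith [sq_nonneg u, mul_nonneg (sq_nonneg u) (by linarith : 0 ≤ 1 / 2 - u)]
    have e2 : 2 * s ^ 2 * (x / (y₀ - β * x)) ^ 2 = 2 * u ^ 2 := by
      rw [huu]
      ring
    rw [← huu, e2]
    linarith
  have hint3 : Integrable (fun x => Real.log (y₀ - β * x) - s * (x / (y₀ - β * x))
      - 2 * s ^ 2 * (x / (y₀ - β * x)) ^ 2) μ := by
    refine Integrable.sub (Integrable.sub ?_ (hint1.const_mul s)) (hint2.const_mul _)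
    refine integrable_supp h (C := |Real.log g| + |Real.log Dm| + Real.log Dm + |Real.log g|) ?_ ?_
    · fun_prop
    · intro x hx
      have h1 := hD x hx
      have h2 : 0 < y₀ - β * x := hg0.trans_le h1
      have h3 : y₀ - β * x ≤ Dm := by
        rw [hDm]
        have := hxΛ x hx
        have h4 : -(β * Λ) ≤ β * x := by
          have := (abs_le.1 this).1
          nlinarith
        linarith
      have h4 := Real.log_le_log hg0 h1
      have h5 := Real.log_le_log h2 h3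
      rw [abs_le]
      have h6 := le_abs_self (Real.log g)
      have h7 := neg_abs_le (Real.log g)
      have h8 := le_abs_self (Real.log Dm)
      have h9 := neg_abs_le (Real.log Dm)
      have h10 := abs_nonneg (Real.log g)
      have h11 := abs_nonneg (Real.log Dm)
      constructor <;> linarith
  have hint4 : Integrable (fun x => Real.log (y₀ - (β + s) * x)) μ := by
    obtain ⟨Dn, hDn⟩ : ∃ Dn, Dn = Dm + |s| * Λ := ⟨_, rfl⟩
    refine integrable_supp h (C := |Real.log (g / 2)| + |Real.log Dn|) ?_ ?_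
    · fun_prop
    · intro x hx
      have h1 := hD x hx
      have h2 : 0 < y₀ - β * x := hg0.trans_le h1
      have h3 := hu x hx
      obtain ⟨h4, h5⟩ := abs_le.1 h3
      have e1 : y₀ - (β + s) * x = (y₀ - β * x) * (1 - s * (x / (y₀ - β * x))) := by
        field_simp
        ring
      have h6 : g / 2 ≤ y₀ - (β + s) * x := by
        rw [e1]
        have h7 : (1:ℝ) / 2 ≤ 1 - s * (x / (y₀ - β * x)) := by linarith
        nlinarith
      have hxx := abs_le.1 (hxΛ x hx)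
      have h7 : y₀ - (β + s) * x ≤ Dn := by
        rw [hDn, hDm]
        have h8 : -(β * x) ≤ β * Λ := by nlinarith [hxx.1]
        have h9 : -(s * x) ≤ |s| * Λ := by
          have h10 : |s * x| ≤ |s| * Λ := by
            rw [abs_mul]
            exact mul_le_mul_of_nonneg_left (hxΛ x hx) (abs_nonneg _)
          have := neg_abs_le (s * x)
          linarith
        nlinarith
      have h8 : 0 < g / 2 := by positivity
      have h9 : 0 < y₀ - (β + s) * x := h8.trans_le h6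
      have h10 := Real.log_le_log h8 h6
      have h11 := Real.log_le_log h9 h7
      rw [abs_le]
      have h12 := neg_abs_le (Real.log (g / 2))
      have h13 := le_abs_self (Real.log Dn)
      have h14 := abs_nonneg (Real.log (g / 2))
      have h15 := abs_nonneg (Real.log Dn)
      constructor <;> linarith
  have hmono : ∫ x, (Real.log (y₀ - β * x) - s * (x / (y₀ - β * x))
      - 2 * s ^ 2 * (x / (y₀ - β * x)) ^ 2) ∂μ ≤ ∫ x, Real.log (y₀ - (β + s) * x) ∂μ := by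
    refine integral_mono_ae hint3 hint4 ?_
    filter_upwards [h.supp] with x hx
    exact hlogbd x hx
  have hint0 : Integrable (fun x => Real.log (y₀ - β * x)) μ := by
    have := (hint3.add (hint1.const_mul s)).add (hint2.const_mul (2 * s ^ 2))
    refine this.congr (Filter.Eventually.of_forall fun x => ?_)
    simp only [Pi.add_apply]
    ring
  have i1 : Integrable (fun x => Real.log (y₀ - β * x) - s * (x / (y₀ - β * x))) μ :=
    hint0.sub (hint1.const_mul s)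
  have i2 : Integrable (fun x => 2 * s ^ 2 * (x / (y₀ - β * x)) ^ 2) μ := hint2.const_mul _
  have i3 : Integrable (fun x => s * (x / (y₀ - β * x))) μ := hint1.const_mul s
  have e1 : ∫ x, (Real.log (y₀ - β * x) - s * (x / (y₀ - β * x))
      - 2 * s ^ 2 * (x / (y₀ - β * x)) ^ 2) ∂μ
      = ∫ x, Real.log (y₀ - β * x) ∂μ - s * (∫ x, x / (y₀ - β * x) ∂μ)
        - 2 * s ^ 2 * ∫ x, (x / (y₀ - β * x)) ^ 2 ∂μ := by
    rw [integral_sub i1 i2, integral_sub hint0 i3, integral_const_mul, integral_const_mul]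
  rw [e1] at hmono
  unfold psi
  nlinarith

end Vale.Agent.Lib.P166
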