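import Vale.Agent.Lib.P166.Trunc3

/-!
The limit of the pressure under the truncated second moment condition.
-/

open scoped BigOperators Topology BoundedContinuousFunction
open MeasureTheory Matrix Filter

namespace Vale.Agent.Lib.P166

section finite

variable {N : ℕ}

/-- The mass of the partition function outside the energy window. -/
theorem mean_Z_tail (hN : N ≠ 0) (lam : Fin N → ℝ) {β s y₁ y₂ e w : ℝ} (hs : 0 ≤ s)
    (h₁ : ∀ i, 0 < y₁ - (β + s) * lam i) (h₂ : ∀ i, 0 < y₂ - (β - s) * lam i) :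
    ∫ U, partitionFn β lam U ∂(haarO N) ≤ ∫ U, Ztr β lam e w U ∂(haarO N)
      + Real.exp (N * (psiN lam (β + s) y₁ - (s / 2) * (e + w)))
      + Real.exp (N * (psiN lam (β - s) y₂ + (s / 2) * (e - w))) := by
  obtain ⟨T₁, hT₁⟩ : ∃ T₁, T₁ = Real.exp (N * (psiN lam (β + s) y₁ - (s / 2) * (e + w))) := ⟨_, rfl⟩
  obtain ⟨T₂, hT₂⟩ : ∃ T₂, T₂ = Real.exp (N * (psiN lam (β - s) y₂ + (s / 2) * (e - w))) := ⟨_, rfl⟩
  rw [← hT₁, ← hT₂]
  have hterm : ∀ σ : Fin N → Bool,
      Integrable (fun U : OG N => Real.exp ((β / 2) * (spin σ ⬝ᵥ (couplings lam U *ᵥ spin σ)))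
        * (1 - win e w ((spin σ ⬝ᵥ (couplings lam U *ᵥ spin σ)) / N))) (haarO N) := by
    intro σ
    have hc : Continuous fun U : OG N => Real.exp ((β / 2) * (spin σ ⬝ᵥ (couplings lam U *ᵥ spin σ))) :=
      Real.continuous_exp.comp (continuous_const.mul (continuous_energy lam _))
    refine Integrable.mono' (integrable_OG hc) ?_ (Filter.Eventually.of_forall fun U => ?_)
    · refine (hc.measurable.mul (measurable_const.sub ?_)).aestronglyMeasurable
      exact (measurable_win e w).comp ((continuous_energy lam _).div_const _).measurable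
    · rw [Real.norm_eq_abs, abs_of_nonneg (mul_nonneg (Real.exp_pos _).le (by linarith [win_le_one e w ((spin σ ⬝ᵥ (couplings lam U *ᵥ spin σ)) / N)]))]
      exact mul_le_of_le_one_right (Real.exp_pos _).le (by linarith [win_nonneg e w ((spin σ ⬝ᵥ (couplings lam U *ᵥ spin σ)) / N)])
  have hσ : ∀ σ : Fin N → Bool, ∫ U, Real.exp ((β / 2) * (spin σ ⬝ᵥ (couplings lam U *ᵥ spin σ)))
        * (1 - win e w ((spin σ ⬝ᵥ (couplings lam U *ᵥ spin σ)) / N)) ∂(haarO N) ≤ T₁ + T₂ := by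
    intro σ
    have hc : ∀ t : ℝ, Continuous fun U : OG N => Real.exp ((t / 2) * (spin σ ⬝ᵥ (couplings lam U *ᵥ spin σ))) :=
      fun t => Real.continuous_exp.comp (continuous_const.mul (continuous_energy lam _))
    have hmono := integral_mono (hterm σ)
      (((integrable_OG (hc (β + s))).mul_const (Real.exp (- (N * ((s / 2) * (e + w)))))).add
        ((integrable_OG (hc (β - s))).mul_const (Real.exp (N * ((s / 2) * (e - w))))))
      (fun U => tail_bound hN β e (w := w) hs (spin σ ⬝ᵥ (couplings lam U *ᵥ spin σ)))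
    refine hmono.trans ?_
    have i1 := (integrable_OG (hc (β + s))).mul_const (Real.exp (- (N * ((s / 2) * (e + w)))))
    have i2 := (integrable_OG (hc (β - s))).mul_const (Real.exp (N * ((s / 2) * (e - w))))
    rw [integral_add' i1 i2, integral_mul_const, integral_mul_const]
    have m1 := moment_upper hN lam h₁ (nsq_spin σ)
    have m2 := moment_upper hN lam h₂ (nsq_spin σ)
    have e1 : T₁ = Real.exp (N * psiN lam (β + s) y₁) * Real.exp (- (N * ((s / 2) * (e + w)))) := by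
      rw [hT₁, ← Real.exp_add]
      congr 1
      ring
    have e2 : T₂ = Real.exp (N * psiN lam (β - s) y₂) * Real.exp (N * ((s / 2) * (e - w))) := by
      rw [hT₂, ← Real.exp_add]
      congr 1
      ring
    rw [e1, e2]
    exact add_le_add (mul_le_mul_of_nonneg_right m1 (Real.exp_pos _).le)
      (mul_le_mul_of_nonneg_right m2 (Real.exp_pos _).le)
  have hdiff : ∀ U : OG N, partitionFn β lam U - Ztr β lam e w U
      = (1 / 2 ^ N) * ∑ σ : Fin N → Bool, Real.exp ((β / 2) * (spin σ ⬝ᵥ (couplings lam U *ᵥ spin σ)))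
        * (1 - win e w ((spin σ ⬝ᵥ (couplings lam U *ᵥ spin σ)) / N)) := by
    intro U
    unfold partitionFn Ztr
    rw [← mul_sub, ← Finset.sum_sub_distrib]
    congr 1
    refine Finset.sum_congr rfl fun σ _ => ?_
    ring
  have h3 : ∫ U, (partitionFn β lam U - Ztr β lam e w U) ∂(haarO N) ≤ T₁ + T₂ := by
    simp only [hdiff]
    rw [integral_const_mul, integral_finsetSum _ fun σ _ => hterm σ]
    calc _ ≤ (1 / 2 ^ N) * ∑ _σ : Fin N → Bool, (T₁ + T₂) :=
          mul_le_mul_of_nonneg_left (Finset.sum_le_sum fun σ _ => hσ σ) (by positivity)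
      _ = _ := by
          simp
          field_simp
  rw [integral_sub (integrable_OG (continuous_partitionFn β lam)) (integrable_Ztr β lam e w)] at h3
  linarith

/-- The lower bound for the mean of the pressure from the probability of a lower bound on `Z`. -/
theorem mean_pressure_ge' {β : ℝ} (hN : 2 ≤ N) {lam : Fin N → ℝ} {C : ℝ} (hC : ∀ i, |lam i| ≤ C)
    {E p : ℝ} (hE : 0 < E) (hp : 0 < p) (hL : p ≤ (haarO N).real {U | E ≤ partitionFn β lam U}) :
    (1 / (N : ℝ)) * Real.log E - Real.sqrt ((Real.pi ^ 2 * β ^ 2 * C ^ 2 / ((N : ℝ) - 1)) / p)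
      ≤ ∫ U, pressure β lam U ∂(haarO N) := by
  have hN1 : (1:ℝ) < N := by exact_mod_cast hN
  have hNpos : (0:ℝ) < N := by linarith
  have hcp := continuous_pressure β lam
  have hL' : p ≤ (haarO N).real {U | (1 / (N : ℝ)) * Real.log E ≤ pressure β lam U} := by
    refine hL.trans (measureReal_mono ?_ (measure_ne_top _ _))
    intro U hU
    have hU' : E ≤ partitionFn β lam U := hU
    change (1 / (N : ℝ)) * Real.log E ≤ (1 / (N:ℝ)) * Real.log (partitionFn β lam U)
    exact mul_le_mul_of_nonneg_left (Real.log_le_log hE hU') (by positivity)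
  have hml := mean_lower (μ := haarO N) hcp.measurable
    (integrable_OG ((hcp.sub continuous_const).pow 2)) hp hL'
  have hvar := variance_bound hN β hC
  have h5 : Real.sqrt ((∫ U, (pressure β lam U - ∫ V, pressure β lam V ∂(haarO N)) ^ 2 ∂(haarO N)) / p)
      ≤ Real.sqrt ((Real.pi ^ 2 * β ^ 2 * C ^ 2 / ((N : ℝ) - 1)) / p) :=
    Real.sqrt_le_sqrt (div_le_div_of_nonneg_right hvar hp.le)
  linarith

/-- The combination of the two moments of the truncated partition function. -/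
theorem trunc_finite {β : ℝ} (hN : 2 ≤ N) {lam : Fin N → ℝ} {C : ℝ} (hC : ∀ i, |lam i| ≤ C)
    {e w c₀ K X : ℝ} (hc₀ : 0 < c₀) (hK : 0 < K) (hX : 0 < X)
    (hT : (c₀ / 2) * X ≤ ∫ U, Ztr β lam e w U ∂(haarO N))
    (h2 : ∫ U, Ztr β lam e w U ^ 2 ∂(haarO N) ≤ K * X ^ 2) :
    (1 / (N : ℝ)) * Real.log ((c₀ / 4) * X)
        - Real.sqrt ((Real.pi ^ 2 * β ^ 2 * C ^ 2 / ((N : ℝ) - 1)) / (c₀ ^ 2 / (16 * K)))
      ≤ ∫ U, pressure β lam U ∂(haarO N) := by
  have hc2 : 0 < c₀ ^ 2 / (16 * K) := by positivity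
  refine mean_pressure_ge' hN hC (by positivity) hc2 ?_
  obtain ⟨T, hT'⟩ : ∃ T, T = ∫ U, Ztr β lam e w U ∂(haarO N) := ⟨_, rfl⟩
  rw [← hT'] at hT
  have hT0 : 0 < T := lt_of_lt_of_le (by positivity) hT
  have hK' : 0 < 4 * K / c₀ ^ 2 := by positivity
  have hpz := paley_zygmund (μ := haarO N) (Z := Ztr β lam e w) (measurable_Ztr β lam e w)
    (Ztr_nonneg β lam e w) (integrable_Ztr β lam e w) (integrable_Ztr_sq β lam e w) hK'
    (by rw [← hT']; exact hT0)
    (by
      rw [← hT']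
      refine h2.trans ?_
      have h3 : ((c₀ / 2) * X) ^ 2 ≤ T ^ 2 := pow_le_pow_left₀ (by positivity) hT 2
      have h4 : 4 * K / c₀ ^ 2 * T ^ 2 ≥ 4 * K / c₀ ^ 2 * ((c₀ / 2) * X) ^ 2 :=
        mul_le_mul_of_nonneg_left h3 hK'.le
      have e1 : 4 * K / c₀ ^ 2 * ((c₀ / 2) * X) ^ 2 = K * X ^ 2 := by
        field_simp
        ring
      linarith)
  rw [← hT'] at hpz
  have e2 : 1 / (4 * (4 * K / c₀ ^ 2)) = c₀ ^ 2 / (16 * K) := by
    field_simp
    ring
  rw [e2] at hpz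
  refine hpz.trans (measureReal_mono ?_ (measure_ne_top _ _))
  intro U hU
  have hU' : (1 / 2) * T ≤ Ztr β lam e w U := hU
  change (c₀ / 4) * X ≤ partitionFn β lam U
  have h5 := Ztr_le β lam e w U
  have h6 : (c₀ / 4) * X ≤ (1 / 2) * T := by
    have : (c₀ / 4) * X = (1 / 2) * ((c₀ / 2) * X) := by ring
    rw [this]
    linarith
  linarith

end finite

variable {μ : Measure ℝ} {a b : ℝ} {lam : ∀ N, Fin N → ℝ}

/-- The mass outside the energy window is exponentially smaller. -/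
theorem first_trunc (h : Spec μ a b lam) {β y₀ w : ℝ} (hβ : 0 < β) (hy₀ : β * a < y₀) (hw : 0 < w) :
    ∃ η > 0, ∀ᶠ N : ℕ in atTop, ∫ U, partitionFn β (lam N) U ∂(haarO N)
      ≤ ∫ U, Ztr β (lam N) (∫ x, x / (y₀ - β * x) ∂μ) w U ∂(haarO N)
        + 2 * Real.exp (N * (psi μ β y₀ - η)) := by
  obtain ⟨Q, hQ, s₀, hs₀, htilt⟩ := psi_tilt h hβ.le hy₀
  obtain ⟨e, he⟩ : ∃ e, e = ∫ x, x / (y₀ - β * x) ∂μ := ⟨_, rfl⟩
  rw [← he] at htilt ⊢
  obtain ⟨g, hg⟩ : ∃ g, g = y₀ - β * a := ⟨_, rfl⟩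
  have hg0 : 0 < g := by
    rw [hg]
    linarith
  -- the small tilt
  obtain ⟨s, hs⟩ : ∃ s, s = min (min s₀ β) (min (w / (4 * (Q + 1))) (g / (2 * (|a| + 1)))) := ⟨_, rfl⟩
  have hs0 : 0 < s := by
    rw [hs]
    exact lt_min (lt_min hs₀ hβ) (lt_min (by positivity) (by positivity))
  have hs1 : s ≤ s₀ := by
    rw [hs]
    exact (min_le_left _ _).trans (min_le_left _ _)
  have hs2 : s ≤ β := by
    rw [hs]
    exact (min_le_left _ _).trans (min_le_right _ _)
  have hs3 : s ≤ w / (4 * (Q + 1)) := by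
    rw [hs]
    exact (min_le_right _ _).trans (min_le_left _ _)
  have hs4 : s ≤ g / (2 * (|a| + 1)) := by
    rw [hs]
    exact (min_le_right _ _).trans (min_le_right _ _)
  have hsQ : s * Q ≤ w / 4 := by
    rw [le_div_iff₀ (by positivity)] at hs3
    nlinarith
  have hsa : s * |a| ≤ g / 2 := by
    rw [le_div_iff₀ (by positivity)] at hs4
    nlinarith [abs_nonneg a]
  have hplus : (β + s) * a < y₀ := by
    have := le_abs_self a
    have h1 : s * a ≤ s * |a| := mul_le_mul_of_nonneg_left this hs0.le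
    rw [hg] at hsa
    nlinarith
  have hminus : (β - s) * a < y₀ := by
    have := neg_abs_le a
    have h1 : s * (-a) ≤ s * |a| := mul_le_mul_of_nonneg_left (by linarith) hs0.le
    rw [hg] at hsa
    nlinarith
  have ht1 := htilt s (by rw [abs_of_pos hs0]; exact hs1)
  have ht2 := htilt (-s) (by rw [abs_neg, abs_of_pos hs0]; exact hs1)
  rw [← sub_eq_add_neg] at ht2
  obtain ⟨ε, hε⟩ : ∃ ε, ε = s * w / 16 := ⟨_, rfl⟩
  have hε0 : 0 < ε := by
    rw [hε]
    positivity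
  obtain ⟨η₁, hη₁, hev₁⟩ := psi_conv h (by positivity : 0 ≤ β + s) hplus hε0
  obtain ⟨η₂, hη₂, hev₂⟩ := psi_conv h (by linarith : 0 ≤ β - s) hminus hε0
  obtain ⟨e₁, he₁, m₁, hm₁, M₁, hevm₁⟩ := margin h (by positivity : 0 ≤ β + s) hplus
  obtain ⟨e₂, he₂, m₂, hm₂, M₂, hevm₂⟩ := margin h (by linarith : 0 ≤ β - s) hminus
  refine ⟨s * w / 8, by positivity, ?_⟩
  filter_upwards [hev₁, hev₂, hevm₁, hevm₂, eventually_gt_atTop 0] with N h1 h2 h3 h4 hNpos
  have hN0 : (0:ℝ) < N := by exact_mod_cast hNpos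
  have a1 := h1 (β + s) y₀ (by simpa using hη₁) (by simpa using hη₁)
  have a2 := h2 (β - s) y₀ (by simpa using hη₂) (by simpa using hη₂)
  have a3 := h3 (β + s) y₀ (by simpa using he₁.le) (by simpa using he₁.le)
  have a4 := h4 (β - s) y₀ (by simpa using he₂.le) (by simpa using he₂.le)
  have htail := mean_Z_tail hNpos.ne' (lam N) (e := e) (w := w) hs0.le (y₁ := y₀) (y₂ := y₀)
    (fun i => hm₁.trans_le (a3 i).1) (fun i => hm₂.trans_le (a4 i).1)
  refine htail.trans ?_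
  have b1 := (abs_lt.1 a1).2
  have b2 := (abs_lt.1 a2).2
  have e1 : s ^ 2 * Q = s * (s * Q) := by ring
  have e2 : s * (s * Q) ≤ s * (w / 4) := mul_le_mul_of_nonneg_left hsQ hs0.le
  have c1 : psiN (lam N) (β + s) y₀ - (s / 2) * (e + w) ≤ psi μ β y₀ - s * w / 8 := by
    have e3 : s / 2 * e = (s / 2) * e := rfl
    rw [hε] at b1
    nlinarith
  have c2 : psiN (lam N) (β - s) y₀ + (s / 2) * (e - w) ≤ psi μ β y₀ - s * w / 8 := by
    have e4 : (-s) ^ 2 * Q = s ^ 2 * Q := by ring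
    rw [e4] at ht2
    rw [hε] at b2
    nlinarith
  have c3 := Real.exp_le_exp.2 (mul_le_mul_of_nonneg_left c1 hN0.le)
  have c4 := Real.exp_le_exp.2 (mul_le_mul_of_nonneg_left c2 hN0.le)
  linarith

/-- The limit of the mean of the pressure. -/
theorem mean_pressure_limit (h : Spec μ a b lam) {β y₀ κ : ℝ} (hβ : 0 < β) (hy₀ : β * a < y₀)
    (hsad : ∫ x, 1 / (y₀ - β * x) ∂μ = 1)
    (H2 : β ^ 2 * ∫ x, (x - κ) ^ 2 / (y₀ - β * x) ^ 2 ∂μ < 1)
    (HT : ∀ R ∈ Set.Ioc (0 : ℝ) 1, ∃ τ y₁ y₂, 0 ≤ τ ∧ τ * (1 + R) * a < y₁ ∧ τ * (1 - R) * a < y₂ ∧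
      psi μ (τ * (1 + R)) y₁ + psi μ (τ * (1 - R)) y₂ - (τ - β) * (∫ x, x / (y₀ - β * x) ∂μ)
        - 2 * psi μ β y₀ < Ifun R) :
    Tendsto (fun N : ℕ => ∫ U, pressure β (lam N) U ∂(haarO N)) atTop (𝓝 (psi μ β y₀)) := by
  refine tendsto_order.2 ⟨fun A hA => ?_, fun A hA => ?_⟩
  · -- lower bound
    obtain ⟨ε, hε⟩ : ∃ ε, ε = (psi μ β y₀ - A) / 4 := ⟨_, rfl⟩
    have hε0 : 0 < ε := by
      rw [hε]
      linarith
    obtain ⟨e₁, he₁, K, hK, w, hw, hsm⟩ := second_moment_T h hβ hy₀ H2 HT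
    have hsm' := hsm w hw le_rfl
    obtain ⟨η, hη, hfirst⟩ := first_trunc h hβ hy₀ hw
    obtain ⟨ε', hε'⟩ : ∃ ε', ε' = min ε (η / 2) := ⟨_, rfl⟩
    have hε'0 : 0 < ε' := by
      rw [hε']
      exact lt_min hε0 (by positivity)
    obtain ⟨η₀, hη₀, hev₀⟩ := psi_conv h hβ.le hy₀ hε'0
    obtain ⟨e₀, he₀, m, hm, M, hevm⟩ := margin h hβ.le hy₀
    obtain ⟨e', he'⟩ : ∃ e', e' = min (min e₀ e₁) η₀ := ⟨_, rfl⟩
    have he'0 : 0 < e' := by
      rw [he']
      exact lt_min (lt_min he₀ he₁) hη₀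
    have hsaddle := saddle_near h hβ.le hy₀ hsad he'0
    obtain ⟨c₀, hc₀, N₀, hlow⟩ := mean_Z_lower hm
    obtain ⟨C, hC⟩ : ∃ C, C = |a| + |b| + 1 := ⟨_, rfl⟩
    -- the error terms
    have hsmall : ∀ᶠ N : ℕ in atTop, Real.exp (- (N * (η / 2))) ≤ c₀ / 4 := by
      have h1 : Tendsto (fun N : ℕ => Real.exp (- (N * (η / 2)))) atTop (𝓝 0) := by
        refine Real.tendsto_exp_atBot.comp (tendsto_neg_atTop_atBot.comp ?_)
        exact tendsto_natCast_atTop_atTop.atTop_mul_const (by positivity)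
      exact h1.eventually (ge_mem_nhds (by positivity))
    have herr1 : ∀ᶠ N : ℕ in atTop, - ε < (1 / (N : ℝ)) * Real.log (c₀ / 4) := by
      have h1 : Tendsto (fun N : ℕ => (1 / (N : ℝ)) * Real.log (c₀ / 4)) atTop (𝓝 0) := by
        have := (tendsto_one_div_atTop_nhds_zero_nat (𝕜 := ℝ)).mul_const (Real.log (c₀ / 4))
        simpa using this
      exact h1.eventually (lt_mem_nhds (by linarith))
    have herr2 : ∀ᶠ N : ℕ in atTop, Real.sqrt ((Real.pi ^ 2 * β ^ 2 * C ^ 2 / ((N : ℝ) - 1)) / (c₀ ^ 2 / (16 * K))) < ε := by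
      have h1 : Tendsto (fun N : ℕ => (N : ℝ) - 1) atTop atTop :=
        tendsto_atTop_add_const_right _ _ tendsto_natCast_atTop_atTop
      have h2 : Tendsto (fun N : ℕ => (Real.pi ^ 2 * β ^ 2 * C ^ 2 / ((N : ℝ) - 1)) / (c₀ ^ 2 / (16 * K))) atTop (𝓝 0) := by
        have := (tendsto_const_nhds (x := Real.pi ^ 2 * β ^ 2 * C ^ 2)).div_atTop h1
        simpa using this.div_const (c₀ ^ 2 / (16 * K))
      have h3 : Tendsto (fun N : ℕ => Real.sqrt ((Real.pi ^ 2 * β ^ 2 * C ^ 2 / ((N : ℝ) - 1)) / (c₀ ^ 2 / (16 * K)))) atTop (𝓝 0) := by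
        have := Real.continuous_sqrt.tendsto 0 |>.comp h2
        simpa [Function.comp_def] using this
      exact h3.eventually (gt_mem_nhds hε0)
    filter_upwards [hsm', hfirst, hev₀, hevm, hsaddle, hsmall, herr1, herr2, h.edge 1 one_pos,
      eventually_ge_atTop N₀, eventually_ge_atTop 2] with N h1 h2 h3 h4 h5 h6 h7 h8 h9 h10 h11
    have hN0 : (0:ℝ) < N := by
      have : 0 < N := by omega
      exact_mod_cast this
    obtain ⟨y, hy, hys⟩ := h5
    have hy1 : |y - y₀| ≤ e₀ := hy.le.trans (by rw [he']; exact (min_le_left _ _).trans (min_le_left _ _))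
    have hy2 : |y - y₀| < e₁ := hy.trans_le (by rw [he']; exact (min_le_left _ _).trans (min_le_right _ _))
    have hy3 : |y - y₀| < η₀ := hy.trans_le (by rw [he']; exact min_le_right _ _)
    have hD := h4 β y (by simpa using he₀.le) hy1
    have hZlow := hlow N h10 (lam N) β y (fun i => (hD i).1) hys
    have hZ2 := h1 y hy2
    have hpsi := h3 β y (by simpa using hη₀) hy3
    have hpsi1 := (abs_lt.1 hpsi).1
    have hε'1 : ε' ≤ ε := by
      rw [hε']
      exact min_le_left _ _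
    have hε'2 : ε' ≤ η / 2 := by
      rw [hε']
      exact min_le_right _ _
    obtain ⟨X, hX⟩ : ∃ X, X = Real.exp (N * psiN (lam N) β y) := ⟨_, rfl⟩
    rw [← hX] at hZlow hZ2
    have hX0 : 0 < X := by
      rw [hX]
      exact Real.exp_pos _
    have hexp : Real.exp (N * (psi μ β y₀ - η)) ≤ Real.exp (- (N * (η / 2))) * X := by
      rw [hX, ← Real.exp_add]
      apply Real.exp_le_exp.2
      have : psi μ β y₀ - η ≤ psiN (lam N) β y - η / 2 := by linarith
      have := mul_le_mul_of_nonneg_left this hN0.le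
      linarith
    have hT : (c₀ / 2) * X ≤ ∫ U, Ztr β (lam N) (∫ x, x / (y₀ - β * x) ∂μ) w U ∂(haarO N) := by
      have h12 : Real.exp (N * (psi μ β y₀ - η)) ≤ (c₀ / 4) * X :=
        hexp.trans (mul_le_mul_of_nonneg_right h6 hX0.le)
      nlinarith
    have hCN : ∀ i, |lam N i| ≤ C := by
      intro i
      obtain ⟨h13, h14⟩ := h9 i
      rw [hC, abs_le]
      have := neg_abs_le b
      have := le_abs_self a
      have := abs_nonneg a
      have := abs_nonneg b
      constructor <;> linarith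
    have hfin := trunc_finite h11 hCN hc₀ hK hX0 hT hZ2
    have hlog : (1 / (N : ℝ)) * Real.log ((c₀ / 4) * X)
        = (1 / (N : ℝ)) * Real.log (c₀ / 4) + psiN (lam N) β y := by
      rw [Real.log_mul (by positivity) hX0.ne', hX, Real.log_exp]
      field_simp
    rw [hlog] at hfin
    rw [hε] at h7 h8 hε'1
    linarith
  · -- upper bound
    obtain ⟨ε, hε⟩ : ∃ ε, ε = A - psi μ β y₀ := ⟨_, rfl⟩
    have hε0 : 0 < ε := by
      rw [hε]
      linarith
    obtain ⟨η₀, hη₀, hev₀⟩ := psi_conv h hβ.le hy₀ hε0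
    obtain ⟨e₀, he₀, m, hm, M, hevm⟩ := margin h hβ.le hy₀
    filter_upwards [hev₀, hevm, eventually_gt_atTop 0] with N h1 h2 hN
    have hD := h2 β y₀ (by simpa using he₀.le) (by simpa using he₀.le)
    have h3 := mean_pressure_le hN.ne' (lam N) (fun i => hm.trans_le (hD i).1)
    have h4 := (abs_lt.1 (h1 β y₀ (by simpa using hη₀) (by simpa using hη₀))).2
    rw [hε] at h4
    linarith

end Vale.Agent.Lib.P166
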