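import Vale.Agent.Lib.P166.Schur

/-!
The mean pressure depends asymptotically on the spectrum only through its limit and its edges.
-/

open scoped BigOperators Topology BoundedContinuousFunction
open MeasureTheory Matrix Filter

namespace Vale.Agent.Lib.P166

variable {μ : Measure ℝ} {a b : ℝ} {lam lam' : ∀ N, Fin N → ℝ}

/-- Continuous functions are integrable. -/
lemma Spec.integrable_cont (h : Spec μ a b lam) {g : ℝ → ℝ} (hg : Continuous g) : Integrable g μ := by
  obtain ⟨C, hC⟩ := isCompact_Icc.exists_bound_of_continuousOn (s := Set.Icc b a) hg.continuousOn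
  exact integrable_supp h (C := C) hg.measurable (fun x hx => hC x hx)

/-- Convergence of the averages of any continuous function. -/
theorem Spec.avg_tendsto (h : Spec μ a b lam) {g : ℝ → ℝ} (hg : Continuous g) :
    Tendsto (fun N : ℕ => (1 / (N : ℝ)) * ∑ i, g (lam N i)) atTop (𝓝 (∫ x, g x ∂μ)) := by
  have hab := h.le
  obtain ⟨cl, hcl⟩ : ∃ cl : ℝ → ℝ, cl = fun x => max (b - 1) (min x (a + 1)) := ⟨_, rfl⟩
  have hcl1 : ∀ x, cl x ∈ Set.Icc (b - 1) (a + 1) := by
    intro x
    rw [hcl]
    constructor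
    · exact le_max_left _ _
    · exact max_le (by linarith) (min_le_right _ _)
  have hclc : Continuous cl := by
    rw [hcl]
    fun_prop
  have hcl2 : ∀ x, x ∈ Set.Icc (b - 1) (a + 1) → cl x = x := by
    intro x hx
    rw [hcl]
    simp only
    rw [min_eq_left hx.2, max_eq_right hx.1]
  obtain ⟨B, hB⟩ := isCompact_Icc.exists_bound_of_continuousOn (s := Set.Icc (b - 1) (a + 1)) hg.continuousOn
  have hgc : Continuous (fun x => g (cl x)) := hg.comp hclc
  obtain ⟨f, hf⟩ : ∃ f : ℝ →ᵇ ℝ, ∀ x, f x = g (cl x) :=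
    ⟨BoundedContinuousFunction.ofNormedAddCommGroup _ hgc B (fun x => hB _ (hcl1 x)), fun _ => rfl⟩
  have hint : ∫ x, f x ∂μ = ∫ x, g x ∂μ := by
    refine integral_congr_ae ?_
    filter_upwards [h.supp] with x hx
    rw [hf, hcl2 x ⟨by linarith [hx.1], by linarith [hx.2]⟩]
  have hlim := h.weak f
  rw [hint] at hlim
  refine hlim.congr' ?_
  filter_upwards [h.edge 1 one_pos] with N hN
  congr 1
  refine Finset.sum_congr rfl fun i _ => ?_
  rw [hf, hcl2 _ (hN i)]

/-- Positive integrals from positive measure. -/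
lemma pos_integral_of_pos (h : Spec μ a b lam) {φ : ℝ → ℝ} (hφ : Continuous φ) (h0 : ∀ x, 0 ≤ φ x) {S : Set ℝ}
    (hS : 0 < μ S) (hSφ : ∀ x ∈ S, 0 < φ x) : 0 < ∫ x, φ x ∂μ := by
  rw [integral_pos_iff_support_of_nonneg h0 (h.integrable_cont hφ)]
  refine hS.trans_le (measure_mono fun x hx => ?_)
  exact (hSφ x hx).ne'

lemma kernel_right {τ ε u : ℝ} (hτ : 0 ≤ τ) (hε : 0 < ε) :
    0 ≤ max (τ - (1 + ε) * u) 0 - max (τ - u) 0 + ε * u ∧
      (τ < (1 + ε) * u → 0 < max (τ - (1 + ε) * u) 0 - max (τ - u) 0 + ε * u) := by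
  rcases le_or_gt ((1 + ε) * u) τ with h1 | h1
  · have h2 : u ≤ τ := by
      rcases le_or_gt u 0 with h3 | h3
      · linarith
      · nlinarith
    rw [max_eq_left (by linarith), max_eq_left (by linarith)]
    constructor
    · nlinarith
    · intro h3
      linarith
  · have hu : 0 < u := by
      by_contra hcon
      push Not at hcon
      nlinarith
    rw [max_eq_right (by linarith)]
    have : 0 < - max (τ - u) 0 + ε * u := by
      rcases le_or_gt u τ with h3 | h3
      · rw [max_eq_left (by linarith)]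
        nlinarith
      · rw [max_eq_right (by linarith)]
        nlinarith
    constructor
    · linarith
    · intro _
      linarith

lemma kernel_left {τ ε u : ℝ} (hτ : τ ≤ 0) (hε : 0 < ε) :
    0 ≤ max (τ - (1 + ε) * u) 0 - max (τ - u) 0 ∧
      ((1 + ε) * u < τ → 0 < max (τ - (1 + ε) * u) 0 - max (τ - u) 0) := by
  rcases le_or_gt τ ((1 + ε) * u) with h1 | h1
  · have h2 : τ ≤ u := by
      rcases le_or_gt u 0 with h3 | h3
      · nlinarith
      · linarith
    rw [max_eq_right (by linarith), max_eq_right (by linarith)]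
    constructor
    · linarith
    · intro h3
      linarith
  · have hu : u < 0 := by
      by_contra hcon
      push Not at hcon
      nlinarith
    rw [max_eq_left (by linarith)]
    have : 0 < τ - (1 + ε) * u - max (τ - u) 0 := by
      rcases le_or_gt u τ with h3 | h3
      · rw [max_eq_left (by linarith)]
        nlinarith
      · rw [max_eq_right (by linarith)]
        linarith
    constructor
    · linarith
    · intro _
      linarith

lemma max_sub_lip (t s x : ℝ) : max (t - x) 0 ≤ max (s - x) 0 + |t - s| := by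
  have h1 := le_abs_self (t - s)
  have h2 := abs_nonneg (t - s)
  refine max_le ?_ (by have := le_max_right (s - x) 0; linarith)
  have := le_max_left (s - x) 0
  linarith

/-- Strict domination of the stretched measure, in the limit. -/
theorem stretch_gap (h : Spec μ a b lam) (ha : ∀ e > 0, 0 < μ (Set.Ioi (a - e)))
    (hb : ∀ e > 0, 0 < μ (Set.Iio (b + e))) (hab : b < a) {ε : ℝ} (hε : 0 < ε) :
    ∃ e₀ > 0, ∀ t ∈ Set.Icc (b - e₀) (a + e₀),
      0 < (∫ x, max (t - (∫ y, y ∂μ) - (1 + ε) * (x - ∫ y, y ∂μ)) 0 ∂μ) - ∫ x, max (t - x) 0 ∂μ := by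
  have hprob := h.prob
  obtain ⟨m, hm⟩ : ∃ m, m = ∫ y, y ∂μ := ⟨_, rfl⟩
  rw [← hm]
  have hid := h.integrable_id
  have hma : m < a := by
    have hp := pos_integral_of_pos h (φ := fun x => max (a - x) 0) (by fun_prop) (fun x => le_max_right _ _)
      (hb ((a - b) / 2) (by linarith)) (fun x hx => by
        have : x < b + (a - b) / 2 := hx
        exact lt_of_lt_of_le (by linarith) (le_max_left _ _))
    have e : ∫ x, max (a - x) 0 ∂μ = ∫ x, (a - x) ∂μ := by
      refine integral_congr_ae ?_
      filter_upwards [h.supp] with x hx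
      exact max_eq_left (by linarith [hx.2])
    rw [e, integral_sub (integrable_const _) hid, ← hm] at hp
    simp at hp
    linarith
  have hbm : b < m := by
    have hp := pos_integral_of_pos h (φ := fun x => max (x - b) 0) (by fun_prop) (fun x => le_max_right _ _)
      (ha ((a - b) / 2) (by linarith)) (fun x hx => by
        have : a - (a - b) / 2 < x := hx
        exact lt_of_lt_of_le (by linarith) (le_max_left _ _))
    have e : ∫ x, max (x - b) 0 ∂μ = ∫ x, (x - b) ∂μ := by
      refine integral_congr_ae ?_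
      filter_upwards [h.supp] with x hx
      exact max_eq_left (by linarith [hx.1])
    rw [e, integral_sub hid (integrable_const _), ← hm] at hp
    simp at hp
    linarith
  obtain ⟨e₀, he₀⟩ : ∃ e₀, e₀ = (ε / 2) * min (m - b) (a - m) := ⟨_, rfl⟩
  have hmin : 0 < min (m - b) (a - m) := lt_min (by linarith) (by linarith)
  have he1 : e₀ ≤ (ε / 2) * (m - b) := by
    rw [he₀]
    exact mul_le_mul_of_nonneg_left (min_le_left _ _) (by positivity)
  have he2 : e₀ ≤ (ε / 2) * (a - m) := by
    rw [he₀]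
    exact mul_le_mul_of_nonneg_left (min_le_right _ _) (by positivity)
  refine ⟨e₀, by rw [he₀]; positivity, fun t ht => ?_⟩
  have i1 : Integrable (fun x => max (t - m - (1 + ε) * (x - m)) 0) μ := h.integrable_cont (by fun_prop)
  have i2 : Integrable (fun x => max (t - x) 0) μ := h.integrable_cont (by fun_prop)
  rcases le_total m t with hmt | hmt
  · -- above the mean
    have hτ : 0 ≤ t - m := by linarith
    have hφ := pos_integral_of_pos h
      (φ := fun x => max (t - m - (1 + ε) * (x - m)) 0 - max (t - m - (x - m)) 0 + ε * (x - m))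
      (by fun_prop) (fun x => (kernel_right hτ hε).1)
      (S := Set.Ioi (a - (a - (m + (t - m) / (1 + ε))))) (ha _ ?_) (fun x hx => ?_)
    · have e : ∫ x, (max (t - m - (1 + ε) * (x - m)) 0 - max (t - m - (x - m)) 0 + ε * (x - m)) ∂μ
          = (∫ x, max (t - m - (1 + ε) * (x - m)) 0 ∂μ) - ∫ x, max (t - x) 0 ∂μ := by
        have e1 : ∀ x, t - m - (x - m) = t - x := fun x => by ring
        simp only [e1]
        have i3 : Integrable (fun x : ℝ => ε * (x - m)) μ := (hid.sub (integrable_const _)).const_mul _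
        have i4 : Integrable (fun x => max (t - m - (1 + ε) * (x - m)) 0 - max (t - x) 0) μ := i1.sub i2
        rw [integral_add i4 i3, integral_sub i1 i2, integral_const_mul,
          integral_sub hid (integrable_const _), ← hm]
        simp
      rw [← e]
      exact hφ
    · have h1 : t - m ≤ a - m + e₀ := by linarith [ht.2]
      have h2 : t - m < (1 + ε) * (a - m) := by nlinarith
      have h3 : (t - m) / (1 + ε) < a - m := by
        rw [div_lt_iff₀ (by linarith)]
        linarith
      linarith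
    · have h0 : (m + (t - m) / (1 + ε)) < x := by
        have : a - (a - (m + (t - m) / (1 + ε))) < x := hx
        linarith
      refine (kernel_right hτ hε).2 ?_
      have h1 : (t - m) / (1 + ε) < x - m := by linarith
      rw [div_lt_iff₀ (by linarith)] at h1
      linarith
  · -- below the mean
    have hτ : t - m ≤ 0 := by linarith
    have hφ := pos_integral_of_pos h
      (φ := fun x => max (t - m - (1 + ε) * (x - m)) 0 - max (t - m - (x - m)) 0)
      (by fun_prop) (fun x => (kernel_left hτ hε).1)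
      (S := Set.Iio (b + (m + (t - m) / (1 + ε) - b))) (hb _ ?_) (fun x hx => ?_)
    · have e : ∫ x, (max (t - m - (1 + ε) * (x - m)) 0 - max (t - m - (x - m)) 0) ∂μ
          = (∫ x, max (t - m - (1 + ε) * (x - m)) 0 ∂μ) - ∫ x, max (t - x) 0 ∂μ := by
        have e1 : ∀ x, t - m - (x - m) = t - x := fun x => by ring
        simp only [e1]
        rw [integral_sub i1 i2]
      rw [← e]
      exact hφ
    · have h1 : b - m - e₀ ≤ t - m := by linarith [ht.1]
      have h2 : (1 + ε) * (b - m) < t - m := by nlinarith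
      have h3 : b - m < (t - m) / (1 + ε) := by
        rw [lt_div_iff₀ (by linarith)]
        linarith
      linarith
    · have h0 : x < (m + (t - m) / (1 + ε)) := by
        have : x < b + (m + (t - m) / (1 + ε) - b) := hx
        linarith
      refine (kernel_left hτ hε).2 ?_
      have h1 : x - m < (t - m) / (1 + ε) := by linarith
      rw [lt_div_iff₀ (by linarith)] at h1
      linarith

/-- The limit of the mean of the spectrum. -/
lemma Spec.mean_tendsto (h : Spec μ a b lam) :
    Tendsto (fun N : ℕ => (1 / (N : ℝ)) * ∑ i, lam N i) atTop (𝓝 (∫ x, x ∂μ)) :=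
  h.avg_tendsto continuous_id

/-- The stretched spectrum. -/
noncomputable def stretch {N : ℕ} (l l' : Fin N → ℝ) (ε : ℝ) (i : Fin N) : ℝ :=
  (1 / (N : ℝ)) * ∑ j, l j + (1 + ε) * (l' i - (1 / (N : ℝ)) * ∑ j, l' j)

lemma sum_stretch {N : ℕ} (hN : N ≠ 0) (l l' : Fin N → ℝ) (ε : ℝ) :
    ∑ i, stretch l l' ε i = ∑ i, l i := by
  have hN' : (N : ℝ) ≠ 0 := Nat.cast_ne_zero.2 hN
  unfold stretch
  rw [Finset.sum_add_distrib, ← Finset.mul_sum (a := 1 + ε), Finset.sum_sub_distrib]
  simp only [Finset.sum_const, Finset.card_univ, Fintype.card_fin, nsmul_eq_mul]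
  field_simp
  ring

/-- The stretched spectrum dominates eventually. -/
theorem stretch_dominates (h : Spec μ a b lam) (h' : Spec μ a b lam')
    (ha : ∀ e > 0, 0 < μ (Set.Ioi (a - e))) (hb : ∀ e > 0, 0 < μ (Set.Iio (b + e))) (hab : b < a)
    {ε : ℝ} (hε : 0 < ε) :
    ∀ᶠ N : ℕ in atTop, ∀ t, ∑ i, max (t - lam N i) 0 ≤ ∑ i, max (t - stretch (lam N) (lam' N) ε i) 0 := by
  have hprob := h.prob
  obtain ⟨m, hm⟩ : ∃ m, m = ∫ y, y ∂μ := ⟨_, rfl⟩
  obtain ⟨e₀, he₀, hgap⟩ := stretch_gap h ha hb hab hε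
  rw [← hm] at hgap
  obtain ⟨H, hH⟩ : ∃ H : ℝ → ℝ, H = fun t => (∫ x, max (t - m - (1 + ε) * (x - m)) 0 ∂μ) - ∫ x, max (t - x) 0 ∂μ :=
    ⟨_, rfl⟩
  have i1 : ∀ t, Integrable (fun x => max (t - m - (1 + ε) * (x - m)) 0) μ := fun t => h.integrable_cont (by fun_prop)
  have i2 : ∀ t, Integrable (fun x => max (t - x) 0) μ := fun t => h.integrable_cont (by fun_prop)
  have hHlip : ∀ t s, H t ≤ H s + 2 * |t - s| := by
    intro t s
    rw [hH]
    simp only
    have h1 : ∫ x, max (t - m - (1 + ε) * (x - m)) 0 ∂μ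
        ≤ ∫ x, (max (s - m - (1 + ε) * (x - m)) 0 + |t - s|) ∂μ := by
      refine integral_mono (i1 t) ((i1 s).add (integrable_const _)) fun x => ?_
      have := max_sub_lip t s (m + (1 + ε) * (x - m))
      have e1 : t - (m + (1 + ε) * (x - m)) = t - m - (1 + ε) * (x - m) := by ring
      have e2 : s - (m + (1 + ε) * (x - m)) = s - m - (1 + ε) * (x - m) := by ring
      rw [e1, e2] at this
      exact this
    have h2 : ∫ x, max (s - x) 0 ∂μ ≤ ∫ x, (max (t - x) 0 + |t - s|) ∂μ := by
      refine integral_mono (i2 s) ((i2 t).add (integrable_const _)) fun x => ?_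
      have := max_sub_lip s t x
      rwa [abs_sub_comm] at this
    rw [integral_add (i1 s) (integrable_const _)] at h1
    rw [integral_add (i2 t) (integrable_const _)] at h2
    simp only [integral_const, probReal_univ, smul_eq_mul, one_mul] at h1 h2
    linarith
  have hHc : Continuous H := by
    have : LipschitzWith 2 H := by
      refine LipschitzWith.of_dist_le_mul fun t s => ?_
      rw [Real.dist_eq, Real.dist_eq, abs_le]
      have h3 := hHlip t s
      have h4 := hHlip s t
      rw [abs_sub_comm s t] at h4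
      norm_num
      constructor <;> linarith
    exact this.continuous
  have hK : (Set.Icc (b - e₀) (a + e₀)).Nonempty := ⟨a, by constructor <;> linarith⟩
  obtain ⟨t₀, ht₀, hmin⟩ := isCompact_Icc.exists_isMinOn hK hHc.continuousOn
  obtain ⟨δ, hδ⟩ : ∃ δ, δ = H t₀ / 4 := ⟨_, rfl⟩
  have hδ0 : 0 < δ := by
    have := hgap t₀ ht₀
    rw [hδ, hH]
    simp only
    linarith
  have hlow : ∀ t ∈ Set.Icc (b - e₀) (a + e₀), 4 * δ ≤ H t := by
    intro t ht
    have := hmin ht
    simp only [Set.mem_ofPred_eq] at this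
    rw [hδ]
    linarith
  -- the finite net
  obtain ⟨T, hTs, hTf, hTc⟩ := isCompact_Icc.finite_cover_balls (s := Set.Icc (b - e₀) (a + e₀))
    (half_pos hδ0)
  -- convergence at the points of the net
  have hconv : ∀ s ∈ T, ∀ᶠ N : ℕ in atTop,
      3 * δ < (1 / (N : ℝ)) * ∑ i, max (s - m - (1 + ε) * (lam' N i - m)) 0
        - (1 / (N : ℝ)) * ∑ i, max (s - lam N i) 0 := by
    intro s hs
    have h1 := h'.avg_tendsto (g := fun x => max (s - m - (1 + ε) * (x - m)) 0) (by fun_prop)
    have h2 := h.avg_tendsto (g := fun x => max (s - x) 0) (by fun_prop)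
    have h3 := h1.sub h2
    have h4 : 3 * δ < H s := by
      have := hlow s (hTs hs)
      linarith
    rw [hH] at h4
    exact (tendsto_order.1 h3).1 _ h4
  have hconvT := (Filter.eventually_all_finite hTf).2 hconv
  -- convergence of the means
  have hm1 := h.mean_tendsto
  have hm2 := h'.mean_tendsto
  rw [← hm] at hm1 hm2
  have hmev1 := (Metric.tendsto_nhds.1 hm1) (δ / (2 * (2 + ε))) (by positivity)
  have hmev2 := (Metric.tendsto_nhds.1 hm2) (δ / (2 * (2 + ε))) (by positivity)
  filter_upwards [hconvT, hmev1, hmev2, h.edge e₀ he₀, eventually_gt_atTop 0] with N hN hN1 hN2 hE hNpos t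
  have hN0 : (0:ℝ) < N := Nat.cast_pos.2 hNpos
  have hNne : N ≠ 0 := hNpos.ne'
  rw [Real.dist_eq] at hN1 hN2
  obtain ⟨mN, hmN⟩ : ∃ mN, mN = (1 / (N : ℝ)) * ∑ i, lam N i := ⟨_, rfl⟩
  obtain ⟨mN', hmN'⟩ : ∃ mN', mN' = (1 / (N : ℝ)) * ∑ i, lam' N i := ⟨_, rfl⟩
  rw [← hmN] at hN1
  rw [← hmN'] at hN2
  have hstr : ∀ i, stretch (lam N) (lam' N) ε i = mN + (1 + ε) * (lam' N i - mN') := by
    intro i
    rw [hmN, hmN']
    rfl
  rcases lt_or_ge t (b - e₀) with hlt | hge
  · -- below the spectrum
    have h0 : ∀ i, max (t - lam N i) 0 = 0 := fun i => max_eq_right (by linarith [(hE i).1])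
    simp only [h0, Finset.sum_const_zero]
    exact Finset.sum_nonneg fun i _ => le_max_right _ _
  rcases lt_or_ge (a + e₀) t with hlt2 | hle
  · -- above the spectrum
    have h0 : ∀ i, max (t - lam N i) 0 = t - lam N i := fun i => max_eq_left (by linarith [(hE i).2])
    simp only [h0]
    have h1 : ∑ i, (t - stretch (lam N) (lam' N) ε i) ≤ ∑ i, max (t - stretch (lam N) (lam' N) ε i) 0 :=
      Finset.sum_le_sum fun i _ => le_max_left _ _
    rw [Finset.sum_sub_distrib, sum_stretch hNne] at h1
    rw [Finset.sum_sub_distrib]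
    exact h1
  -- in the compact interval
  have htK : t ∈ Set.Icc (b - e₀) (a + e₀) := ⟨hge, hle⟩
  have hcov := hTc htK
  simp only [Set.mem_iUnion, Metric.mem_ball, exists_prop] at hcov
  obtain ⟨s, hsT, hts⟩ := hcov
  rw [Real.dist_eq] at hts
  have hval := hN s hsT
  -- Lipschitz comparison
  have hA : ∀ i, max (s - lam N i) 0 ≥ max (t - lam N i) 0 - |t - s| := fun i => by
    have := max_sub_lip t s (lam N i)
    linarith
  have hB : ∀ i, max (t - mN - (1 + ε) * (lam' N i - mN')) 0
      ≥ max (s - m - (1 + ε) * (lam' N i - m)) 0 - (|t - s| + |mN - m| + (1 + ε) * |mN' - m|) := by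
    intro i
    have h1 := max_sub_lip (s - m - (1 + ε) * (lam' N i - m) + lam' N i)
      (t - mN - (1 + ε) * (lam' N i - mN') + lam' N i) (lam' N i)
    have e1 : s - m - (1 + ε) * (lam' N i - m) + lam' N i - lam' N i = s - m - (1 + ε) * (lam' N i - m) := by ring
    have e2 : t - mN - (1 + ε) * (lam' N i - mN') + lam' N i - lam' N i = t - mN - (1 + ε) * (lam' N i - mN') := by ring
    rw [e1, e2] at h1
    have e3 : s - m - (1 + ε) * (lam' N i - m) + lam' N i - (t - mN - (1 + ε) * (lam' N i - mN') + lam' N i)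
        = (s - t) + (mN - m) - (1 + ε) * (mN' - m) := by ring
    rw [e3] at h1
    have h2 : |(s - t) + (mN - m) - (1 + ε) * (mN' - m)| ≤ |t - s| + |mN - m| + (1 + ε) * |mN' - m| := by
      have h3 := abs_sub ((s - t) + (mN - m)) ((1 + ε) * (mN' - m))
      have h4 := abs_add_le (s - t) (mN - m)
      rw [abs_mul, abs_of_pos (by linarith : 0 < 1 + ε), abs_sub_comm s t] at *
      linarith
    linarith
  have hsumA : (1 / (N:ℝ)) * ∑ i, max (t - lam N i) 0 ≤ (1 / (N:ℝ)) * ∑ i, max (s - lam N i) 0 + |t - s| := by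
    have h1 : ∑ i, max (t - lam N i) 0 ≤ ∑ i, (max (s - lam N i) 0 + |t - s|) :=
      Finset.sum_le_sum fun i _ => by linarith [hA i]
    rw [Finset.sum_add_distrib] at h1
    simp only [Finset.sum_const, Finset.card_univ, Fintype.card_fin, nsmul_eq_mul] at h1
    have h2 := mul_le_mul_of_nonneg_left h1 (by positivity : 0 ≤ 1 / (N:ℝ))
    refine h2.trans (le_of_eq ?_)
    field_simp
  obtain ⟨D, hD⟩ : ∃ D, D = |t - s| + |mN - m| + (1 + ε) * |mN' - m| := ⟨_, rfl⟩
  have hsumB : (1 / (N:ℝ)) * ∑ i, max (s - m - (1 + ε) * (lam' N i - m)) 0 - D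
      ≤ (1 / (N:ℝ)) * ∑ i, max (t - stretch (lam N) (lam' N) ε i) 0 := by
    have h1 : ∑ i, (max (s - m - (1 + ε) * (lam' N i - m)) 0 - D) ≤ ∑ i, max (t - stretch (lam N) (lam' N) ε i) 0 := by
      refine Finset.sum_le_sum fun i _ => ?_
      rw [hstr]
      have e : t - (mN + (1 + ε) * (lam' N i - mN')) = t - mN - (1 + ε) * (lam' N i - mN') := by ring
      rw [e, hD]
      linarith [hB i]
    rw [Finset.sum_sub_distrib] at h1
    simp only [Finset.sum_const, Finset.card_univ, Fintype.card_fin, nsmul_eq_mul] at h1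
    have h2 := mul_le_mul_of_nonneg_left h1 (by positivity : 0 ≤ 1 / (N:ℝ))
    refine le_trans (le_of_eq ?_) h2
    field_simp
  have hDbd : D ≤ δ := by
    rw [hD]
    obtain ⟨c, hc⟩ : ∃ c, c = δ / (2 * (2 + ε)) := ⟨_, rfl⟩
    rw [← hc] at hN1 hN2
    have e : (2 + ε) * c = δ / 2 := by
      rw [hc]
      field_simp
    have h4 : (1 + ε) * |mN' - m| ≤ (1 + ε) * c := mul_le_mul_of_nonneg_left hN2.le (by linarith)
    have h5 := hts.le
    nlinarith
  have hfin : (1 / (N:ℝ)) * ∑ i, max (t - lam N i) 0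
      ≤ (1 / (N:ℝ)) * ∑ i, max (t - stretch (lam N) (lam' N) ε i) 0 := by
    have := hts.le
    linarith
  exact (mul_le_mul_iff_of_pos_left (by positivity)).1 hfin

/-- One sided comparison of the mean pressures of two spectra with the same limit and edges. -/
theorem mean_le_of_same (h : Spec μ a b lam) (h' : Spec μ a b lam')
    (ha : ∀ e > 0, 0 < μ (Set.Ioi (a - e))) (hb : ∀ e > 0, 0 < μ (Set.Iio (b + e))) (β : ℝ)
    {η : ℝ} (hη : 0 < η) :
    ∀ᶠ N : ℕ in atTop, ∫ U, pressure β (lam N) U ∂(haarO N) ≤ ∫ U, pressure β (lam' N) U ∂(haarO N) + η := by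
  have hβ1 : 0 < |β| + 1 := by positivity
  have hcomp : ∀ {N : ℕ} {l l' : Fin N → ℝ} {δ : ℝ}, N ≠ 0 → (∀ i, |l i - l' i| ≤ δ) →
      ∫ U, pressure β l U ∂(haarO N) ≤ ∫ U, pressure β l' U ∂(haarO N) + |β| * δ / 2 := by
    intro N l l' δ hN hδ
    have hc1 := continuous_pressure β l
    have hc2 := continuous_pressure β l'
    have i2 : Integrable (fun U : OG N => pressure β l' U) (haarO N) := integrable_OG hc2
    have i3 : Integrable (fun U : OG N => pressure β l' U + |β| * δ / 2) (haarO N) :=
      i2.add (integrable_const (|β| * δ / 2))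
    have h1 : ∫ U, pressure β l U ∂(haarO N) ≤ ∫ U, (pressure β l' U + |β| * δ / 2) ∂(haarO N) :=
      integral_mono (integrable_OG hc1) i3 (fun U => pressure_lipschitz hN β hδ U)
    rw [integral_add i2 (integrable_const _)] at h1
    simpa using h1
  rcases h.le.lt_or_eq with hab | hab
  · obtain ⟨C, hC⟩ : ∃ C, C = |a| + |b| + 1 := ⟨_, rfl⟩
    have hC0 : 0 < C := by
      rw [hC]
      positivity
    obtain ⟨ε, hε⟩ : ∃ ε, ε = η / ((|β| + 1) * (2 * C + 1)) := ⟨_, rfl⟩
    have hε0 : 0 < ε := by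
      rw [hε]
      positivity
    have hm := (h.mean_tendsto).sub (h'.mean_tendsto)
    rw [sub_self] at hm
    have hmev := (Metric.tendsto_nhds.1 hm) (η / (|β| + 1)) (by positivity)
    filter_upwards [stretch_dominates h h' ha hb hab hε0, hmev, h'.bound, eventually_gt_atTop 0] with N h1 h2 h3 hNpos
    have hN : N ≠ 0 := hNpos.ne'
    have hN0 : (0:ℝ) < N := Nat.cast_pos.2 hNpos
    have hS := mean_schur hN β (sum_stretch hN (lam N) (lam' N) ε).symm h1
    rw [← hC] at h3
    obtain ⟨mN, hmN⟩ : ∃ mN, mN = (1 / (N : ℝ)) * ∑ i, lam N i := ⟨_, rfl⟩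
    obtain ⟨mN', hmN'⟩ : ∃ mN', mN' = (1 / (N : ℝ)) * ∑ i, lam' N i := ⟨_, rfl⟩
    rw [Real.dist_eq, sub_zero, ← hmN, ← hmN'] at h2
    have hmC : |mN'| ≤ C := by
      rw [hmN', abs_mul, abs_of_pos (by positivity : 0 < 1 / (N:ℝ))]
      have h4 : |∑ i, lam' N i| ≤ ∑ i : Fin N, C :=
        (Finset.abs_sum_le_sum_abs _ _).trans (Finset.sum_le_sum fun i _ => h3 i)
      simp only [Finset.sum_const, Finset.card_univ, Fintype.card_fin, nsmul_eq_mul] at h4
      have h5 := mul_le_mul_of_nonneg_left h4 (by positivity : 0 ≤ 1 / (N:ℝ))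
      refine h5.trans (le_of_eq ?_)
      field_simp
    have hd : ∀ i, |stretch (lam N) (lam' N) ε i - lam' N i| ≤ |mN - mN'| + ε * (2 * C) := by
      intro i
      have e : stretch (lam N) (lam' N) ε i - lam' N i = (mN - mN') + ε * (lam' N i - mN') := by
        unfold stretch
        rw [← hmN, ← hmN']
        ring
      rw [e]
      refine (abs_add_le _ _).trans ?_
      have h4 : |ε * (lam' N i - mN')| ≤ ε * (2 * C) := by
        rw [abs_mul, abs_of_pos hε0]
        refine mul_le_mul_of_nonneg_left ?_ hε0.le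
        have h5 := abs_sub (lam' N i) mN'
        have h6 := h3 i
        linarith
      linarith
    have hL := hcomp hN hd
    have hbd : |β| * (|mN - mN'| + ε * (2 * C)) / 2 ≤ η := by
      have h4 : |β| * |mN - mN'| ≤ η := by
        rw [lt_div_iff₀ hβ1] at h2
        nlinarith [abs_nonneg (mN - mN'), abs_nonneg β]
      have h5 : |β| * (ε * (2 * C)) ≤ η := by
        have e : ε * ((|β| + 1) * (2 * C + 1)) = η := by
          rw [hε]
          field_simp
        have h6 : 0 ≤ |β| := abs_nonneg β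
        have h7 : |β| * (ε * (2 * C)) ≤ ε * ((|β| + 1) * (2 * C + 1)) := by
          have : 0 ≤ ε * (|β| + 2 * C + 1) := by positivity
          nlinarith
        linarith
      linarith
    linarith
  · -- the degenerate case
    obtain ⟨e, he⟩ : ∃ e, e = η / (|β| + 1) := ⟨_, rfl⟩
    have he0 : 0 < e := by
      rw [he]
      positivity
    filter_upwards [h.edge e he0, h'.edge e he0, eventually_gt_atTop 0] with N h1 h2 hNpos
    have hd : ∀ i, |lam N i - lam' N i| ≤ 2 * e := by
      intro i
      obtain ⟨h3, h4⟩ := h1 i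
      obtain ⟨h5, h6⟩ := h2 i
      rw [hab] at h3 h5
      rw [abs_le]
      constructor <;> linarith
    have hL := hcomp hNpos.ne' hd
    have hbd : |β| * (2 * e) / 2 ≤ η := by
      have e1 : e * (|β| + 1) = η := by
        rw [he]
        field_simp
      nlinarith [abs_nonneg β]
    linarith

/-- The mean pressure depends asymptotically only on the limit of the spectrum. -/
theorem mean_universal (h : Spec μ a b lam) (h' : Spec μ a b lam')
    (ha : ∀ e > 0, 0 < μ (Set.Ioi (a - e))) (hb : ∀ e > 0, 0 < μ (Set.Iio (b + e))) (β : ℝ) :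
    Tendsto (fun N : ℕ => ∫ U, pressure β (lam N) U ∂(haarO N) - ∫ U, pressure β (lam' N) U ∂(haarO N))
      atTop (𝓝 0) := by
  refine tendsto_order.2 ⟨fun c hc => ?_, fun c hc => ?_⟩
  · filter_upwards [mean_le_of_same h' h ha hb β (η := -c / 2) (by linarith)] with N hN
    linarith
  · filter_upwards [mean_le_of_same h h' ha hb β (η := c / 2) (by linarith)] with N hN
    linarith

/-- The pressure is close in probability to a deterministic quantity depending only on the limit. -/
theorem prob_universal (h : Spec μ a b lam) (h' : Spec μ a b lam')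
    (ha : ∀ e > 0, 0 < μ (Set.Ioi (a - e))) (hb : ∀ e > 0, 0 < μ (Set.Iio (b + e))) (β : ℝ)
    {ε : ℝ} (hε : 0 < ε) :
    Tendsto (fun N : ℕ => (haarO N).real
      {U | ε ≤ |pressure β (lam N) U - ∫ V, pressure β (lam' N) V ∂(haarO N)|}) atTop (𝓝 0) := by
  have hv := (var_tendsto h β).div_const ((ε / 2) ^ 2)
  rw [zero_div] at hv
  refine squeeze_zero' (Eventually.of_forall fun N => measureReal_nonneg) ?_ hv
  have hu := mean_universal h h' ha hb β
  have hev := (Metric.tendsto_nhds.1 hu) (ε / 2) (half_pos hε)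
  filter_upwards [hev] with N hN
  rw [Real.dist_eq, sub_zero] at hN
  refine le_trans (measureReal_mono ?_ (measure_ne_top _ _)) (pressure_chebyshev β (lam N) (half_pos hε))
  intro U hU
  have hU' : ε ≤ |pressure β (lam N) U - ∫ V, pressure β (lam' N) V ∂(haarO N)| := hU
  change ε / 2 ≤ |pressure β (lam N) U - ∫ V, pressure β (lam N) V ∂(haarO N)|
  have h1 := abs_sub_le (pressure β (lam N) U) (∫ V, pressure β (lam N) V ∂(haarO N))
    (∫ V, pressure β (lam' N) V ∂(haarO N))
  linarith

end Vale.Agent.Lib.P166
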