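import Vale.Agent.Lib.P166.SignPerm

/-!
The variance of the pressure is of order `1 / N` for every spectrum and every temperature.
-/

open scoped BigOperators Nat
open MeasureTheory Matrix

namespace Vale.Agent.Lib.P166

variable {N : ℕ}

instance instSCM : SecondCountableTopology (Matrix (Fin N) (Fin N) ℝ) :=
  inferInstanceAs (SecondCountableTopology (Fin N → Fin N → ℝ))

instance instSC : SecondCountableTopology (OG N) :=
  TopologicalSpace.Subtype.secondCountableTopology _

/-- Summing continuous functions under the integral. -/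
lemma sum_sum_integral {ι κ : Type*} [Fintype ι] [Fintype κ] {F : ι → κ → OG N → ℝ}
    (hF : ∀ s π, Continuous (F s π)) :
    ∑ s, ∑ π, ∫ U, F s π U ∂(haarO N) = ∫ U, ∑ s, ∑ π, F s π U ∂(haarO N) := by
  rw [integral_finsetSum _ fun s _ => integrable_finsetSum _ fun π _ => integrable_OG (hF s π)]
  refine Finset.sum_congr rfl fun s _ => ?_
  rw [integral_finsetSum _ fun π _ => integrable_OG (hF s π)]

/-- The mean square increment of the pressure under left multiplication. -/
noncomputable def incr (β : ℝ) (lam : Fin N → ℝ) (W : OG N) : ℝ :=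
  ∫ U, (pressure β lam (W * U) - pressure β lam U) ^ 2 ∂(haarO N)

lemma continuous_incr (β : ℝ) (lam : Fin N → ℝ) : Continuous (incr β lam) := by
  have hjoint : Continuous (Function.uncurry fun (W U : OG N) =>
      (pressure β lam (W * U) - pressure β lam U) ^ 2) := by
    have hp := continuous_pressure β lam
    exact ((hp.comp (continuous_fst.mul continuous_snd)).sub (hp.comp continuous_snd)).pow 2
  have := continuous_parametric_integral_of_continuous (μ := haarO N) hjoint isCompact_univ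
  simp only [Measure.restrict_univ] at this
  exact this

lemma incr_nonneg (β : ℝ) (lam : Fin N → ℝ) (W : OG N) : 0 ≤ incr β lam W :=
  integral_nonneg fun _ => sq_nonneg _

/-- The averaged bound on the increment. -/
theorem avg_incr_le {C : ℝ} (hN : 2 ≤ N) (β : ℝ) {lam : Fin N → ℝ} (hC : ∀ i, |lam i| ≤ C) (W : OG N)
    (hdet : (W : Matrix (Fin N) (Fin N) ℝ).det = 1) :
    ∑ s : Fin N → Bool, ∑ π : Equiv.Perm (Fin N), incr β lam (sp s π * W * (sp s π)⁻¹)
      ≤ 2 ^ N * (N ! : ℝ) * (2 * Real.pi ^ 2 * β ^ 2 * C ^ 2 / ((N : ℝ) - 1)) := by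
  have hN1 : (1:ℝ) < N := by exact_mod_cast hN
  have hN0 : N ≠ 0 := by omega
  have hNN : (0:ℝ) < (N : ℝ) * (N - 1) := mul_pos (by linarith) (by linarith)
  obtain ⟨V, A, hp, hA⟩ := exists_path W hdet
  have h1 : ∀ s π, incr β lam (sp s π * W * (sp s π)⁻¹)
      ≤ ∫ U, gradForm β lam ((sp s π : Matrix (Fin N) (Fin N) ℝ) * A * (sp s π : Matrix (Fin N) (Fin N) ℝ).transpose) U ^ 2 ∂(haarO N) :=
    fun s π => path_bound (hp.conj (sp s π)) β lam
  refine (Finset.sum_le_sum fun s _ => Finset.sum_le_sum fun π _ => h1 s π).trans ?_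
  obtain ⟨F, hF⟩ : ∃ F : (Fin N → Bool) → Equiv.Perm (Fin N) → OG N → ℝ, ∀ s π U, F s π U
      = (∑ i, ∑ j, ((sp s π : Matrix (Fin N) (Fin N) ℝ) * A * (sp s π : Matrix (Fin N) (Fin N) ℝ).transpose) i j
          * mm β lam U i j) ^ 2 :=
    ⟨_, fun _ _ _ => rfl⟩
  have hcont : ∀ s π, Continuous (F s π) := by
    intro s π
    have : F s π = fun U => gradForm β lam ((sp s π : Matrix (Fin N) (Fin N) ℝ) * A * (sp s π : Matrix (Fin N) (Fin N) ℝ).transpose) U ^ 2 := by
      ext U
      rw [hF]
      rfl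
    rw [this]
    exact (continuous_gradForm β lam _).pow 2
  have e0 : ∀ s π, ∫ U, gradForm β lam ((sp s π : Matrix (Fin N) (Fin N) ℝ) * A * (sp s π : Matrix (Fin N) (Fin N) ℝ).transpose) U ^ 2 ∂(haarO N)
      = ∫ U, F s π U ∂(haarO N) := fun s π => by
    refine integral_congr_ae (Filter.Eventually.of_forall fun U => ?_)
    change _ = F s π U
    rw [hF]
    rfl
  simp only [e0]
  rw [sum_sum_integral hcont]
  obtain ⟨B, hB⟩ : ∃ B : ℝ, B = 2 ^ N * (N ! : ℝ) * (2 * Real.pi ^ 2 * β ^ 2 * C ^ 2 / ((N : ℝ) - 1)) := ⟨_, rfl⟩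
  rw [← hB]
  have h2 : ∀ U : OG N, ∑ s, ∑ π, F s π U ≤ B := by
    intro U
    have h3 := conj_avg hp.skew (mm β lam U) hN
    have h4 := hs_mm_le hN0 β hC U
    simp only [hF]
    refine h3.trans ?_
    rw [hB]
    refine mul_le_mul_of_nonneg_left ?_ (by positivity)
    have h5 : hs A / ((N : ℝ) * (N - 1)) ≤ Real.pi ^ 2 / ((N : ℝ) - 1) := by
      rw [div_le_div_iff₀ hNN (by linarith)]
      have : hs A * ((N : ℝ) - 1) ≤ (N * Real.pi ^ 2) * ((N : ℝ) - 1) :=
        mul_le_mul_of_nonneg_right hA (by linarith)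
      nlinarith
    have h6 : 0 ≤ hs A / ((N : ℝ) * (N - 1)) := div_nonneg (hs_nonneg A) hNN.le
    have h7 : 0 ≤ ∑ i, ∑ j, mm β lam U i j ^ 2 :=
      Finset.sum_nonneg fun _ _ => Finset.sum_nonneg fun _ _ => sq_nonneg _
    have h8 : 0 ≤ Real.pi ^ 2 / ((N : ℝ) - 1) := div_nonneg (sq_nonneg _) (by linarith)
    calc 2 * (hs A / ((N : ℝ) * (N - 1))) * ∑ i, ∑ j, mm β lam U i j ^ 2
        ≤ 2 * (Real.pi ^ 2 / ((N : ℝ) - 1)) * (β ^ 2 * C ^ 2) := by
          apply mul_le_mul _ h4 h7 (by linarith)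
          linarith
      _ = _ := by ring
  have hint : Integrable (fun U : OG N => ∑ s, ∑ π, F s π U) (haarO N) :=
    integrable_OG (continuous_finsetSum _ fun s _ => continuous_finsetSum _ fun π _ => hcont s π)
  have := integral_mono hint (integrable_const _) h2
  simpa using this

/-- The reflection in the first coordinate. -/
noncomputable def refl0 (hN : N ≠ 0) : OG N :=
  sp (fun i => decide (i ≠ ⟨0, Nat.pos_of_ne_zero hN⟩)) 1

lemma refl0_val (hN : N ≠ 0) :
    (refl0 hN : Matrix (Fin N) (Fin N) ℝ)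
      = Matrix.diagonal (spin (fun i => decide (i ≠ ⟨0, Nat.pos_of_ne_zero hN⟩))) := by
  ext i j
  change spin _ i * (if (1 : Equiv.Perm (Fin N)) i = j then (1:ℝ) else 0) = _
  rw [Matrix.diagonal_apply]
  by_cases hij : i = j
  · subst hij
    simp
  · simp [hij]

lemma refl0_det (hN : N ≠ 0) : (refl0 hN : Matrix (Fin N) (Fin N) ℝ).det = -1 := by
  rw [refl0_val, Matrix.det_diagonal]
  have e : ∀ i : Fin N, spin (fun i => decide (i ≠ ⟨0, Nat.pos_of_ne_zero hN⟩)) i
      = if i = ⟨0, Nat.pos_of_ne_zero hN⟩ then -1 else 1 := by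
    intro i
    unfold spin
    by_cases h : i = ⟨0, Nat.pos_of_ne_zero hN⟩ <;> simp [h]
  simp only [e]
  rw [Finset.prod_ite_eq']
  simp

lemma pressure_refl0 (hN : N ≠ 0) (β : ℝ) (lam : Fin N → ℝ) (X : OG N) :
    pressure β lam (refl0 hN * X) = pressure β lam X := by
  have e : couplings lam (refl0 hN * X) = couplings lam X := by
    unfold couplings
    change ((refl0 hN : Matrix (Fin N) (Fin N) ℝ) * (X : Matrix (Fin N) (Fin N) ℝ)).transpose
      * Matrix.diagonal lam * ((refl0 hN : Matrix (Fin N) (Fin N) ℝ) * (X : Matrix (Fin N) (Fin N) ℝ)) = _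
    rw [refl0_val, Matrix.transpose_mul, Matrix.diagonal_transpose]
    have e1 : Matrix.diagonal (spin (fun i => decide (i ≠ ⟨0, Nat.pos_of_ne_zero hN⟩))) * Matrix.diagonal lam
        * Matrix.diagonal (spin (fun i => decide (i ≠ ⟨0, Nat.pos_of_ne_zero hN⟩))) = Matrix.diagonal lam := by
      rw [Matrix.diagonal_mul_diagonal, Matrix.diagonal_mul_diagonal]
      congr 1
      ext i
      have := spin_mul_self (fun i => decide (i ≠ ⟨0, Nat.pos_of_ne_zero hN⟩)) i
      calc _ = (spin (fun i => decide (i ≠ ⟨0, Nat.pos_of_ne_zero hN⟩)) i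
            * spin (fun i => decide (i ≠ ⟨0, Nat.pos_of_ne_zero hN⟩)) i) * lam i := by ring
        _ = _ := by rw [this, one_mul]
    calc _ = (X : Matrix (Fin N) (Fin N) ℝ).transpose * (Matrix.diagonal (spin (fun i => decide (i ≠ ⟨0, Nat.pos_of_ne_zero hN⟩))) * Matrix.diagonal lam
        * Matrix.diagonal (spin (fun i => decide (i ≠ ⟨0, Nat.pos_of_ne_zero hN⟩)))) * (X : Matrix (Fin N) (Fin N) ℝ) := by
          simp only [Matrix.mul_assoc]
      _ = _ := by rw [e1]
  unfold pressure partitionFn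
  rw [e]

lemma incr_refl0 (hN : N ≠ 0) (β : ℝ) (lam : Fin N → ℝ) (W : OG N) :
    incr β lam (refl0 hN * W) = incr β lam W := by
  unfold incr
  refine integral_congr_ae (Filter.Eventually.of_forall fun U => ?_)
  change (pressure β lam (refl0 hN * W * U) - pressure β lam U) ^ 2 = _
  rw [mul_assoc, pressure_refl0]

/-- The integral of a reflection-invariant function against the determinant vanishes. -/
lemma integral_det_zero (hN : N ≠ 0) {g : OG N → ℝ} (hg : ∀ W, g (refl0 hN * W) = g W) :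
    ∫ W, g W * (W : Matrix (Fin N) (Fin N) ℝ).det ∂(haarO N) = 0 := by
  have h1 := integral_mul_left_haar (fun W : OG N => g W * (W : Matrix (Fin N) (Fin N) ℝ).det) (refl0 hN)
  have h2 : ∀ W : OG N, g (refl0 hN * W) * ((refl0 hN * W : OG N) : Matrix (Fin N) (Fin N) ℝ).det
      = - (g W * (W : Matrix (Fin N) (Fin N) ℝ).det) := by
    intro W
    rw [hg]
    change g W * ((refl0 hN : Matrix (Fin N) (Fin N) ℝ) * (W : Matrix (Fin N) (Fin N) ℝ)).det = _
    rw [Matrix.det_mul, refl0_det]
    ring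
  simp only [h2] at h1
  rw [integral_neg] at h1
  linarith

lemma continuous_det_OG : Continuous fun W : OG N => (W : Matrix (Fin N) (Fin N) ℝ).det :=
  continuous_subtype_val.matrix_det

lemma det_OG (W : OG N) : (W : Matrix (Fin N) (Fin N) ℝ).det = 1 ∨ (W : Matrix (Fin N) (Fin N) ℝ).det = -1 := by
  have h := congrArg Matrix.det (OG_mul_tr W)
  rw [Matrix.det_mul, Matrix.det_transpose, Matrix.det_one] at h
  have : ((W : Matrix (Fin N) (Fin N) ℝ).det - 1) * ((W : Matrix (Fin N) (Fin N) ℝ).det + 1) = 0 := by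
    ring_nf
    nlinarith
  rcases mul_eq_zero.1 this with h1 | h1
  · left
    linarith
  · right
    linarith

/-- The mean increment equals twice the variance. -/
theorem integral_incr (β : ℝ) (lam : Fin N → ℝ) :
    ∫ W, incr β lam W ∂(haarO N)
      = 2 * ∫ U, (pressure β lam U - ∫ V, pressure β lam V ∂(haarO N)) ^ 2 ∂(haarO N) := by
  have hp := continuous_pressure β lam
  obtain ⟨m, hm⟩ : ∃ m, m = ∫ V, pressure β lam V ∂(haarO N) := ⟨_, rfl⟩
  obtain ⟨a, ha⟩ : ∃ a, a = ∫ V, pressure β lam V ^ 2 ∂(haarO N) := ⟨_, rfl⟩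
  rw [← hm]
  have hexp : ∀ c : ℝ, ∫ V, (pressure β lam V - c) ^ 2 ∂(haarO N) = a - 2 * c * m + c ^ 2 := by
    intro c
    have e : ∀ V : OG N, (pressure β lam V - c) ^ 2 = pressure β lam V ^ 2 - 2 * c * pressure β lam V + c ^ 2 :=
      fun V => by ring
    simp only [e]
    rw [integral_add, integral_sub, integral_const_mul, ← ha, ← hm]
    · simp
    · exact integrable_OG (hp.pow 2)
    · exact integrable_OG (continuous_const.mul hp)
    · exact integrable_OG ((hp.pow 2).sub (continuous_const.mul hp))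
    · exact integrable_const _
  rw [hexp m]
  unfold incr
  have hjoint : Continuous (Function.uncurry fun (W U : OG N) =>
      (pressure β lam (W * U) - pressure β lam U) ^ 2) :=
    ((hp.comp (continuous_fst.mul continuous_snd)).sub (hp.comp continuous_snd)).pow 2
  obtain ⟨M, hM⟩ : ∃ M, ∀ p : OG N × OG N, ‖Function.uncurry (fun (W U : OG N) =>
      (pressure β lam (W * U) - pressure β lam U) ^ 2) p‖ ≤ M :=
    (isCompact_univ.exists_bound_of_continuousOn hjoint.continuousOn).imp fun M hM p =>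
      hM p (Set.mem_univ p)
  have hint : Integrable (Function.uncurry fun (W U : OG N) =>
      (pressure β lam (W * U) - pressure β lam U) ^ 2) ((haarO N).prod (haarO N)) :=
    Integrable.of_bound hjoint.aestronglyMeasurable M (Filter.Eventually.of_forall hM)
  rw [integral_integral_swap hint]
  have h1 : ∀ U : OG N, ∫ W, (pressure β lam (W * U) - pressure β lam U) ^ 2 ∂(haarO N)
      = a - 2 * pressure β lam U * m + pressure β lam U ^ 2 := by
    intro U
    rw [← hexp]
    exact integral_mul_right_haar (fun V => (pressure β lam V - pressure β lam U) ^ 2) U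
  simp only [h1]
  have e2 : ∀ U : OG N, a - 2 * pressure β lam U * m + pressure β lam U ^ 2
      = a - (2 * m) * pressure β lam U + pressure β lam U ^ 2 := fun U => by ring
  simp only [e2]
  rw [integral_add, integral_sub, integral_const_mul, ← ha, ← hm]
  · simp
    ring
  · exact integrable_const _
  · exact integrable_OG (continuous_const.mul hp)
  · exact integrable_OG (continuous_const.sub (continuous_const.mul hp))
  · exact integrable_OG (hp.pow 2)

/-- The variance bound for the pressure. -/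
theorem variance_bound {C : ℝ} (hN : 2 ≤ N) (β : ℝ) {lam : Fin N → ℝ} (hC : ∀ i, |lam i| ≤ C) :
    ∫ U, (pressure β lam U - ∫ V, pressure β lam V ∂(haarO N)) ^ 2 ∂(haarO N)
      ≤ Real.pi ^ 2 * β ^ 2 * C ^ 2 / ((N : ℝ) - 1) := by
  have hN1 : (1:ℝ) < N := by exact_mod_cast hN
  have hN0 : N ≠ 0 := by omega
  have hI := continuous_incr β lam
  have hD := continuous_det_OG (N := N)
  obtain ⟨K, hK⟩ : ∃ K, K = 2 * Real.pi ^ 2 * β ^ 2 * C ^ 2 / ((N : ℝ) - 1) := ⟨_, rfl⟩
  obtain ⟨G, hG⟩ : ∃ G : ℝ, G = 2 ^ N * (N ! : ℝ) := ⟨_, rfl⟩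
  have hG0 : 0 < G := by
    rw [hG]
    positivity
  -- the weight
  have hT : ∫ W, incr β lam W * (1 + (W : Matrix (Fin N) (Fin N) ℝ).det) ∂(haarO N)
      = ∫ W, incr β lam W ∂(haarO N) := by
    have e : ∀ W : OG N, incr β lam W * (1 + (W : Matrix (Fin N) (Fin N) ℝ).det)
        = incr β lam W + incr β lam W * (W : Matrix (Fin N) (Fin N) ℝ).det := fun W => by ring
    simp only [e]
    have i1 : Integrable (fun W => incr β lam W) (haarO N) := integrable_OG hI
    have i2 : Integrable (fun W : OG N => incr β lam W * (W : Matrix (Fin N) (Fin N) ℝ).det) (haarO N) :=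
      integrable_OG (hI.mul hD)
    rw [integral_add i1 i2, integral_det_zero hN0 (incr_refl0 hN0 β lam), add_zero]
  have hT1 : ∫ W, (1 + (W : Matrix (Fin N) (Fin N) ℝ).det) ∂(haarO N) = 1 := by
    rw [integral_add (integrable_const _) (integrable_OG hD)]
    have := integral_det_zero hN0 (g := fun _ => (1:ℝ)) (fun _ => rfl)
    simp only [one_mul] at this
    rw [this]
    simp
  -- conjugation invariance
  have hconj : ∀ O : OG N, ∫ W, incr β lam (O * W * O⁻¹) * (1 + (W : Matrix (Fin N) (Fin N) ℝ).det) ∂(haarO N)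
      = ∫ W, incr β lam W * (1 + (W : Matrix (Fin N) (Fin N) ℝ).det) ∂(haarO N) := by
    intro O
    have h1 := integral_mul_left_haar (fun W : OG N => incr β lam W * (1 + (W : Matrix (Fin N) (Fin N) ℝ).det)) O
    have h2 := integral_mul_right_haar (fun W : OG N => incr β lam (O * W) * (1 + ((O * W : OG N) : Matrix (Fin N) (Fin N) ℝ).det)) O⁻¹
    rw [← h1, ← h2]
    refine integral_congr_ae (Filter.Eventually.of_forall fun W => ?_)
    have e1 : O * (W * O⁻¹) = O * W * O⁻¹ := by group
    have e2 : ((O * W * O⁻¹ : OG N) : Matrix (Fin N) (Fin N) ℝ).det = (W : Matrix (Fin N) (Fin N) ℝ).det := by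
      change ((O : Matrix (Fin N) (Fin N) ℝ) * (W : Matrix (Fin N) (Fin N) ℝ) * ((O⁻¹ : OG N) : Matrix (Fin N) (Fin N) ℝ)).det = _
      rw [coe_inv_OG, Matrix.det_mul, Matrix.det_mul, Matrix.det_transpose]
      have h3 := congrArg Matrix.det (OG_mul_tr O)
      rw [Matrix.det_mul, Matrix.det_transpose, Matrix.det_one] at h3
      calc _ = ((O : Matrix (Fin N) (Fin N) ℝ).det * (O : Matrix (Fin N) (Fin N) ℝ).det) * (W : Matrix (Fin N) (Fin N) ℝ).det := by ring
        _ = _ := by rw [h3, one_mul]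
    change _ = incr β lam (O * (W * O⁻¹)) * (1 + ((O * (W * O⁻¹) : OG N) : Matrix (Fin N) (Fin N) ℝ).det)
    rw [e1, e2]
  have hsp : ∀ (O : OG N), Continuous fun W : OG N => incr β lam (O * W * O⁻¹) := fun O =>
    hI.comp ((continuous_const.mul continuous_id).mul continuous_const)
  have hsum : G * ∫ W, incr β lam W ∂(haarO N)
      = ∫ W, (∑ s : Fin N → Bool, ∑ π : Equiv.Perm (Fin N), incr β lam (sp s π * W * (sp s π)⁻¹))
          * (1 + (W : Matrix (Fin N) (Fin N) ℝ).det) ∂(haarO N) := by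
    simp only [Finset.sum_mul]
    rw [← sum_sum_integral (F := fun s π W => incr β lam (sp s π * W * (sp s π)⁻¹) * (1 + (W : Matrix (Fin N) (Fin N) ℝ).det))
      (fun s π => (hsp _).mul (continuous_const.add hD))]
    simp only [hconj, hT]
    simp [hG, Fintype.card_perm]
    ring
  have hle : G * ∫ W, incr β lam W ∂(haarO N) ≤ G * K := by
    rw [hsum]
    have h1 : ∀ W : OG N, (∑ s : Fin N → Bool, ∑ π : Equiv.Perm (Fin N), incr β lam (sp s π * W * (sp s π)⁻¹))
          * (1 + (W : Matrix (Fin N) (Fin N) ℝ).det) ≤ (G * K) * (1 + (W : Matrix (Fin N) (Fin N) ℝ).det) := by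
      intro W
      rcases det_OG W with h | h
      · rw [h]
        refine mul_le_mul_of_nonneg_right ?_ (by norm_num)
        rw [hG, hK]
        exact avg_incr_le hN β hC W h
      · rw [h]
        simp
    have i3 : Integrable (fun W : OG N => (∑ s : Fin N → Bool, ∑ π : Equiv.Perm (Fin N), incr β lam (sp s π * W * (sp s π)⁻¹))
          * (1 + (W : Matrix (Fin N) (Fin N) ℝ).det)) (haarO N) :=
      integrable_OG ((continuous_finsetSum _ fun s _ => continuous_finsetSum _ fun π _ => hsp _).mul (continuous_const.add hD))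
    have i4 : Integrable (fun W : OG N => (G * K) * (1 + (W : Matrix (Fin N) (Fin N) ℝ).det)) (haarO N) :=
      integrable_OG (continuous_const.mul (continuous_const.add hD))
    have h2 := integral_mono i3 i4 h1
    rw [integral_const_mul, hT1, mul_one] at h2
    exact h2
  have h3 : ∫ W, incr β lam W ∂(haarO N) ≤ K := le_of_mul_le_mul_left hle hG0
  rw [integral_incr] at h3
  rw [hK] at h3
  have e : Real.pi ^ 2 * β ^ 2 * C ^ 2 / ((N : ℝ) - 1) = (2 * Real.pi ^ 2 * β ^ 2 * C ^ 2 / ((N : ℝ) - 1)) / 2 := by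
    ring
  rw [e]
  linarith

end Vale.Agent.Lib.P166
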